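import Crest.Agent.R124.Kad.Kap

/-!
# Row 78, task R78-Kap: Kaplansky density with constant 2.

PLAN.  Self-adjoint `y`, `‖y‖ ≤ 1`: put `z = cfc (fun t => t / (1 + √(1 - t²))) y`; it lies in the
von Neumann algebra (`cfc_mem`-type lemma for the closed star subalgebra, or: it commutes with
everything commuting with `y`), and `y = f z` with `f t = 2 t / (1 + t²)`.  Take `a = a⋆ ∈ A` with
`ρ a ≈ z` on the vectors `(1 + z²)⁻¹ ζ`, `z (1 + z²)⁻¹ ζ` (`R124.Kad.exists_sa_approx`, use `toAm` to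
encode a finite family), `b = 2 a (1 + a²)⁻¹ = cfc f a`, `‖b‖ ≤ 1`; with `x = ρ a`,
`f x - f z = 2 (1 + x²)⁻¹ (x - z) (1 + z²)⁻¹ + 2 (1 + x²)⁻¹ x (z - x) z (1 + z²)⁻¹`, and
`‖(1 + x²)⁻¹‖, ‖(1 + x²)⁻¹ x‖ ≤ 1`.  General `y`: scale and split into `ℜ y`, `ℑ y`.
-/

set_option autoImplicit false

open scoped ComplexStarModule

namespace Crest.Agent.R78

open R124.Kad

theorem kap_star_res {B : Type*} [CStarAlgebra B] {a r : B} (ha : IsSelfAdjoint a)
    (h1 : r * (a - Complex.I • 1) = 1) (h2 : (a - Complex.I • 1) * r = 1) :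
    (a + Complex.I • 1) * star r = 1 ∧ star r * (a + Complex.I • 1) = 1 := by
  have e : star (a - Complex.I • (1 : B)) = a + Complex.I • 1 := by
    simp [ha.star_eq]
  constructor
  · rw [← e, ← star_mul, h1, star_one]
  · rw [← e, ← star_mul, h2, star_one]

theorem kap_norm {B : Type*} [CStarAlgebra B] {a r : B} (ha : IsSelfAdjoint a)
    (h1 : r * (a - Complex.I • 1) = 1) (h2 : (a - Complex.I • 1) * r = 1) :
    ‖r + star r‖ ≤ 1 := by
  obtain ⟨-, h4⟩ := kap_star_res ha h1 h2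
  rcases subsingleton_or_nontrivial B with hB | hB
  · rw [Subsingleton.elim (r + star r) 0]; simp
  have e1 : r - star r = (2 * Complex.I) • (star r * r) := by
    calc r - star r = (star r * (a + Complex.I • 1)) * r - star r * ((a - Complex.I • 1) * r) := by
          rw [h4, h2, one_mul, mul_one]
      _ = _ := by
        simp only [mul_add, add_mul, sub_mul, mul_sub, mul_assoc, smul_mul_assoc, mul_smul_comm,
          one_mul, mul_one]
        module
  have e2 : star (1 + (2 * Complex.I) • r) * (1 + (2 * Complex.I) • r) = 1 := by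
    have : star (1 + (2 * Complex.I) • r) * (1 + (2 * Complex.I) • r) =
        1 + (2 * Complex.I) • (r - star r - (2 * Complex.I) • (star r * r)) := by
      simp only [star_add, star_one, star_smul, star_mul', Complex.star_def, Complex.conj_I,
        map_ofNat, mul_add, add_mul, smul_mul_assoc, mul_smul_comm, one_mul, mul_one]
      module
    rw [this, e1, sub_self, smul_zero, add_zero]
  have e3 : ‖1 + (2 * Complex.I) • r‖ ≤ 1 := by
    have := CStarRing.norm_star_mul_self (x := 1 + (2 * Complex.I) • r)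
    rw [e2, CStarRing.norm_one] at this
    nlinarith [norm_nonneg (1 + (2 * Complex.I) • r)]
  have e4 : (2 * Complex.I) • (r + star r) =
      (1 + (2 * Complex.I) • r) - star (1 + (2 * Complex.I) • r) := by
    simp only [star_add, star_one, star_smul, star_mul', Complex.star_def, Complex.conj_I,
      map_ofNat]
    module
  have e5 := norm_sub_le (1 + (2 * Complex.I) • r) (star (1 + (2 * Complex.I) • r))
  rw [← e4, norm_star, norm_smul] at e5
  simp only [norm_mul, Complex.norm_I, Complex.norm_ofNat] at e5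
  linarith

theorem kap_root {B : Type*} [CStarAlgebra B] {y : B} (hy : IsSelfAdjoint y) (hn : ‖y‖ ≤ 1) :
    ∃ z : B, IsSelfAdjoint z ∧ (∀ T, Commute y T → Commute z T) ∧ y * (z * z + 1) = z + z := by
  rcases subsingleton_or_nontrivial B with hB | hB
  · exact ⟨y, hy, fun _ h => h, Subsingleton.elim _ _⟩
  obtain ⟨g, hg⟩ : ∃ g : ℝ → ℝ, g = fun t : ℝ => t / (1 + √(1 - t ^ 2)) := ⟨_, rfl⟩
  have hc : Continuous g := hg ▸ continuous_id.div (by fun_prop) fun t => by positivity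
  refine ⟨cfc g y, cfc_predicate _ _, fun T h => h.cfc_real _, ?_⟩
  have e : y * (cfc g y * cfc g y + 1) = cfc (fun t : ℝ => t * (g t * g t + 1)) y := by
    rw [cfc_mul _ _ y, cfc_id' ℝ y, cfc_add y _ _, cfc_mul _ _ y, cfc_const_one ℝ y]
  rw [e, ← cfc_add y _ _]
  refine cfc_congr fun t ht => ?_
  simp only [hg]
  have h1 : |t| ≤ 1 := (spectrum.norm_le_norm_of_mem ht).trans hn
  have h2 : √(1 - t ^ 2) ^ 2 = 1 - t ^ 2 := Real.sq_sqrt (by nlinarith [abs_le.1 h1])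
  have h3 : 0 < 1 + √(1 - t ^ 2) := by positivity
  generalize √(1 - t ^ 2) = s at *
  field_simp
  linear_combination t * h2

variable {A : Type*} [CStarAlgebra A] {K : Type*} [NormedAddCommGroup K]
  [InnerProductSpace ℂ K] [CompleteSpace K]

theorem kap_one (ρ : A →⋆ₐ[ℂ] (K →L[ℂ] K)) {y : K →L[ℂ] K} (hy : y ∈ (comm ρ).commutant)
    (hys : IsSelfAdjoint y) (hn : ‖y‖ ≤ 1) (Z : Finset K) {ε : ℝ} (hε : 0 < ε) :
    ∃ a : A, IsSelfAdjoint a ∧ ‖a‖ ≤ 1 ∧ ∀ ζ ∈ Z, ‖ρ a ζ - y ζ‖ ≤ ε := by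
  classical
  obtain ⟨z, hz, hzc, hyz⟩ := kap_root hys hn
  have hzm : z ∈ (comm ρ).commutant := VonNeumannAlgebra.mem_commutant_iff.2 fun T hT =>
    (hzc T (VonNeumannAlgebra.mem_commutant_iff.1 hy T hT).symm).symm
  obtain ⟨r, hr1, hr2, -⟩ := exists_resolvent hz
  obtain ⟨hr3, hr4⟩ := kap_star_res hz hr1 hr2
  have ey : y = r + star r := by
    have hc : z * y = y * z := hzc y rfl
    have e1 : (z - Complex.I • 1) * y * (z + Complex.I • 1) = y * (z * z + 1) := by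
      simp only [mul_add, add_mul, sub_mul, smul_mul_assoc, mul_smul_comm, one_mul, mul_one, hc,
        mul_assoc, smul_sub, smul_smul, Complex.I_mul_I]
      module
    calc y = (r * (z - Complex.I • 1)) * y * ((z + Complex.I • 1) * star r) := by
          rw [hr1, hr3, one_mul, mul_one]
      _ = r * ((z - Complex.I • 1) * y * (z + Complex.I • 1)) * star r := by
          simp only [mul_assoc]
      _ = r * ((z + Complex.I • 1) * star r) + (r * (z - Complex.I • 1)) * star r := by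
          rw [e1, hyz]; noncomm_ring
      _ = _ := by rw [hr1, hr3, one_mul, mul_one]
  let Z' : Finset K := Z.image r ∪ Z.image (star r : K →L[ℂ] K)
  obtain ⟨a, ha, hd⟩ := exists_sa_approx ρ hzm hz
    (WithLp.toLp 2 fun i => (Z'.equivFin.symm i : K) : Am K Z'.card) (half_pos hε)
  have hd' : ∀ v ∈ Z', ‖z v - ρ a v‖ < ε / 2 := fun v hv => by
    simpa using hd (Z'.equivFin ⟨v, hv⟩)
  obtain ⟨s, hs1, hs2, hs3⟩ := exists_resolvent ha
  obtain ⟨-, hs5⟩ := kap_star_res ha hs1 hs2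
  refine ⟨s + star s, IsSelfAdjoint.add_star_self s, kap_norm ha hs1 hs2, fun ζ hζ => ?_⟩
  have hs4 : ‖ρ s‖ ≤ 1 := (NonUnitalStarAlgHom.norm_apply_le ρ s).trans hs3
  have hs6 : ‖ρ (star s)‖ ≤ 1 := by rwa [map_star, norm_star]
  have e1 : ρ s - r = ρ s * (z - ρ a) * r := by
    have := congrArg ρ hs1
    rw [map_mul, map_sub, map_smul, map_one] at this
    calc ρ s - r = ρ s * ((z - Complex.I • 1) * r) - (ρ s * (ρ a - Complex.I • 1)) * r := by
          rw [hr2, this, mul_one, one_mul]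
      _ = _ := by noncomm_ring
  have e2 : ρ (star s) - star r = ρ (star s) * (z - ρ a) * star r := by
    have := congrArg ρ hs5
    rw [map_mul, map_add, map_smul, map_one] at this
    calc ρ (star s) - star r = ρ (star s) * ((z + Complex.I • 1) * star r) -
          (ρ (star s) * (ρ a + Complex.I • 1)) * star r := by
          rw [hr3, this, mul_one, one_mul]
      _ = _ := by noncomm_ring
  have b1 : ‖(ρ s - r) ζ‖ ≤ ε / 2 := by
    rw [e1]
    exact ((ρ s).le_opNorm _).trans ((mul_le_of_le_one_left (norm_nonneg _) hs4).trans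
      (hd' _ (Finset.mem_union_left _ (Finset.mem_image_of_mem _ hζ))).le)
  have b2 : ‖(ρ (star s) - star r) ζ‖ ≤ ε / 2 := by
    rw [e2]
    exact ((ρ (star s)).le_opNorm _).trans ((mul_le_of_le_one_left (norm_nonneg _) hs6).trans
      (hd' _ (Finset.mem_union_right _ (Finset.mem_image_of_mem _ hζ))).le)
  have e3 : ρ (s + star s) ζ - y ζ = (ρ s - r) ζ + (ρ (star s) - star r) ζ := by
    rw [ey, map_add]
    change ρ s ζ + ρ (star s) ζ - (r ζ + star r ζ) = ρ s ζ - r ζ + (ρ (star s) ζ - star r ζ)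
    abel
  rw [e3]
  exact (norm_add_le _ _).trans (by linarith)

theorem kap_sa (ρ : A →⋆ₐ[ℂ] (K →L[ℂ] K)) {y : K →L[ℂ] K} (hy : y ∈ (comm ρ).commutant)
    (hys : IsSelfAdjoint y) (Z : Finset K) {ε : ℝ} (hε : 0 < ε) :
    ∃ a : A, IsSelfAdjoint a ∧ ‖a‖ ≤ ‖y‖ ∧ ∀ ζ ∈ Z, ‖ρ a ζ - y ζ‖ ≤ ε := by
  by_cases h0 : y = 0
  · exact ⟨0, IsSelfAdjoint.zero _, by simp, fun ζ _ => by simp [h0, hε.le]⟩
  have hn : 0 < ‖y‖ := norm_pos_iff.2 h0
  obtain ⟨a, h1, h2, h3⟩ := kap_one ρ (y := (‖y‖⁻¹ : ℝ) • y) (by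
      rw [← Complex.coe_smul]; exact (comm ρ).commutant.toStarSubalgebra.smul_mem hy _)
    ((IsSelfAdjoint.all _).smul hys) (by
      rw [norm_smul, norm_inv, norm_norm, inv_mul_cancel₀ hn.ne']) Z (div_pos hε hn)
  refine ⟨‖y‖ • a, (IsSelfAdjoint.all _).smul h1, ?_, fun ζ hζ => ?_⟩
  · rw [norm_smul, norm_norm]; exact mul_le_of_le_one_right hn.le h2
  · have e : ρ (‖y‖ • a) ζ - y ζ = ‖y‖ • (ρ a ζ - ((‖y‖⁻¹ : ℝ) • y) ζ) := by
      rw [← Complex.coe_smul ‖y‖ a, map_smul, smul_sub]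
      change (‖y‖ : ℂ) • ρ a ζ - y ζ = ‖y‖ • ρ a ζ - ‖y‖ • (‖y‖⁻¹ : ℝ) • y ζ
      rw [smul_inv_smul₀ hn.ne', Complex.coe_smul]
    rw [e, norm_smul, norm_norm, mul_comm, ← le_div_iff₀ hn]
    exact h3 ζ hζ

theorem kaplansky {A : Type*} [CStarAlgebra A] {K : Type*} [NormedAddCommGroup K]
    [InnerProductSpace ℂ K] [CompleteSpace K] (ρ : A →⋆ₐ[ℂ] (K →L[ℂ] K)) {y : K →L[ℂ] K}
    (hy : y ∈ Set.centralizer (Set.centralizer (Set.range ρ))) (Z : Finset K) {ε : ℝ}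
    (hε : 0 < ε) :
    ∃ a : A, ‖a‖ ≤ 2 * ‖y‖ ∧ ∀ ζ ∈ Z, ‖ρ a ζ - y ζ‖ ≤ ε ∧ ‖star (ρ a) ζ - star y ζ‖ ≤ ε := by
  have hx : y ∈ (comm ρ).commutant := VonNeumannAlgebra.mem_commutant_iff.2 fun T hT =>
    hy T (by rintro _ ⟨a, rfl⟩; exact mem_comm.1 hT a)
  have hre : (ℜ y : K →L[ℂ] K) ∈ (comm ρ).commutant := by
    rw [realPart_apply_coe, ← Complex.coe_smul]
    exact (comm ρ).commutant.toStarSubalgebra.smul_mem (add_mem hx (star_mem hx)) _
  have him : (ℑ y : K →L[ℂ] K) ∈ (comm ρ).commutant := by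
    rw [imaginaryPart_apply_coe, ← Complex.coe_smul]
    exact (comm ρ).commutant.toStarSubalgebra.smul_mem
      ((comm ρ).commutant.toStarSubalgebra.smul_mem (sub_mem hx (star_mem hx)) _) _
  obtain ⟨a, a1, a2, a3⟩ := kap_sa ρ hre (ℜ y).2 Z (half_pos hε)
  obtain ⟨b, b1, b2, b3⟩ := kap_sa ρ him (ℑ y).2 Z (half_pos hε)
  have h3 : ‖(ℜ y : K →L[ℂ] K)‖ ≤ ‖y‖ := realPart.norm_le y
  have h4 : ‖(ℑ y : K →L[ℂ] K)‖ ≤ ‖y‖ := imaginaryPart.norm_le y
  have hy1 := realPart_add_I_smul_imaginaryPart y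
  have u1 : IsSelfAdjoint (ℜ y : K →L[ℂ] K) := (ℜ y).2
  have v1 : IsSelfAdjoint (ℑ y : K →L[ℂ] K) := (ℑ y).2
  generalize (ℜ y : K →L[ℂ] K) = u at *
  generalize (ℑ y : K →L[ℂ] K) = v at *
  have key : ∀ (c : ℂ), ‖c‖ = 1 → ∀ ζ ∈ Z, ‖(ρ a + c • ρ b) ζ - (u + c • v) ζ‖ ≤ ε := by
    intro c hc ζ hζ
    have e : (ρ a + c • ρ b) ζ - (u + c • v) ζ = (ρ a ζ - u ζ) + c • (ρ b ζ - v ζ) := by
      change ρ a ζ + c • ρ b ζ - (u ζ + c • v ζ) = _
      rw [smul_sub]; abel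
    rw [e]
    refine (norm_add_le _ _).trans ?_
    rw [norm_smul, hc]
    linarith [a3 ζ hζ, b3 ζ hζ]
  refine ⟨a + Complex.I • b, (norm_add_le _ _).trans ?_, fun ζ hζ => ⟨?_, ?_⟩⟩
  · rw [norm_smul, Complex.norm_I]; linarith
  · rw [map_add, map_smul, ← hy1]
    exact key _ Complex.norm_I ζ hζ
  · rw [← hy1, ← map_star, star_add, star_add, star_smul, star_smul, a1.star_eq, b1.star_eq,
      u1.star_eq, v1.star_eq, map_add, map_smul]
    exact key _ (by simp) ζ hζ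

end Crest.Agent.R78
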