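import Mathlib

/-!
# Row 78: the abstract fixed point system (definitions).

`A` is the Banach algebra of (limits of) operator valued functions of one group label `f`, `A₃` of
three labels `(f,a,c)`.  `α β γ π` are the pull-backs along `(f,a,c) ↦ a, a f c, c, f`, `κ` is
evaluation at the unit, `L` is the limit of the averages over long random words `a, c`.  `g` is the
universal unitary `f ↦ u_f`, `g'` its companion in the commutant; `ν x = sup_t ‖x Ω‖_{L²(μ^t)}`.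
-/

set_option autoImplicit false

namespace Crest.Agent.R78

noncomputable section

structure Sys (A A₃ : Type*) [NormedRing A] [NormedAlgebra ℂ A] [NormedRing A₃]
    [NormedAlgebra ℂ A₃] where
  α : A →ₐ[ℂ] A₃
  β : A →ₐ[ℂ] A₃
  γ : A →ₐ[ℂ] A₃
  π : A →ₐ[ℂ] A₃
  κ : A →ₐ[ℂ] A
  L : A₃ →L[ℂ] A
  α_le : ∀ x, ‖α x‖ ≤ ‖x‖
  β_le : ∀ x, ‖β x‖ ≤ ‖x‖
  γ_le : ∀ x, ‖γ x‖ ≤ ‖x‖
  π_le : ∀ x, ‖π x‖ ≤ ‖x‖
  κ_le : ∀ x, ‖κ x‖ ≤ ‖x‖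
  L_le : ∀ X, ‖L X‖ ≤ ‖X‖
  one_le : ‖(1 : A)‖ ≤ 1
  L_one : L 1 = 1
  L_left : ∀ x X, L (π x * X) = x * L X
  L_right : ∀ x X, L (X * π x) = L X * x
  C : Subalgebra ℂ A
  M : Subalgebra ℂ A
  M' : Subalgebra ℂ A
  D : Subalgebra ℂ A₃
  M₃ : Subalgebra ℂ A₃
  M₃' : Subalgebra ℂ A₃
  κ_mem : ∀ x, κ x ∈ C
  κ_C : ∀ x ∈ C, κ x = x
  α_C : ∀ x ∈ C, α x = π x
  β_C : ∀ x ∈ C, β x = π x
  γ_C : ∀ x ∈ C, γ x = π x
  α_D : ∀ x, α x ∈ D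
  γ_D : ∀ x, γ x ∈ D
  L_D : ∀ X ∈ D, L X ∈ C
  M_closed : IsClosed (M : Set A)
  M'_closed : IsClosed (M' : Set A)
  M_inv : ∀ x ∈ M, IsUnit x → Ring.inverse x ∈ M
  M'_inv : ∀ x ∈ M', IsUnit x → Ring.inverse x ∈ M'
  κ_M : ∀ x ∈ M, κ x ∈ M
  κ_M' : ∀ x ∈ M', κ x ∈ M'
  to_M₃ : ∀ x ∈ M, α x ∈ M₃ ∧ β x ∈ M₃ ∧ γ x ∈ M₃ ∧ π x ∈ M₃
  to_M₃' : ∀ x ∈ M', α x ∈ M₃' ∧ β x ∈ M₃' ∧ γ x ∈ M₃' ∧ π x ∈ M₃'
  L_M : ∀ X ∈ M₃, L X ∈ M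
  L_M' : ∀ X ∈ M₃', L X ∈ M'
  comm : ∀ x ∈ M, ∀ y ∈ M', x * y = y * x
  comm₃ : ∀ x ∈ M₃, ∀ y ∈ M₃', x * y = y * x
  g : Aˣ
  g' : Aˣ
  g_le : ‖(g : A)‖ ≤ 1
  gi_le : ‖(↑g⁻¹ : A)‖ ≤ 1
  g'_le : ‖(g' : A)‖ ≤ 1
  g'i_le : ‖(↑g'⁻¹ : A)‖ ≤ 1
  β_g : β g = α g * π g * γ g
  β_g' : β g' = γ g' * π g' * α g'
  κ_g : κ g = 1
  κ_g' : κ g' = 1
  αγ : α g * γ g' = γ g' * α g
  πγ : π g * γ g' = γ g' * π g
  απ : α g * π g' = π g' * α g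
  ν : Seminorm ℂ A
  ν₃ : Seminorm ℂ A₃
  ν_mul : ∀ x y, ν (x * y) ≤ ‖x‖ * ν y
  ν₃_mul : ∀ x y, ν₃ (x * y) ≤ ‖x‖ * ν₃ y
  ν_one : ν 1 ≤ 1
  ν_L : ∀ X, ν (L X) ≤ ν₃ X
  ν_α : ∀ x, ν₃ (α x) ≤ ν x
  ν_β : ∀ x, ν₃ (β x) ≤ ν x
  ν_γ : ∀ x, ν₃ (γ x) ≤ ν x
  ν_π : ∀ x, ν₃ (π x) ≤ ν x
  ν_κ : ∀ x, ν (κ x) ≤ ν x
  ν_g : ν (g - g') = 0
  mart_α : ∀ x y, ν (L (α y * β x) - κ (L (α y * β x))) = 0
  mart_γ : ∀ x y, ν (L (γ y * β x) - κ (L (γ y * β x))) = 0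
  idem : ∀ V ∈ C,
    L (α ↑g⁻¹ * γ ↑g'⁻¹ * π (L (α ↑g⁻¹ * γ ↑g'⁻¹ * π V * α g * γ g')) * α g * γ g') =
      L (α ↑g⁻¹ * γ ↑g'⁻¹ * π V * α g * γ g')

namespace Sys

variable {A A₃ : Type*} [NormedRing A] [NormedAlgebra ℂ A] [NormedRing A₃] [NormedAlgebra ℂ A₃]
  (S : Sys A A₃)

theorem αγ_inv : S.α ↑S.g⁻¹ * S.γ ↑S.g'⁻¹ = S.γ ↑S.g'⁻¹ * S.α ↑S.g⁻¹ := by
  have h : Commute (Units.map (S.α : A →* A₃) S.g) (Units.map (S.γ : A →* A₃) S.g') :=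
    Units.ext S.αγ
  exact congrArg Units.val h.inv_inv.eq

/-- the mirror system (`a ↔ c`, `M ↔ M'`, `g ↔ g'`) -/
def swap : Sys A A₃ :=
  { S with
    α := S.γ, γ := S.α, α_le := S.γ_le, γ_le := S.α_le, M := S.M', M' := S.M, M₃ := S.M₃',
    M₃' := S.M₃, α_C := S.γ_C, γ_C := S.α_C, α_D := S.γ_D, γ_D := S.α_D,
    M_closed := S.M'_closed, M'_closed := S.M_closed, M_inv := S.M'_inv, M'_inv := S.M_inv,
    κ_M := S.κ_M', κ_M' := S.κ_M,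
    to_M₃ := fun x hx => let h := S.to_M₃' x hx; ⟨h.2.2.1, h.2.1, h.1, h.2.2.2⟩
    to_M₃' := fun x hx => let h := S.to_M₃ x hx; ⟨h.2.2.1, h.2.1, h.1, h.2.2.2⟩
    L_M := S.L_M', L_M' := S.L_M
    comm := fun x hx y hy => (S.comm y hy x hx).symm
    comm₃ := fun x hx y hy => (S.comm₃ y hy x hx).symm
    g := S.g', g' := S.g, g_le := S.g'_le, gi_le := S.g'i_le, g'_le := S.g_le, g'i_le := S.gi_le
    β_g := S.β_g', β_g' := S.β_g, κ_g := S.κ_g', κ_g' := S.κ_g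
    αγ := S.αγ.symm, πγ := S.απ.symm, απ := S.πγ.symm
    ν_α := S.ν_γ, ν_γ := S.ν_α
    ν_g := by rw [map_sub_rev]; exact S.ν_g
    mart_α := S.mart_γ, mart_γ := S.mart_α
    idem := fun V hV => by
      have h := S.idem V hV
      simp only [mul_assoc, S.αγ] at h ⊢
      simp only [← mul_assoc, ← S.αγ_inv] at h ⊢
      exact h }

/-- gauge factor -/
def W (p m : A) : A := S.L (S.α (Ring.inverse m * p))

/-- raw new partner -/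
def n (m : A) : A := S.L (S.α (Ring.inverse m) * S.β m * S.γ (Ring.inverse m))

/-- the part which is constant in `L²` -/
def Q (p m : A) : A := S.L (S.γ m * S.β (Ring.inverse m * p) * S.γ (Ring.inverse m))

/-- corrected new partner -/
def nh (p m : A) : A := S.n m + m * (S.Q p m - S.κ (S.Q p m))

/-- the map whose fixed point is sought -/
def F (p m : A) : A :=
  Ring.inverse (S.W p m) * S.nh p m * Ring.inverse (S.κ (S.nh p m)) * S.W p m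

/-- raw averaging operator -/
def V₀ (m y V : A) : A :=
  S.L (S.α (Ring.inverse m) * S.γ (Ring.inverse y) * S.π V * S.α S.g * S.γ S.g')

/-- unperturbed averaging operator -/
def E₀ (V : A) : A := S.L (S.α ↑S.g⁻¹ * S.γ ↑S.g'⁻¹ * S.π V * S.α S.g * S.γ S.g')

/-- normalised averaging operator -/
def T (p q m y V : A) : A :=
  Ring.inverse (S.W p m) * Ring.inverse (S.swap.W q y) * S.V₀ m y V

/-- the defect -/
def J (m y V : A) : ℝ := S.ν (V * S.g - m * V) + S.ν (V * S.g' - y * V)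

theorem ν_le (x : A) : S.ν x ≤ ‖x‖ := by
  have := S.ν_mul x 1
  rw [mul_one] at this
  exact this.trans (mul_le_of_le_one_right (norm_nonneg _) S.ν_one)

include S in
theorem one₃_le : ‖(1 : A₃)‖ ≤ 1 := by simpa using (S.π_le 1).trans S.one_le

end Sys

end

end Crest.Agent.R78
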