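import Crest.Agent.R78.Abs

/-!
# Row 78, task R78-AbsF: norm estimates for the map `F`.

PLAN.  Write `m = g + d`, `‖d‖ ≤ r ≤ 1/100`, `p = g + O(δ)`, `δ ≤ r`, `s = δ + r²`, `x⁻ = Ring.inverse x`.
* `near_unit`: Neumann series (`Units.ofNearby` / `NormedRing.inverse_one_sub`…): `m = g (1 + g⁻¹ d)`;
  `m⁻ - g⁻¹ = - g⁻¹ d m⁻`, `m⁻ - g⁻¹ + g⁻¹ d g⁻¹ = g⁻¹ d (g⁻¹ - m⁻)`.
* first order expansions (all remainders `O(s)`; use `L_left, L_right, L_one`, contractivity, `β_g`):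
  with `a = L (α (g⁻¹ d))`, `c = L (γ (d g⁻¹))` (both in `C` by `L_D`, so fixed by `κ`),
  `P = L (γ g * β (g⁻¹ d) * γ g⁻¹)`, all of norm `≤ r`:
  `W = 1 - a`, `n = g - a g + g P - g c` (because `α g⁻¹ * β g * γ g⁻¹ = π g`,
  `π g * γ g * β g⁻¹ = α g⁻¹`), `Q = 1 - P`, so `nh = g - a g - g c + g κ P`,
  `κ nh = 1 - a - c + κ P` (`κ` is a hom, `κ g = 1`), `nh (κ nh)⁻ = g - a g + g a`,
  `W⁻ nh (κ nh)⁻ W = g`.
* A convenient bookkeeping device: a lemma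
  `‖x - x₀ - x₁‖ ≤ e, ‖y - y₀ - y₁‖ ≤ e', ‖x₀‖,‖y₀‖ ≤ 1, ‖x₁‖ ≤ k r, ‖y₁‖ ≤ k' r ⊢
   ‖x y - x₀ y₀ - (x₁ y₀ + x₀ y₁)‖ ≤ …` and the same for the inverse of `1 + x₁ + O(s)`.
* `F_diff`: along a complex line everything is built from continuous linear maps (the homs are
  contractions: `AlgHom.toLinearMap.mkContinuous`), products and `Ring.inverse` at units
  (`DifferentiableAt.inverse`).
The constants are generous.
-/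

set_option autoImplicit false

namespace Crest.Agent.R78

/-- an element close to a unit with contractive inverse -/
theorem near_unit {A : Type*} [NormedRing A] [CompleteSpace A] (h1 : ‖(1 : A)‖ ≤ 1) (g : Aˣ)
    (hg : ‖(↑g⁻¹ : A)‖ ≤ 1) {m : A} {r : ℝ} (hr : r ≤ 1 / 2) (hm : ‖m - g‖ ≤ r) :
    IsUnit m ∧ ‖Ring.inverse m‖ ≤ 1 + 2 * r ∧ ‖Ring.inverse m - ↑g⁻¹‖ ≤ 2 * r ∧
      ‖Ring.inverse m - ↑g⁻¹ + ↑g⁻¹ * (m - g) * ↑g⁻¹‖ ≤ 2 * r ^ 2 := by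
  have hr0 : 0 ≤ r := (norm_nonneg _).trans hm
  have hu : ‖(↑g⁻¹ : A) * (m - g)‖ ≤ r :=
    (norm_mul_le _ _).trans ((mul_le_mul hg hm (norm_nonneg _) zero_le_one).trans_eq (one_mul r))
  have hunit : IsUnit m := by
    have h2 : ‖-((↑g⁻¹ : A) * (m - g))‖ < 1 := by rw [norm_neg]; linarith
    refine ⟨g * Units.oneSub _ h2, ?_⟩
    simp [Units.oneSub, mul_add, ← mul_assoc]
  have e1 : Ring.inverse m - ↑g⁻¹ = -((↑g⁻¹ : A) * (m - g) * Ring.inverse m) := by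
    rw [mul_sub, sub_mul, mul_assoc, Ring.mul_inverse_cancel _ hunit, Units.inv_mul]
    simp
  have e2 : ‖Ring.inverse m - ↑g⁻¹‖ ≤ r * ‖Ring.inverse m‖ := by
    rw [e1, norm_neg]
    exact (norm_mul_le _ _).trans (mul_le_mul_of_nonneg_right hu (norm_nonneg _))
  have e3 : ‖Ring.inverse m‖ ≤ 1 + r * ‖Ring.inverse m‖ := by
    have := norm_le_norm_add_norm_sub' (Ring.inverse m) (↑g⁻¹ : A)
    linarith
  have e4 : ‖Ring.inverse m‖ ≤ 1 + 2 * r := by nlinarith [norm_nonneg (Ring.inverse m)]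
  have e5 : ‖Ring.inverse m - ↑g⁻¹‖ ≤ 2 * r := by nlinarith
  refine ⟨hunit, e4, e5, ?_⟩
  have e6 : Ring.inverse m - ↑g⁻¹ + ↑g⁻¹ * (m - g) * ↑g⁻¹ =
      -((↑g⁻¹ : A) * (m - g) * (Ring.inverse m - ↑g⁻¹)) := by
    rw [mul_sub _ (Ring.inverse m), neg_sub, e1]; abel
  rw [e6, norm_neg]
  refine (norm_mul_le _ _).trans ((mul_le_mul hu e5 (norm_nonneg _) hr0).trans_eq ?_)
  ring

namespace AbsFA

section
variable {B B' : Type*} [NormedRing B] [NormedRing B'] {r s k k' e e' : ℝ} {x x₀ x₁ y y₀ y₁ : B}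

/-- zero order expansion -/
structure Nr (r : ℝ) (x x₀ : B) (k : ℝ) : Prop where
  r0 : 0 ≤ r
  r1 : r ≤ 1 / 100
  h0 : ‖x₀‖ ≤ 1
  h1 : ‖x - x₀‖ ≤ k * r

theorem Nr.le (h : Nr r x x₀ k) (b : ℝ) (hk : 0 ≤ k := by norm_num)
    (hb : 1 + k / 100 ≤ b := by norm_num) : ‖x‖ ≤ b := by
  have := norm_le_norm_add_norm_sub' x x₀
  nlinarith [h.h0, h.h1, h.r1]

theorem Nr.mul (hx : Nr r x x₀ k) (hy : Nr r y y₀ k') (k'' : ℝ) (hk : 0 ≤ k := by norm_num)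
    (hk' : 0 ≤ k' := by norm_num) (h : k + k' + k * k' / 100 ≤ k'' := by norm_num) :
    Nr r (x * y) (x₀ * y₀) k'' := by
  refine ⟨hx.r0, hx.r1, (norm_mul_le _ _).trans (mul_le_one₀ hx.h0 (norm_nonneg _) hy.h0), ?_⟩
  have e : x * y - x₀ * y₀ = (x - x₀) * y + x₀ * (y - y₀) := by noncomm_ring
  have h1 := hy.le (1 + k' / 100) hk' le_rfl
  have h2 : ‖(x - x₀) * y‖ ≤ k * r * (1 + k' / 100) :=
    (norm_mul_le _ _).trans (mul_le_mul hx.h1 h1 (norm_nonneg _) (mul_nonneg hk hx.r0))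
  have h3 : ‖x₀ * (y - y₀)‖ ≤ 1 * (k' * r) :=
    (norm_mul_le _ _).trans (mul_le_mul hx.h0 hy.h1 (norm_nonneg _) zero_le_one)
  rw [e]
  refine (norm_add_le _ _).trans ?_
  nlinarith [hx.r0]

theorem Nr.map {F : Type*} [FunLike F B B'] [AddMonoidHomClass F B B'] (f : F)
    (hf : ∀ x, ‖f x‖ ≤ ‖x‖) (hx : Nr r x x₀ k) : Nr r (f x) (f x₀) k :=
  ⟨hx.r0, hx.r1, (hf _).trans hx.h0, by rw [← map_sub]; exact (hf _).trans hx.h1⟩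

theorem Nr.of_eq (hx : Nr r x x₀ k) (h : x₀ = y₀) : Nr r x y₀ k := h ▸ hx

theorem Nr.inv [CompleteSpace B] (g : Bˣ) (h1 : ‖(1 : B)‖ ≤ 1) (hg : ‖(↑g⁻¹ : B)‖ ≤ 1)
    (hx : Nr r x g k) (hk0 : 0 ≤ k := by norm_num) (hk : k ≤ 50 := by norm_num) :
    IsUnit x ∧ Nr r (Ring.inverse x) ↑g⁻¹ (2 * k) := by
  have := near_unit h1 g hg (r := k * r) (by nlinarith [hx.r1]) hx.h1
  exact ⟨this.1, hx.r0, hx.r1, hg, by linarith [this.2.2.1]⟩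

theorem Nr.inv_one [CompleteSpace B] (hx : Nr r x 1 k) (hk0 : 0 ≤ k := by norm_num)
    (hk : k ≤ 50 := by norm_num) : IsUnit x ∧ Nr r (Ring.inverse x) 1 (2 * k) := by
  have := Nr.inv (1 : Bˣ) hx.h0 (by simpa using hx.h0) (by simpa using hx) hk0 hk
  simpa using this

/-- first order expansion -/
structure Ex (r s : ℝ) (x x₀ x₁ : B) (k e : ℝ) : Prop where
  r0 : 0 ≤ r
  r1 : r ≤ 1 / 100
  rs : r ^ 2 ≤ s
  h0 : ‖x₀‖ ≤ 1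
  h1 : ‖x₁‖ ≤ k * r
  h2 : ‖x - x₀ - x₁‖ ≤ e * s

theorem Ex.mul (hx : Ex r s x x₀ x₁ k e) (hy : Ex r s y y₀ y₁ k' e') (hn : ‖y‖ ≤ 2) (k'' e'' : ℝ)
    (hk : 0 ≤ k ∧ k ≤ 100 ∧ 0 ≤ k' ∧ 0 ≤ e ∧ 0 ≤ e' := by norm_num)
    (h : k + k' ≤ k'' ∧ k * k' + 2 * e + 2 * e' ≤ e'' := by norm_num) :
    Ex r s (x * y) (x₀ * y₀) (x₁ * y₀ + x₀ * y₁) k'' e'' := by
  obtain ⟨k0, k1, k2, k3, k4⟩ := hk
  have s0 : 0 ≤ s := (sq_nonneg r).trans hx.rs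
  have r0 := hx.r0
  refine ⟨hx.r0, hx.r1, hx.rs,
    (norm_mul_le _ _).trans (mul_le_one₀ hx.h0 (norm_nonneg _) hy.h0), ?_, ?_⟩
  · have h2 : ‖x₁ * y₀‖ ≤ k * r * 1 :=
      (norm_mul_le _ _).trans (mul_le_mul hx.h1 hy.h0 (norm_nonneg _) (by positivity))
    have h3 : ‖x₀ * y₁‖ ≤ 1 * (k' * r) :=
      (norm_mul_le _ _).trans (mul_le_mul hx.h0 hy.h1 (norm_nonneg _) zero_le_one)
    refine (norm_add_le _ _).trans ?_
    nlinarith [h.1]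
  · have e1 : x * y - x₀ * y₀ - (x₁ * y₀ + x₀ * y₁) =
        x₁ * y₁ + (x - x₀ - x₁) * y + (x₀ + x₁) * (y - y₀ - y₁) := by noncomm_ring
    have h2 : ‖x₁ * y₁‖ ≤ k * r * (k' * r) :=
      (norm_mul_le _ _).trans (mul_le_mul hx.h1 hy.h1 (norm_nonneg _) (by positivity))
    have h3 : ‖(x - x₀ - x₁) * y‖ ≤ e * s * 2 :=
      (norm_mul_le _ _).trans (mul_le_mul hx.h2 hn (norm_nonneg _) (by positivity))
    have h4 : ‖x₀ + x₁‖ ≤ 2 := by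
      have := norm_add_le x₀ x₁
      nlinarith [hx.h0, hx.h1, hx.r1]
    have h5 : ‖(x₀ + x₁) * (y - y₀ - y₁)‖ ≤ 2 * (e' * s) :=
      (norm_mul_le _ _).trans (mul_le_mul h4 hy.h2 (norm_nonneg _) zero_le_two)
    have h6 : k * k' * r ^ 2 ≤ k * k' * s := mul_le_mul_of_nonneg_left hx.rs (by positivity)
    rw [e1]
    refine (norm_add₃_le).trans ?_
    nlinarith [h.2]

theorem Ex.map {F : Type*} [FunLike F B B'] [AddMonoidHomClass F B B'] (f : F)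
    (hf : ∀ x, ‖f x‖ ≤ ‖x‖) (hx : Ex r s x x₀ x₁ k e) : Ex r s (f x) (f x₀) (f x₁) k e :=
  ⟨hx.r0, hx.r1, hx.rs, (hf _).trans hx.h0, (hf _).trans hx.h1,
    by rw [← map_sub, ← map_sub]; exact (hf _).trans hx.h2⟩

theorem Ex.of_eq (hx : Ex r s x x₀ x₁ k e) (h : x₀ = y₀) (h' : x₁ = y₁) : Ex r s x y₀ y₁ k e :=
  h ▸ h' ▸ hx

theorem Ex.add (hx : Ex r s x x₀ x₁ k e) (hy : Ex r s y y₀ y₁ k' e') (h : ‖x₀ + y₀‖ ≤ 1) :
    Ex r s (x + y) (x₀ + y₀) (x₁ + y₁) (k + k') (e + e') := by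
  refine ⟨hx.r0, hx.r1, hx.rs, h, ?_, ?_⟩
  · linarith [norm_add_le x₁ y₁, hx.h1, hy.h1]
  · have e1 : x + y - (x₀ + y₀) - (x₁ + y₁) = (x - x₀ - x₁) + (y - y₀ - y₁) := by abel
    rw [e1]
    linarith [norm_add_le (x - x₀ - x₁) (y - y₀ - y₁), hx.h2, hy.h2]

theorem Ex.sub (hx : Ex r s x x₀ x₁ k e) (hy : Ex r s y y₀ y₁ k' e') (h : ‖x₀ - y₀‖ ≤ 1) :
    Ex r s (x - y) (x₀ - y₀) (x₁ - y₁) (k + k') (e + e') := by
  refine ⟨hx.r0, hx.r1, hx.rs, h, ?_, ?_⟩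
  · linarith [norm_sub_le x₁ y₁, hx.h1, hy.h1]
  · have e1 : x - y - (x₀ - y₀) - (x₁ - y₁) = (x - x₀ - x₁) - (y - y₀ - y₁) := by abel
    rw [e1]
    linarith [norm_sub_le (x - x₀ - x₁) (y - y₀ - y₁), hx.h2, hy.h2]

theorem Ex.inv_one [CompleteSpace B] (hx : Ex r s x 1 x₁ k e) (hn : Nr r x 1 k')
    (hk0 : 0 ≤ k' := by norm_num) (hk : k' ≤ 50 := by norm_num) :
    Ex r s (Ring.inverse x) 1 (-x₁) k (e + 2 * k' ^ 2) := by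
  have h := (near_unit hx.h0 1 (by simpa using hx.h0) (r := k' * r) (by nlinarith [hx.r1])
    (by simpa using hn.h1)).2.2.2
  replace h : ‖Ring.inverse x - 1 + (x - 1)‖ ≤ 2 * (k' * r) ^ 2 := by simpa using h
  refine ⟨hx.r0, hx.r1, hx.rs, hx.h0, by rw [norm_neg]; exact hx.h1, ?_⟩
  have e1 : Ring.inverse x - 1 - -x₁ = (Ring.inverse x - 1 + (x - 1)) - (x - 1 - x₁) := by abel
  rw [e1]
  have h6 : k' ^ 2 * r ^ 2 ≤ k' ^ 2 * s := mul_le_mul_of_nonneg_left hx.rs (by positivity)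
  nlinarith [norm_sub_le (Ring.inverse x - 1 + (x - 1)) (x - 1 - x₁), hx.h2]

end

theorem diff_hom {A B : Type*} [NormedRing A] [NormedAlgebra ℂ A] [NormedRing B] [NormedAlgebra ℂ B]
    (φ : A →ₐ[ℂ] B) (h : ∀ x, ‖φ x‖ ≤ ‖x‖) {f : ℂ → A} {z : ℂ} (hf : DifferentiableAt ℂ f z) :
    DifferentiableAt ℂ (fun w => φ (f w)) z :=
  (φ.toLinearMap.mkContinuous 1 (by simpa using h)).differentiableAt.comp z hf

end AbsFA

open AbsFA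

namespace Sys

variable {A A₃ : Type*} [NormedRing A] [NormedAlgebra ℂ A] [CompleteSpace A] [NormedRing A₃]
  [NormedAlgebra ℂ A₃] (S : Sys A A₃) {p m : A} {δ r : ℝ}

theorem W_mem_C (p m : A) : S.W p m ∈ S.C := S.L_D _ (S.α_D _)

omit [CompleteSpace A] in
theorem nr_m (hr : r ≤ 1 / 100) (hm : ‖m - S.g‖ ≤ r) : Nr r m S.g 1 :=
  ⟨(norm_nonneg _).trans hm, hr, S.g_le, by rwa [one_mul]⟩

theorem nr_i (hr : r ≤ 1 / 100) (hm : ‖m - S.g‖ ≤ r) :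
    IsUnit m ∧ Nr r (Ring.inverse m) ↑S.g⁻¹ 2 := by
  simpa using (S.nr_m hr hm).inv S.g S.one_le S.gi_le

theorem nr_ip (hδ : δ ≤ r) (hr : r ≤ 1 / 100) (hp : ‖p - S.g‖ ≤ δ) (hm : ‖m - S.g‖ ≤ r) :
    Nr r (Ring.inverse m * p) 1 3 := by
  obtain ⟨hu, hi⟩ := S.nr_i hr hm
  refine ⟨hi.r0, hr, S.one_le, ?_⟩
  have e : Ring.inverse m * p - 1 = Ring.inverse m * ((p - S.g) - (m - S.g)) := by
    rw [sub_sub_sub_cancel_right, mul_sub, Ring.inverse_mul_cancel _ hu]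
  have h1 := hi.le (102 / 100)
  have h2 : ‖(p - S.g) - (m - S.g)‖ ≤ 2 * r := by linarith [norm_sub_le (p - S.g) (m - S.g)]
  rw [e]
  refine (norm_mul_le _ _).trans ((mul_le_mul h1 h2 (norm_nonneg _) (by norm_num)).trans ?_)
  linarith [hi.r0]

omit [CompleteSpace A] in
theorem αβγ_g : S.α ↑S.g⁻¹ * S.β S.g * S.γ ↑S.g⁻¹ = S.π S.g := by
  rw [S.β_g, ← mul_assoc, ← mul_assoc, ← map_mul, Units.inv_mul, map_one, one_mul, mul_assoc,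
    ← map_mul, Units.mul_inv, map_one, mul_one]

omit [CompleteSpace A] in
theorem πγβ_g : S.π S.g * S.γ S.g * S.β ↑S.g⁻¹ = S.α ↑S.g⁻¹ := by
  have h : S.α ↑S.g⁻¹ * S.β S.g = S.π S.g * S.γ S.g := by
    rw [S.β_g, ← mul_assoc, ← mul_assoc, ← map_mul, Units.inv_mul, map_one, one_mul]
  rw [← h, mul_assoc, ← map_mul, Units.mul_inv, map_one, mul_one]

omit [CompleteSpace A] in
theorem L_π (x : A) : S.L (S.π x) = x := by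
  have := S.L_left x 1
  rwa [mul_one, S.L_one, mul_one] at this

theorem nr_n₃ (hr : r ≤ 1 / 100) (hm : ‖m - S.g‖ ≤ r) :
    Nr r (S.α (Ring.inverse m) * S.β m * S.γ (Ring.inverse m)) (S.π S.g) 6 := by
  obtain ⟨-, hi⟩ := S.nr_i hr hm
  exact ((((hi.map S.α S.α_le).mul ((S.nr_m hr hm).map S.β S.β_le) (31 / 10)).mul
    (hi.map S.γ S.γ_le) 6).of_eq S.αβγ_g)

theorem W_est (hδ : δ ≤ r) (hr : r ≤ 1 / 100) (hp : ‖p - S.g‖ ≤ δ) (hm : ‖m - S.g‖ ≤ r) :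
    ‖S.W p m - 1‖ ≤ 3 * r :=
  ((((S.nr_ip hδ hr hp hm).map S.α S.α_le).map S.L S.L_le).of_eq
    (by rw [map_one, S.L_one])).h1

theorem Q_est (hδ : δ ≤ r) (hr : r ≤ 1 / 100) (hp : ‖p - S.g‖ ≤ δ) (hm : ‖m - S.g‖ ≤ r) :
    ‖S.Q p m - 1‖ ≤ 4 * r := by
  obtain ⟨hu, hi⟩ := S.nr_i hr hm
  have e : S.Q p m - 1 = S.L (S.γ m * S.β (Ring.inverse m * p - 1) * S.γ (Ring.inverse m)) := by
    rw [map_sub, map_one, mul_sub, sub_mul, mul_one, ← map_mul S.γ, Ring.mul_inverse_cancel _ hu,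
      map_one, map_sub, S.L_one, Q]
  have h1 := (S.γ_le _).trans ((S.nr_m hr hm).le (101 / 100))
  have h2 := (S.β_le _).trans (S.nr_ip hδ hr hp hm).h1
  have h3 := (S.γ_le _).trans (hi.le (102 / 100))
  have r0 := hi.r0
  rw [e]
  refine (S.L_le _).trans ((norm_mul_le _ _).trans ((mul_le_mul ((norm_mul_le _ _).trans
    (mul_le_mul h1 h2 (norm_nonneg _) (by norm_num))) h3 (norm_nonneg _) (by positivity)).trans ?_))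
  linarith

theorem Q_sub_est (hδ : δ ≤ r) (hr : r ≤ 1 / 100) (hp : ‖p - S.g‖ ≤ δ) (hm : ‖m - S.g‖ ≤ r) :
    ‖S.Q p m - S.κ (S.Q p m)‖ ≤ 8 * r := by
  have h := S.Q_est hδ hr hp hm
  have e : S.Q p m - S.κ (S.Q p m) = (S.Q p m - 1) - S.κ (S.Q p m - 1) := by
    rw [map_sub, map_one]; abel
  rw [e]
  linarith [norm_sub_le (S.Q p m - 1) (S.κ (S.Q p m - 1)), S.κ_le (S.Q p m - 1)]

theorem nh_est (hδ : δ ≤ r) (hr : r ≤ 1 / 100) (hp : ‖p - S.g‖ ≤ δ) (hm : ‖m - S.g‖ ≤ r) :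
    ‖S.nh p m - S.g‖ ≤ 20 * r ∧ ‖S.κ (S.nh p m) - 1‖ ≤ 20 * r := by
  have h1 : ‖S.n m - S.g‖ ≤ 6 * r := (((S.nr_n₃ hr hm).map S.L S.L_le).of_eq (S.L_π _)).h1
  have h2 := (norm_mul_le _ _).trans (mul_le_mul ((S.nr_m hr hm).le (101 / 100))
    (S.Q_sub_est hδ hr hp hm) (norm_nonneg _) (by norm_num))
  have r0 := (S.nr_m hr hm).r0
  have h3 : ‖S.nh p m - S.g‖ ≤ 20 * r := by
    rw [nh, add_sub_right_comm]
    linarith [norm_add_le (S.n m - S.g) (m * (S.Q p m - S.κ (S.Q p m)))]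
  refine ⟨h3, ?_⟩
  rw [← S.κ_g, ← map_sub]
  exact (S.κ_le _).trans h3

theorem nr_W (hδ : δ ≤ r) (hr : r ≤ 1 / 100) (hp : ‖p - S.g‖ ≤ δ) (hm : ‖m - S.g‖ ≤ r) :
    Nr r (S.W p m) 1 3 := ⟨(S.nr_m hr hm).r0, hr, S.one_le, S.W_est hδ hr hp hm⟩

theorem nr_nh (hδ : δ ≤ r) (hr : r ≤ 1 / 100) (hp : ‖p - S.g‖ ≤ δ) (hm : ‖m - S.g‖ ≤ r) :
    Nr r (S.nh p m) S.g 20 := ⟨(S.nr_m hr hm).r0, hr, S.g_le, (S.nh_est hδ hr hp hm).1⟩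

theorem nr_κnh (hδ : δ ≤ r) (hr : r ≤ 1 / 100) (hp : ‖p - S.g‖ ≤ δ) (hm : ‖m - S.g‖ ≤ r) :
    Nr r (S.κ (S.nh p m)) 1 20 := ⟨(S.nr_m hr hm).r0, hr, S.one_le, (S.nh_est hδ hr hp hm).2⟩

/-- the second order estimate -/
theorem F_est (hδ : δ ≤ r) (hr : r ≤ 1 / 100) (hp : ‖p - S.g‖ ≤ δ) (hm : ‖m - S.g‖ ≤ r) :
    ‖S.F p m - S.g‖ ≤ 10000 * (δ + r ^ 2) := by
  have nm := S.nr_m hr hm
  obtain ⟨hu, ni⟩ := S.nr_i hr hm
  have nip := S.nr_ip hδ hr hp hm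
  have r0 := nm.r0
  have δ0 : 0 ≤ δ := (norm_nonneg _).trans hp
  have rs : r ^ 2 ≤ δ + r ^ 2 := by linarith
  obtain ⟨d, hd⟩ : ∃ d, d = m - S.g := ⟨_, rfl⟩
  have hd' : ‖d‖ ≤ r := hd ▸ hm
  have em : Ex r (δ + r ^ 2) m S.g d 1 0 := ⟨r0, hr, rs, S.g_le, by linarith, by simp [hd]⟩
  have ep : Ex r (δ + r ^ 2) p S.g 0 0 1 :=
    ⟨r0, hr, rs, S.g_le, by simp, by rw [sub_zero]; nlinarith⟩
  have ei : Ex r (δ + r ^ 2) (Ring.inverse m) ↑S.g⁻¹ (-(↑S.g⁻¹ * d * ↑S.g⁻¹)) 1 2 := by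
    refine ⟨r0, hr, rs, S.gi_le, ?_, ?_⟩
    · rw [norm_neg]
      refine (norm_mul_le _ _).trans ((mul_le_mul ((norm_mul_le _ _).trans
        (mul_le_mul S.gi_le hd' (norm_nonneg _) zero_le_one)) S.gi_le (norm_nonneg _)
        (by positivity)).trans_eq (mul_one _))
    · rw [sub_neg_eq_add, hd]
      linarith [(near_unit S.one_le S.g S.gi_le (by linarith) hm).2.2.2]
  have eip : Ex r (δ + r ^ 2) (Ring.inverse m * p) 1 (-(↑S.g⁻¹ * d)) 1 6 :=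
    (ei.mul ep ((S.nr_m hr (hp.trans hδ)).le 2) 1 6).of_eq (Units.inv_mul _) (by simp)
  obtain ⟨a, ha⟩ : ∃ a, a = S.L (S.α (↑S.g⁻¹ * d)) := ⟨_, rfl⟩
  obtain ⟨c, hc⟩ : ∃ c, c = S.L (S.γ (d * ↑S.g⁻¹)) := ⟨_, rfl⟩
  obtain ⟨P, hP⟩ : ∃ P, P = S.L (S.γ S.g * S.β (↑S.g⁻¹ * d) * S.γ ↑S.g⁻¹) := ⟨_, rfl⟩
  have κa : S.κ a = a := S.κ_C _ (ha ▸ S.L_D _ (S.α_D _))
  have κc : S.κ c = c := S.κ_C _ (hc ▸ S.L_D _ (S.γ_D _))
  have eW : Ex r (δ + r ^ 2) (S.W p m) 1 (-a) 1 6 :=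
    ((eip.map S.α S.α_le).map S.L S.L_le).of_eq (by rw [map_one, S.L_one])
      (by rw [map_neg, map_neg, ha])
  have hγi : ‖S.γ (Ring.inverse m)‖ ≤ 2 := (S.γ_le _).trans (ni.le 2)
  have en : Ex r (δ + r ^ 2) (S.n m) S.g (-(a * S.g) + S.g * P - S.g * c) 3 16 := by
    refine ((((ei.map S.α S.α_le).mul (em.map S.β S.β_le) ((S.β_le _).trans (nm.le 2)) 2 5).mul
      (ei.map S.γ S.γ_le) hγi 3 16).map S.L S.L_le).of_eq (by rw [S.αβγ_g, S.L_π]) ?_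
    have e1 : S.α (-(↑S.g⁻¹ * d * ↑S.g⁻¹)) * S.β S.g * S.γ ↑S.g⁻¹ =
        -(S.α (↑S.g⁻¹ * d) * S.π S.g) := by
      rw [← S.αβγ_g, map_neg, map_mul S.α _ (↑S.g⁻¹ : A)]; noncomm_ring
    have e2 : S.α ↑S.g⁻¹ * S.β d * S.γ ↑S.g⁻¹ =
        S.π S.g * (S.γ S.g * S.β (↑S.g⁻¹ * d) * S.γ ↑S.g⁻¹) := by
      rw [← S.πγβ_g, map_mul]; noncomm_ring
    have e3 : S.α ↑S.g⁻¹ * S.β S.g * S.γ (-(↑S.g⁻¹ * d * ↑S.g⁻¹)) =
        -(S.π S.g * S.γ (d * ↑S.g⁻¹)) := by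
      rw [← S.αβγ_g, map_neg, mul_assoc (↑S.g⁻¹ : A), map_mul S.γ (↑S.g⁻¹ : A)]; noncomm_ring
    rw [add_mul, e1, e2, e3, map_add, map_add, map_neg, map_neg, S.L_right, S.L_left, S.L_left,
      ← ha, ← hc, ← hP, sub_eq_add_neg]
  have eQ : Ex r (δ + r ^ 2) (S.Q p m) 1 (-P) 3 32 := by
    refine ((((em.map S.γ S.γ_le).mul (eip.map S.β S.β_le) ((S.β_le _).trans (nip.le 2)) 2 13).mul
      (ei.map S.γ S.γ_le) hγi 3 32).map S.L S.L_le).of_eq ?_ ?_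
    · rw [map_one, mul_one, ← map_mul, Units.mul_inv, map_one, S.L_one]
    · have e1 : S.γ S.g * S.γ (-(↑S.g⁻¹ * d * ↑S.g⁻¹)) = -(S.γ d * S.γ ↑S.g⁻¹) := by
        rw [← map_mul, ← map_mul, ← map_neg]
        congr 1
        simp [← mul_assoc]
      rw [map_one, mul_one, mul_one, e1, hP, ← map_neg, map_neg S.β]
      congr 1
      noncomm_ring
  have eQ' : Ex r (δ + r ^ 2) (S.Q p m - S.κ (S.Q p m)) 0 (-P + S.κ P) (3 + 3) (32 + 32) :=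
    (eQ.sub (eQ.map S.κ S.κ_le) (by simp)).of_eq (by simp) (by simp)
  have enh : Ex r (δ + r ^ 2) (S.nh p m) S.g (-(a * S.g) - S.g * c + S.g * S.κ P) (3 + 7)
      (16 + 134) :=
    (en.add (em.mul eQ' ((S.Q_sub_est hδ hr hp hm).trans (by linarith)) 7 134)
      (by simpa using S.g_le)).of_eq (by simp) (by noncomm_ring)
  have eκ : Ex r (δ + r ^ 2) (S.κ (S.nh p m)) 1 (-a - c + S.κ P) (3 + 7) (16 + 134) :=
    (enh.map S.κ S.κ_le).of_eq S.κ_g (by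
      simp only [map_add, map_sub, map_neg, map_mul, S.κ_g, κa, κc, S.κ_C _ (S.κ_mem P), mul_one,
        one_mul])
  have nW := S.nr_W hδ hr hp hm
  have nκ := S.nr_κnh hδ hr hp hm
  have fin := (((eW.inv_one nW).mul enh ((S.nr_nh hδ hr hp hm).le 2) 11 358).mul (eκ.inv_one nκ)
    (nκ.inv_one.2.le 2) 21 2726).mul eW (nW.le 2) 22 5485
  have := (fin.of_eq (y₀ := (S.g : A)) (y₁ := 0) (by simp) (by noncomm_ring)).h2
  rw [sub_zero] at this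
  refine this.trans ?_
  nlinarith [sq_nonneg r]

theorem mem_M (hδ : δ ≤ r) (hr : r ≤ 1 / 100) (hp : ‖p - S.g‖ ≤ δ) (hm : ‖m - S.g‖ ≤ r)
    (hpM : p ∈ S.M) (hmM : m ∈ S.M) : S.W p m ∈ S.M ∧ S.nh p m ∈ S.M ∧ S.F p m ∈ S.M := by
  have hi := S.M_inv m hmM (S.nr_i hr hm).1
  have hip := S.M.mul_mem hi hpM
  have hW : S.W p m ∈ S.M := S.L_M _ (S.to_M₃ _ hip).1
  have hn : S.n m ∈ S.M := S.L_M _ (S.M₃.mul_mem (S.M₃.mul_mem (S.to_M₃ _ hi).1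
    (S.to_M₃ _ hmM).2.1) (S.to_M₃ _ hi).2.2.1)
  have hQ : S.Q p m ∈ S.M := S.L_M _ (S.M₃.mul_mem (S.M₃.mul_mem (S.to_M₃ _ hmM).2.2.1
    (S.to_M₃ _ hip).2.1) (S.to_M₃ _ hi).2.2.1)
  have hnh : S.nh p m ∈ S.M := S.M.add_mem hn (S.M.mul_mem hmM (S.M.sub_mem hQ (S.κ_M _ hQ)))
  exact ⟨hW, hnh, S.M.mul_mem (S.M.mul_mem (S.M.mul_mem
    (S.M_inv _ hW (S.nr_W hδ hr hp hm).inv_one.1) hnh)
    (S.M_inv _ (S.κ_M _ hnh) (S.nr_κnh hδ hr hp hm).inv_one.1)) hW⟩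

theorem F_diff (hδ : δ ≤ r) (hr : r ≤ 1 / 100) (hp : ‖p - S.g‖ ≤ δ) (m₀ d : A) {z : ℂ}
    (hm : ‖m₀ + z • d - S.g‖ ≤ r) : DifferentiableAt ℂ (fun w : ℂ => S.F p (m₀ + w • d)) z := by
  have dm : DifferentiableAt ℂ (fun w : ℂ => m₀ + w • d) z := by fun_prop
  have di := dm.inverse (S.nr_i hr hm).1
  have dip := di.mul_const p
  have dW : DifferentiableAt ℂ (fun w : ℂ => S.W p (m₀ + w • d)) z :=
    S.L.differentiableAt.comp z (diff_hom S.α S.α_le dip)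
  have dn : DifferentiableAt ℂ (fun w : ℂ => S.n (m₀ + w • d)) z :=
    S.L.differentiableAt.comp z (((diff_hom S.α S.α_le di).mul (diff_hom S.β S.β_le dm)).mul
      (diff_hom S.γ S.γ_le di))
  have dQ : DifferentiableAt ℂ (fun w : ℂ => S.Q p (m₀ + w • d)) z :=
    S.L.differentiableAt.comp z (((diff_hom S.γ S.γ_le dm).mul (diff_hom S.β S.β_le dip)).mul
      (diff_hom S.γ S.γ_le di))
  have dnh : DifferentiableAt ℂ (fun w : ℂ => S.nh p (m₀ + w • d)) z :=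
    dn.add (dm.mul (dQ.sub (diff_hom S.κ S.κ_le dQ)))
  exact (((dW.inverse (S.nr_W hδ hr hp hm).inv_one.1).mul dnh).mul
    ((diff_hom S.κ S.κ_le dnh).inverse (S.nr_κnh hδ hr hp hm).inv_one.1)).mul dW

end Sys

end Crest.Agent.R78
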