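import Crest.Agent.R78.AbsF

/-!
# Row 78, task R78-AbsJ: the defect contracts.

PLAN for `J_step` (`x⁻ = Ring.inverse x`, `≡` means equality up to `ν ≤ C r J`, `J = S.J m y V`).
Put `Zm = V g - m V`, `Zy = V g' - y V`, `Z₂ = (m - y) V = Zy - Zm + V (g - g')`, `ν Z₂ ≤ J` (`ν_g`).
`y⁻ - m⁻ = m⁻ y⁻ (m - y)` (`m, y, m⁻, y⁻` commute by `comm`, `M_inv`).
* `V₀ g = L (α m⁻ γ y⁻ π V α g π g γ g')` (`L_right`, `πγ`) `≡ L (α m⁻ γ y⁻ β (V g))` exactly mod `ν = 0`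
  (`ν₃ (γ (g' - g)) = 0`, `β_g`, `β V = π V`) `= L (α m⁻ γ y⁻ β m π V) + L (α m⁻ γ y⁻ β Zm)`.
* first term: `γ y⁻` commutes with `β m` (`comm₃`), `γ y⁻ π V = γ (y⁻ V) = γ m⁻ π V + γ m⁻ γ (y⁻ Z₂)`, so it is
  `n V + L (α m⁻ β m γ m⁻ γ (y⁻ Z₂)) ≡ n V + m ζ₂`, `ζ₂ = L (γ (y⁻ Z₂)) ∈ C`, since
  `‖α m⁻ β m γ m⁻ - π m‖ ≤ C r`.
* second term: `‖α m⁻ - π m γ m β m⁻‖ ≤ C r`, `β m⁻` commutes with `γ y⁻`, so it is
  `≡ m L (γ (m y⁻) β (m⁻ Zm)) ≡ m ζ₃`, `ζ₃ = κ (L …) ∈ C` by `mart_γ`.  `ν ζ₂, ν ζ₃ ≤ 2 J`.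
* `ν ((Q - κ Q) V) ≤ C r J`: with `e = m⁻ p - 1 ∈ M`, `‖e‖ ≤ 3 r`,
  `Q V - V = L (γ m β e γ (m⁻ V)) ≡ L (γ (m y⁻) β (e V)) =: P`, `ν (P - κ P) = 0`, and
  `κ (Q V - V) = κ Q V - V`, `ν (κ x) ≤ ν x`.
* So `V₀ g ≡ nh V + m ζ`, `ζ = ζ₂ + ζ₃ ∈ C`.  Apply `κ` (`V₀ ∈ C` by `L_D`, as `π V = α V`):
  `V₀ ≡ κ nh V + κ m ζ`; multiply by `nh (κ nh)⁻` and use `‖nh (κ nh)⁻ κ m - m‖ ≤ C r`.
`T_step` follows: `T g - F T = W⁻ W'⁻ (V₀ g - nh (κ nh)⁻ V₀)` as `W' ∈ M'` commutes with `M`; the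
`y` half is the same statement for `S.swap` (`S.swap.V₀ y m V = S.V₀ m y V`, `W, W'` commute).
-/

set_option autoImplicit false

namespace Crest.Agent.R78

open AbsFA

namespace Sys

variable {A A₃ : Type*} [NormedRing A] [NormedAlgebra ℂ A] [CompleteSpace A] [NormedRing A₃]
  [NormedAlgebra ℂ A₃] (S : Sys A A₃) {p q m y V : A} {δ r : ℝ}

omit [CompleteSpace A] in
theorem aj_mul {x z : A} {a b : ℝ} (hx : ‖x‖ ≤ a) (hz : S.ν z ≤ b) : S.ν (x * z) ≤ a * b :=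
  (S.ν_mul x z).trans (mul_le_mul hx hz (apply_nonneg _ _) ((norm_nonneg _).trans hx))

omit [CompleteSpace A] in
theorem aj_L {X Z : A₃} {a b : ℝ} (hx : ‖X‖ ≤ a) (hz : S.ν₃ Z ≤ b) : S.ν (S.L (X * Z)) ≤ a * b :=
  (S.ν_L _).trans ((S.ν₃_mul X Z).trans
    (mul_le_mul hx hz (apply_nonneg _ _) ((norm_nonneg _).trans hx)))

omit [CompleteSpace A] in
theorem aj_nmul {B : Type*} [NormedRing B] {x z : B} {a b : ℝ} (hx : ‖x‖ ≤ a) (hz : ‖z‖ ≤ b) :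
    ‖x * z‖ ≤ a * b :=
  (norm_mul_le _ _).trans (mul_le_mul hx hz (norm_nonneg _) ((norm_nonneg _).trans hx))

omit [CompleteSpace A] in
theorem V₀_mem (m y : A) (hV : V ∈ S.C) : S.V₀ m y V ∈ S.C := by
  refine S.L_D _ (S.D.mul_mem (S.D.mul_mem (S.D.mul_mem (S.D.mul_mem (S.α_D _) (S.γ_D _)) ?_)
    (S.α_D _)) (S.γ_D _))
  rw [← S.α_C V hV]
  exact S.α_D _

omit [CompleteSpace A] in
theorem E₀_mem (hV : V ∈ S.C) : S.E₀ V ∈ S.C := by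
  refine S.L_D _ (S.D.mul_mem (S.D.mul_mem (S.D.mul_mem (S.D.mul_mem (S.α_D _) (S.γ_D _)) ?_)
    (S.α_D _)) (S.γ_D _))
  rw [← S.α_C V hV]
  exact S.α_D _

omit [CompleteSpace A] in
theorem C_inv {x : A} (hx : x ∈ S.C) (hu : IsUnit x) : Ring.inverse x ∈ S.C := by
  have h1 : S.κ (Ring.inverse x) * x = 1 := by
    conv_lhs => rw [← S.κ_C x hx, S.κ_C x hx]
    nth_rewrite 2 [← S.κ_C x hx]
    rw [← map_mul, Ring.inverse_mul_cancel _ hu, map_one]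
  have h2 : S.κ (Ring.inverse x) = Ring.inverse x := by
    rw [← mul_one (S.κ _), ← Ring.mul_inverse_cancel _ hu, ← mul_assoc, h1, one_mul]
  rw [← h2]
  exact S.κ_mem _

theorem J_step (hδ : δ ≤ r) (hr : r ≤ 1 / 100) (hp : ‖p - S.g‖ ≤ δ) (hm : ‖m - S.g‖ ≤ r)
    (hy : ‖y - S.g'‖ ≤ r) (hpM : p ∈ S.M) (hmM : m ∈ S.M) (hyM : y ∈ S.M') (hV : V ∈ S.C) :
    S.ν (S.V₀ m y V * S.g - S.nh p m * Ring.inverse (S.κ (S.nh p m)) * S.V₀ m y V) ≤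
      500 * r * S.J m y V := by
  have nm := S.nr_m hr hm
  have r0 := nm.r0
  obtain ⟨um, ni⟩ := S.nr_i hr hm
  obtain ⟨uy, nj⟩ := S.swap.nr_i hr hy
  have nip := S.nr_ip hδ hr hp hm
  have n3 := S.nr_n₃ hr hm
  have hiM := S.M_inv m hmM um
  have hjM := S.M'_inv y hyM uy
  have hn : S.n m = S.L (S.α (Ring.inverse m) * S.β m * S.γ (Ring.inverse m)) := rfl
  have hQ : S.Q p m = S.L (S.γ m * S.β (Ring.inverse m * p) * S.γ (Ring.inverse m)) := rfl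
  have hV₀ : S.V₀ m y V = S.L (S.α (Ring.inverse m) * S.γ (Ring.inverse y) * S.π V * S.α S.g *
    S.γ S.g') := rfl
  have mi := Ring.mul_inverse_cancel _ um
  have im := Ring.inverse_mul_cancel _ um
  have yj := Ring.mul_inverse_cancel _ uy
  have jy := Ring.inverse_mul_cancel _ uy
  generalize Ring.inverse m = i at *
  generalize Ring.inverse y = j at *
  have bm := nm.le (101 / 100)
  have bi := ni.le (102 / 100)
  have bj := nj.le (102 / 100)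
  obtain ⟨J, hJ⟩ : ∃ J, J = S.J m y V := ⟨_, rfl⟩
  obtain ⟨Zm, hZm⟩ : ∃ Zm, Zm = V * S.g - m * V := ⟨_, rfl⟩
  obtain ⟨Z₂, hZ₂⟩ : ∃ Z₂, Z₂ = (m - y) * V := ⟨_, rfl⟩
  rw [← hJ]
  have νZm : S.ν Zm ≤ J := by
    rw [hJ, hZm, Sys.J]
    exact le_add_of_nonneg_right (apply_nonneg _ _)
  have J0 : 0 ≤ J := (apply_nonneg _ _).trans νZm
  have rJ : 0 ≤ r * J := mul_nonneg r0 J0
  have νZ₂ : S.ν Z₂ ≤ J := by
    have e : Z₂ = (V * S.g' - y * V) - (V * S.g - m * V) + V * (S.g - S.g') := by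
      rw [hZ₂]; noncomm_ring
    have h1 := S.aj_mul (le_refl ‖V‖) S.ν_g.le
    have h2 := map_add_le_add S.ν ((V * S.g' - y * V) - (V * S.g - m * V)) (V * (S.g - S.g'))
    have h3 := map_sub_le_add S.ν (V * S.g' - y * V) (V * S.g - m * V)
    rw [e, hJ, Sys.J]
    linarith
  have hjV : j * V = i * V + i * (j * Z₂) := by
    have h1 : j * m = m * j := (S.comm m hmM j hjM).symm
    rw [hZ₂, ← mul_assoc j, mul_sub j, h1, jy, ← mul_assoc i, mul_sub i, ← mul_assoc i, im]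
    noncomm_ring
  have νjZ : S.ν (j * Z₂) ≤ 102 / 100 * J := S.aj_mul bj νZ₂
  have c1 : S.β m * S.γ j = S.γ j * S.β m :=
    S.comm₃ _ (S.to_M₃ _ hmM).2.1 _ (S.to_M₃' _ hjM).2.2.1
  have c2 : S.β i * S.γ j = S.γ j * S.β i :=
    S.comm₃ _ (S.to_M₃ _ hiM).2.1 _ (S.to_M₃' _ hjM).2.2.1
  -- step 0
  have s0 : S.V₀ m y V * S.g = S.L (S.α i * S.γ j * S.β (m * V)) + S.L (S.α i * S.γ j * S.β Zm) +
      S.L (S.α i * S.γ j * S.π V * S.α S.g * S.π S.g * S.γ (S.g' - S.g)) := by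
    rw [hV₀, ← S.L_right, ← map_add, ← map_add, mul_assoc _ (S.γ S.g'), ← S.πγ, ← mul_add,
      ← map_add, hZm, add_sub_cancel, map_mul S.β, S.β_g, S.β_C V hV, map_sub S.γ]
    congr 1
    noncomm_ring
  have b0 : S.ν (S.L (S.α i * S.γ j * S.π V * S.α S.g * S.π S.g * S.γ (S.g' - S.g))) ≤ 0 := by
    have h1 : S.ν₃ (S.γ (S.g' - S.g)) ≤ 0 := (S.ν_γ _).trans (by rw [map_sub_rev, S.ν_g])
    simpa using S.aj_L (le_refl _) h1
  -- step 1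
  have s1 : S.L (S.α i * S.γ j * S.β (m * V)) = S.n m * V + m * S.L (S.γ (j * Z₂)) +
      S.L ((S.α i * S.β m * S.γ i - S.π m) * S.γ (j * Z₂)) := by
    have h1 : S.γ j * S.π V = S.γ i * S.π V + S.γ i * S.γ (j * Z₂) := by
      rw [← S.γ_C V hV, ← map_mul, ← map_mul, ← map_mul, ← map_add, hjV]
    rw [hn, ← S.L_right, ← S.L_left, ← map_add, ← map_add, map_mul S.β, S.β_C V hV,
      mul_assoc (S.α i), ← mul_assoc (S.γ j), ← c1, mul_assoc (S.β m), h1]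
    congr 1
    noncomm_ring
  have b1 : S.ν (S.L ((S.α i * S.β m * S.γ i - S.π m) * S.γ (j * Z₂))) ≤ 7 * r * (102 / 100 * J) := by
    refine S.aj_L ?_ ((S.ν_γ _).trans νjZ)
    have h1 := (nm.map S.π S.π_le).h1
    have h2 := n3.h1
    have h3 := norm_sub_le (S.α i * S.β m * S.γ i - S.π S.g) (S.π m - S.π S.g)
    rw [sub_sub_sub_cancel_right] at h3
    linarith
  have z2 : S.ν (S.L (S.γ (j * Z₂))) ≤ 102 / 100 * J := (S.ν_L _).trans ((S.ν_γ _).trans νjZ)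
  -- step 2
  obtain ⟨R, hR⟩ : ∃ R, R = S.L (S.γ (m * j) * S.β (i * Zm)) := ⟨_, rfl⟩
  have s2 : S.L (S.α i * S.γ j * S.β Zm) = m * S.κ R + m * (R - S.κ R) +
      S.L ((S.α i - S.π m * S.γ m * S.β i) * (S.γ j * S.β Zm)) := by
    rw [← mul_add, add_sub_cancel, hR, ← S.L_left, ← map_add, map_mul S.γ, map_mul S.β,
      mul_assoc (S.γ m), ← mul_assoc (S.γ j), ← c2]
    congr 1
    noncomm_ring
  have b2 : S.ν (m * (R - S.κ R)) ≤ 0 := by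
    have h1 : S.ν (R - S.κ R) = 0 := hR ▸ S.mart_γ (i * Zm) (m * j)
    exact (S.aj_mul (le_refl ‖m‖) h1.le).trans_eq (mul_zero _)
  have b3 : S.ν (S.L ((S.α i - S.π m * S.γ m * S.β i) * (S.γ j * S.β Zm))) ≤
      7 * r * (102 / 100 * J) := by
    refine S.aj_L ?_ ((S.ν₃_mul _ _).trans (mul_le_mul ((S.γ_le _).trans bj)
      ((S.ν_β _).trans νZm) (apply_nonneg _ _) (by norm_num)))
    have h1 := (ni.map S.α S.α_le).h1
    have h2 := ((((nm.map S.π S.π_le).mul (nm.map S.γ S.γ_le) (21 / 10)).mul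
      (ni.map S.β S.β_le) 5).of_eq S.πγβ_g).h1
    have h3 := norm_sub_le (S.α i - S.α ↑S.g⁻¹) (S.π m * S.γ m * S.β i - S.α ↑S.g⁻¹)
    rw [sub_sub_sub_cancel_right] at h3
    linarith
  have z3 : S.ν (S.κ R) ≤ 101 / 100 * (102 / 100) * (102 / 100 * J) :=
    (S.ν_κ _).trans (hR ▸ S.aj_L ((S.γ_le _).trans (aj_nmul bm bj))
      ((S.ν_β _).trans (S.aj_mul bi νZm)))
  -- step 3
  obtain ⟨e, he⟩ : ∃ e, e = i * p - 1 := ⟨_, rfl⟩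
  have be : ‖e‖ ≤ 3 * r := he ▸ nip.h1
  have heM : e ∈ S.M := he ▸ S.M.sub_mem (S.M.mul_mem hiM hpM) S.M.one_mem
  have c3 : S.β e * S.γ j = S.γ j * S.β e :=
    S.comm₃ _ (S.to_M₃ _ heM).2.1 _ (S.to_M₃' _ hjM).2.2.1
  obtain ⟨P, hP⟩ : ∃ P, P = S.L (S.γ (m * j) * S.β (e * V)) := ⟨_, rfl⟩
  obtain ⟨E₃, hE₃⟩ : ∃ E₃, E₃ = S.L (S.γ m * S.β e * S.γ (i * (j * Z₂))) := ⟨_, rfl⟩
  have s3 : S.Q p m * V = V + (P - E₃) := by
    have h1 : i * p = 1 + e := by rw [he]; abel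
    have h2 : S.γ j * S.π V = S.γ i * S.π V + S.γ (i * (j * Z₂)) := by
      rw [← S.γ_C V hV, ← map_mul, ← map_mul, ← map_add, hjV]
    have h3 : S.γ m * S.γ i = 1 := by rw [← map_mul, mi, map_one]
    have h4 : V = S.L (S.γ m * S.γ i * S.π V) := by rw [h3, one_mul, S.L_π]
    rw [hQ, ← S.L_right, h1, hP, hE₃, map_mul S.γ m j, map_mul S.β e V, S.β_C V hV,
      mul_assoc (S.γ m) (S.γ j), ← mul_assoc (S.γ j), ← c3, mul_assoc (S.β e), h2]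
    conv_rhs => rw [h4]
    rw [← h4, ← map_sub]
    nth_rewrite 2 [h4]
    rw [← map_add, map_add S.β, map_one]
    congr 1
    noncomm_ring
  have b4 : S.ν E₃ ≤ 101 / 100 * (3 * r) * (102 / 100 * (102 / 100 * J)) :=
    hE₃ ▸ S.aj_L (aj_nmul ((S.γ_le _).trans bm) ((S.β_le _).trans be))
      ((S.ν_γ _).trans (S.aj_mul bi νjZ))
  have b5 : S.ν ((S.Q p m - S.κ (S.Q p m)) * V) ≤ 8 * (r * J) := by
    have h1 : S.κ (S.Q p m) * V = V + (S.κ P - S.κ E₃) := by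
      have := congrArg S.κ s3
      rwa [map_mul, map_add, map_sub, S.κ_C V hV] at this
    have h2 : (S.Q p m - S.κ (S.Q p m)) * V = (P - S.κ P) - (E₃ - S.κ E₃) := by
      rw [sub_mul, s3, h1]; abel
    have h3 : S.ν (P - S.κ P) = 0 := hP ▸ S.mart_γ (e * V) (m * j)
    have h4 := map_sub_le_add S.ν (P - S.κ P) (E₃ - S.κ E₃)
    have h5 := map_sub_le_add S.ν E₃ (S.κ E₃)
    have h6 := S.ν_κ E₃
    rw [h2]
    linarith
  -- assembly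
  obtain ⟨ζ, hζ⟩ : ∃ ζ, ζ = S.L (S.γ (j * Z₂)) + S.κ R := ⟨_, rfl⟩
  have ζC : S.κ ζ = ζ := S.κ_C _ (hζ ▸ S.C.add_mem (S.L_D _ (S.γ_D _)) (S.κ_mem _))
  have bζ : S.ν ζ ≤ 3 * J := by
    have := map_add_le_add S.ν (S.L (S.γ (j * Z₂))) (S.κ R)
    rw [hζ]
    linarith
  obtain ⟨E, hE⟩ : ∃ E, E = S.V₀ m y V * S.g - S.nh p m * V - m * ζ := ⟨_, rfl⟩
  have bE : S.ν E ≤ 25 * (r * J) := by
    have h1 : E = S.L ((S.α i * S.β m * S.γ i - S.π m) * S.γ (j * Z₂)) + m * (R - S.κ R) +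
        S.L ((S.α i - S.π m * S.γ m * S.β i) * (S.γ j * S.β Zm)) +
        S.L (S.α i * S.γ j * S.π V * S.α S.g * S.π S.g * S.γ (S.g' - S.g)) -
        m * ((S.Q p m - S.κ (S.Q p m)) * V) := by
      rw [hE, s0, s1, s2, hζ, nh]
      noncomm_ring
    have h2 := S.aj_mul bm b5
    rw [h1]
    refine (map_sub_le_add _ _ _).trans ((add_le_add ((map_add_le_add _ _ _).trans
      (add_le_add ((map_add_le_add _ _ _).trans (add_le_add ((map_add_le_add _ _ _).trans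
      (add_le_add b1 b2)) b3)) b0)) h2).trans ?_)
    linarith
  obtain ⟨uκ, nκi⟩ := (S.nr_κnh hδ hr hp hm).inv_one
  have nN := (S.nr_nh hδ hr hp hm).mul nκi 68
  have bN := nN.le 2
  have nNm := ((nN.mul (nm.map S.κ S.κ_le) 70).of_eq (y₀ := (S.g : A)) (by simp [S.κ_g])).h1
  have hκE : S.κ E = S.V₀ m y V - S.κ (S.nh p m) * V - S.κ m * ζ := by
    rw [hE, map_sub, map_sub, map_mul, map_mul, map_mul, S.κ_g, mul_one, ζC, S.κ_C V hV,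
      S.κ_C _ (S.V₀_mem m y hV)]
  have hk := Ring.inverse_mul_cancel _ uκ
  generalize Ring.inverse (S.κ (S.nh p m)) = k at *
  have fin : S.V₀ m y V * S.g - S.nh p m * k * S.V₀ m y V =
      E - S.nh p m * k * S.κ E - (S.nh p m * k * S.κ m - m) * ζ := by
    have h1 : S.nh p m * k * (S.κ (S.nh p m) * V) = S.nh p m * V := by
      rw [mul_assoc, ← mul_assoc k, hk, one_mul]
    rw [hκE, mul_sub, mul_sub, h1, hE]
    noncomm_ring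
  have bm' : ‖S.nh p m * k * S.κ m - m‖ ≤ 71 * r := by
    have h3 := norm_sub_le (S.nh p m * k * S.κ m - S.g) (m - S.g)
    rw [sub_sub_sub_cancel_right] at h3
    linarith
  rw [fin]
  refine (map_sub_le_add _ _ _).trans ((add_le_add ((map_sub_le_add _ _ _).trans
    (add_le_add bE (S.aj_mul bN ((S.ν_κ _).trans bE)))) (S.aj_mul bm' bζ)).trans ?_)
  linarith

theorem T_mem (hδ : δ ≤ r) (hr : r ≤ 1 / 100) (hp : ‖p - S.g‖ ≤ δ) (hq : ‖q - S.g'‖ ≤ δ)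
    (hm : ‖m - S.g‖ ≤ r) (hy : ‖y - S.g'‖ ≤ r) (hV : V ∈ S.C) : S.T p q m y V ∈ S.C :=
  S.C.mul_mem (S.C.mul_mem (S.C_inv (S.W_mem_C p m) (S.nr_W hδ hr hp hm).inv_one.1)
    (S.C_inv (S.swap.W_mem_C q y) (S.swap.nr_W hδ hr hq hy).inv_one.1)) (S.V₀_mem m y hV)

omit [CompleteSpace A] in
theorem aj_avg (X : A₃) (V : A) : ‖S.L (X * S.π V * S.α S.g * S.γ S.g')‖ ≤ ‖X‖ * ‖V‖ := by
  have := aj_nmul (aj_nmul (aj_nmul (le_refl ‖X‖) (S.π_le V)) ((S.α_le _).trans S.g_le))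
    ((S.γ_le _).trans S.g'_le)
  rw [mul_one, mul_one] at this
  exact (S.L_le _).trans this

omit [CompleteSpace A] in
theorem E₀_le (V : A) : ‖S.E₀ V‖ ≤ ‖V‖ := by
  refine (S.aj_avg _ V).trans (mul_le_of_le_one_left (norm_nonneg _) ?_)
  simpa using aj_nmul ((S.α_le _).trans S.gi_le) ((S.γ_le _).trans S.g'i_le)

theorem T_near (hδ : δ ≤ r) (hr : r ≤ 1 / 100) (hp : ‖p - S.g‖ ≤ δ) (hq : ‖q - S.g'‖ ≤ δ)
    (hm : ‖m - S.g‖ ≤ r) (hy : ‖y - S.g'‖ ≤ r) (V : A) :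
    ‖S.T p q m y V - S.E₀ V‖ ≤ 100 * r * ‖V‖ := by
  have n1 := ((S.nr_i hr hm).2.map S.α S.α_le).mul ((S.swap.nr_i hr hy).2.map S.γ S.γ_le) 5
  have n2 := ((S.nr_W hδ hr hp hm).inv_one.2.mul (S.swap.nr_W hδ hr hq hy).inv_one.2 13).h1
  have h1 : ‖S.V₀ m y V‖ ≤ 2 * ‖V‖ :=
    (S.aj_avg _ V).trans (mul_le_mul_of_nonneg_right (n1.le 2) (norm_nonneg _))
  have h2 : ‖S.V₀ m y V - S.E₀ V‖ ≤ 5 * r * ‖V‖ := by
    rw [V₀, E₀, ← map_sub, ← sub_mul, ← sub_mul, ← sub_mul]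
    exact (S.aj_avg _ V).trans (mul_le_mul_of_nonneg_right n1.h1 (norm_nonneg _))
  have e : S.T p q m y V - S.E₀ V =
      (Ring.inverse (S.W p m) * Ring.inverse (S.swap.W q y) - 1 * 1) * S.V₀ m y V +
        (S.V₀ m y V - S.E₀ V) := by
    rw [T]; noncomm_ring
  have h3 := aj_nmul n2 h1
  have h4 := mul_nonneg n1.r0 (norm_nonneg V)
  rw [e]
  refine (norm_add_le _ _).trans ?_
  linarith

theorem T_half (hδ : δ ≤ r) (hr : r ≤ 1 / 100) (hp : ‖p - S.g‖ ≤ δ) (hq : ‖q - S.g'‖ ≤ δ)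
    (hm : ‖m - S.g‖ ≤ r) (hy : ‖y - S.g'‖ ≤ r) (hpM : p ∈ S.M) (hqM : q ∈ S.M') (hmM : m ∈ S.M)
    (hyM : y ∈ S.M') (hV : V ∈ S.C) :
    S.ν (S.T p q m y V * S.g - S.F p m * S.T p q m y V) ≤ 1000 * r * S.J m y V := by
  obtain ⟨uW, nW⟩ := (S.nr_W hδ hr hp hm).inv_one
  obtain ⟨uW', nW'⟩ := (S.swap.nr_W hδ hr hq hy).inv_one
  have h1 := (S.mem_M hδ hr hp hm hpM hmM).2.1
  have h2 : Ring.inverse (S.swap.W q y) ∈ S.M' :=
    S.M'_inv _ (S.swap.mem_M hδ hr hq hy hqM hyM).1 uW'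
  have h3 := S.comm _ (S.M.mul_mem h1 (S.M_inv _ (S.κ_M _ h1) (S.nr_κnh hδ hr hp hm).inv_one.1)) _ h2
  have e : S.T p q m y V * S.g - S.F p m * S.T p q m y V =
      Ring.inverse (S.W p m) * Ring.inverse (S.swap.W q y) *
      (S.V₀ m y V * S.g - S.nh p m * Ring.inverse (S.κ (S.nh p m)) * S.V₀ m y V) := by
    have h4 : S.F p m * Ring.inverse (S.W p m) =
        Ring.inverse (S.W p m) * (S.nh p m * Ring.inverse (S.κ (S.nh p m))) := by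
      rw [F, mul_assoc, Ring.mul_inverse_cancel _ uW, mul_one, mul_assoc]
    rw [T, ← mul_assoc (S.F p m), ← mul_assoc (S.F p m), h4, mul_assoc _ _ (Ring.inverse (S.swap.W q y)),
      h3]
    noncomm_ring
  rw [e]
  refine (S.aj_mul ((nW.mul nW' 13).le 2) (S.J_step hδ hr hp hm hy hpM hmM hyM hV)).trans_eq ?_
  ring

theorem T_step (hδ : δ ≤ r) (hr : r ≤ 1 / 100) (hp : ‖p - S.g‖ ≤ δ) (hq : ‖q - S.g'‖ ≤ δ)
    (hm : ‖m - S.g‖ ≤ r) (hy : ‖y - S.g'‖ ≤ r) (hpM : p ∈ S.M) (hqM : q ∈ S.M') (hmM : m ∈ S.M)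
    (hyM : y ∈ S.M') (hV : V ∈ S.C) :
    S.J (S.F p m) (S.swap.F q y) (S.T p q m y V) ≤ 2000 * r * S.J m y V := by
  have h1 := S.T_half hδ hr hp hq hm hy hpM hqM hmM hyM hV
  have h2 := S.swap.T_half hδ hr hq hp hy hm hqM hpM hyM hmM hV
  have e1 : S.swap.J y m V = S.J m y V := add_comm _ _
  have e2 : S.swap.T q p y m V = S.T p q m y V := by
    have a1 := S.M_inv _ hmM (S.nr_i hr hm).1
    have a2 := S.M'_inv _ hyM (S.swap.nr_i hr hy).1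
    have a3 := S.comm₃ _ (S.to_M₃ _ a1).1 _ (S.to_M₃' _ a2).2.2.1
    have a4 := S.comm _ (S.M_inv _ (S.mem_M hδ hr hp hm hpM hmM).1 (S.nr_W hδ hr hp hm).inv_one.1) _
      (S.M'_inv _ (S.swap.mem_M hδ hr hq hy hqM hyM).1 (S.swap.nr_W hδ hr hq hy).inv_one.1)
    change Ring.inverse (S.swap.W q y) * Ring.inverse (S.W p m) *
      S.L (S.γ (Ring.inverse y) * S.α (Ring.inverse m) * S.π V * S.γ S.g' * S.α S.g) = _
    rw [← a3, ← a4, mul_assoc _ (S.γ S.g'), ← S.αγ, ← mul_assoc]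
    rfl
  rw [e1, e2] at h2
  have h3 : S.ν (S.T p q m y V * S.g' - S.swap.F q y * S.T p q m y V) ≤ 1000 * r * S.J m y V := h2
  rw [Sys.J]
  linarith

end Sys

end Crest.Agent.R78
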