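import Crest.Agent.R78.AbsJ

/-!
# Row 78, task R78-AbsMain: fixed point and the abstract theorem.

PLAN.
* `exists_fix`: `r₀ = 1/160000`, `10000 (δ + r₀²) ≤ r₀/8`.  On the complete set
  `{m ∈ M | ‖m - g‖ ≤ r₀/5}` the map `F p` is a self-map (`F_est` with `r = r₀`, `mem_M`) and is
  `1/2`-Lipschitz: for `m ≠ m'` let `f z = F p (m + z • ‖m' - m‖⁻¹ • (m' - m))` on `ball 0 (r₀/2)`;
  `f` is differentiable (`F_diff`) and maps into `ball (f 0) (r₀/4 + tiny)`/closed ball; Schwarz lemma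
  `Complex.dist_le_div_mul_dist_of_mapsTo_ball`.  Banach: `ContractingWith.exists_fixedPoint'`.
  Finally with `t = ‖m - g‖`: if `δ ≤ t`, `F_est` with `r = t` gives `t ≤ 10000 δ + t/80`.
* `idem_approx` (Newton iteration for idempotents): `T₀ = T`, `T_{n+1} = 3 T_n² - 2 T_n³` in
  `X →L[ℂ] X`; `T_{n+1} - T_n = (T_n² - T_n)(1 - 2 T_n)`,
  `T_{n+1}² - T_{n+1} = (T_n² - T_n)² (4 (T_n² - T_n) - 3)`; `d₀ = ‖T² - T‖ ≤ 4 θ`;
  induction `d_n ≤ 2⁻ⁿ d₀`, `‖T_n - T‖ ≤ 10 d₀ (1 - 2⁻ⁿ)`, `J (T_n x) ≤ 2⁻ⁿ J x`.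
* `abs_main`: fixed points `m` of `S.F p`, `y` of `S.swap.F q`, `r = 20000 δ`; `X = ↥(S.C)` (as a
  submodule), `T = S.T p q m y`, `E = S.E₀` restricted to `C` (`T_mem`, `L_D`; linear and bounded),
  `E² = E` by `idem`, `E 1 = 1`, seminorm `J m y` (`T_step`), `ν (V g - y V) ≤ ν (V g' - y V)` by `ν_g`.
-/

set_option autoImplicit false

namespace Crest.Agent.R78

theorem idem_approx {X : Type*} [NormedAddCommGroup X] [NormedSpace ℂ X] (T E : X →L[ℂ] X)
    (hE : E * E = E) (hE1 : ‖E‖ ≤ 1) {θ : ℝ} (hθ : θ ≤ 1 / 1000) (hT : ‖T - E‖ ≤ θ)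
    (J : Seminorm ℂ X) (hJ : ∀ x, J (T x) ≤ 1 / 8 * J x) {x : X} (hx : E x = x) {ε : ℝ}
    (hε : 0 < ε) : ∃ V, ‖V - x‖ ≤ 50 * θ * ‖x‖ ∧ J V ≤ ε := by
  have θ0 : 0 ≤ θ := (norm_nonneg _).trans hT
  have h1 : ‖(1 : X →L[ℂ] X)‖ ≤ 1 := ContinuousLinearMap.norm_id_le
  have nm : ∀ {a b : X →L[ℂ] X} {s t : ℝ}, ‖a‖ ≤ s → ‖b‖ ≤ t → ‖a * b‖ ≤ s * t :=
    fun ha hb => Sys.aj_nmul ha hb
  have hd : ‖T * T - T‖ ≤ 4 * θ := by
    have e : T * T - T = E * (T - E) + (T - E) * E + (T - E) * (T - E) - (T - E) + (E * E - E) := by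
      noncomm_ring
    rw [e, hE, sub_self, add_zero]
    have a1 := nm hE1 hT
    have a2 := nm hT hE1
    have a3 := nm hT hT
    have a4 := norm_sub_le (E * (T - E) + (T - E) * E + (T - E) * (T - E)) (T - E)
    have a5 := norm_add₃_le (a := E * (T - E)) (b := (T - E) * E) (c := (T - E) * (T - E))
    nlinarith
  have key : ∀ n : ℕ, ∃ U : X →L[ℂ] X, ‖U * U - U‖ ≤ (1 / 2) ^ n * (4 * θ) ∧
      ‖U - E‖ ≤ θ + 40 * θ * (1 - (1 / 2) ^ n) ∧ ∀ z, J (U z) ≤ (1 / 2) ^ n * (1 / 8) * J z := by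
    intro n
    induction n with
    | zero => exact ⟨T, by simpa using hd, by simpa using hT, by simpa using hJ⟩
    | succ n ih =>
      obtain ⟨U, a1, a2, a3⟩ := ih
      have p0 : (0 : ℝ) < (1 / 2) ^ n := by positivity
      have p1 : ((1 : ℝ) / 2) ^ n ≤ 1 := pow_le_one₀ (by norm_num) (by norm_num)
      rw [pow_succ]
      generalize ((1 : ℝ) / 2) ^ n = t at *
      have tθ : t * θ ≤ θ := by nlinarith
      have tθ0 : 0 ≤ t * θ := by positivity
      have hU : ‖U‖ ≤ 2 := by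
        have := norm_le_norm_add_norm_sub' U E
        nlinarith
      obtain ⟨D, hD⟩ : ∃ D, D = U * U - U := ⟨_, rfl⟩
      rw [← hD] at a1
      refine ⟨U * U + U * U + U * U - (U * U * U + U * U * U), ?_, ?_, fun z => ?_⟩
      · have e : (U * U + U * U + U * U - (U * U * U + U * U * U)) *
            (U * U + U * U + U * U - (U * U * U + U * U * U)) -
            (U * U + U * U + U * U - (U * U * U + U * U * U)) =
            (D * D * D + D * D * D) + (D * D * D + D * D * D) - (D * D + D * D + D * D) := by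
          rw [hD]; noncomm_ring
        have b0 : ‖D‖ ≤ 1 / 100 := by linarith
        have b1 := nm b0 a1
        have b2 := nm (nm b0 b0) a1
        rw [e]
        have c1 := norm_sub_le ((D * D * D + D * D * D) + (D * D * D + D * D * D))
          (D * D + D * D + D * D)
        have c2 := norm_add_le (D * D * D + D * D * D) (D * D * D + D * D * D)
        have c3 := norm_add_le (D * D * D) (D * D * D)
        have c4 := norm_add₃_le (a := D * D) (b := D * D) (c := D * D)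
        nlinarith
      · have e : U * U + U * U + U * U - (U * U * U + U * U * U) - E =
            (U - E) + (D - (D * U + D * U)) := by
          rw [hD]; noncomm_ring
        have b1 := nm a1 hU
        have c1 := norm_add_le (U - E) (D - (D * U + D * U))
        have c2 := norm_sub_le D (D * U + D * U)
        have c3 := norm_add_le (D * U) (D * U)
        rw [e]
        nlinarith
      · have j0 := apply_nonneg J z
        have b0 : ∀ w, J (U w) ≤ 1 / 8 * J w := fun w =>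
          (a3 w).trans (by nlinarith [apply_nonneg J w])
        have b1 := a3 z
        have b2 := b0 (U z)
        have b3 := b0 (U (U z))
        have c1 := map_sub_le_add J (U (U z) + U (U z) + U (U z)) (U (U (U z)) + U (U (U z)))
        have c2 := map_add_le_add J (U (U z) + U (U z)) (U (U z))
        have c3 := map_add_le_add J (U (U z)) (U (U z))
        have c4 := map_add_le_add J (U (U (U z))) (U (U (U z)))
        have c5 := apply_nonneg J (U z)
        change J (U (U z) + U (U z) + U (U z) - (U (U (U z)) + U (U (U z)))) ≤ _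
        linarith
  obtain ⟨n, hn⟩ := exists_pow_lt_of_lt_one (div_pos hε (by positivity : 0 < J x + 1))
    (by norm_num : (1 : ℝ) / 2 < 1)
  obtain ⟨U, -, a2, a3⟩ := key n
  have p0 : (0 : ℝ) < (1 / 2) ^ n := by positivity
  refine ⟨U x, ?_, (a3 x).trans ?_⟩
  · have e : U x - x = (U - E) x := by rw [ContinuousLinearMap.sub_apply, hx]
    rw [e]
    refine ((U - E).le_opNorm x).trans (mul_le_mul_of_nonneg_right (a2.trans ?_) (norm_nonneg _))
    nlinarith
  · rw [lt_div_iff₀ (by positivity)] at hn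
    nlinarith [apply_nonneg J x]

namespace Sys

variable {A A₃ : Type*} [NormedRing A] [NormedAlgebra ℂ A] [CompleteSpace A] [NormedRing A₃]
  [NormedAlgebra ℂ A₃] (S : Sys A A₃) {p q : A} {δ : ℝ}

theorem exists_fix (hδ : δ ≤ 1 / 10 ^ 11) (hp : ‖p - S.g‖ ≤ δ) (hpM : p ∈ S.M) :
    ∃ m ∈ S.M, ‖m - S.g‖ ≤ 20000 * δ ∧ S.F p m = m := by
  have δ0 : 0 ≤ δ := (norm_nonneg _).trans hp
  have hδr : δ ≤ 1 / 160000 := hδ.trans (by norm_num)
  have hr : (1 : ℝ) / 160000 ≤ 1 / 100 := by norm_num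
  have hF : ∀ m : A, ‖m - S.g‖ ≤ 1 / 160000 → ‖S.F p m - S.g‖ ≤ 1 / 160000 / 8 := fun m hm =>
    (S.F_est hδr hr hp hm).trans (by linarith [hδ])
  let K : Set A := (S.M : Set A) ∩ Metric.closedBall (S.g : A) (1 / 160000 / 5)
  have hK : ∀ m ∈ K, ‖m - S.g‖ ≤ 1 / 160000 / 5 := fun m hm => mem_closedBall_iff_norm.1 hm.2
  have hc : IsComplete K := (S.M_closed.inter Metric.isClosed_closedBall).isComplete
  have hmaps : Set.MapsTo (S.F p) K K := fun m hm =>
    ⟨(S.mem_M hδr hr hp ((hK m hm).trans (by norm_num)) hpM hm.1).2.2,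
      mem_closedBall_iff_norm.2 ((hF m ((hK m hm).trans (by norm_num))).trans (by norm_num))⟩
  have hlip : ∀ m ∈ K, ∀ m' ∈ K, dist (S.F p m') (S.F p m) ≤ 1 / 2 * dist m' m := by
    intro m hm m' hm'
    by_cases e : m' = m
    · simp [e]
    have t0 : 0 < ‖m' - m‖ := norm_pos_iff.2 (sub_ne_zero.2 e)
    have t1 : ‖m' - m‖ ≤ 2 * (1 / 160000 / 5) := by
      have := norm_sub_le (m' - S.g) (m - S.g)
      rw [sub_sub_sub_cancel_right] at this
      linarith [hK m hm, hK m' hm']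
    obtain ⟨d, hd⟩ : ∃ d, d = ((‖m' - m‖ : ℂ)⁻¹) • (m' - m) := ⟨_, rfl⟩
    have hd1 : ‖d‖ = 1 := by
      rw [hd, norm_smul, norm_inv, Complex.norm_real, norm_norm, inv_mul_cancel₀ t0.ne']
    have hz : ∀ z ∈ Metric.ball (0 : ℂ) (1 / 160000 / 2), ‖m + z • d - S.g‖ ≤ 1 / 160000 := by
      intro z hz
      rw [mem_ball_zero_iff] at hz
      have := norm_add_le (m - S.g) (z • d)
      rw [norm_smul, hd1, mul_one] at this
      rw [add_sub_right_comm]
      linarith [hK m hm]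
    have := Complex.dist_le_div_mul_dist_of_mapsTo_ball (f := fun w : ℂ => S.F p (m + w • d))
      (c := 0) (R₁ := 1 / 160000 / 2) (R₂ := 1 / 160000 / 4) (z := (‖m' - m‖ : ℂ))
      (fun z h => (S.F_diff hδr hr hp m d (hz z h)).differentiableWithinAt)
      (fun z h => by
        rw [mem_closedBall_iff_norm]
        have a1 := hF _ (hz z h)
        have a2 := hF _ (hz 0 (Metric.mem_ball_self (by norm_num)))
        have := norm_sub_le (S.F p (m + z • d) - S.g) (S.F p (m + (0 : ℂ) • d) - S.g)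
        rw [sub_sub_sub_cancel_right] at this
        linarith)
      (by rw [mem_ball_zero_iff, Complex.norm_real, norm_norm]; linarith)
    have e1 : m + (‖m' - m‖ : ℂ) • d = m' := by
      rw [hd, smul_smul, mul_inv_cancel₀ (by exact_mod_cast t0.ne'), one_smul, add_sub_cancel]
    simp only [e1, zero_smul, add_zero, dist_zero_right, Complex.norm_real, norm_norm] at this
    rw [dist_eq_norm m']
    linarith
  have hcon : ContractingWith (1 / 2) (hmaps.restrict (S.F p) K K) := by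
    refine ⟨by norm_num, LipschitzWith.of_dist_le_mul fun m' m => ?_⟩
    have h := hlip m m.2 m' m'.2
    have e : (((1 / 2 : NNReal)) : ℝ) = 1 / 2 := by norm_num
    rw [e]
    exact h
  obtain ⟨m, hm, hfix, -⟩ := hcon.exists_fixedPoint' hc hmaps (x := p)
    ⟨hpM, mem_closedBall_iff_norm.2 (hp.trans (hδ.trans (by norm_num)))⟩ (edist_ne_top _ _)
  refine ⟨m, hm.1, ?_, hfix⟩
  by_cases h : ‖m - S.g‖ ≤ δ
  · linarith
  · have h1 := S.F_est (not_le.1 h).le ((hK m hm).trans (by norm_num)) hp le_rfl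
    rw [hfix] at h1
    nlinarith [hK m hm, norm_nonneg (m - S.g)]

theorem abs_main (hδ : δ ≤ 1 / 10 ^ 11) (hp : ‖p - S.g‖ ≤ δ) (hq : ‖q - S.g'‖ ≤ δ) (hpM : p ∈ S.M)
    (hqM : q ∈ S.M') {ε : ℝ} (hε : 0 < ε) :
    ∃ V ∈ S.C, ∃ m ∈ S.M, ∃ y ∈ S.M', ‖V - 1‖ ≤ 10 ^ 8 * δ ∧ ‖m - S.g‖ ≤ 10 ^ 8 * δ ∧
      ‖y - S.g'‖ ≤ 10 ^ 8 * δ ∧ S.ν (V * S.g - m * V) ≤ ε ∧ S.ν (V * S.g - y * V) ≤ ε := by
  have δ0 : 0 ≤ δ := (norm_nonneg _).trans hp
  obtain ⟨m, hmM, hm, hFm⟩ := S.exists_fix hδ hp hpM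
  obtain ⟨y, hyM, hy, hFy⟩ := S.swap.exists_fix hδ hq hqM
  have hδr : δ ≤ 20000 * δ := by linarith
  have hr : 20000 * δ ≤ 1 / 100 := by linarith
  let X := Subalgebra.toSubmodule S.C
  let Tl : X →ₗ[ℂ] X :=
    { toFun := fun V => ⟨S.T p q m y V, S.T_mem hδr hr hp hq hm hy V.2⟩
      map_add' := fun V V' => Subtype.ext (by simp [T, V₀, mul_add, add_mul])
      map_smul' := fun c V => Subtype.ext (by simp [T, V₀]) }
  let El : X →ₗ[ℂ] X :=
    { toFun := fun V => ⟨S.E₀ V, S.E₀_mem V.2⟩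
      map_add' := fun V V' => Subtype.ext (by simp [E₀, mul_add, add_mul])
      map_smul' := fun c V => Subtype.ext (by simp [E₀]) }
  have hEl : ∀ V, ‖El V‖ ≤ 1 * ‖V‖ := fun V => by
    rw [one_mul]; exact S.E₀_le V
  have hD : ∀ V, ‖(Tl - El) V‖ ≤ 100 * (20000 * δ) * ‖V‖ := fun V =>
    S.T_near hδr hr hp hq hm hy V
  let Ec : X →L[ℂ] X := El.mkContinuous 1 hEl
  let Dc : X →L[ℂ] X := (Tl - El).mkContinuous _ hD
  let l : A → A → X →ₗ[ℂ] A := fun g m =>
    { toFun := fun V => V * g - m * V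
      map_add' := fun V V' => by simp only [Submodule.coe_add]; noncomm_ring
      map_smul' := fun c V => by simp [smul_sub] }
  let J : Seminorm ℂ X := S.ν.comp (l S.g m) + S.ν.comp (l S.g' y)
  have hJ : ∀ V : X, J V = S.J m y V := fun V => rfl
  obtain ⟨V, a1, a2⟩ := idem_approx (Dc + Ec) Ec
    (ContinuousLinearMap.ext fun V => Subtype.ext (S.idem V V.2))
    (LinearMap.mkContinuous_norm_le _ zero_le_one _) (θ := 100 * (20000 * δ)) (by linarith)
    (by rw [add_sub_cancel_right]; exact LinearMap.mkContinuous_norm_le _ (by positivity) _) J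
    (fun V => by
      have e : (((Dc + Ec) V : X) : A) = S.T p q m y V := sub_add_cancel _ _
      have := S.T_step hδr hr hp hq hm hy hpM hqM hmM hyM V.2
      rw [hFm, hFy] at this
      rw [hJ, hJ, e]
      refine this.trans (mul_le_mul_of_nonneg_right (by linarith) ?_)
      exact add_nonneg (apply_nonneg _ _) (apply_nonneg _ _))
    (x := ⟨1, S.C.one_mem⟩) (Subtype.ext (by
      change S.E₀ 1 = 1
      rw [E₀, map_one, mul_one, S.αγ_inv, mul_assoc (S.γ _), ← map_mul, Units.inv_mul, map_one,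
        mul_one, ← map_mul, Units.inv_mul, map_one, S.L_one])) hε
  rw [hJ, Sys.J] at a2
  have b1 := apply_nonneg S.ν ((V : A) * S.g - m * V)
  have b2 := apply_nonneg S.ν ((V : A) * S.g' - y * V)
  refine ⟨V, V.2, m, hmM, y, hyM, ?_, by linarith, ?_, by linarith, ?_⟩
  · have h1 : ‖(V : A) - 1‖ ≤ 50 * (100 * (20000 * δ)) * ‖(1 : A)‖ := a1
    nlinarith [S.one_le]
  · have : ‖y - S.g'‖ ≤ 20000 * δ := hy
    linarith
  · have e : (V : A) * S.g - y * V = (V * S.g' - y * V) + V * (S.g - S.g') := by noncomm_ring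
    have h1 := S.aj_mul (le_refl ‖(V : A)‖) S.ν_g.le
    have h2 := map_add_le_add S.ν ((V : A) * S.g' - y * V) (V * (S.g - S.g'))
    rw [e]
    linarith

end Sys

end Crest.Agent.R78
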