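import Crest.Agent.R78.Kap
import Crest.Agent.R124.Sh.UL

/-! # Row 78: bicommutants of represented subalgebras, transfer principles. -/

set_option autoImplicit false
set_option linter.unusedSectionVars false

open Filter Topology
open scoped InnerProductSpace

namespace Crest.Agent.R78

noncomputable section

variable {𝔸 : Type*} [CStarAlgebra 𝔸] {K : Type*} [NormedAddCommGroup K] [InnerProductSpace ℂ K]
  [CompleteSpace K] {ρ : 𝔸 →⋆ₐ[ℂ] (K →L[ℂ] K)} {S T : StarSubalgebra ℂ 𝔸}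

theorem isClosed_centralizer (s : Set (K →L[ℂ] K)) : IsClosed (Set.centralizer s) := by
  have : Set.centralizer s = ⋂ m ∈ s, {c | m * c = c * m} := by
    ext c; simp [Set.mem_centralizer_iff]
  rw [this]
  exact isClosed_biInter fun m _ => isClosed_eq (by fun_prop) (by fun_prop)

variable (ρ S) in
/-- the bicommutant of `ρ S` -/
def bic : StarSubalgebra ℂ (K →L[ℂ] K) where
  toSubalgebra := Subalgebra.centralizer ℂ (Set.centralizer (ρ '' S))
  star_mem' := fun {x} hx T hT => by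
    have h : star T ∈ Set.centralizer (ρ '' S) := by
      rintro _ ⟨a, ha, rfl⟩
      have := congrArg star (hT _ ⟨star a, star_mem ha, rfl⟩)
      simpa only [star_mul, ← map_star, star_star] using this.symm
    simpa only [star_mul, star_star] using (congrArg star (hx _ h)).symm

theorem mem_bic {x : K →L[ℂ] K} :
    x ∈ bic ρ S ↔ ∀ T : K →L[ℂ] K, (∀ a ∈ S, ρ a * T = T * ρ a) → T * x = x * T :=
  ⟨fun h T hT => h T (by rintro _ ⟨a, ha, rfl⟩; exact hT a ha),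
    fun h T hT => h T fun a ha => hT _ ⟨a, ha, rfl⟩⟩

theorem bic_closed : IsClosed (bic ρ S : Set (K →L[ℂ] K)) := isClosed_centralizer _

instance : IsClosed (bic ρ S : Set (K →L[ℂ] K)) := bic_closed

instance : CompleteSpace (bic ρ S) := bic_closed.completeSpace_coe

theorem mem_bic_of_mem {a : 𝔸} (ha : a ∈ S) : ρ a ∈ bic ρ S := mem_bic.2 fun _ h => (h a ha).symm

theorem bic_mono (h : S ≤ T) : bic ρ S ≤ bic ρ T := fun _ hx =>
  mem_bic.2 fun y hy => mem_bic.1 hx y fun a ha => hy a (h ha)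

theorem bic_comm (h : ∀ a ∈ S, ∀ b ∈ T, a * b = b * a) {x y : K →L[ℂ] K} (hx : x ∈ bic ρ S)
    (hy : y ∈ bic ρ T) : x * y = y * x :=
  mem_bic.1 hy x fun b hb => mem_bic.1 hx (ρ b) fun a ha => by rw [← map_mul, ← map_mul, h a ha b hb]

theorem bic_inv {x y : K →L[ℂ] K} (hx : x ∈ bic ρ S) (h1 : x * y = 1) (h2 : y * x = 1) :
    y ∈ bic ρ S := mem_bic.2 fun T hT => by
  have := mem_bic.1 hx T hT
  calc T * y = y * x * T * y := by rw [h2, one_mul]
    _ = y * T * (x * y) := by rw [mul_assoc y, ← this]; simp only [mul_assoc]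
    _ = y * T := by rw [h1, mul_one]

theorem bic_wot {ι : Type*} {l : Filter ι} [l.NeBot] {x : ι → K →L[ℂ] K} {z : K →L[ℂ] K}
    (hx : ∀ i, x i ∈ bic ρ S) (h : ∀ a b, Tendsto (fun i => ⟪a, x i b⟫_ℂ) l (𝓝 ⟪a, z b⟫_ℂ)) :
    z ∈ bic ρ S := mem_bic.2 fun T hT => by
  ext b
  refine ext_inner_left ℂ fun a => ?_
  have h1 := h (ContinuousLinearMap.adjoint T a) b
  simp only [ContinuousLinearMap.adjoint_inner_left] at h1
  refine tendsto_nhds_unique h1 ((h a (T b)).congr fun i => ?_)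
  exact congrArg (fun y : K →L[ℂ] K => ⟪a, y b⟫_ℂ) (mem_bic.1 (hx i) T hT).symm

theorem bic_approx (hS : IsClosed (S : Set 𝔸)) {x : K →L[ℂ] K} (hx : x ∈ bic ρ S) (Z : Finset K)
    {ε : ℝ} (hε : 0 < ε) : ∃ a ∈ S, ‖a‖ ≤ 2 * ‖x‖ ∧
      ∀ ζ ∈ Z, ‖ρ a ζ - x ζ‖ ≤ ε ∧ ‖star (ρ a) ζ - star x ζ‖ ≤ ε := by
  have hr : Set.range (ρ.comp S.subtype) = ρ '' S := by
    ext y; constructor
    · rintro ⟨a, rfl⟩; exact ⟨a, a.2, rfl⟩
    · rintro ⟨a, ha, rfl⟩; exact ⟨⟨a, ha⟩, rfl⟩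
  obtain ⟨a, h1, h2⟩ := kaplansky (ρ.comp S.subtype) (y := x) (by rw [hr]; exact hx) Z hε
  exact ⟨a, a.2, h1, h2⟩

/-- transfer of inequalities: `Λ` is Lipschitz for a strong-operator seminorm -/
theorem bic_le (hS : IsClosed (S : Set 𝔸)) {x : K →L[ℂ] K} (hx : x ∈ bic ρ S)
    (Λ : (K →L[ℂ] K) → ℝ) (Z : Finset K) {C c : ℝ}
    (hΛ : ∀ y, Λ x ≤ Λ y + C * ∑ ζ ∈ Z, ‖y ζ - x ζ‖)
    (h : ∀ a ∈ S, ‖a‖ ≤ 2 * ‖x‖ → Λ (ρ a) ≤ c) : Λ x ≤ c := by
  refine le_of_forall_pos_le_add fun ε hε => ?_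
  obtain ⟨a, ha, h1, h2⟩ := bic_approx hS hx Z (ε := ε / ((|C| + 1) * (Z.card + 1))) (by positivity)
  have h3 : ∑ ζ ∈ Z, ‖ρ a ζ - x ζ‖ ≤ (Z.card + 1) * (ε / ((|C| + 1) * (Z.card + 1))) := by
    refine (Finset.sum_le_card_nsmul _ _ _ fun ζ hζ => (h2 ζ hζ).1).trans ?_
    rw [nsmul_eq_mul]; gcongr; linarith
  have h4 : C * ∑ ζ ∈ Z, ‖ρ a ζ - x ζ‖ ≤ ε := by
    calc _ ≤ (|C| + 1) * ((Z.card + 1) * (ε / ((|C| + 1) * (Z.card + 1)))) :=
          mul_le_mul (by linarith [le_abs_self C]) h3 (by positivity) (by positivity)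
      _ = ε := by field_simp
  linarith [hΛ (ρ a), h a ha h1]

/-- transfer of identities -/
theorem bic_eq (hS : IsClosed (S : Set 𝔸)) {x : K →L[ℂ] K} (hx : x ∈ bic ρ S)
    {P Q P' Q' : K →L[ℂ] K} (h : ∀ a ∈ S, P * ρ a * Q = P' * ρ a * Q') :
    P * x * Q = P' * x * Q' := by
  classical
  ext ζ
  rw [← sub_eq_zero, ← norm_le_zero_iff]
  refine bic_le hS hx (fun y => ‖(P * y * Q) ζ - (P' * y * Q') ζ‖) {Q ζ, Q' ζ} (C := ‖P‖ + ‖P'‖)
    (fun y => ?_) fun a ha _ => by rw [h a ha]; simp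
  have h1 : ‖y (Q ζ) - x (Q ζ)‖ ≤ ∑ ζ ∈ ({Q ζ, Q' ζ} : Finset K), ‖y ζ - x ζ‖ :=
    Finset.single_le_sum (f := fun ζ => ‖y ζ - x ζ‖) (fun _ _ => norm_nonneg _) (by simp)
  have h2 : ‖y (Q' ζ) - x (Q' ζ)‖ ≤ ∑ ζ ∈ ({Q ζ, Q' ζ} : Finset K), ‖y ζ - x ζ‖ :=
    Finset.single_le_sum (f := fun ζ => ‖y ζ - x ζ‖) (fun _ _ => norm_nonneg _) (by simp)
  have e : (P * x * Q) ζ - (P' * x * Q') ζ = ((P * y * Q) ζ - (P' * y * Q') ζ) -
      P (y (Q ζ) - x (Q ζ)) + P' (y (Q' ζ) - x (Q' ζ)) := by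
    simp only [ContinuousLinearMap.mul_def, ContinuousLinearMap.comp_apply, map_sub]; abel
  rw [e]
  refine (norm_add_le _ _).trans ((add_le_add (norm_sub_le _ _) le_rfl).trans ?_)
  have h3 := P.le_opNorm (y (Q ζ) - x (Q ζ))
  have h4 := P'.le_opNorm (y (Q' ζ) - x (Q' ζ))
  have h5 := mul_le_mul_of_nonneg_left h1 (norm_nonneg P)
  have h6 := mul_le_mul_of_nonneg_left h2 (norm_nonneg P')
  linarith

theorem bic_conj_mem (hS : IsClosed (S : Set 𝔸)) {x : K →L[ℂ] K} (hx : x ∈ bic ρ S)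
    {P Q : K →L[ℂ] K} (h : ∀ a ∈ S, P * ρ a * Q ∈ bic ρ T) : P * x * Q ∈ bic ρ T :=
  mem_bic.2 fun y hy => by
    have := bic_eq hS hx (P := y * P) (Q := Q) (P' := P) (Q' := Q * y) fun a ha => by
      simpa only [mul_assoc] using mem_bic.1 (h a ha) y hy
    simpa only [mul_assoc] using this

variable (ρ) in
/-- a co-isometry implementing a pull-back -/
structure Hk where
  P : K →L[ℂ] K
  t : 𝔸 → 𝔸
  PP : P * star P = 1
  int : ∀ a, P * ρ a = ρ (t a) * P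

namespace Hk

variable (k : Hk ρ)

theorem conj (a : 𝔸) : k.P * ρ a * star k.P = ρ (k.t a) := by
  rw [k.int, mul_assoc, k.PP, mul_one]

theorem norm_le : ‖k.P‖ ≤ 1 := by
  refine le_of_sq_le_sq ?_ zero_le_one
  rw [sq, ← CStarRing.norm_self_mul_star, k.PP, one_pow]
  exact ContinuousLinearMap.norm_id_le

theorem conj_norm_le (x : K →L[ℂ] K) : ‖k.P * x * star k.P‖ ≤ ‖x‖ := by
  calc _ ≤ ‖k.P‖ * ‖x‖ * ‖star k.P‖ := norm_mul₃_le
    _ ≤ 1 * ‖x‖ * 1 := by rw [norm_star]; gcongr <;> exact k.norm_le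
    _ = ‖x‖ := by ring

theorem proj_comm (a : 𝔸) : ρ a * (star k.P * k.P) = star k.P * k.P * ρ a := by
  have h1 : ρ (k.t (star a)) = star (ρ (k.t a)) := by
    rw [← k.conj, ← k.conj, map_star]; simp only [star_mul, star_star, mul_assoc]
  have h2 := congrArg star (k.int (star a))
  rw [h1, map_star, star_mul, star_mul, star_star, star_star] at h2
  rw [← mul_assoc, h2, mul_assoc, mul_assoc, k.int]

theorem conj_mul {x y : K →L[ℂ] K} (hx : x ∈ bic ρ S) :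
    k.P * (x * y) * star k.P = k.P * x * star k.P * (k.P * y * star k.P) := by
  have h := mem_bic.1 hx _ fun a _ => k.proj_comm a
  calc _ = k.P * star k.P * k.P * x * y * star k.P := by rw [k.PP, one_mul]; simp only [mul_assoc]
    _ = k.P * (star k.P * k.P * x) * y * star k.P := by simp only [mul_assoc]
    _ = _ := by rw [h]; simp only [mul_assoc]

/-- the pull-back on bicommutants -/
def hom (hS : IsClosed (S : Set 𝔸)) (h : ∀ a ∈ S, k.t a ∈ T) : bic ρ S →ₐ[ℂ] bic ρ T where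
  toFun x := ⟨k.P * x * star k.P,
    bic_conj_mem hS x.2 fun a ha => by rw [k.conj]; exact mem_bic_of_mem (h a ha)⟩
  map_one' := Subtype.ext (by simp [k.PP])
  map_mul' x y := Subtype.ext (k.conj_mul x.2)
  map_zero' := Subtype.ext (by simp)
  map_add' x y := Subtype.ext (by simp [mul_add, add_mul])
  commutes' c := Subtype.ext (by simp [Algebra.algebraMap_eq_smul_one, k.PP])

@[simp] theorem hom_coe (hS : IsClosed (S : Set 𝔸)) (h : ∀ a ∈ S, k.t a ∈ T) (x : bic ρ S) :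
    (k.hom hS h x : K →L[ℂ] K) = k.P * x * star k.P := rfl

theorem conj_fix {x : K →L[ℂ] K} (hx : x ∈ bic ρ S) (h : ∀ a ∈ S, k.t a = a) :
    k.P * x * star k.P = x := by
  rw [mem_bic.1 hx k.P fun a ha => by rw [k.int, h a ha], mul_assoc, k.PP, mul_one]

end Hk

end

end Crest.Agent.R78
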