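import Crest.Agent.R78.Reg
import Crest.Agent.R124.Top
import Crest.Agent.R124.Kad.Kap
import Crest.Agent.S0165

/-!
# Row 78, task R78-Close: commutator estimates and complete closeness.

PLAN.  `exists_DPC`: `C = max 1 (max C₁ C₂)` with `C₁` from `Crest.Agent.S0165.result` and `C₂` from
`R124.top` (for `g < 0` in `DP` the space is trivial, see the proof of S0165; or rederive `DP` as there).
`Cm.amp`: for `y ∈ T` use `cb` with `P = N`, `Y = y`, `g ‖y‖` (`mat_dl'`, `norm_dgH`; if `ι` is empty both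
sides vanish).  `Cm.near`: `R124.Kad.arveson` with `P.commutant`, `commutant_commutant`.
`Cm.anear`: `Cm.amp`, `mem_commutant_ampVN`, `Cm.near` (for `K = 0` take `Y = 0`).
`Cm.dg_amp`: `mem_commutant_ampVN`, `Cm.amp`, `Cm.symm`.
-/

set_option autoImplicit false

namespace Crest.Agent.R78

open Crest.Agent.R124

universe u

/-- the constant of the derivation theorem -/
structure DPC (C : ℝ) : Prop where
  one_le : 1 ≤ C
  dp : Kad.DP.{u} C
  cb : ∀ (K : Type u) [NormedAddCommGroup K] [InnerProductSpace ℂ K] [CompleteSpace K]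
    (P : VonNeumannAlgebra K) (Y : K →L[ℂ] K) (g : ℝ), 0 ≤ g →
    Der (P : Set (K →L[ℂ] K)) Y g → CB (P : Set (K →L[ℂ] K)) Y (C * g)

theorem exists_DPC : ∃ C, DPC.{u} C := by
  obtain ⟨C₁, h₁⟩ := Crest.Agent.S0165.result.{u}
  obtain ⟨C₂, -, h₂⟩ := R124.top.{u}
  refine ⟨max 1 (max C₁ C₂), le_max_left _ _, fun K _ _ _ P Y g hg h h1 Yh X x hY hx hX => ?_,
    fun K _ _ _ P Y g hg hD ι _ x hx => ?_⟩
  · rcases le_or_gt 0 g with h0 | h0
    · refine (h₁ K P Y g hg h h1 Yh X x hY hx hX).trans ?_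
      exact mul_le_mul_of_nonneg_right (mul_le_mul_of_nonneg_right
        ((le_max_left _ _).trans (le_max_right _ _)) h0) (norm_nonneg _)
    · have h1 := hg 1 (one_mem P.toStarSubalgebra)
      have h2 : ‖(1 : K →L[ℂ] K)‖ = 0 := by
        simp only [mul_one, one_mul, sub_self, norm_zero] at h1
        nlinarith [norm_nonneg (1 : K →L[ℂ] K)]
      have h3 : ∀ v : K, v = 0 := fun v => by
        simpa using congrArg (fun a : K →L[ℂ] K => a v) (norm_eq_zero.1 h2)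
      have h4 : X = 0 := by ext v i; exact (h3 _).trans (h3 _).symm
      simp [h4]
  · refine (h₂ K P Y g hg hD ι x hx).trans ?_
    exact mul_le_mul_of_nonneg_right (mul_le_mul_of_nonneg_right
      ((le_max_right _ _).trans (le_max_right _ _)) hg) (mn_nonneg x)

variable {H : Type u} [NormedAddCommGroup H] [InnerProductSpace ℂ H] [CompleteSpace H]

/-- almost commuting sets -/
def Cm (S T : Set (H →L[ℂ] H)) (g : ℝ) : Prop :=
  ∀ x ∈ S, ∀ y ∈ T, ‖x * y - y * x‖ ≤ g * ‖x‖ * ‖y‖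

/-- almost commuting von Neumann algebras -/
abbrev CmV (N M : VonNeumannAlgebra H) (g : ℝ) : Prop := Cm (N : Set (H →L[ℂ] H)) M g

/-- complete near inclusion -/
def ANear (N M : VonNeumannAlgebra H) (δ : ℝ) : Prop :=
  ∀ K : ℕ, ∀ X ∈ ampVN (Fin K) N, ∃ Y ∈ ampVN (Fin K) M, ‖Y - X‖ ≤ δ * ‖X‖

variable {C g : ℝ} {S T : Set (H →L[ℂ] H)} {N M : VonNeumannAlgebra H}

theorem Cm.symm (h : Cm S T g) : Cm T S g := by
  intro y hy x hx
  rw [norm_sub_rev, mul_right_comm]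
  exact h x hx y hy

theorem Cm.of_near {δ : ℝ} (h : ∀ x ∈ N, ‖x‖ ≤ 1 → ∃ y ∈ M, ‖x - y‖ ≤ δ) :
    CmV N M.commutant (2 * δ) := by
  intro x hx y hy
  rcases eq_or_ne x 0 with rfl | h0
  · simp
  have hn : 0 < ‖x‖ := norm_pos_iff.2 h0
  obtain ⟨m, hm, h1⟩ := h (((‖x‖⁻¹ : ℝ) : ℂ) • x) (N.toStarSubalgebra.smul_mem hx _) (by
    rw [norm_smul, Complex.norm_real, norm_inv, norm_norm, inv_mul_cancel₀ hn.ne'])
  have h2 : m * y = y * m := VonNeumannAlgebra.mem_commutant_iff.1 hy m hm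
  set d := ((‖x‖⁻¹ : ℝ) : ℂ) • x - m with hd
  have h3 : x * y - y * x = ((‖x‖ : ℝ) : ℂ) • (d * y - y * d) := by
    rw [hd, sub_mul, mul_sub, h2, smul_mul_assoc, mul_smul_comm, sub_sub_sub_cancel_right,
      ← smul_sub, smul_smul, ← Complex.ofReal_mul, mul_inv_cancel₀ hn.ne', Complex.ofReal_one,
      one_smul]
  have h4 : ‖d * y - y * d‖ ≤ 2 * δ * ‖y‖ := by
    have a1 := (norm_mul_le d y).trans (mul_le_mul_of_nonneg_right h1 (norm_nonneg y))
    have a2 := (norm_mul_le y d).trans (mul_le_mul_of_nonneg_left h1 (norm_nonneg y))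
    linarith [norm_sub_le (d * y) (y * d)]
  rw [h3, norm_smul, Complex.norm_real, norm_norm]
  nlinarith

theorem Cm.amp (hC : DPC.{u} C) (hg : 0 ≤ g) (h : Cm (N : Set (H →L[ℂ] H)) T g) (ι : Type) [Fintype ι]
    [DecidableEq ι] : Cm (ampVN ι N : Set (L2 ι H →L[ℂ] L2 ι H)) (dgH ι '' T) (C * g) := by
  rintro _ ⟨x, hx, rfl⟩ _ ⟨y, hy, rfl⟩
  rcases isEmpty_or_nonempty ι with hι | hι
  · have h0 : mat x = 0 := by ext v i; exact isEmptyElim i
    simp [h0]
  have h1 := hC.cb H N y (g * ‖y‖) (by positivity) (fun a ha => by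
    rw [norm_sub_rev, mul_right_comm]; exact h a ha y hy) ι x hx
  rw [mn, mat_dl'] at h1
  rw [norm_sub_rev, norm_dgH]
  exact h1.trans (le_of_eq (by rw [mn]; ring))

theorem Cm.near (hC : DPC.{u} C) (hg : 0 ≤ g) (h : Cm S M.commutant g) :
    ∀ x ∈ S, ∃ y ∈ M, ‖y - x‖ ≤ 2 * C * g * ‖x‖ := by
  intro x hx
  obtain ⟨y, hy, h1⟩ := Kad.arveson (zero_le_one.trans hC.one_le) hC.dp M.commutant x
    (g := g * ‖x‖) (by positivity) fun a ha => h x hx a ha
  rw [VonNeumannAlgebra.commutant_commutant] at hy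
  exact ⟨y, hy, by rw [norm_sub_rev]; linarith⟩

theorem Cm.anear (hC : DPC.{u} C) (hg : 0 ≤ g) (h : CmV N M.commutant g) :
    ANear N M (2 * C ^ 2 * g) := by
  intro K X hX
  have hC0 : 0 ≤ C := zero_le_one.trans hC.one_le
  rcases isEmpty_or_nonempty (Fin K) with hι | hι
  · have h0 : X = 0 := by ext v i; exact isEmptyElim i
    exact ⟨0, zero_mem (ampVN (Fin K) M).toStarSubalgebra, by simp [h0]⟩
  have h1 : Cm (ampVN (Fin K) N : Set (L2 (Fin K) H →L[ℂ] L2 (Fin K) H))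
      (ampVN (Fin K) M).commutant (C * g) := by
    intro a ha b hb
    obtain ⟨y, hy, rfl⟩ := mem_commutant_ampVN.1 hb
    exact h.amp hC hg (Fin K) a ha _ ⟨y, hy, rfl⟩
  obtain ⟨Y, hY, h2⟩ := h1.near hC (mul_nonneg hC0 hg) X hX
  exact ⟨Y, hY, h2.trans (le_of_eq (by ring))⟩

theorem Cm.dg_amp (hC : DPC.{u} C) (hg : 0 ≤ g) (h : CmV N M.commutant g) (ι : Type) [Fintype ι]
    [DecidableEq ι] [Nonempty ι] :
    CmV (ampVN ι N.commutant).commutant (ampVN ι M.commutant) (C * g) := by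
  intro a ha b hb
  obtain ⟨y, hy, rfl⟩ := mem_commutant_ampVN.1 ha
  rw [VonNeumannAlgebra.commutant_commutant] at hy
  exact (h.symm.amp hC hg ι).symm _ ⟨y, hy, rfl⟩ b hb

end Crest.Agent.R78
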