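import Crest.Agent.R121.Final

/-!
# Row 78, task R78-Coh: Hochschild cohomology of von Neumann algebras with bounds.

PLAN.  `coh_bd`: copy the proof of `R121.WS.coh` (Final.lean), keeping the norm bound returned by
`exists_co_of_mod`.  `coh2`, `coh3`: translate between curried continuous (bi/tri)linear maps and
`Co A 2`, `Co A 3` (`MultilinearMap.mkContinuous` applied to `fun a => f (a 0) (a 1)`; back with
`LinearMap.mkContinuous₂` / `continuousMultilinearCurryFin1`, `ContinuousMultilinearMap.le_opNorm`);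
unfold `hochschildDiff`, `mergeArgs` with `Fin.sum_univ_succ`.  For `coh3` the 3-cochain `δ f` is a cocycle
(`δ δ = 0`, expand).
-/

set_option autoImplicit false

namespace Crest.Agent.R78

open Crest.Agent.R121 OpAlg

universe u

variable {A : Type u} [CStarAlgebra A]

theorem coh_bd (W : WS A) {n : ℕ} (f : Co A (n + 1)) (hf : ∀ a, hochschildDiff f a = 0) :
    ∃ g : Co A n, ‖g‖ ≤ (n + 2) * ‖f‖ ∧ ∀ a, hochschildDiff g a = f a := by
  obtain ⟨c, hc⟩ : ∃ c : ℝ, c = (n + 2) * ‖f‖ := ⟨_, rfl⟩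
  have hc0 : 0 ≤ c := by rw [hc]; positivity
  let s : Set (Fam W (Fin n → A)) := {y | ∀ a, ‖y a‖ ≤ c * ∏ i, ‖a i‖} ∩ ({y | ML y} ∩ {y | Mod y})
  let t : {z // IsCP z ∧ Good f z} → Set (Fam W (Fin n → A)) := fun z =>
    {y | ∀ a, z.1 * PD id y a 1 = z.1 * f a}
  have hmod : IsClosed {y : Fam W (Fin n → A) | Mod y} := by
    simp only [R121.Mod, Set.ofPred_forall]
    exact isClosed_iInter fun p => isClosed_iInter fun x => isClosed_iInter fun a =>
      (WC.eval p _).isClosed_eq ((WC.eval p x).mul_right a)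
  have hpd : ∀ (y : Fam W (Fin n → A)) (g : Co A n), Mod y → (∀ a, g a = y a 1) →
      ∀ a, hochschildDiff g a = PD id y a 1 := fun y g hy hg a => by
    have := hy (fun i => a i.castSucc) 1 (a (Fin.last n))
    rw [one_mul] at this
    simp only [hochschildDiff, PD, hg, id, mul_one, this]
  obtain ⟨y, ⟨hyb, hy1, hy2⟩, hy3⟩ : (s ∩ ⋂ z, t z).Nonempty := by
    refine ((isCompact_box _).inter_right (isClosed_ML.inter hmod)).inter_iInter_nonempty t
      (fun z => ?_) fun u => ?_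
    · simp only [t, Set.ofPred_forall]
      exact isClosed_iInter fun a => ((WC.pd id a 1).mul_left _).isClosed_eq (WC.const _)
    · classical
      induction u using Finset.induction_on with
      | empty =>
        exact ⟨0, ⟨fun a => by
          change ‖(0 : A →L[ℂ] A)‖ ≤ _
          rw [norm_zero]; positivity, fun _ _ _ _ _ _ => by simp, fun _ _ _ => by simp⟩, by simp⟩
      | insert z u _ ih =>
        obtain ⟨y, ⟨hyb, hy1, hy2⟩, hy3⟩ := ih
        obtain ⟨z, hz, g, hg, hg'⟩ := z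
        rw [← hc] at hg
        let y' : Fam W (Fin n → A) := fun a =>
          ContinuousLinearMap.mul ℂ A (z * g a + (1 - z) * y a 1)
        have hy' : ∀ a x, y' a x = (z * g a + (1 - z) * y a 1) * x := fun _ _ => rfl
        have hcz : ∀ x y : A, x * (z * y) = z * (x * y) := fun x y => by
          rw [← mul_assoc, ← hz.2, mul_assoc]
        have hP : ∀ a, PD id y' a 1 = z * hochschildDiff g a + (1 - z) * PD id y a 1 := fun a => by
          have := hy2 (fun i => a i.castSucc) 1 (a (Fin.last n))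
          rw [one_mul] at this
          simp only [hochschildDiff, PD, hy', id, mul_one, this, mul_add, add_mul, sub_mul, one_mul,
            mul_sub, hcz (a 0), smul_add, smul_sub, Finset.sum_add_distrib, Finset.sum_sub_distrib,
            Finset.mul_sum, mul_smul_comm, mul_assoc]
          abel
        refine ⟨y', ⟨fun a => ?_, fun a i c s t x => ?_, fun a x b => ?_⟩, ?_⟩
        · refine (ContinuousLinearMap.opNorm_mul_apply_le ..).trans (hz.norm_mix ?_ ?_)
          · exact g.le_of_opNorm_le hg a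
          · have h1 : ‖(1 : A)‖ ≤ 1 := (IsStarProjection.one A).norm_le
            exact ((y a).le_opNorm 1).trans
              ((mul_le_of_le_one_right (norm_nonneg _) h1).trans (hyb a))
        · simp only [hy', hy1 a i c s t 1, g.map_update_add, g.map_update_smul, mul_add, add_mul,
            mul_smul_comm, smul_mul_assoc, smul_add]
          abel
        · simp only [hy', mul_assoc]
        · simp only [Set.mem_iInter, Finset.mem_insert] at hy3 ⊢
          rintro w (rfl | hw) a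
          · rw [hP, hg', mul_add, ← mul_assoc, ← mul_assoc, mul_sub, hz.1.isIdempotentElem.eq]
            simp
          · have h1 := hy3 w hw a
            rw [hP, hg', mul_add, sub_mul, one_mul, mul_sub, hcz, hcz, h1]
            abel
  obtain ⟨g, hgn, hg⟩ := exists_co_of_mod (ContinuousLinearMap.id ℂ A) (fun _ => le_rfl) hy1 hc0 hyb
  refine ⟨g, hc ▸ hgn, fun a => ?_⟩
  rw [hpd y g hy2 hg, ← sub_eq_zero]
  obtain ⟨z₁, hz₁, h⟩ := W.central {PD id y a 1 - f a}
  simp only [Set.mem_singleton_iff, forall_eq] at h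
  by_cases h1 : 1 - z₁ = 0
  · simpa using (h 1).2 (by rw [one_mul, ← sub_eq_zero.1 h1]) 1
  obtain ⟨z, hz, hz0, hz1, hgood⟩ := W.exists_good f hf (z₀ := 1 - z₁)
    ⟨hz₁.1.one_sub, fun a => by rw [sub_mul, mul_sub, hz₁.2, one_mul, mul_one]⟩ h1
  have h2 := (h z).1 fun x => by
    rw [hz.2, mul_assoc, mul_sub, Set.mem_iInter.1 hy3 ⟨z, hz, hgood⟩ a, sub_self, mul_zero]
  rw [mul_sub, h2, mul_one, sub_self] at hz1
  exact absurd hz1.symm hz0

/-- `H²(A, A) = 0` with constant `3` -/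
def H2 (A : Type u) [CStarAlgebra A] : Prop :=
  ∀ f : A →L[ℂ] A →L[ℂ] A, (∀ x y z, x * f y z - f (x * y) z + f x (y * z) - f x y * z = 0) →
    ∃ g : A →L[ℂ] A, ‖g‖ ≤ 3 * ‖f‖ ∧ ∀ x y, x * g y - g (x * y) + g x * y = f x y

/-- consequence of `H³(A, A) = 0` with constant `4` -/
def H3 (A : Type u) [CStarAlgebra A] : Prop :=
  ∀ (f : A →L[ℂ] A →L[ℂ] A) (c : ℝ), 0 ≤ c →
    (∀ x y z, ‖x * f y z - f (x * y) z + f x (y * z) - f x y * z‖ ≤ c * ‖x‖ * ‖y‖ * ‖z‖) →
    ∃ g : A →L[ℂ] A →L[ℂ] A, ‖g‖ ≤ 4 * c ∧ ∀ x y z,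
      x * g y z - g (x * y) z + g x (y * z) - g x y * z =
        x * f y z - f (x * y) z + f x (y * z) - f x y * z

namespace Coh

theorem hd1 (g : (Fin 1 → A) → A) (a : Fin 2 → A) :
    hochschildDiff g a = a 0 * g ![a 1] - g ![a 0 * a 1] + g ![a 0] * a 1 := by
  have e1 : (fun i : Fin 1 => a i.succ) = ![a 1] := by ext i; fin_cases i; rfl
  have e2 : (fun i : Fin 1 => a i.castSucc) = ![a 0] := by ext i; fin_cases i; rfl
  have e3 : mergeArgs 0 a = ![a 0 * a 1] := by ext i; fin_cases i; rfl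
  rw [hochschildDiff, e1, e2, Fin.sum_univ_one, e3]
  simp [sub_eq_add_neg]

theorem hd2 (g : (Fin 2 → A) → A) (a : Fin 3 → A) :
    hochschildDiff g a = a 0 * g ![a 1, a 2] - g ![a 0 * a 1, a 2] + g ![a 0, a 1 * a 2] -
      g ![a 0, a 1] * a 2 := by
  have e1 : (fun i : Fin 2 => a i.succ) = ![a 1, a 2] := by ext i; fin_cases i <;> rfl
  have e2 : (fun i : Fin 2 => a i.castSucc) = ![a 0, a 1] := by ext i; fin_cases i <;> rfl
  have e3 : mergeArgs 0 a = ![a 0 * a 1, a 2] := by ext i; fin_cases i <;> rfl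
  have e4 : mergeArgs 1 a = ![a 0, a 1 * a 2] := by ext i; fin_cases i <;> rfl
  have e5 : a (Fin.last 2) = a 2 := rfl
  rw [hochschildDiff, e1, e2, Fin.sum_univ_two, e3, e4, e5]
  norm_num
  abel

theorem hd3 (g : (Fin 3 → A) → A) (a : Fin 4 → A) :
    hochschildDiff g a = a 0 * g ![a 1, a 2, a 3] - g ![a 0 * a 1, a 2, a 3] +
      g ![a 0, a 1 * a 2, a 3] - g ![a 0, a 1, a 2 * a 3] + g ![a 0, a 1, a 2] * a 3 := by
  have e1 : (fun i : Fin 3 => a i.succ) = ![a 1, a 2, a 3] := by ext i; fin_cases i <;> rfl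
  have e2 : (fun i : Fin 3 => a i.castSucc) = ![a 0, a 1, a 2] := by ext i; fin_cases i <;> rfl
  have e3 : mergeArgs 0 a = ![a 0 * a 1, a 2, a 3] := by ext i; fin_cases i <;> rfl
  have e4 : mergeArgs 1 a = ![a 0, a 1 * a 2, a 3] := by ext i; fin_cases i <;> rfl
  have e5 : mergeArgs 2 a = ![a 0, a 1, a 2 * a 3] := by ext i; fin_cases i <;> rfl
  have e6 : a (Fin.last 3) = a 3 := rfl
  rw [hochschildDiff, e1, e2, Fin.sum_univ_three, e3, e4, e5, e6]
  norm_num
  abel

theorem exists_co2 (f : A →L[ℂ] A →L[ℂ] A) :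
    ∃ G : Co A 2, ‖G‖ ≤ ‖f‖ ∧ ∀ a, G a = f (a 0) (a 1) := by
  let g₀ : MultilinearMap ℂ (fun _ : Fin 2 => A) A := MultilinearMap.mk' (fun a => f (a 0) (a 1))
    (fun a i s t => by fin_cases i <;> simp) (fun a i c s => by fin_cases i <;> simp)
  have hb : ∀ a, ‖g₀ a‖ ≤ ‖f‖ * ∏ i, ‖a i‖ := fun a => by
    rw [Fin.prod_univ_two, ← mul_assoc]
    exact f.le_opNorm₂ _ _
  exact ⟨g₀.mkContinuous _ hb, g₀.mkContinuous_norm_le f.opNorm_nonneg hb, fun _ => rfl⟩

theorem exists_co3 (f : A →L[ℂ] A →L[ℂ] A) {c : ℝ} (hc : 0 ≤ c)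
    (h : ∀ x y z, ‖x * f y z - f (x * y) z + f x (y * z) - f x y * z‖ ≤ c * ‖x‖ * ‖y‖ * ‖z‖) :
    ∃ G : Co A 3, ‖G‖ ≤ c ∧ ∀ a, G a =
      a 0 * f (a 1) (a 2) - f (a 0 * a 1) (a 2) + f (a 0) (a 1 * a 2) - f (a 0) (a 1) * a 2 := by
  let g₀ : MultilinearMap ℂ (fun _ : Fin 3 => A) A := MultilinearMap.mk' (fun a =>
      a 0 * f (a 1) (a 2) - f (a 0 * a 1) (a 2) + f (a 0) (a 1 * a 2) - f (a 0) (a 1) * a 2)
    (fun a i s t => by fin_cases i <;> simp [add_mul, mul_add] <;> abel)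
    (fun a i c s => by fin_cases i <;> simp [smul_sub, smul_add])
  have hb : ∀ a, ‖g₀ a‖ ≤ c * ∏ i, ‖a i‖ := fun a => by
    rw [Fin.prod_univ_three, ← mul_assoc, ← mul_assoc]
    exact h _ _ _
  exact ⟨g₀.mkContinuous _ hb, g₀.mkContinuous_norm_le hc hb, fun _ => rfl⟩

theorem snoc1 (x : A) : (Fin.snoc (0 : Fin 0 → A) x : Fin 1 → A) = ![x] := by
  ext i; fin_cases i; rfl

theorem exists_lin1 (G : Co A 1) : ∃ g : A →L[ℂ] A, ‖g‖ ≤ ‖G‖ ∧ ∀ x, g x = G ![x] :=
  ⟨continuousMultilinearCurryFin1 ℂ A A G, (LinearIsometryEquiv.norm_map _ _).le, fun x => by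
    rw [continuousMultilinearCurryFin1_apply, snoc1]⟩

theorem exists_lin2 (G : Co A 2) :
    ∃ g : A →L[ℂ] A →L[ℂ] A, ‖g‖ ≤ ‖G‖ ∧ ∀ x y, g x y = G ![x, y] := by
  refine ⟨((continuousMultilinearCurryFin1 ℂ A A).toContinuousLinearEquiv :
    Co A 1 →L[ℂ] (A →L[ℂ] A)) ∘L G.curryLeft, ?_, fun x y => ?_⟩
  · refine ContinuousLinearMap.opNorm_le_bound _ (norm_nonneg _) fun x => ?_
    change ‖continuousMultilinearCurryFin1 ℂ A A (G.curryLeft x)‖ ≤ _
    rw [LinearIsometryEquiv.norm_map, ← G.curryLeft_norm]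
    exact G.curryLeft.le_opNorm x
  · change continuousMultilinearCurryFin1 ℂ A A (G.curryLeft x) y = _
    rw [continuousMultilinearCurryFin1_apply, snoc1, ContinuousMultilinearMap.curryLeft_apply]
    rfl

end Coh

open Coh

theorem coh2 (W : WS A) : H2 A := by
  intro f hf
  obtain ⟨F, hF, hF'⟩ := exists_co2 f
  obtain ⟨G, hG, hG'⟩ := coh_bd W (n := 1) F fun a => by
    rw [hd2]
    simpa [hF'] using hf (a 0) (a 1) (a 2)
  obtain ⟨g, hg, hg'⟩ := exists_lin1 G
  refine ⟨g, ?_, fun x y => ?_⟩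
  · push_cast at hG
    linarith
  · have := hG' ![x, y]
    rw [hd1, hF'] at this
    simpa [hg'] using this

theorem coh3 (W : WS A) : H3 A := by
  intro f c hc hf
  obtain ⟨F, hF, hF'⟩ := exists_co3 f hc hf
  obtain ⟨G, hG, hG'⟩ := coh_bd W (n := 2) F fun a => by
    rw [hd3]
    simp only [hF', Matrix.cons_val_zero, Matrix.cons_val_one, Matrix.cons_val_two,
      Matrix.head_cons, Matrix.tail_cons, mul_add, mul_sub, add_mul, sub_mul, mul_assoc]
    abel
  obtain ⟨g, hg, hg'⟩ := exists_lin2 G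
  refine ⟨g, ?_, fun x y z => ?_⟩
  · push_cast at hG
    linarith
  · have := hG' ![x, y, z]
    rw [hd2, hF'] at this
    simpa [hg'] using this

end Crest.Agent.R78
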