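import Crest.Agent.R78.Law

/-! # Row 78: the data of the alignment theorem (Theorem A). -/

set_option autoImplicit false

namespace Crest.Agent.R78

universe u

/-- two commuting unitary representations, two commuting algebras, a vector and a law -/
structure Dat : Type (u + 1) where
  H : Type u
  [i1 : NormedAddCommGroup H]
  [i2 : InnerProductSpace ℂ H]
  [i3 : CompleteSpace H]
  G : Type u
  [i4 : Group G]
  u : G →* (H →L[ℂ] H)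
  v : G →* (H →L[ℂ] H)
  u_star : ∀ g, u g⁻¹ = star (u g)
  v_star : ∀ g, v g⁻¹ = star (v g)
  uv : ∀ g h, u g * v h = v h * u g
  M : StarSubalgebra ℂ (H →L[ℂ] H)
  M' : StarSubalgebra ℂ (H →L[ℂ] H)
  M_closed : IsClosed (M : Set (H →L[ℂ] H))
  M'_closed : IsClosed (M' : Set (H →L[ℂ] H))
  MM' : ∀ x ∈ M, ∀ y ∈ M', x * y = y * x
  Ω : H
  Ω_norm : ‖Ω‖ = 1
  μ : Law G

attribute [instance] Dat.i1 Dat.i2 Dat.i3 Dat.i4

namespace Dat

variable (D : Dat.{u})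

instance : Nontrivial D.H := ⟨D.Ω, 0, fun h => by simpa [h] using D.Ω_norm⟩

/-- the representations are close to the algebras -/
def Near (δ : ℝ) : Prop := ∀ g, (∃ p ∈ D.M, ‖p - D.u g‖ ≤ δ) ∧ ∃ q ∈ D.M', ‖q - D.v g‖ ≤ δ

/-- the non-centrality of the vector -/
noncomputable def kap : ℝ := D.μ.E fun g => ‖D.u g D.Ω - D.v g⁻¹ D.Ω‖ ^ 2

/-- an aligned triple -/
structure Sol (r ε : ℝ) where
  V : D.H →L[ℂ] D.H
  m : D.G → D.H →L[ℂ] D.H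
  y : D.G → D.H →L[ℂ] D.H
  m_mem : ∀ g, m g ∈ D.M
  y_mem : ∀ g, y g ∈ D.M'
  V_near : ‖V - 1‖ ≤ r
  m_near : ∀ g, ‖m g - D.u g‖ ≤ r
  y_near : ∀ g, ‖y g - D.v g⁻¹‖ ≤ r
  Em : D.μ.E (fun g => ‖V (D.u g D.Ω) - m g (V D.Ω)‖ ^ 2) ≤ ε ^ 2
  Ey : D.μ.E (fun g => ‖V (D.u g D.Ω) - y g (V D.Ω)‖ ^ 2) ≤ ε ^ 2

theorem u_mem (g : D.G) : D.u g ∈ unitary (D.H →L[ℂ] D.H) := by
  rw [Unitary.mem_iff, ← D.u_star, ← map_mul, ← map_mul]; simp

theorem v_mem (g : D.G) : D.v g ∈ unitary (D.H →L[ℂ] D.H) := by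
  rw [Unitary.mem_iff, ← D.v_star, ← map_mul, ← map_mul]; simp

theorem u_norm (g : D.G) : ‖D.u g‖ = 1 := CStarRing.norm_of_mem_unitary (D.u_mem g)

theorem v_norm (g : D.G) : ‖D.v g‖ = 1 := CStarRing.norm_of_mem_unitary (D.v_mem g)

end Dat

end Crest.Agent.R78
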