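import Mathlib

/-!
# Row 78, task R78-ExtA: split extensions by a stable ideal, basic properties.

PLAN.  Statements about `J` are proved on generators `d * E k l`, extended to the span
(`Submodule.span_induction`) and to the closure (`closure_induction`-type arguments, closedness).
`J_vanish`: `d * E k l * E m 0 = 0` for `m ≠ l`; `‖E m 0 v‖ ≤ ‖v‖`; `ε/2` argument.
`norm_le_add`: `‖E 0 0 (d v)‖ = ‖d (E m 0 v)‖ ≤ ‖d + j‖ ‖E 0 0 v‖ + o(1)`; then
`‖d v‖² = ∑ₗ ‖E l l d v‖² = ∑ₗ ‖E 0 0 d (E 0 l v)‖² ≤ ‖d + j‖² ∑ₗ ‖E l l v‖²`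
(`HasSum (fun l => ‖E l l v‖²) ‖v‖²` from `E_sum` and inner products).
`AA_closed`: if `θ cₙ + jₙ` converges, `cₙ` is Cauchy by `norm_le_add`.  (Or: the map `C × J → B(H)` is
antilipschitz.)  `AA_cent`: `d * E k l`, `E k l ∈ J`; if `T` commutes with `J` then `T d E k k = d E k k T = d T E k k`, sum
over `k`.
-/

set_option autoImplicit false

open Filter Topology TopologicalSpace

namespace Crest.Agent.R78

noncomputable section

variable {H : Type*} [NormedAddCommGroup H] [InnerProductSpace ℂ H] [CompleteSpace H]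

/-- matrix units commuting with a separable C⋆-algebra -/
structure ExtD (H : Type*) [NormedAddCommGroup H] [InnerProductSpace ℂ H] [CompleteSpace H] where
  E : ℕ → ℕ → H →L[ℂ] H
  E_mul : ∀ k l m p, E k l * E m p = if l = m then E k p else 0
  E_star : ∀ k l, star (E k l) = E l k
  E_sum : ∀ v, HasSum (fun k => E k k v) v
  D : StarSubalgebra ℂ (H →L[ℂ] H)
  D_sep : IsSeparable (D : Set (H →L[ℂ] H))
  D_comm : ∀ d ∈ D, ∀ k l, d * E k l = E k l * d

namespace ExtD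

variable (X : ExtD H)

/-- the ideal `K ⊗ D` -/
def J : Submodule ℂ (H →L[ℂ] H) :=
  (Submodule.span ℂ {x | ∃ d ∈ X.D, ∃ k l, x = d * X.E k l}).topologicalClosure

theorem J_closed : IsClosed (X.J : Set (H →L[ℂ] H)) := Submodule.isClosed_topologicalClosure _

theorem gen_mem {d : H →L[ℂ] H} (hd : d ∈ X.D) (k l : ℕ) : d * X.E k l ∈ X.J :=
  Submodule.le_topologicalClosure _ (Submodule.subset_span ⟨d, hd, k, l, rfl⟩)

theorem J_ind {p : (H →L[ℂ] H) → Prop} (hc : IsClosed {x | p x}) (h0 : p 0)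
    (hadd : ∀ x y, p x → p y → p (x + y)) (hsm : ∀ (c : ℂ) x, p x → p (c • x))
    (hg : ∀ d ∈ X.D, ∀ k l, p (d * X.E k l)) {j : H →L[ℂ] H} (hj : j ∈ X.J) : p j := by
  have h1 : ((Submodule.span ℂ {x | ∃ d ∈ X.D, ∃ k l, x = d * X.E k l} : Submodule ℂ (H →L[ℂ] H)) :
      Set (H →L[ℂ] H)) ⊆ {x | p x} := by
    intro x hx
    induction hx using Submodule.span_induction with
    | mem x hx => obtain ⟨d, hd, k, l, rfl⟩ := hx; exact hg d hd k l
    | zero => exact h0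
    | add x y _ _ hx hy => exact hadd x y hx hy
    | smul c x _ hx => exact hsm c x hx
  exact closure_minimal h1 hc hj

theorem mul_mem_left {d j : H →L[ℂ] H} (hd : d ∈ X.D) (hj : j ∈ X.J) : d * j ∈ X.J := by
  refine X.J_ind (p := fun j => d * j ∈ X.J) (X.J_closed.preimage (continuous_const_mul d))
    (by simp) (fun x y hx hy => by rw [mul_add]; exact add_mem hx hy)
    (fun c x hx => by rw [mul_smul_comm]; exact X.J.smul_mem c hx) (fun d' hd' k l => ?_) hj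
  rw [← mul_assoc]; exact X.gen_mem (mul_mem hd hd') k l

theorem mul_mem_right {d j : H →L[ℂ] H} (hd : d ∈ X.D) (hj : j ∈ X.J) : j * d ∈ X.J := by
  refine X.J_ind (p := fun j => j * d ∈ X.J) (X.J_closed.preimage (continuous_mul_const d))
    (by simp) (fun x y hx hy => by rw [add_mul]; exact add_mem hx hy)
    (fun c x hx => by rw [smul_mul_assoc]; exact X.J.smul_mem c hx) (fun d' hd' k l => ?_) hj
  rw [mul_assoc, ← X.D_comm d hd, ← mul_assoc]; exact X.gen_mem (mul_mem hd' hd) k l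

theorem E_mul_mem (k l : ℕ) {j : H →L[ℂ] H} (hj : j ∈ X.J) : X.E k l * j ∈ X.J := by
  refine X.J_ind (p := fun j => X.E k l * j ∈ X.J) (X.J_closed.preimage (continuous_const_mul _))
    (by simp) (fun x y hx hy => by rw [mul_add]; exact add_mem hx hy)
    (fun c x hx => by rw [mul_smul_comm]; exact X.J.smul_mem c hx) (fun d hd m p => ?_) hj
  rw [← mul_assoc, ← X.D_comm d hd, mul_assoc, X.E_mul]
  split_ifs
  · exact X.gen_mem hd k p
  · simp

theorem J_mul {j j' : H →L[ℂ] H} (hj : j ∈ X.J) (hj' : j' ∈ X.J) : j * j' ∈ X.J := by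
  refine X.J_ind (p := fun j => j * j' ∈ X.J) (X.J_closed.preimage (continuous_mul_const j'))
    (by simp) (fun x y hx hy => by rw [add_mul]; exact add_mem hx hy)
    (fun c x hx => by rw [smul_mul_assoc]; exact X.J.smul_mem c hx) (fun d hd k l => ?_) hj
  rw [mul_assoc]; exact X.mul_mem_left hd (X.E_mul_mem k l hj')

theorem J_star {j : H →L[ℂ] H} (hj : j ∈ X.J) : star j ∈ X.J := by
  refine X.J_ind (p := fun j => star j ∈ X.J) (X.J_closed.preimage continuous_star)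
    (by simp) (fun x y hx hy => by rw [star_add]; exact add_mem hx hy)
    (fun c x hx => by rw [star_smul]; exact X.J.smul_mem _ hx) (fun d hd k l => ?_) hj
  rw [star_mul, X.E_star, ← X.D_comm _ (star_mem hd)]; exact X.gen_mem (star_mem hd) l k

theorem E_E (k l p : ℕ) (v : H) : X.E k l (X.E l p v) = X.E k p v := by
  have := X.E_mul k l l p
  rw [if_pos rfl] at this
  rw [← this]; rfl

theorem norm_E_sq (k l : ℕ) (v : H) : ‖X.E k l v‖ ^ 2 = (inner ℂ v (X.E l l v)).re := by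
  rw [← X.E_E l k l v, ← X.E_star k l, ContinuousLinearMap.star_eq_adjoint,
    ContinuousLinearMap.adjoint_inner_right, ← inner_self_eq_norm_sq (𝕜 := ℂ)]
  rfl

theorem norm_E_eq (k l : ℕ) (v : H) : ‖X.E k l v‖ = ‖X.E l l v‖ := by
  have h := (X.norm_E_sq k l v).trans (X.norm_E_sq l l v).symm
  exact (pow_left_inj₀ (norm_nonneg _) (norm_nonneg _) two_ne_zero).1 h

theorem hasSum_E (v : H) : HasSum (fun l => ‖X.E l l v‖ ^ 2) (‖v‖ ^ 2) := by
  have h := Complex.reCLM.hasSum ((innerSL ℂ v).hasSum (X.E_sum v))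
  simp only [innerSL_apply_apply, Complex.reCLM_apply] at h
  simp only [X.norm_E_sq]
  convert h using 1
  rw [← inner_self_eq_norm_sq (𝕜 := ℂ)]; rfl

theorem norm_E_le (k l : ℕ) (v : H) : ‖X.E k l v‖ ≤ ‖v‖ := by
  rw [X.norm_E_eq]
  refine le_of_sq_le_sq ?_ (norm_nonneg _)
  exact le_hasSum (X.hasSum_E v) l fun _ _ => by positivity

theorem J_vanish {j : H →L[ℂ] H} (hj : j ∈ X.J) (v : H) :
    Tendsto (fun k => j (X.E k 0 v)) atTop (𝓝 0) := by
  refine X.J_ind (p := fun j => Tendsto (fun k => j (X.E k 0 v)) atTop (𝓝 0)) ?_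
    (by simp) (fun x y hx hy => by simpa using hx.add hy)
    (fun c x hx => by simpa using hx.const_smul c) (fun d hd k l => ?_) hj
  · refine isClosed_of_closure_subset fun x hx => ?_
    refine Metric.tendsto_atTop.2 fun ε hε => ?_
    obtain ⟨y, hy, hxy⟩ := Metric.mem_closure_iff.1 hx (ε / 2 / (‖v‖ + 1)) (by positivity)
    obtain ⟨N, hN⟩ := Metric.tendsto_atTop.1 hy (ε / 2) (by positivity)
    refine ⟨N, fun n hn => ?_⟩
    have h1 := hN n hn
    rw [dist_zero_right] at h1 ⊢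
    rw [dist_eq_norm, lt_div_iff₀ (by positivity)] at hxy
    have h2 : x (X.E n 0 v) = (x - y) (X.E n 0 v) + y (X.E n 0 v) := by simp
    have h3 := (x - y).le_opNorm (X.E n 0 v)
    have h4 := mul_le_mul_of_nonneg_left (X.norm_E_le n 0 v) (norm_nonneg (x - y))
    have h5 := norm_add_le ((x - y) (X.E n 0 v)) (y (X.E n 0 v))
    rw [h2]
    nlinarith [norm_nonneg (x - y)]
  · refine tendsto_const_nhds.congr' ?_
    filter_upwards [eventually_gt_atTop l] with m hm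
    have := X.E_mul k l m 0
    rw [if_neg hm.ne] at this
    change 0 = d ((X.E k l * X.E m 0) v)
    rw [this]; simp

theorem D_E {d : H →L[ℂ] H} (hd : d ∈ X.D) (k l : ℕ) (v : H) : d (X.E k l v) = X.E k l (d v) :=
  congrArg (fun T : H →L[ℂ] H => T v) (X.D_comm d hd k l)

theorem norm_le_add {d j : H →L[ℂ] H} (hd : d ∈ X.D) (hj : j ∈ X.J) : ‖d‖ ≤ ‖d + j‖ := by
  have h1 : ∀ v, ‖X.E 0 0 (d v)‖ ≤ ‖d + j‖ * ‖X.E 0 0 v‖ := fun v => by
    have h2 := ((X.J_vanish hj v).norm.const_add (‖d + j‖ * ‖X.E 0 0 v‖))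
    rw [norm_zero, add_zero] at h2
    refine ge_of_tendsto' h2 fun m => ?_
    have e : X.E m 0 (d v) = (d + j) (X.E m 0 v) - j (X.E m 0 v) := by
      rw [← X.D_E hd]; simp
    rw [← X.norm_E_eq m 0 (d v), ← X.norm_E_eq m 0 v, e]
    exact (norm_sub_le _ _).trans (by gcongr; exact (d + j).le_opNorm _)
  have h2 : ∀ l v, ‖X.E l l (d v)‖ ≤ ‖d + j‖ * ‖X.E l l v‖ := fun l v => by
    have := h1 (X.E 0 l v)
    rwa [X.D_E hd, X.E_E, X.E_E, X.norm_E_eq, X.norm_E_eq 0 l v] at this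
  refine d.opNorm_le_bound (norm_nonneg _) fun v => ?_
  refine le_of_sq_le_sq ?_ (by positivity)
  rw [mul_pow]
  refine hasSum_le (fun l => ?_) (X.hasSum_E (d v)) ((X.hasSum_E v).mul_left _)
  rw [← mul_pow]
  exact pow_le_pow_left₀ (norm_nonneg _) (h2 l v) 2

theorem J_sep : IsSeparable (X.J : Set (H →L[ℂ] H)) := by
  have h1 : IsSeparable (⋃ k, ⋃ l, (fun d => d * X.E k l) '' (X.D : Set (H →L[ℂ] H))) :=
    IsSeparable.iUnion fun k => IsSeparable.iUnion fun l =>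
      X.D_sep.image (continuous_mul_const _)
  have h2 : IsSeparable {x | ∃ d ∈ X.D, ∃ k l, x = d * X.E k l} := by
    refine h1.mono ?_
    rintro _ ⟨d, hd, k, l, rfl⟩
    exact Set.mem_iUnion.2 ⟨k, Set.mem_iUnion.2 ⟨l, d, hd, rfl⟩⟩
  exact (h2.span (R := ℂ)).closure

variable {C : Type*} [CStarAlgebra C] (θ : C →⋆ₐ[ℂ] (H →L[ℂ] H)) (hθ : ∀ c, θ c ∈ X.D)

/-- the algebra `θ(C) + J` -/
def AA : StarSubalgebra ℂ (H →L[ℂ] H) where
  carrier := {x | ∃ c, x - θ c ∈ X.J}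
  mul_mem' := by
    rintro x y ⟨c, hc⟩ ⟨c', hc'⟩
    refine ⟨c * c', ?_⟩
    have : x * y - θ (c * c') =
        (x - θ c) * (y - θ c') + (θ c * (y - θ c') + (x - θ c) * θ c') := by
      rw [map_mul]; noncomm_ring
    rw [this]
    exact add_mem (X.J_mul hc hc') (add_mem (X.mul_mem_left (hθ c) hc') (X.mul_mem_right (hθ c') hc))
  add_mem' := by
    rintro x y ⟨c, hc⟩ ⟨c', hc'⟩
    exact ⟨c + c', by rw [map_add, add_sub_add_comm]; exact add_mem hc hc'⟩
  algebraMap_mem' a := ⟨algebraMap ℂ C a, by rw [AlgHomClass.commutes, sub_self]; exact zero_mem _⟩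
  star_mem' := by
    rintro x ⟨c, hc⟩
    exact ⟨star c, by rw [map_star, ← star_sub]; exact X.J_star hc⟩

theorem mem_AA {x : H →L[ℂ] H} : x ∈ X.AA θ hθ ↔ ∃ c, x - θ c ∈ X.J := Iff.rfl

theorem cont_hom : Continuous θ :=
  AddMonoidHomClass.continuous_of_bound θ 1 fun c => by
    rw [one_mul]; exact NonUnitalStarAlgHom.norm_apply_le θ c

theorem AA_closed (hi : ∀ c, ‖θ c‖ = ‖c‖) : IsClosed (X.AA θ hθ : Set (H →L[ℂ] H)) := by
  refine IsSeqClosed.isClosed fun x y hx hy => ?_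
  choose c hc using hx
  have h1 : CauchySeq c := by
    refine Metric.cauchySeq_iff.2 fun ε hε => ?_
    obtain ⟨N, hN⟩ := Metric.cauchySeq_iff.1 hy.cauchySeq ε hε
    refine ⟨N, fun m hm n hn => lt_of_le_of_lt ?_ (hN m hm n hn)⟩
    have := X.norm_le_add (hθ (c m - c n)) (sub_mem (hc m) (hc n))
    rw [hi, map_sub] at this
    rw [dist_eq_norm, dist_eq_norm]
    refine this.trans (le_of_eq ?_)
    congr 1; abel
  obtain ⟨c₀, hc₀⟩ := cauchySeq_tendsto_of_complete h1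
  exact ⟨c₀, X.J_closed.mem_of_tendsto (hy.sub (((cont_hom θ).tendsto c₀).comp hc₀))
    (Eventually.of_forall hc)⟩

theorem AA_sep [SeparableSpace C] : IsSeparable (X.AA θ hθ : Set (H →L[ℂ] H)) := by
  have h1 := ((isSeparable_range (cont_hom θ)).prod X.J_sep).image
    (continuous_add (M := H →L[ℂ] H))
  refine h1.mono ?_
  rintro x ⟨c, hc⟩
  exact ⟨(θ c, x - θ c), ⟨⟨c, rfl⟩, hc⟩, by simp⟩

theorem AA_cent : Set.centralizer (X.AA θ hθ : Set (H →L[ℂ] H)) =
    {T | (∀ d ∈ X.D, d * T = T * d) ∧ ∀ k l, X.E k l * T = T * X.E k l} := by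
  ext T
  constructor
  · intro hT
    have h1 : ∀ d ∈ X.D, ∀ k l, d * X.E k l * T = T * (d * X.E k l) := fun d hd k l =>
      hT _ ⟨0, by simpa using X.gen_mem hd k l⟩
    have h2 : ∀ k l, X.E k l * T = T * X.E k l := fun k l => by
      simpa using h1 1 (one_mem _) k l
    refine ⟨fun d hd => ?_, h2⟩
    ext v
    have h3 := (d * T).hasSum (X.E_sum v)
    have h4 := (T * d).hasSum (X.E_sum v)
    refine h3.unique ?_
    convert h4 using 2 with k
    change (d * T * X.E k k) v = (T * d * X.E k k) v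
    rw [mul_assoc, ← h2, ← mul_assoc, h1 d hd, mul_assoc]
  · rintro ⟨h1, h2⟩ x ⟨c, hc⟩
    have h3 : (x - θ c) * T = T * (x - θ c) := by
      refine X.J_ind (p := fun j => j * T = T * j)
        (isClosed_eq (continuous_mul_const T) (continuous_const_mul T))
        (by simp) (fun x y hx hy => by rw [add_mul, mul_add, hx, hy])
        (fun c x hx => by rw [smul_mul_assoc, mul_smul_comm, hx]) (fun d hd k l => ?_) hc
      rw [mul_assoc, h2, ← mul_assoc, h1 d hd, mul_assoc]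
    rw [sub_mul, mul_sub, h1 _ (hθ c)] at h3
    exact sub_left_injective h3

theorem AA_near (hi : ∀ c, ‖θ c‖ = ‖c‖) (θ' : C →⋆ₐ[ℂ] (H →L[ℂ] H)) (hθ' : ∀ c, θ' c ∈ X.D) {γ : ℝ}
    (hγ0 : 0 ≤ γ) (hγ : ∀ c, ‖θ c - θ' c‖ ≤ γ * ‖c‖) :
    ∀ a ∈ X.AA θ hθ, ‖a‖ ≤ 1 → ∃ b ∈ X.AA θ' hθ', ‖b‖ ≤ 1 ∧ ‖a - b‖ ≤ 2 * γ := by
  rintro a ⟨c, hc⟩ ha
  have h1 : ‖c‖ ≤ 1 := by
    have := X.norm_le_add (hθ c) hc
    rw [hi, add_sub_cancel] at this
    exact this.trans ha
  set b₀ := a - (θ c - θ' c) with hb₀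
  have h2 : ‖θ c - θ' c‖ ≤ γ := (hγ c).trans (mul_le_of_le_one_right hγ0 h1)
  have h3 : ‖b₀‖ ≤ 1 + γ := (norm_sub_le _ _).trans (add_le_add ha h2)
  have h4 : b₀ ∈ X.AA θ' hθ' := ⟨c, by convert hc using 1; rw [hb₀]; abel⟩
  have hp : 0 < 1 + γ := by linarith
  refine ⟨(((1 + γ)⁻¹ : ℝ) : ℂ) • b₀, SMulMemClass.smul_mem _ h4, ?_, ?_⟩
  · rw [norm_smul, Complex.norm_real, Real.norm_of_nonneg (by positivity), inv_mul_le_iff₀ hp]
    linarith
  · have e : a - (((1 + γ)⁻¹ : ℝ) : ℂ) • b₀ =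
        (θ c - θ' c) + (((γ * (1 + γ)⁻¹ : ℝ)) : ℂ) • b₀ := by
      have : γ * (1 + γ)⁻¹ = 1 - (1 + γ)⁻¹ := by field_simp; ring
      rw [this, Complex.ofReal_sub, sub_smul, Complex.ofReal_one, one_smul]
      conv_rhs => rw [← add_sub_assoc]
      congr 1
      rw [hb₀]; abel
    rw [e]
    refine (norm_add_le _ _).trans ?_
    rw [norm_smul, Complex.norm_real, Real.norm_of_nonneg (by positivity)]
    have : γ * (1 + γ)⁻¹ * ‖b₀‖ ≤ γ := by
      rw [mul_assoc]
      refine mul_le_of_le_one_right hγ0 ?_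
      rw [inv_mul_le_iff₀ hp]; linarith
    linarith

end ExtD

end

end Crest.Agent.R78
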