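import Crest.Agent.R78.ExtA

/-!
# Row 78, task R78-ExtB: a unitary conjugating two split extensions preserves the ideal.

PLAN.  For `x ∈ AA θ` the element `c` with `x - θ c ∈ J` is unique (`norm_le_add`), which defines a
`StarAlgHom` `q : ↥(AA θ) →⋆ₐ C`, contractive.  `conj_J`: let `Φ x = q₁ (u x u⋆)` on `AA θ₀`.  For
`j = d * E k l`: `j⋆ j = d⋆ d E l l`; with `x m = d * E l m`: `(x m)⋆ (x m) = d⋆d E m m`, `x m (x m)⋆ = d d⋆ E l l`, so
`t m = re τ (Φ (d⋆ d E m m))` does not depend on `m`, is `≥ 0`, and `N t = re τ (Φ (d⋆d ∑_{m<N} E m m)) ≤ ‖τ‖ ‖d‖²`.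
Hence `t = 0`, `Φ j = 0` by faithfulness, i.e. `u j u⋆ ∈ J`; extend to the span and the closure.
`conj`: `Γ c = q₀ (u⋆ θ₁ c u)`, then `θ₁ c - u θ₀ (Γ c) u⋆ = u j u⋆ ∈ J`; `J_vanish`.
-/

set_option autoImplicit false

open Filter Topology

namespace Crest.Agent.R78

theorem exists_conj_hom {B : Type*} [CStarAlgebra B] {A A' : StarSubalgebra ℂ B} {w : B}
    (hw : w ∈ unitary B) (h : ∀ x ∈ A, w * x * star w ∈ A') :
    ∃ κ : A →⋆ₐ[ℂ] A', ∀ x, (κ x : B) = w * x * star w := by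
  have h1 : star w * w = 1 := hw.1
  have h2 : w * star w = 1 := hw.2
  exact ⟨{ toFun x := ⟨w * x * star w, h x x.2⟩
           map_one' := Subtype.ext (by simp [h2])
           map_mul' x y := Subtype.ext (by
             change w * (x * y) * star w = w * x * star w * (w * y * star w)
             calc _ = w * x * (star w * w) * y * star w := by rw [h1]; simp only [mul_assoc, one_mul]
               _ = _ := by simp only [mul_assoc])
           map_zero' := Subtype.ext (by simp)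
           map_add' x y := Subtype.ext (by simp [mul_add, add_mul])
           commutes' c := Subtype.ext (by simp [Algebra.algebraMap_eq_smul_one, h2])
           map_star' x := Subtype.ext (by simp [mul_assoc]) }, fun _ => rfl⟩

namespace ExtD

variable {H : Type*} [NormedAddCommGroup H] [InnerProductSpace ℂ H] [CompleteSpace H] (X : ExtD H)
  {C : Type*} [CStarAlgebra C] (τ : C →L[ℂ] ℂ) (τ_comm : ∀ a b, τ (a * b) = τ (b * a))
  (τ_pos : ∀ a, 0 ≤ (τ (star a * a)).re) (τ_faith : ∀ a, (τ (star a * a)).re = 0 → a = 0)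
  {θ₀ θ₁ : C →⋆ₐ[ℂ] (H →L[ℂ] H)} (h₀ : ∀ c, θ₀ c ∈ X.D) (h₁ : ∀ c, θ₁ c ∈ X.D)
  (i₀ : ∀ c, ‖θ₀ c‖ = ‖c‖) (i₁ : ∀ c, ‖θ₁ c‖ = ‖c‖) {u : H →L[ℂ] H} (hu : u ∈ unitary (H →L[ℂ] H))
  (h : ∀ y, y ∈ X.AA θ₁ h₁ ↔ ∃ x ∈ X.AA θ₀ h₀, y = u * x * star u)

include h₁ i₁ in
theorem q_unique {x : H →L[ℂ] H} {c c' : C} (hc : x - θ₁ c ∈ X.J) (hc' : x - θ₁ c' ∈ X.J) :
    c = c' := by
  have h1 := X.norm_le_add (h₁ (c - c')) (sub_mem hc hc')
  rw [i₁, map_sub, show θ₁ c - θ₁ c' + (x - θ₁ c - (x - θ₁ c')) = 0 by abel, norm_zero] at h1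
  exact sub_eq_zero.1 (norm_le_zero_iff.1 h1)

include i₁ in
theorem exists_q : ∃ q : X.AA θ₁ h₁ →⋆ₐ[ℂ] C,
    (∀ x : X.AA θ₁ h₁, (x : H →L[ℂ] H) - θ₁ (q x) ∈ X.J) ∧
      ∀ x : X.AA θ₁ h₁, ‖q x‖ ≤ ‖(x : H →L[ℂ] H)‖ := by
  choose q hq using fun x : X.AA θ₁ h₁ => (X.mem_AA θ₁ h₁).1 x.2
  refine ⟨{ toFun := q
            map_one' := X.q_unique h₁ i₁ (hq 1) (by simp)
            map_mul' x y := X.q_unique h₁ i₁ (hq _) ?_
            map_zero' := X.q_unique h₁ i₁ (hq 0) (by simp)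
            map_add' x y := X.q_unique h₁ i₁ (hq _) ?_
            commutes' c := X.q_unique h₁ i₁ (hq _) (by simp [AlgHomClass.commutes])
            map_star' x := X.q_unique h₁ i₁ (hq _) ?_ }, hq, fun x => ?_⟩
  · have : ((x * y : X.AA θ₁ h₁) : H →L[ℂ] H) - θ₁ (q x * q y) =
        (x - θ₁ (q x)) * (y - θ₁ (q y)) +
          (θ₁ (q x) * (y - θ₁ (q y)) + (x - θ₁ (q x)) * θ₁ (q y)) := by
      rw [map_mul, MulMemClass.coe_mul]; noncomm_ring
    rw [this]
    exact add_mem (X.J_mul (hq x) (hq y))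
      (add_mem (X.mul_mem_left (h₁ _) (hq y)) (X.mul_mem_right (h₁ _) (hq x)))
  · rw [map_add, AddMemClass.coe_add, add_sub_add_comm]; exact add_mem (hq x) (hq y)
  · rw [map_star, StarMemClass.coe_star, ← star_sub]; exact X.J_star (hq x)
  · have := X.norm_le_add (h₁ (q x)) (hq x)
    rwa [i₁, add_sub_cancel] at this

theorem norm_sum_E_le (N : ℕ) : ‖∑ m ∈ Finset.range N, X.E m m‖ ≤ 1 := by
  refine IsStarProjection.norm_le _ ⟨?_, ?_⟩
  · rw [IsIdempotentElem, Finset.sum_mul_sum]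
    refine Finset.sum_congr rfl fun k hk => ?_
    simp [X.E_mul, hk]
  · rw [IsSelfAdjoint, star_sum]; simp only [X.E_star]

include τ_comm τ_pos τ_faith i₁ hu h in
theorem conj_J {j : H →L[ℂ] H} (hj : j ∈ X.J) : u * j * star u ∈ X.J := by
  obtain ⟨q, hq, hq'⟩ := X.exists_q h₁ i₁
  obtain ⟨κ, hκ⟩ := exists_conj_hom (A := X.AA θ₀ h₀) (A' := X.AA θ₁ h₁) hu
    fun x hx => (h _).2 ⟨x, hx, rfl⟩
  have hJ : ∀ {x}, x ∈ X.J → x ∈ X.AA θ₀ h₀ := fun hx => ⟨0, by simpa using hx⟩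
  have hn : ∀ x, ‖q (κ x)‖ ≤ ‖(x : H →L[ℂ] H)‖ := fun x => by
    refine (hq' _).trans ?_
    rw [hκ, CStarRing.norm_mul_mem_unitary _ (Unitary.star_mem hu), CStarRing.norm_mem_unitary_mul _ hu]
  have gen : ∀ d ∈ X.D, ∀ k l, u * (d * X.E k l) * star u ∈ X.J := fun d hd k l => by
    let x : ℕ → ℕ → X.AA θ₀ h₀ := fun k l => ⟨d * X.E k l, hJ (X.gen_mem hd k l)⟩
    let y : ℕ → X.AA θ₀ h₀ := fun m =>
      ⟨star d * d * X.E m m, hJ (X.gen_mem (mul_mem (star_mem hd) hd) m m)⟩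
    have e1 : ∀ k l, star (x k l) * x k l = y l := fun k l => Subtype.ext (by
      change star (d * X.E k l) * (d * X.E k l) = star d * d * X.E l l
      rw [star_mul, X.E_star, ← X.D_comm _ (star_mem hd), mul_assoc, ← mul_assoc (X.E l k),
        ← X.D_comm _ hd, mul_assoc, X.E_mul, if_pos rfl, mul_assoc])
    have e2 : ∀ m, x l m * star (x l m) = x l l * star (x l l) := fun m => Subtype.ext (by
      change d * X.E l m * star (d * X.E l m) = d * X.E l l * star (d * X.E l l)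
      simp only [star_mul, X.E_star, mul_assoc]
      simp only [← mul_assoc (X.E _ _), X.E_mul, if_true])
    have e3 : ∀ m, τ (q (κ (y m))) = τ (q (κ (y l))) := fun m => by
      have e : ∀ a b, τ (q (κ (a * b))) = τ (q (κ (b * a))) := fun a b => by
        rw [map_mul κ, map_mul q, τ_comm, ← map_mul q, ← map_mul κ]
      rw [← e1 l m, ← e1 l l, e, e2, e]
    have e4 : τ (q (κ (y l))) = τ (star (q (κ (x k l))) * q (κ (x k l))) := by
      rw [← e1 k l, map_mul κ, map_mul q, map_star κ, map_star q]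
    have hb : ∀ N : ℕ, N * (τ (q (κ (y l)))).re ≤ ‖τ‖ * ‖star d * d‖ := fun N => by
      have h1 : (N : ℂ) * τ (q (κ (y l))) = τ (q (κ (∑ m ∈ Finset.range N, y m))) := by
        simp only [map_sum, e3]; simp
      have h2 : ‖((∑ m ∈ Finset.range N, y m : X.AA θ₀ h₀) : H →L[ℂ] H)‖ ≤ ‖star d * d‖ := by
        rw [AddSubmonoidClass.coe_finsetSum]
        change ‖∑ m ∈ Finset.range N, star d * d * X.E m m‖ ≤ _
        rw [← Finset.mul_sum]
        exact (norm_mul_le _ _).trans (mul_le_of_le_one_right (norm_nonneg _) (X.norm_sum_E_le N))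
      have h3 := congrArg Complex.re h1
      rw [← Complex.ofReal_natCast, Complex.re_ofReal_mul] at h3
      rw [h3]
      exact (Complex.re_le_norm _).trans ((τ.le_opNorm _).trans
        (mul_le_mul_of_nonneg_left ((hn _).trans h2) (norm_nonneg _)))
    have h0 : (τ (q (κ (y l)))).re = 0 := by
      refine le_antisymm (not_lt.1 fun hpos => ?_) (e4 ▸ τ_pos _)
      obtain ⟨N, hN⟩ := exists_nat_gt (‖τ‖ * ‖star d * d‖ / (τ (q (κ (y l)))).re)
      exact absurd (hb N) (not_le.2 ((div_lt_iff₀ hpos).1 hN))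
    have h5 := hq (κ (x k l))
    rw [τ_faith (q (κ (x k l))) (e4 ▸ h0), map_zero, sub_zero, hκ] at h5
    exact h5
  let L : (H →L[ℂ] H) →L[ℂ] (H →L[ℂ] H) := ContinuousLinearMap.mulLeftRight ℂ _ u (star u)
  have : X.J ≤ X.J.comap (L : (H →L[ℂ] H) →ₗ[ℂ] (H →L[ℂ] H)) := by
    refine Submodule.topologicalClosure_minimal _ (Submodule.span_le.2 ?_)
      (X.J_closed.preimage L.continuous)
    rintro _ ⟨d, hd, k, l, rfl⟩
    exact gen d hd k l
  exact this hj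

include τ_comm τ_pos τ_faith i₀ i₁ hu h in
theorem conj : ∃ Γ : C →⋆ₐ[ℂ] C, ∀ c v,
    Tendsto (fun k => (θ₁ c - u * θ₀ (Γ c) * star u) (X.E k 0 v)) atTop (𝓝 0) := by
  obtain ⟨q, hq, -⟩ := X.exists_q h₀ i₀
  have h1 : star u * u = 1 := hu.1
  have h2 : u * star u = 1 := hu.2
  obtain ⟨κ, hκ⟩ := exists_conj_hom (A := X.AA θ₁ h₁) (A' := X.AA θ₀ h₀) (Unitary.star_mem hu)
    fun y hy => by
      obtain ⟨x, hx, rfl⟩ := (h y).1 hy
      rwa [star_star, show star u * (u * x * star u) * u = (star u * u) * x * (star u * u) by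
        simp only [mul_assoc], h1, one_mul, mul_one]
  let ι : C →⋆ₐ[ℂ] X.AA θ₁ h₁ := θ₁.codRestrict _ fun c => ⟨c, by simp⟩
  refine ⟨q.comp (κ.comp ι), fun c v => X.J_vanish ?_ v⟩
  have h3 := X.conj_J τ τ_comm τ_pos τ_faith h₀ h₁ i₁ hu h (hq (κ (ι c)))
  rw [hκ, star_star, mul_sub, sub_mul, show u * (star u * (ι c : H →L[ℂ] H) * u) * star u =
    (u * star u) * (ι c : H →L[ℂ] H) * (u * star u) by simp only [mul_assoc], h2, one_mul,
    mul_one] at h3
  exact h3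

end ExtD

end Crest.Agent.R78
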