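import Mathlib

/-!
# Row 78, task R78-Fc: functional calculus of an operator `0 ≤ R ≤ 2` with complex valued functions
of a real variable, and the "bimeasure" lemma.

PLAN.  `fc R f = cfc (fun z : ℂ => f z.re) R`; the spectrum of `R` lies in `[0,2]` (real points).
The algebraic lemmas are `cfc_mul`, `cfc_add`, `cfc_star`, `cfc_congr`, `norm_cfc_le`, ….
`fc_intertwine`, `fc_conj`, `fc_eigen`: true for `f = id` and constants, stable under sums, products,
conjugation and uniform limits (Stone–Weierstrass: `ContinuousMap.induction_on_of_compact` on the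
spectrum, or `exists_polynomial_near_of_continuousOn` for real and imaginary part, using `fc_norm_le`).
For `fc_conj` prove first, for real polynomials `p`, `J (p(R) ξ) = p(2 - R) (J ξ)`.
`fc_integral`: `cfc_integral`/`cfcHom_integral` or directly with the continuous linear map
`C(Icc 0 2, ℂ) →L B(H)`.
`bimeasure`: let `B (f, g) = ⟪η, fc f x fc g ξ⟫`, bounded bilinear on `C(Icc 0 2, ℂ)`.  For a point `u` and a
functional `ℓ`, `∫ F t u * ℓ (G t) = a u * ℓ b` (Bochner integral `∫ F t u • G t = a u • b` in `C(Icc 0 2)`,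
checked pointwise).  Replace the first variable by its Bernstein approximation
(`bernsteinApproximation`, rescaled to `[0,2]`; it is a finite sum of point evaluations, has norm
`≤ ‖f‖` and converges uniformly) and use dominated convergence.
-/

set_option autoImplicit false

open MeasureTheory Set Filter Topology
open scoped InnerProductSpace ComplexConjugate

namespace Crest.Agent.R78

noncomputable section

variable {H : Type*} [NormedAddCommGroup H] [InnerProductSpace ℂ H] [CompleteSpace H]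

/-- functional calculus -/
def fc (R : H →L[ℂ] H) (f : ℝ → ℂ) : H →L[ℂ] H := cfc (fun z : ℂ => f z.re) R

/-- `0 ≤ R ≤ 2` -/
structure In02 (R : H →L[ℂ] H) : Prop where
  nonneg : 0 ≤ R
  le_two : R ≤ 2

variable {R : H →L[ℂ] H} {f g : ℝ → ℂ}

theorem In02.two_sub (h : In02 R) : In02 (2 - R) := by
  refine ⟨sub_nonneg.2 h.le_two, ?_⟩
  simpa using h.nonneg

theorem In02.sa (h : In02 R) : IsSelfAdjoint R := IsSelfAdjoint.of_nonneg h.nonneg

theorem In02.mem (h : In02 R) {z : ℂ} (hz : z ∈ spectrum ℂ R) : z.re ∈ Icc (0 : ℝ) 2 := by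
  have h1 : z.re ∈ spectrum ℝ R := h.sa.spectrumRestricts.apply_mem hz
  refine ⟨spectrum_nonneg_of_nonneg h.nonneg h1, ?_⟩
  refine (le_algebraMap_iff_spectrum_le (R := ℝ) h.sa).1 ?_ _ h1
  rw [map_ofNat]
  exact h.le_two

theorem In02.cont (h : In02 R) (hf : ContinuousOn f (Icc 0 2)) :
    ContinuousOn (fun z : ℂ => f z.re) (spectrum ℂ R) :=
  hf.comp Complex.continuous_re.continuousOn fun _ hz => h.mem hz

theorem fc_congr (h : In02 R) (hfg : ∀ r ∈ Icc (0 : ℝ) 2, f r = g r) : fc R f = fc R g := by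
  exact cfc_congr fun z hz => hfg _ (h.mem hz)

theorem fc_id (h : In02 R) : fc R (fun r => r) = R := by
  have := h.sa.isStarNormal
  rw [fc, cfc_congr (g := fun z => z) fun z hz => (h.sa.mem_spectrum_eq_re hz).symm, cfc_id' ℂ R]

theorem fc_const (h : In02 R) (c : ℂ) : fc R (fun _ => c) = c • 1 := by
  have := h.sa.isStarNormal
  rw [fc, cfc_const c R, Algebra.algebraMap_eq_smul_one]

theorem fc_mul (h : In02 R) (hf : ContinuousOn f (Icc 0 2)) (hg : ContinuousOn g (Icc 0 2)) :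
    fc R (fun r => f r * g r) = fc R f * fc R g := by
  exact cfc_mul _ _ R (h.cont hf) (h.cont hg)

theorem fc_add (h : In02 R) (hf : ContinuousOn f (Icc 0 2)) (hg : ContinuousOn g (Icc 0 2)) :
    fc R (fun r => f r + g r) = fc R f + fc R g := by
  exact cfc_add R _ _ (h.cont hf) (h.cont hg)

theorem fc_sub (h : In02 R) (hf : ContinuousOn f (Icc 0 2)) (hg : ContinuousOn g (Icc 0 2)) :
    fc R (fun r => f r - g r) = fc R f - fc R g := by
  exact cfc_sub _ _ R (h.cont hf) (h.cont hg)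

theorem fc_smul (h : In02 R) (hf : ContinuousOn f (Icc 0 2)) (c : ℂ) :
    fc R (fun r => c * f r) = c • fc R f := by
  exact cfc_const_mul c _ R (h.cont hf)

theorem fc_star (h : In02 R) (f : ℝ → ℂ) : star (fc R f) = fc R fun r => conj (f r) := by
  have _ := h
  exact (cfc_star _ R).symm

theorem fc_norm_le (h : In02 R) {C : ℝ} (hC : ∀ r ∈ Icc (0 : ℝ) 2, ‖f r‖ ≤ C) : ‖fc R f‖ ≤ C := by
  exact norm_cfc_le ((norm_nonneg _).trans (hC 0 ⟨le_rfl, zero_le_two⟩)) fun z hz => hC _ (h.mem hz)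

theorem fc_commute (h : In02 R) (f g : ℝ → ℂ) : fc R f * fc R g = fc R g * fc R f := by
  have _ := h
  exact cfc_commute_cfc _ _ R

theorem fc_sum_sq_le (h : In02 R) {ι : Type*} (s : Finset ι) (F : ι → ℝ → ℂ)
    (hF : ∀ i ∈ s, ContinuousOn (F i) (Icc 0 2)) {B : ℝ}
    (hB : ∀ r ∈ Icc (0 : ℝ) 2, ∑ i ∈ s, ‖F i r‖ ^ 2 ≤ B) (ξ : H) :
    ∑ i ∈ s, ‖fc R (F i) ξ‖ ^ 2 ≤ B * ‖ξ‖ ^ 2 := by
  have c1 : ∀ i ∈ s, ContinuousOn (fun r => conj (F i r)) (Icc 0 2) := fun i hi =>
    Complex.continuous_conj.comp_continuousOn (hF i hi)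
  have e : fc R (fun r => ∑ i ∈ s, conj (F i r) * F i r) =
      ∑ i ∈ s, star (fc R (F i)) * fc R (F i) := by
    have := cfc_sum (fun i (z : ℂ) => conj (F i z.re) * F i z.re) R s fun i hi =>
      h.cont (f := fun r => conj (F i r) * F i r) ((c1 i hi).mul (hF i hi))
    rw [Finset.sum_fn] at this
    refine this.trans (Finset.sum_congr rfl fun i hi => ?_)
    rw [fc_star h, ← fc_mul h (c1 i hi) (hF i hi)]
    rfl
  have e2 : ∑ i ∈ s, ‖fc R (F i) ξ‖ ^ 2 =
      (⟪ξ, fc R (fun r => ∑ i ∈ s, conj (F i r) * F i r) ξ⟫_ℂ).re := by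
    rw [e, ContinuousLinearMap.sum_apply, inner_sum, Complex.re_sum]
    refine Finset.sum_congr rfl fun i _ => ?_
    rw [ContinuousLinearMap.mul_apply, ContinuousLinearMap.star_eq_adjoint,
      ContinuousLinearMap.adjoint_inner_right]
    exact (inner_self_eq_norm_sq (𝕜 := ℂ) _).symm
  have hn : ‖fc R (fun r => ∑ i ∈ s, conj (F i r) * F i r)‖ ≤ B := fc_norm_le h fun r hr =>
    (norm_sum_le _ _).trans (le_trans (le_of_eq (Finset.sum_congr rfl fun i _ => by
      rw [norm_mul, Complex.norm_conj, sq])) (hB r hr))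
  rw [e2]
  refine (Complex.re_le_norm _).trans ((norm_inner_le_norm _ _).trans ?_)
  refine (mul_le_mul_of_nonneg_left (ContinuousLinearMap.le_of_opNorm_le _ hn ξ)
    (norm_nonneg _)).trans (le_of_eq ?_)
  ring

theorem fc_intertwine (h : In02 R) {S : H →L[ℂ] H} (hS : S * R = R * S) (f : ℝ → ℂ) :
    S * fc R f = fc R f * S := by
  exact (h.sa.commute_cfc (show Commute R S from hS.symm) _).symm

theorem fc_ind {p : (ℝ → ℂ) → Prop} (const : ∀ c, p fun _ => c) (id : p fun r => r)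
    (add : ∀ f g, ContinuousOn f (Icc 0 2) → ContinuousOn g (Icc 0 2) → p f → p g →
      p fun r => f r + g r)
    (mul : ∀ f g, ContinuousOn f (Icc 0 2) → ContinuousOn g (Icc 0 2) → p f → p g →
      p fun r => f r * g r)
    (lim : ∀ f, ContinuousOn f (Icc 0 2) → (∀ ε > 0, ∃ g, ContinuousOn g (Icc 0 2) ∧ p g ∧
      ∀ r ∈ Icc (0 : ℝ) 2, ‖f r - g r‖ ≤ ε) → p f) (hf : ContinuousOn f (Icc 0 2)) : p f := by
  have hp : ∀ q : Polynomial ℝ, p fun r => ((q.eval r : ℝ) : ℂ) := fun q => by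
    induction q using Polynomial.induction_on with
    | C a => simpa using const a
    | add q q' h1 h2 => simpa using add _ _ (by fun_prop) (by fun_prop) h1 h2
    | monomial n a h1 => simpa [pow_succ, mul_assoc] using mul _ _ (by fun_prop) (by fun_prop) h1 id
  refine lim f hf fun ε hε => ?_
  obtain ⟨q, hq⟩ := exists_polynomial_near_of_continuousOn 0 2 (fun r => (f r).re)
    (Complex.continuous_re.comp_continuousOn hf) _ (half_pos hε)
  obtain ⟨q', hq'⟩ := exists_polynomial_near_of_continuousOn 0 2 (fun r => (f r).im)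
    (Complex.continuous_im.comp_continuousOn hf) _ (half_pos hε)
  refine ⟨fun r => ((q.eval r : ℝ) : ℂ) + Complex.I * ((q'.eval r : ℝ) : ℂ), by fun_prop,
    add _ _ (by fun_prop) (by fun_prop) (hp q)
      (mul _ _ (by fun_prop) (by fun_prop) (const _) (hp q')), fun r hr => ?_⟩
  refine (Complex.norm_le_abs_re_add_abs_im _).trans ?_
  have h1 := hq r hr
  have h2 := hq' r hr
  rw [abs_sub_comm] at h1 h2
  simp only [Complex.sub_re, Complex.add_re, Complex.ofReal_re, Complex.mul_re, Complex.I_re,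
    Complex.I_im, Complex.ofReal_im, Complex.sub_im, Complex.add_im, Complex.mul_im, zero_mul,
    mul_zero, sub_zero, add_zero, zero_add, one_mul]
  linarith

theorem fc_near (h : In02 R) (hf : ContinuousOn f (Icc 0 2)) (hg : ContinuousOn g (Icc 0 2))
    {ε : ℝ} (hε : ∀ r ∈ Icc (0 : ℝ) 2, ‖f r - g r‖ ≤ ε) (ξ : H) :
    ‖fc R f ξ - fc R g ξ‖ ≤ ε * ‖ξ‖ := by
  have := (fc R fun r => f r - g r).le_of_opNorm_le (fc_norm_le h hε) ξ
  rwa [fc_sub h hf hg] at this

theorem fc_eq_of_le {X : Type*} [NormedAddCommGroup X] {a b : X} {C : ℝ}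
    (h : ∀ ε > 0, ‖a - b‖ ≤ ε * C) : a = b := by
  rw [← sub_eq_zero, ← norm_le_zero_iff]
  have : Tendsto (fun ε : ℝ => ε * C) (𝓝[>] 0) (𝓝 (0 * C)) :=
    (tendsto_nhdsWithin_of_tendsto_nhds tendsto_id).mul_const C
  rw [zero_mul] at this
  exact ge_of_tendsto this (eventually_nhdsWithin_of_forall h)

theorem fc_cont_conj (hf : ContinuousOn f (Icc 0 2)) :
    ContinuousOn (fun r => conj (f (2 - r))) (Icc 0 2) :=
  Complex.continuous_conj.comp_continuousOn (hf.comp (by fun_prop) fun r hr =>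
    ⟨by linarith [hr.2], by linarith [hr.1]⟩)

theorem fc_conj (h : In02 R) (J : H →L⋆[ℂ] H) (hJ : ∀ ξ, J (R ξ) = (2 - R) (J ξ))
    (hf : ContinuousOn f (Icc 0 2)) (ξ : H) :
    J (fc R f ξ) = fc R (fun r => conj (f (2 - r))) (J ξ) := by
  revert ξ
  refine fc_ind (p := fun f => ∀ ξ, J (fc R f ξ) = fc R (fun r => conj (f (2 - r))) (J ξ))
    (fun c ξ => ?_) (fun ξ => ?_) (fun f g hf hg h1 h2 ξ => ?_) (fun f g hf hg h1 h2 ξ => ?_)
    (fun f hf h1 ξ => ?_) hf
  · simp [fc_const h, map_smulₛₗ]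
  · have : fc R (fun r => conj (((2 - r : ℝ)) : ℂ)) = 2 - R := by
      simp only [Complex.conj_ofReal]
      simp only [Complex.ofReal_sub]
      rw [fc_sub h (by fun_prop) (by fun_prop), fc_id h, fc_const h, Complex.ofReal_ofNat, two_smul,
        one_add_one_eq_two]
    rw [fc_id h, hJ, this]
  · simp only [map_add]
    rw [fc_add h hf hg, fc_add h (fc_cont_conj hf) (fc_cont_conj hg)]
    simp [h1, h2]
  · simp only [map_mul]
    rw [fc_mul h hf hg, fc_mul h (fc_cont_conj hf) (fc_cont_conj hg)]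
    simp [h1, h2]
  · refine fc_eq_of_le (C := ‖J‖ * ‖ξ‖ + ‖J ξ‖) fun ε hε => ?_
    obtain ⟨g, hg, h2, h3⟩ := h1 ε hε
    have a1 := (J.le_opNorm _).trans (mul_le_mul_of_nonneg_left (fc_near h hf hg h3 ξ)
      (norm_nonneg J))
    have a2 := fc_near h (fc_cont_conj hg) (fc_cont_conj hf) (ε := ε) (fun r hr => by
      rw [← map_sub, Complex.norm_conj, norm_sub_rev]
      exact h3 _ ⟨by linarith [hr.2], by linarith [hr.1]⟩) (J ξ)
    rw [map_sub, h2] at a1
    refine (norm_sub_le_norm_sub_add_norm_sub _ _ _).trans ((add_le_add a1 a2).trans (le_of_eq ?_))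
    ring

theorem fc_eigen (h : In02 R) {Ω : H} (hΩ : R Ω = Ω) (hf : ContinuousOn f (Icc 0 2)) :
    fc R f Ω = f 1 • Ω := by
  refine fc_ind (p := fun f => fc R f Ω = f 1 • Ω)
    (fun c => ?_) ?_ (fun f g hf hg h1 h2 => ?_) (fun f g hf hg h1 h2 => ?_)
    (fun f hf h1 => ?_) hf
  · simp [fc_const h]
  · simp [fc_id h, hΩ]
  · rw [fc_add h hf hg]
    simp [h1, h2, add_smul]
  · rw [fc_mul h hf hg]
    simp [h1, h2, smul_smul, mul_comm]
  · refine fc_eq_of_le (C := ‖Ω‖ + ‖Ω‖) fun ε hε => ?_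
    obtain ⟨g, hg, h2, h3⟩ := h1 ε hε
    have a1 := fc_near h hf hg h3 Ω
    have a2 : ‖g 1 • Ω - f 1 • Ω‖ ≤ ε * ‖Ω‖ := by
      rw [← sub_smul, norm_smul, norm_sub_rev]
      exact mul_le_mul_of_nonneg_right (h3 1 ⟨zero_le_one, one_le_two⟩) (norm_nonneg _)
    rw [h2] at a1
    refine (norm_sub_le_norm_sub_add_norm_sub _ _ _).trans ((add_le_add a1 a2).trans (le_of_eq ?_))
    ring

section Phi

open unitInterval

theorem fc_two_mem (s : I) : 2 * (s : ℝ) ∈ Icc (0 : ℝ) 2 :=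
  ⟨by linarith [s.2.1], by linarith [s.2.2]⟩

/-- extension of a function on `[0,1]` -/
def fcExt (a : C(I, ℂ)) (r : ℝ) : ℂ := a (projIcc 0 1 zero_le_one (r / 2))

theorem continuous_fcExt (a : C(I, ℂ)) : Continuous (fcExt a) :=
  a.continuous.comp (continuous_projIcc.comp (by fun_prop))

theorem fcExt_eq {a : C(I, ℂ)} (ha : ∀ s : I, a s = f (2 * s)) {r : ℝ} (hr : r ∈ Icc (0 : ℝ) 2) :
    fcExt a r = f r := by
  rw [fcExt, ha, projIcc_of_mem _ ⟨by linarith [hr.1], by linarith [hr.2]⟩]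
  congr 1
  ring

theorem exists_Phi (h : In02 R) : ∃ Φ : C(I, ℂ) →L[ℂ] H →L[ℂ] H, (∀ a, ‖Φ a‖ ≤ ‖a‖) ∧
    ∀ (a : C(I, ℂ)) (f : ℝ → ℂ), (∀ s : I, a s = f (2 * s)) → Φ a = fc R f := by
  have hn : ∀ a : C(I, ℂ), ‖fc R (fcExt a)‖ ≤ ‖a‖ := fun a =>
    fc_norm_le h fun _ _ => a.norm_coe_le_norm _
  refine ⟨LinearMap.mkContinuous
    { toFun := fun a => fc R (fcExt a)
      map_add' := fun a b =>
        fc_add h (continuous_fcExt a).continuousOn (continuous_fcExt b).continuousOn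
      map_smul' := fun c a => fc_smul h (continuous_fcExt a).continuousOn c } 1
    fun a => by simpa using hn a, hn, fun a f ha => fc_congr h fun r hr => fcExt_eq ha hr⟩

theorem exists_curry {F : ℝ → ℝ → ℂ} (hF : ContinuousOn (Function.uncurry F) (univ ×ˢ Icc 0 2)) :
    ∃ a : C(ℝ, C(I, ℂ)), ∀ t (s : I), a t s = F t (2 * s) :=
  ⟨ContinuousMap.curry ⟨fun z : ℝ × I => F z.1 (2 * z.2),
    hF.comp_continuous (f := fun z : ℝ × I => (z.1, 2 * (z.2 : ℝ))) (by fun_prop)
      fun z => ⟨mem_univ _, fc_two_mem _⟩⟩, fun _ _ => rfl⟩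

theorem exists_res (hf : ContinuousOn f (Icc 0 2)) : ∃ a : C(I, ℂ), ∀ s : I, a s = f (2 * s) :=
  ⟨⟨fun s => f (2 * s), hf.comp_continuous (by fun_prop) fc_two_mem⟩, fun _ => rfl⟩

theorem fc_norm_bern (n : ℕ) (a : C(I, ℂ)) : ‖bernsteinApproximation n a‖ ≤ ‖a‖ := by
  refine (ContinuousMap.norm_le _ (norm_nonneg _)).2 fun x => ?_
  rw [bernsteinApproximation.apply]
  refine (norm_sum_le_of_le _ (n := fun k : Fin (n + 1) => bernstein n k x * ‖a‖)
    fun k _ => ?_).trans ?_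
  · rw [norm_smul, Real.norm_of_nonneg bernstein_nonneg]
    exact mul_le_mul_of_nonneg_left (a.norm_coe_le_norm _) bernstein_nonneg
  · rw [← Finset.sum_mul, bernstein.probability, one_mul]

theorem bimeasure_aux (B : C(I, ℂ) →L[ℂ] C(I, ℂ) →L[ℂ] ℂ) (a c a' c' : C(ℝ, C(I, ℂ)))
    (u v : C(I, ℂ)) {b : ℝ → ℝ} (hb : Integrable b) (ha : ∀ t, ‖a t‖ ≤ b t) (ha' : ∀ t, ‖a' t‖ ≤ b t)
    {C : ℝ} (hc : ∀ t, ‖c t‖ ≤ C) (hc' : ∀ t, ‖c' t‖ ≤ C)
    (hI : ∀ s s', ∫ t, (a t s * c t s' + a' t s * c' t s') = u s * v s') :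
    ∫ t, (B (a t) (c t) + B (a' t) (c' t)) = B u v := by
  have hb0 : ∀ t, 0 ≤ b t := fun t => (norm_nonneg _).trans (ha t)
  have i1 : ∀ s, Integrable fun t => a t s • c t + a' t s • c' t := fun s => by
    refine Integrable.mono' (hb.mul_const (2 * C)) (Continuous.aestronglyMeasurable (by fun_prop))
      (Eventually.of_forall fun t => (norm_add_le _ _).trans ?_)
    rw [norm_smul, norm_smul]
    have h1 := mul_le_mul (((a t).norm_coe_le_norm s).trans (ha t)) (hc t) (norm_nonneg _) (hb0 t)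
    have h2 := mul_le_mul (((a' t).norm_coe_le_norm s).trans (ha' t)) (hc' t) (norm_nonneg _) (hb0 t)
    linarith
  have i2 : ∀ s, ∫ t, (a t s • c t + a' t s • c' t) = u s • v := fun s => by
    ext s'
    rw [ContinuousMap.integral_apply (i1 s)]
    exact hI s s'
  have e : ∀ (n : ℕ) (w : C(I, ℂ)), bernsteinApproximation n w =
      ∑ k : Fin (n + 1), w (bernstein.z k) • (bernstein n k • ContinuousMap.const I (1 : ℂ)) := by
    intro n w
    ext x
    simp [bernsteinApproximation.apply, mul_comm]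
  have i3 : ∀ n : ℕ, ∫ t, (B (bernsteinApproximation n (a t)) (c t) +
      B (bernsteinApproximation n (a' t)) (c' t)) = B (bernsteinApproximation n u) v := by
    intro n
    have e2 : ∀ t, B (bernsteinApproximation n (a t)) (c t) +
        B (bernsteinApproximation n (a' t)) (c' t) = ∑ k : Fin (n + 1),
          B (bernstein n k • ContinuousMap.const I (1 : ℂ))
            (a t (bernstein.z k) • c t + a' t (bernstein.z k) • c' t) := fun t => by
      simp [e, Finset.sum_add_distrib, ContinuousLinearMap.sum_apply]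
    simp only [e2]
    rw [integral_finset_sum _ fun k _ => ContinuousLinearMap.integrable_comp _ (i1 _)]
    simp [ContinuousLinearMap.integral_comp_comm _ (i1 _), i2, e, ContinuousLinearMap.sum_apply,
      -map_add]
  have cb : ∀ n : ℕ, Continuous (bernsteinApproximation (E := ℂ) n) := fun n => by
    rw [funext (e n)]
    fun_prop
  have lim : ∀ w z : C(I, ℂ), Tendsto (fun n => B (bernsteinApproximation n w) z) atTop
      (𝓝 (B w z)) := fun w z =>
    ((show Continuous fun w => B w z by fun_prop).tendsto w).comp (bernsteinApproximation_uniform w)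
  obtain ⟨D, hD⟩ : ∃ D : ℝ, ∀ (w z : C(I, ℂ)) (p q : ℝ), ‖w‖ ≤ p → ‖z‖ ≤ q →
      ‖B w z‖ ≤ D * p * q := ⟨_, fun _ _ _ _ h1 h2 => B.le_of_opNorm₂_le_of_le le_rfl h1 h2⟩
  refine tendsto_nhds_unique (tendsto_integral_of_dominated_convergence
    (F := fun n t => B (bernsteinApproximation n (a t)) (c t) +
      B (bernsteinApproximation n (a' t)) (c' t)) (fun t => b t * (2 * C * D))
    (fun n => Continuous.aestronglyMeasurable ?_) (hb.mul_const _)
    (fun n => Eventually.of_forall fun t => (norm_add_le _ _).trans ?_)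
    (Eventually.of_forall fun t => (lim _ _).add (lim _ _))) ?_
  · have := cb n
    fun_prop
  · have h1 := hD _ _ _ _ ((fc_norm_bern n _).trans (ha t)) (hc t)
    have h2 := hD _ _ _ _ ((fc_norm_bern n _).trans (ha' t)) (hc' t)
    linarith
  · simp only [i3]
    exact lim _ _

end Phi

theorem fc_integral (h : In02 R) (F : ℝ → ℝ → ℂ)
    (hF : ContinuousOn (Function.uncurry F) (univ ×ˢ Icc 0 2)) (b : ℝ → ℝ) (hb : Integrable b)
    (hFb : ∀ t, ∀ r ∈ Icc (0 : ℝ) 2, ‖F t r‖ ≤ b t) (hf : ∀ r ∈ Icc (0 : ℝ) 2, ∫ t, F t r = f r)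
    (ξ : H) : ∫ t, fc R (F t) ξ = fc R f ξ := by
  obtain ⟨Φ, -, hΦ⟩ := exists_Phi h
  obtain ⟨a, ha⟩ := exists_curry hF
  have hi : Integrable a := Integrable.mono' hb a.continuous.aestronglyMeasurable
    (Eventually.of_forall fun t => (ContinuousMap.norm_le _
      ((norm_nonneg _).trans (hFb t 0 ⟨le_rfl, zero_le_two⟩))).2 fun s => by
        rw [ha]; exact hFb _ _ (fc_two_mem s))
  have h1 := ((ContinuousLinearMap.apply ℂ H ξ).comp Φ).integral_comp_comm hi
  rw [← hΦ (∫ t, a t) f fun s => by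
    rw [ContinuousMap.integral_apply hi, ← hf _ (fc_two_mem s)]; simp only [ha]]
  simp only [← fun t => hΦ (a t) (F t) (ha t)]
  exact h1

theorem bimeasure (h : In02 R) (x : H →L[ℂ] H) (ξ η : H) (F G F' G' : ℝ → ℝ → ℂ)
    (hF : ContinuousOn (Function.uncurry F) (univ ×ˢ Icc 0 2))
    (hG : ContinuousOn (Function.uncurry G) (univ ×ˢ Icc 0 2))
    (hF' : ContinuousOn (Function.uncurry F') (univ ×ˢ Icc 0 2))
    (hG' : ContinuousOn (Function.uncurry G') (univ ×ˢ Icc 0 2)) (b : ℝ → ℝ) (hb : Integrable b)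
    (hFb : ∀ t, ∀ r ∈ Icc (0 : ℝ) 2, ‖F t r‖ ≤ b t ∧ ‖F' t r‖ ≤ b t) (C : ℝ)
    (hGb : ∀ t, ∀ r ∈ Icc (0 : ℝ) 2, ‖G t r‖ ≤ C ∧ ‖G' t r‖ ≤ C)
    (hf : ContinuousOn f (Icc 0 2)) (hg : ContinuousOn g (Icc 0 2))
    (hI : ∀ r ∈ Icc (0 : ℝ) 2, ∀ r' ∈ Icc (0 : ℝ) 2,
      ∫ t, (F t r * G t r' + F' t r * G' t r') = f r * g r') :
    ∫ t, (⟪η, fc R (F t) (x (fc R (G t) ξ))⟫_ℂ + ⟪η, fc R (F' t) (x (fc R (G' t) ξ))⟫_ℂ) =
      ⟪η, fc R f (x (fc R g ξ))⟫_ℂ := by
  obtain ⟨Φ, -, hΦ⟩ := exists_Phi h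
  obtain ⟨a, ha⟩ := exists_curry hF
  obtain ⟨c, hc⟩ := exists_curry hG
  obtain ⟨a', ha'⟩ := exists_curry hF'
  obtain ⟨c', hc'⟩ := exists_curry hG'
  obtain ⟨u, hu⟩ := exists_res hf
  obtain ⟨v, hv⟩ := exists_res hg
  have hb0 : ∀ t, 0 ≤ b t := fun t => (norm_nonneg _).trans (hFb t 0 ⟨le_rfl, zero_le_two⟩).1
  have hC0 : 0 ≤ C := (norm_nonneg _).trans (hGb 0 0 ⟨le_rfl, zero_le_two⟩).1
  have := bimeasure_aux (((ContinuousLinearMap.compL ℂ H H ℂ (innerSL ℂ η)).comp Φ).flip.comp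
      (x.comp ((ContinuousLinearMap.apply ℂ H ξ).comp Φ))).flip a c a' c' u v hb
    (fun t => (ContinuousMap.norm_le _ (hb0 t)).2 fun s => by
      rw [ha]; exact (hFb _ _ (fc_two_mem s)).1)
    (fun t => (ContinuousMap.norm_le _ (hb0 t)).2 fun s => by
      rw [ha']; exact (hFb _ _ (fc_two_mem s)).2)
    (fun t => (ContinuousMap.norm_le _ hC0).2 fun s => by
      rw [hc]; exact (hGb _ _ (fc_two_mem s)).1)
    (fun t => (ContinuousMap.norm_le _ hC0).2 fun s => by
      rw [hc']; exact (hGb _ _ (fc_two_mem s)).2)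
    (fun s s' => by simp only [ha, hc, ha', hc', hu, hv]; exact hI _ (fc_two_mem s) _ (fc_two_mem s'))
  simp only [← fun t => hΦ (a t) (F t) (ha t), ← fun t => hΦ (c t) (G t) (hc t),
    ← fun t => hΦ (a' t) (F' t) (ha' t), ← fun t => hΦ (c' t) (G' t) (hc' t), ← hΦ u f hu,
    ← hΦ v g hv]
  exact this

end

end Crest.Agent.R78
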