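import Crest.Agent.R78.PSAlg

/-!
# Row 78, task R78-Free: norms of sums over free generators.

PLAN.  `free_bound`: `∑ T i = ∑ T i p i + ∑ q i T i (1 - p i)`;
`‖∑ T i p i ξ‖ ≤ t ∑ ‖p i ξ‖ ≤ t √n √2 ‖ξ‖` and `|⟪η, ∑ q i T i (1 - p i) ξ⟫| ≤ ∑ ‖q i η‖ t ‖ξ‖`; `2 √2 ≤ 3`.
`avg_gen`: `p i = P (startsWith (i, false))`, `q i = P (startsWith (i, true))`, `1 - p i = P (..)ᶜ`;
`gen a b c l - b p₁ = Λ l + (c - 1) p₁ Λ l + (c - 1) p_l Λ l - a Λ l p₁ Λ l`; `p₁ Λ l = Λ l p_{l⁻¹}` is killed by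
`1 - p i`, and `l · (startsWith (i,false))ᶜ ⊆ startsWith (i, true)` (`FreeGroup.startsWith_mk_mul`,
`FreeGroup.of i = mk [(i, true)]`); norm `≤ 1 + 3 s ≤ 2`.
`conj_bound`: `T i = U i * P {1}ᶜ`, `p i = P {x | x ∈ startsWith (i,false) ∨ x⁻¹ ∈ startsWith (i,false)}`
(`‖P (S ∪ T) ξ‖² ≤ ‖P S ξ‖² + ‖P T ξ‖²`), `q i = P (startsWith (i,true))`: if `x ≠ 1` and neither `x` nor `x⁻¹`
starts with `a⁻¹`, then `a x a⁻¹` starts with `a` (e.g. `y = a x⁻¹` starts with `a` and has length `|x| + 1`;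
`y⁻¹ = x a⁻¹` has reduced word `toWord x ++ [a⁻¹]` (`toWord_inv`, `invRev`), which starts like `x`).
-/

set_option autoImplicit false

namespace Crest.Agent.R78

variable {E : Type*} [NormedAddCommGroup E] [InnerProductSpace ℂ E] [CompleteSpace E]
  {ι : Type*} [Fintype ι]

theorem Free_half {T p : ι → E →L[ℂ] E} {t : ℝ} (ht : 0 ≤ t) (hT : ∀ i, ‖T i‖ ≤ t)
    (hp : ∀ ξ, ∑ i, ‖p i ξ‖ ^ 2 ≤ 2 * ‖ξ‖ ^ 2) :
    ‖∑ i, T i * p i‖ ≤ 3 / 2 * t * √(Fintype.card ι) := by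
  refine ContinuousLinearMap.opNorm_le_bound _ (by positivity) fun ξ => ?_
  have h1 : ∑ i, ‖p i ξ‖ ≤ 3 / 2 * √(Fintype.card ι) * ‖ξ‖ := by
    refine (abs_le_of_sq_le_sq' ?_ (by positivity)).2
    have h2 := sq_sum_le_card_mul_sum_sq (s := Finset.univ) (f := fun i => ‖p i ξ‖)
    rw [Finset.card_univ] at h2
    have h3 := mul_le_mul_of_nonneg_left (hp ξ) (Nat.cast_nonneg (α := ℝ) (Fintype.card ι))
    rw [mul_pow, mul_pow, Real.sq_sqrt (Nat.cast_nonneg _)]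
    have h4 : 0 ≤ (Fintype.card ι : ℝ) * ‖ξ‖ ^ 2 := by positivity
    linarith
  rw [ContinuousLinearMap.sum_apply]
  calc ‖∑ i, (T i * p i) ξ‖ ≤ ∑ i, ‖(T i * p i) ξ‖ := norm_sum_le _ _
    _ ≤ ∑ i, t * ‖p i ξ‖ := Finset.sum_le_sum fun i _ => (T i).le_of_opNorm_le (hT i) _
    _ = t * ∑ i, ‖p i ξ‖ := by rw [Finset.mul_sum]
    _ ≤ t * (3 / 2 * √(Fintype.card ι) * ‖ξ‖) := mul_le_mul_of_nonneg_left h1 ht
    _ = _ := by ring

omit [Fintype ι] in
theorem Free_conj [DecidableEq ι] (i : ι) {x : FreeGroup ι} (h0 : x ≠ 1)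
    (h1 : x ∉ FreeGroup.startsWith (i, false)) (h2 : x⁻¹ ∉ FreeGroup.startsWith (i, false)) :
    FreeGroup.of i * x * (FreeGroup.of i)⁻¹ ∈ FreeGroup.startsWith (i, true) := by
  rw [mul_assoc]
  refine FreeGroup.startsWith_mk_mul (w := (i, true)) _ fun h => h1 ?_
  have hr := FreeGroup.isReduced_toWord (x := x)
  rcases List.eq_nil_or_concat x.toWord with e | ⟨L, z, e⟩
  · exact (h0 (FreeGroup.toWord_eq_nil_iff.1 e)).elim
  rw [List.concat_eq_append] at e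
  have hz : z ≠ (i, true) := by
    rintro rfl
    apply h2
    simp [FreeGroup.startsWith, FreeGroup.toWord_inv, e, FreeGroup.invRev]
  have hr2 : FreeGroup.IsReduced (L ++ [z] ++ [(i, false)]) := by
    refine FreeGroup.IsReduced.append_overlap (e ▸ hr) ?_ (by simp)
    obtain ⟨j, b⟩ := z
    cases b <;> simp at hz ⊢
    exact hz
  have e2 : (x * (FreeGroup.of i)⁻¹).toWord = L ++ [z] ++ [(i, false)] := by
    rw [FreeGroup.toWord_mul, e, FreeGroup.toWord_inv, FreeGroup.toWord_of]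
    exact hr2.reduce_eq
  simp only [FreeGroup.startsWith, Set.mem_setOf_eq, e2, e, Bool.not_true] at h ⊢
  rwa [List.getElem?_append_left (by simp)] at h

theorem Free_sum [DecidableEq ι] (C : PVM (FreeGroup ι) E) (b : Bool) (ξ : E) :
    ∑ i, ‖C.P (FreeGroup.startsWith (i, b)) ξ‖ ^ 2 ≤ ‖ξ‖ ^ 2 :=
  C.sum_sq_le (S := fun i => FreeGroup.startsWith (i, b))
    (fun i j h => FreeGroup.startsWith.disjoint_iff_ne.2 (by simpa using h)) ξ

theorem free_bound {T p q : ι → E →L[ℂ] E} {t : ℝ} (ht : 0 ≤ t) (hT : ∀ i, ‖T i‖ ≤ t)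
    (hp : ∀ ξ, ∑ i, ‖p i ξ‖ ^ 2 ≤ 2 * ‖ξ‖ ^ 2) (hp' : ∀ i, ‖1 - p i‖ ≤ 1)
    (hq : ∀ ξ, ∑ i, ‖q i ξ‖ ^ 2 ≤ 2 * ‖ξ‖ ^ 2) (hq' : ∀ i, IsSelfAdjoint (q i))
    (h : ∀ i, T i * (1 - p i) = q i * (T i * (1 - p i))) :
    ‖∑ i, T i‖ ≤ 3 * t * √(Fintype.card ι) := by
  have e : ∑ i, T i = ∑ i, T i * p i + star (∑ i, star (T i * (1 - p i)) * q i) := by
    rw [star_sum, ← Finset.sum_add_distrib]
    refine Finset.sum_congr rfl fun i _ => ?_
    rw [star_mul, star_star, (hq' i).star_eq, ← h, mul_sub, mul_one, add_sub_cancel]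
  have h1 := Free_half ht hT hp
  have h2 := Free_half (T := fun i => star (T i * (1 - p i))) ht (fun i => by
    rw [norm_star]
    exact (norm_mul_le _ _).trans
      ((mul_le_of_le_one_right (norm_nonneg _) (hp' i)).trans (hT i))) hq
  rw [e]
  refine (norm_add_le _ _).trans ?_
  rw [norm_star]
  linarith

theorem avg_gen (C : Cov (FreeGroup ι) E) {a b c : E →L[ℂ] E} (ha : C.Cm a) (hc : C.Cm c)
    (ha' : ‖a‖ ≤ 1 / 3) (hc' : ‖c - 1‖ ≤ 1 / 3) {Y : ι → E →L[ℂ] E} (hY : ∀ i, ‖Y i‖ ≤ 1)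
    (hY' : ∀ i S, C.P S * Y i = Y i * C.P S) :
    ‖∑ i, (C.gen a b c (FreeGroup.of i) - b * C.P {1}) * Y i‖ ≤ 6 * √(Fintype.card ι) := by
  classical
  have e : ∀ l, C.gen a b c l - b * C.P {1} =
      (1 + (c - 1) * (C.P {1} + C.P {l}) - a * C.Λ l * C.P {1}) * C.Λ l := fun l => by
    rw [Cov.gen, add_mul _ _ (C.Λ l), mul_assoc _ (C.Λ l⁻¹), C.inv_Λ, mul_one, add_sub_cancel_right]
  have nΛ : ∀ l, ‖C.Λ l‖ ≤ 1 := fun l =>
    ContinuousLinearMap.opNorm_le_bound _ zero_le_one fun ξ => by rw [C.norm_Λ, one_mul]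
  have hd := hc.sub_one
  have key := free_bound (T := fun i => (C.gen a b c (FreeGroup.of i) - b * C.P {1}) * Y i)
    (p := fun i => C.P (FreeGroup.startsWith (i, false)))
    (q := fun i => C.P (FreeGroup.startsWith (i, true))) (t := 2) (by norm_num) (fun i => ?_)
    (fun ξ => (Free_sum C.toPVM false ξ).trans (by nlinarith [sq_nonneg ‖ξ‖]))
    (fun i => by rw [← C.P_compl]; exact C.norm_le _)
    (fun ξ => (Free_sum C.toPVM true ξ).trans (by nlinarith [sq_nonneg ‖ξ‖]))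
    (fun i => C.P_sa _) (fun i => ?_)
  · linarith
  · rw [e]
    have n1 : ‖(1 : E →L[ℂ] E)‖ ≤ 1 := ContinuousLinearMap.norm_id_le
    have n2 : ‖(c - 1) * (C.P {1} + C.P {FreeGroup.of i})‖ ≤ 1 / 3 * (1 + 1) :=
      (norm_mul_le _ _).trans (mul_le_mul hc'
        ((norm_add_le _ _).trans (add_le_add (C.norm_le _) (C.norm_le _))) (norm_nonneg _)
        (by norm_num))
    have n3 : ‖a * C.Λ (FreeGroup.of i) * C.P {1}‖ ≤ 1 / 3 :=
      (norm_mul_le _ _).trans ((mul_le_of_le_one_right (norm_nonneg _) (C.norm_le _)).trans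
        ((norm_mul_le _ _).trans ((mul_le_of_le_one_right (norm_nonneg _) (nΛ _)).trans ha')))
    refine (norm_mul_le _ _).trans ((mul_le_of_le_one_right (norm_nonneg _) (hY i)).trans
      ((norm_mul_le _ _).trans ((mul_le_of_le_one_right (norm_nonneg _) (nΛ _)).trans
        ((norm_sub_le _ _).trans ?_))))
    have n4 := norm_add_le (1 : E →L[ℂ] E) ((c - 1) * (C.P {1} + C.P {FreeGroup.of i}))
    linarith
  · obtain ⟨S, hS⟩ : ∃ S : Set (FreeGroup ι), S =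
      (fun x => FreeGroup.of i * x) '' (FreeGroup.startsWith (i, false))ᶜ := ⟨_, rfl⟩
    have s1 : S ⊆ FreeGroup.startsWith (i, true) := by
      rw [hS]
      rintro _ ⟨x, hx, rfl⟩
      exact FreeGroup.startsWith_mk_mul (w := (i, true)) x hx
    have s2 : C.P {1} * C.P S = 0 := C.mul_of_disj (by
      rw [Set.disjoint_singleton_left]
      exact fun h => FreeGroup.startsWith.ne_one _ (s1 h) rfl)
    have s3 : C.P (FreeGroup.startsWith (i, true)) * C.P S = C.P S := by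
      rw [C.P_mul, Set.inter_eq_right.2 s1]
    have s4 : C.P (FreeGroup.startsWith (i, true)) * C.P {FreeGroup.of i} =
        C.P {FreeGroup.of i} := by
      have : ({FreeGroup.of i} : Set (FreeGroup ι)) ⊆ FreeGroup.startsWith (i, true) :=
        Set.singleton_subset_iff.2 rfl
      rw [C.P_mul, Set.inter_eq_right.2 this]
    have s5 : (C.gen a b c (FreeGroup.of i) - b * C.P {1}) * Y i *
        (1 - C.P (FreeGroup.startsWith (i, false))) =
        (C.P S + (c - 1) * (C.P {FreeGroup.of i} * C.P S)) * (C.Λ (FreeGroup.of i) * Y i) := by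
      rw [← C.P_compl, e, mul_assoc, ← hY', mul_assoc, ← mul_assoc (C.Λ _), C.cov, ← hS,
        mul_assoc (C.P S), ← mul_assoc _ (C.P S), sub_mul, add_mul, one_mul, mul_assoc _ (C.P {1}), s2,
        mul_zero, sub_zero, mul_assoc (c - 1), add_mul (C.P {1}), s2, zero_add]
    beta_reduce
    rw [s5, ← mul_assoc (C.P _), mul_add, s3, ← mul_assoc (C.P _) (c - 1), hd.2, mul_assoc (c - 1),
      ← mul_assoc (C.P _) (C.P {FreeGroup.of i}), s4]

theorem conj_bound (C : PVM (FreeGroup ι) E) {U : ι → E →L[ℂ] E} (hU : ∀ i, ‖U i‖ ≤ 1)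
    (h : ∀ i S, U i * C.P S =
      C.P ((fun x => FreeGroup.of i * x * (FreeGroup.of i)⁻¹) '' S) * U i) :
    ‖∑ i, U i * C.P {1}ᶜ‖ ≤ 3 * √(Fintype.card ι) := by
  classical
  have key := free_bound (T := fun i => U i * C.P {1}ᶜ)
    (p := fun i => C.P (FreeGroup.startsWith (i, false) ∪
      {x | x⁻¹ ∈ FreeGroup.startsWith (i, false)}))
    (q := fun i => C.P (FreeGroup.startsWith (i, true))) (t := 1) zero_le_one
    (fun i => (norm_mul_le _ _).trans
      ((mul_le_of_le_one_right (norm_nonneg _) (C.norm_le _)).trans (hU i)))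
    (fun ξ => ?_) (fun i => by rw [← C.P_compl]; exact C.norm_le _)
    (fun ξ => (Free_sum C true ξ).trans (by nlinarith [sq_nonneg ‖ξ‖]))
    (fun i => C.P_sa _) (fun i => ?_)
  · linarith
  · have h1 := Free_sum C false ξ
    have h2 := C.sum_sq_le (S := fun i => {x | x⁻¹ ∈ FreeGroup.startsWith (i, false)})
      (fun i j h => Set.disjoint_left.2 fun x hx hx' => Set.disjoint_left.1
        (FreeGroup.startsWith.disjoint_iff_ne.2 (by simpa using h)) hx hx') ξ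
    rw [two_mul]
    refine le_trans ?_ (add_le_add h1 h2)
    rw [← Finset.sum_add_distrib]
    refine Finset.sum_le_sum fun i _ => ?_
    rw [← Set.union_diff_self, C.sq_union Set.disjoint_sdiff_right]
    exact add_le_add_right (C.sq_mono Set.diff_subset ξ) _
  · beta_reduce
    rw [← C.P_compl, mul_assoc, C.P_mul, h, ← mul_assoc, C.P_mul,
      Set.inter_eq_right (t := _ '' _) |>.2]
    rintro _ ⟨x, ⟨h0, hx⟩, rfl⟩
    exact Free_conj i h0 (fun h => hx (Or.inl h)) (fun h => hx (Or.inr h))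

end Crest.Agent.R78
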