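import Crest.Agent.R78.Sech

/-!
# Row 78, task R78-Gau: Gaussian sums and the Fejér kernel.

PLAN (all constants are very generous).  `gz_ge`: the `2 ⌊1/θ⌋ + 1 ≥ 1/θ` terms with `|k| ≤ 1/θ` are
`≥ e^{-1/2} ≥ 1/2`.  Basic tool `sum_inv_le`: for `0 < θ ≤ 1`, real `a` and a finite set `s ⊆ ℤ`,
`∑_{k ∈ s} 1 / (1 + θ² (k + a)²) ≤ 20 / θ` (reduce to `|a| ≤ 1/2` by an integer shift; compare with a
telescoping sum, e.g. `1/(1 + θ² j²) ≤ C (1/(1 + θ (j-1)) - 1/(1 + θ j)) / θ`).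
`gz_toep`: `K gz - ∑_{l,l'} e^{…} = ∑_{|k| ≤ K} |k| e^{-θ² k²/2}` (count pairs, or: for fixed `k` at least
`K - |k|` values `l` have `l - k ∈ [0, K)`), and `y (1 + y²) e^{-y²/2} ≤ 10`.
`gz_B`: with `u = τ + v`, `(1 - e^{u/2})² ≤ u² e^{|u|}/4`, `|u| ≤ u²/(2θ²) + θ²/2`,
`y e^{-y/2} ≤ 10/(1 + y)` for `y = u²/θ² = θ² (l - k + τ/θ²)²`.
`fejer_tail`: split into `a < |t| ≤ π/θ²`, where `‖∑‖ ≤ 2/‖e^{iθ²t} - 1‖ ≤ π/(θ²|t|)` (geometric sum,
`Complex.norm_exp_I_mul_ofReal_sub_one`, `Real.mul_le_sin`) and `gauss ≤ θ`, `∫_{|t|>a} t⁻² = 2/a`; and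
`|t| > π/θ²`, where `‖∑‖ ≤ K` and `1 ≤ t² θ⁴/π²` (`integral_gauss_sq`).
-/

set_option autoImplicit false

namespace Crest.Agent.R78

open Finset Real MeasureTheory

/-- the normalising constant -/
noncomputable def gz (θ : ℝ) (K : ℕ) : ℝ := ∑ k ∈ Icc (-(K : ℤ)) K, exp (-(θ ^ 2 * (k : ℝ) ^ 2) / 2)

variable {θ : ℝ} {K : ℕ}

theorem gz_pos (θ : ℝ) (K : ℕ) : 0 < gz θ K :=
  sum_pos (fun _ _ => exp_pos _) ⟨0, by simp⟩

theorem gz_ge (hθ : 0 < θ) (hK : 1 ≤ K * θ) : 1 / (2 * θ) ≤ gz θ K := by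
  set m := ⌊1 / θ⌋₊ with hm
  have h0 : (0 : ℝ) ≤ 1 / θ := by positivity
  have h1 : (m : ℝ) ≤ 1 / θ := Nat.floor_le h0
  have h2 : 1 / θ < m + 1 := Nat.lt_floor_add_one _
  have h3 : 1 / θ ≤ K := by rw [div_le_iff₀ hθ]; exact hK
  have hmK : m ≤ K := by exact_mod_cast h1.trans h3
  have hsub : Icc (-(m : ℤ)) m ⊆ Icc (-(K : ℤ)) K := Icc_subset_Icc (by omega) (by omega)
  refine le_trans ?_ (sum_le_sum_of_subset_of_nonneg hsub fun _ _ _ => (exp_pos _).le)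
  have h4 : ∀ k ∈ Icc (-(m : ℤ)) m, (1 / 2 : ℝ) ≤ exp (-(θ ^ 2 * (k : ℝ) ^ 2) / 2) := by
    intro k hk
    obtain ⟨hk1, hk2⟩ := mem_Icc.1 hk
    have a1 : -(m : ℝ) ≤ k := by exact_mod_cast hk1
    have a2 : (k : ℝ) ≤ m := by exact_mod_cast hk2
    have a3 : θ * m ≤ 1 := by rwa [le_div_iff₀ hθ, mul_comm] at h1
    have a4 : (θ * k) ^ 2 ≤ 1 ^ 2 := by
      apply sq_le_sq'
      · nlinarith
      · nlinarith
    have := add_one_le_exp (-(θ ^ 2 * (k : ℝ) ^ 2) / 2)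
    nlinarith
  have h5 := card_nsmul_le_sum _ _ _ h4
  refine le_trans ?_ h5
  rw [Int.card_Icc, nsmul_eq_mul]
  have h6 : ((m : ℤ) + 1 - -(m : ℤ)).toNat = 2 * m + 1 := by omega
  rw [h6]
  push_cast
  have : 1 / (2 * θ) = 1 / θ * (1 / 2) := by field_simp
  rw [this]
  have : (0 : ℝ) ≤ m := Nat.cast_nonneg m
  nlinarith

/-- the set of differences `l - l'` -/
def rowI (K : ℕ) (l : Fin K) : Finset ℤ := univ.image fun l' : Fin K => ((l : ℕ) : ℤ) - (l' : ℕ)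

theorem rowI_sub (l : Fin K) : rowI K l ⊆ Icc (-(K : ℤ)) K := by
  intro k hk
  obtain ⟨l', -, rfl⟩ := mem_image.1 hk
  have := l.2
  have := l'.2
  rw [mem_Icc]
  omega

theorem row_eq (θ : ℝ) (l : Fin K) :
    ∑ l' : Fin K, exp (-(θ ^ 2 * (((l : ℕ) : ℝ) - (l' : ℕ)) ^ 2) / 2) =
      ∑ k ∈ rowI K l, exp (-(θ ^ 2 * (k : ℝ) ^ 2) / 2) := by
  rw [rowI, sum_image]
  · simp
  · intro a _ b _ h
    apply Fin.ext
    simp only at h
    omega

theorem gz_row (θ : ℝ) (l : Fin K) :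
    ∑ l' : Fin K, exp (-(θ ^ 2 * (((l : ℕ) : ℝ) - (l' : ℕ)) ^ 2) / 2) ≤ gz θ K := by
  rw [row_eq]
  exact sum_le_sum_of_subset_of_nonneg (rowI_sub l) fun _ _ _ => (exp_pos _).le

theorem phi_step (hθ : 0 < θ) (hθ1 : θ ≤ 1) (y : ℝ) :
    θ / 4 * (1 / (1 + y ^ 2)) ≤ (y + θ) / (1 + |y + θ|) - y / (1 + |y|) := by
  have hy : 0 < 1 + y ^ 2 := by positivity
  rcases le_total 0 y with h | h
  · rw [abs_of_nonneg h, abs_of_nonneg (by linarith), div_sub_div _ _ (by linarith) (by linarith),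
      div_mul_div_comm, div_le_div_iff₀ (by positivity) (by positivity)]
    have e : (y + θ) * (1 + y) - (1 + (y + θ)) * y = θ := by ring
    rw [e, mul_one]
    apply mul_le_mul_of_nonneg_left _ hθ.le
    nlinarith [sq_nonneg (y - 1)]
  rcases le_total 0 (y + θ) with h' | h'
  · rw [abs_of_nonpos h, abs_of_nonneg h']
    have a1 : (y + θ) / 2 ≤ (y + θ) / (1 + (y + θ)) :=
      div_le_div_of_nonneg_left h' (by linarith) (by linarith)
    have a2 : -y / 2 ≤ -y / (1 + -y) :=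
      div_le_div_of_nonneg_left (by linarith) (by linarith) (by linarith)
    have a3 : 1 / (1 + y ^ 2) ≤ 1 := by
      rw [div_le_one hy]; nlinarith
    rw [neg_div (1 + -y)] at a2
    nlinarith
  · rw [abs_of_nonpos h, abs_of_nonpos h', div_sub_div _ _ (by linarith) (by linarith),
      div_mul_div_comm, div_le_div_iff₀ (by positivity) (mul_pos (by linarith) (by linarith))]
    have e : (y + θ) * (1 + -y) - (1 + -(y + θ)) * y = θ := by ring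
    rw [e, mul_one]
    apply mul_le_mul_of_nonneg_left _ hθ.le
    nlinarith [sq_nonneg (y + 1)]

theorem sum_inv_le (hθ : 0 < θ) (hθ1 : θ ≤ 1) (b : ℝ) (M : ℕ) :
    ∑ i ∈ range M, 1 / (1 + (θ * (i + b)) ^ 2) ≤ 8 / θ := by
  let φ : ℕ → ℝ := fun i => θ * (i + b) / (1 + |θ * (i + b)|)
  have hφ : ∀ i, |φ i| ≤ 1 := by
    intro i
    simp only [φ]
    rw [abs_div, div_le_one (abs_pos.2 (by positivity)), abs_of_pos (a := 1 + _) (by positivity)]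
    linarith
  have h1 : ∑ i ∈ range M, θ / 4 * (1 / (1 + (θ * (i + b)) ^ 2)) ≤ ∑ i ∈ range M, (φ (i + 1) - φ i) := by
    refine sum_le_sum fun i _ => ?_
    have := phi_step hθ hθ1 (θ * (i + b))
    have e : θ * (((i + 1 : ℕ) : ℝ) + b) = θ * (i + b) + θ := by push_cast; ring
    simp only [φ]
    rw [e]
    exact this
  rw [sum_range_sub, ← mul_sum] at h1
  have a1 := abs_le.1 (hφ M)
  have a2 := abs_le.1 (hφ 0)
  rw [le_div_iff₀ hθ]
  linarith [a1.2, a2.1]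

theorem sum_inv_Icc (hθ : 0 < θ) (hθ1 : θ ≤ 1) (K : ℕ) :
    ∑ k ∈ Icc (-(K : ℤ)) K, 1 / (1 + (θ * (k : ℝ)) ^ 2) ≤ 8 / θ := by
  refine le_trans (le_of_eq ?_) (sum_inv_le hθ hθ1 (-(K : ℝ)) (2 * K + 1))
  symm
  refine sum_nbij' (fun i => (i : ℤ) - K) (fun k => (k + K).toNat) ?_ ?_ ?_ ?_ ?_
  · intro i hi
    simp only [mem_range, mem_Icc] at hi ⊢
    omega
  · intro k hk
    simp only [mem_range, mem_Icc] at hk ⊢
    omega
  · intro i _
    simp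
  · intro k hk
    simp only [mem_Icc] at hk
    omega
  · intro i _
    push_cast
    ring_nf

theorem card_not_row (k : ℤ) : (univ.filter fun l : Fin K => k ∉ rowI K l).card ≤ k.natAbs := by
  have h : ∀ l : Fin K, k ∉ rowI K l → ((l : ℕ) : ℤ) < k ∨ (K : ℤ) ≤ (l : ℕ) - k := by
    intro l hl
    by_contra hc
    push Not at hc
    apply hl
    refine mem_image.2 ⟨⟨(((l : ℕ) : ℤ) - k).toNat, by omega⟩, mem_univ _, ?_⟩
    simp only
    omega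
  rw [← card_range k.natAbs]
  refine card_le_card_of_injOn (fun l => if 0 ≤ k then (l : ℕ) else K - 1 - l) ?_ ?_
  · intro l hl
    have h1 := h l (mem_filter.1 hl).2
    have := l.2
    simp only [coe_range, Set.mem_Iio]
    split_ifs <;> omega
  · intro l _ l' _ hh
    have := l.2
    have := l'.2
    apply Fin.ext
    simp only at hh
    split_ifs at hh <;> omega

theorem exp_half_ge (y : ℝ) (hy : 0 ≤ y) : 1 + y / 2 + y ^ 2 / 8 ≤ exp (y / 2) := by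
  have := quadratic_le_exp_of_nonneg (x := y / 2) (by linarith)
  linarith [show (y / 2) ^ 2 / 2 = y ^ 2 / 8 by ring]

theorem gz_toep (hθ : 0 < θ) (hθ1 : θ ≤ 1) (hK : 1 ≤ K * θ) :
    (1 - 1000 / (K * θ)) * (K * gz θ K) ≤
      ∑ l : Fin K, ∑ l' : Fin K, exp (-(θ ^ 2 * (((l : ℕ) : ℝ) - (l' : ℕ)) ^ 2) / 2) := by
  have hK0 : (0 : ℝ) < K := by
    by_contra h
    push Not at h
    nlinarith
  set e : ℤ → ℝ := fun k => exp (-(θ ^ 2 * (k : ℝ) ^ 2) / 2) with he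
  have h1 : K * gz θ K = ∑ l : Fin K, ∑ k ∈ rowI K l, e k +
      ∑ l : Fin K, ∑ k ∈ Icc (-(K : ℤ)) K, if k ∉ rowI K l then e k else 0 := by
    rw [← sum_add_distrib]
    have : ∀ l : Fin K, (∑ k ∈ rowI K l, e k +
        ∑ k ∈ Icc (-(K : ℤ)) K, if k ∉ rowI K l then e k else 0) = gz θ K := by
      intro l
      rw [← sum_filter, ← sdiff_eq_filter, add_comm, sum_sdiff (rowI_sub l)]
      rfl
    rw [sum_congr rfl fun l _ => this l]
    simp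
  have h2 : (∑ l : Fin K, ∑ k ∈ Icc (-(K : ℤ)) K, if k ∉ rowI K l then e k else 0) ≤
      ∑ k ∈ Icc (-(K : ℤ)) K, 10 / θ * (1 / (1 + (θ * (k : ℝ)) ^ 2)) := by
    rw [sum_comm]
    refine sum_le_sum fun k _ => ?_
    rw [← sum_filter, sum_const, nsmul_eq_mul]
    have a1 : ((univ.filter fun l : Fin K => k ∉ rowI K l).card : ℝ) ≤ |(k : ℝ)| := by
      have := card_not_row (K := K) k
      rw [← Int.cast_abs, ← Int.natCast_natAbs]
      exact_mod_cast this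
    refine (mul_le_mul_of_nonneg_right a1 (exp_pos _).le).trans ?_
    have a2 := exp_half_ge ((θ * k) ^ 2) (sq_nonneg _)
    have a3 : exp (-(θ ^ 2 * (k : ℝ) ^ 2) / 2) = (exp ((θ * k) ^ 2 / 2))⁻¹ := by
      rw [← exp_neg]
      congr 1
      ring
    rw [a3, div_mul_div_comm, ← div_eq_mul_inv, div_le_div_iff₀ (exp_pos _) (by positivity)]
    set y := θ * |(k : ℝ)| with hy
    have a4 : (θ * k) ^ 2 = y ^ 2 := by rw [hy, mul_pow, mul_pow, sq_abs]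
    rw [a4] at a2 ⊢
    have a5 : |(k : ℝ)| * (θ * (1 + y ^ 2)) = y * (1 + y ^ 2) := by rw [hy]; ring
    rw [a5]
    nlinarith [sq_nonneg (y - 1), sq_nonneg (y ^ 2 - y), sq_nonneg (y ^ 2)]
  rw [← mul_sum] at h2
  have h3 := mul_le_mul_of_nonneg_left (sum_inv_Icc hθ hθ1 K) (show 0 ≤ 10 / θ by positivity)
  have h4 := mul_le_mul_of_nonneg_left (gz_ge hθ hK) (show 0 ≤ 1000 / θ by positivity)
  have h5 : 1000 / (K * θ) * (K * gz θ K) = 1000 / θ * gz θ K := by field_simp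
  have h6 : 10 / θ * (8 / θ) ≤ 1000 / θ * (1 / (2 * θ)) := by
    rw [div_mul_div_comm, div_mul_div_comm, div_le_div_iff₀ (by positivity) (by positivity)]
    nlinarith [mul_pos hθ hθ]
  rw [sum_congr rfl fun l _ => row_eq θ l, sub_mul, h5]
  linarith

theorem abs_one_sub_exp_le (v : ℝ) : |1 - exp v| ≤ |v| * exp |v| := by
  have h1 := add_one_le_exp v
  have h2 := add_one_le_exp (-v)
  have h3 := exp_pos v
  have h4 : exp (-v) * exp v = 1 := by rw [← exp_add]; simp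
  rcases le_total 0 v with h | h
  · rw [abs_of_nonneg h, abs_of_nonpos (by linarith)]
    nlinarith
  · have : exp v ≤ 1 := exp_le_one_iff.2 h
    rw [abs_of_nonpos h, abs_of_nonneg (by linarith)]
    nlinarith

theorem gz_B_term (hθ : 0 < θ) (hθ1 : θ ≤ 1) (u : ℝ) :
    ((1 - exp (u / 2)) * exp (-(θ⁻¹ ^ 2 * u ^ 2) / 2)) ^ 2 ≤
      8 * θ ^ 2 * (1 / (1 + (u / θ) ^ 2)) := by
  set y := (u / θ) ^ 2 with hy
  have hy0 : 0 ≤ y := sq_nonneg _
  have hu : u ^ 2 = θ ^ 2 * y := by rw [hy]; field_simp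
  have h1 : (1 - exp (u / 2)) ^ 2 ≤ u ^ 2 / 4 * exp |u| := by
    have := pow_le_pow_left₀ (abs_nonneg _) (abs_one_sub_exp_le (u / 2)) 2
    rw [sq_abs, mul_pow, sq_abs, ← exp_nat_mul] at this
    refine this.trans (le_of_eq ?_)
    congr 1
    · ring
    · rw [abs_div]; norm_num; ring
  have h2 : |u| ≤ y / 2 + 1 := by
    have a1 : |u| ^ 2 ≤ y := by rw [sq_abs, hu]; nlinarith [mul_le_mul hθ1 hθ1 hθ.le zero_le_one]
    nlinarith [sq_nonneg (|u| - 1)]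
  have h3 : exp (-(θ⁻¹ ^ 2 * u ^ 2) / 2) ^ 2 = exp (-y) := by
    rw [← exp_nat_mul]
    congr 1
    rw [hu]
    field_simp
    push_cast
    ring
  have h4 : exp |u| * exp (-y) ≤ 3 * (exp (y / 2))⁻¹ := by
    rw [← exp_add, ← exp_neg]
    have a1 : exp (|u| + -y) ≤ exp (1 + -(y / 2)) := exp_le_exp.2 (by linarith)
    rw [exp_add 1] at a1
    exact a1.trans (mul_le_mul_of_nonneg_right (by linarith [exp_one_lt_d9]) (exp_pos _).le)
  have h5 : y * (exp (y / 2))⁻¹ ≤ 10 * (1 / (1 + y)) := by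
    rw [← div_eq_mul_inv, mul_one_div, div_le_div_iff₀ (exp_pos _) (by positivity)]
    nlinarith [exp_half_ge y hy0]
  rw [mul_pow, h3]
  calc (1 - exp (u / 2)) ^ 2 * exp (-y) ≤ u ^ 2 / 4 * exp |u| * exp (-y) :=
        mul_le_mul_of_nonneg_right h1 (exp_pos _).le
    _ = u ^ 2 / 4 * (exp |u| * exp (-y)) := by ring
    _ ≤ u ^ 2 / 4 * (3 * (exp (y / 2))⁻¹) := mul_le_mul_of_nonneg_left h4 (by positivity)
    _ = 3 / 4 * θ ^ 2 * (y * (exp (y / 2))⁻¹) := by rw [hu]; ring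
    _ ≤ 3 / 4 * θ ^ 2 * (10 * (1 / (1 + y))) := mul_le_mul_of_nonneg_left h5 (by positivity)
    _ ≤ 8 * θ ^ 2 * (1 / (1 + y)) := by
        have : 0 ≤ θ ^ 2 * (1 / (1 + y)) := by positivity
        linarith

theorem gz_B (hθ : 0 < θ) (hθ1 : θ ≤ 1) (k : Fin K) (τ : ℝ) :
    ∑ l : Fin K, ((1 - exp ((τ + (((l : ℕ) : ℝ) - (k : ℕ)) * θ ^ 2) / 2)) *
      exp (-(θ⁻¹ ^ 2 * (τ + (((l : ℕ) : ℝ) - (k : ℕ)) * θ ^ 2) ^ 2) / 2)) ^ 2 ≤ 1000 * θ := by
  refine (sum_le_sum fun l _ => gz_B_term hθ hθ1 _).trans ?_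
  rw [← mul_sum]
  have h1 := sum_inv_le hθ hθ1 (τ / θ ^ 2 - (k : ℕ)) K
  rw [← Fin.sum_univ_eq_sum_range (fun i : ℕ => 1 / (1 + (θ * (i + (τ / θ ^ 2 - (k : ℕ)))) ^ 2))] at h1
  have h2 : ∀ l : Fin K, (τ + (((l : ℕ) : ℝ) - (k : ℕ)) * θ ^ 2) / θ =
      θ * ((l : ℕ) + (τ / θ ^ 2 - (k : ℕ))) := by
    intro l
    field_simp
    ring
  simp only [h2]
  refine (mul_le_mul_of_nonneg_left h1 (by positivity)).trans ?_
  have : 8 * θ ^ 2 * (8 / θ) = 64 * θ := by field_simp; norm_num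
  linarith

theorem geom_le (K : ℕ) (x : ℝ) (hx : |x| ≤ π) :
    ‖∑ l ∈ range K, Complex.exp (Complex.I * x) ^ l‖ * |x| ≤ π := by
  have h1 := geom_sum_mul (Complex.exp (Complex.I * x)) K
  have hn : ‖Complex.exp (Complex.I * x)‖ = 1 := by
    rw [mul_comm]; exact Complex.norm_exp_ofReal_mul_I x
  have h2 : ‖Complex.exp (Complex.I * x) ^ K - 1‖ ≤ 2 := by
    refine (norm_sub_le _ _).trans ?_
    rw [norm_pow, hn]
    norm_num
  rw [← h1, norm_mul, Complex.norm_exp_I_mul_ofReal_sub_one, Real.norm_eq_abs, abs_mul,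
    abs_two] at h2
  have h3 := mul_abs_le_abs_sin (x := x / 2) (by rw [abs_div, abs_two]; linarith)
  rw [abs_div, abs_two] at h3
  have h4 : |x| ≤ π * |sin (x / 2)| := by
    have := mul_le_mul_of_nonneg_left h3 pi_pos.le
    refine le_trans (le_of_eq ?_) this
    field_simp
  have h5 := norm_nonneg (∑ l ∈ range K, Complex.exp (Complex.I * x) ^ l)
  nlinarith [pi_pos, mul_le_mul_of_nonneg_left h4 h5]

theorem fejer_pt (hθ : 0 < θ) (K : ℕ) {a : ℝ} (ha : 0 < a) {t : ℝ} (ht : a < |t|) :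
    gauss θ⁻¹ t * ‖∑ l : Fin K, Complex.exp (Complex.I * (((l : ℕ) : ℝ) * θ ^ 2 : ℝ) * t)‖ ^ 2 ≤
      32 / (θ ^ 3 * a ^ 2) * (1 + (t / a) ^ 2)⁻¹ + K ^ 2 * θ ^ 4 * (gauss θ⁻¹ t * t ^ 2) := by
  have hg := gauss_nonneg (inv_pos.2 hθ) t
  have e : ∑ l : Fin K, Complex.exp (Complex.I * (((l : ℕ) : ℝ) * θ ^ 2 : ℝ) * t) =
      ∑ l ∈ range K, Complex.exp (Complex.I * (θ ^ 2 * t : ℝ)) ^ l := by
    rw [← Fin.sum_univ_eq_sum_range (fun l : ℕ => Complex.exp (Complex.I * (θ ^ 2 * t : ℝ)) ^ l)]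
    refine sum_congr rfl fun l _ => ?_
    rw [← Complex.exp_nat_mul]
    congr 1
    push_cast
    ring
  rw [e]
  set s := ‖∑ l ∈ range K, Complex.exp (Complex.I * (θ ^ 2 * t : ℝ)) ^ l‖ with hs
  have hs0 : 0 ≤ s := norm_nonneg _
  by_cases hx : |θ ^ 2 * t| ≤ π
  · have h1 := geom_le K _ hx
    rw [← hs] at h1
    have h2 : gauss θ⁻¹ t ≤ θ := by
      unfold gauss
      have a1 : exp (-(t ^ 2) / (2 * θ⁻¹ ^ 2)) ≤ 1 :=
        exp_le_one_iff.2 (div_nonpos_of_nonpos_of_nonneg (by nlinarith [sq_nonneg t]) (by positivity))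
      have a2 : 1 ≤ √(2 * π) := by
        rw [one_le_sqrt]; linarith [pi_gt_three]
      have a3 : (θ⁻¹ * √(2 * π))⁻¹ ≤ θ := by
        rw [mul_inv, inv_inv]
        exact mul_le_of_le_one_right hθ.le (inv_le_one_of_one_le₀ a2)
      exact (mul_le_of_le_one_right (by positivity) a1).trans a3
    have h3 : s ^ 2 * (θ ^ 4 * t ^ 2) ≤ 16 := by
      have := pow_le_pow_left₀ (by positivity) (h1.trans pi_le_four) 2
      rw [mul_pow, sq_abs] at this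
      linarith [show (θ ^ 2 * t) ^ 2 = θ ^ 4 * t ^ 2 by ring]
    have h4 : a ^ 2 ≤ t ^ 2 := by
      rw [← sq_abs t]; exact pow_le_pow_left₀ ha.le ht.le 2
    have h5 : θ * s ^ 2 ≤ 32 / (θ ^ 3 * a ^ 2) * (1 + (t / a) ^ 2)⁻¹ := by
      have : 32 / (θ ^ 3 * a ^ 2) * (1 + (t / a) ^ 2)⁻¹ = 32 / (θ ^ 3 * (a ^ 2 + t ^ 2)) := by
        field_simp
      rw [this, le_div_iff₀ (by positivity)]
      have b1 : θ * s ^ 2 * (θ ^ 3 * (a ^ 2 + t ^ 2)) = s ^ 2 * θ ^ 4 * (a ^ 2 + t ^ 2) := by ring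
      have b2 : s ^ 2 * θ ^ 4 * (a ^ 2 + t ^ 2) ≤ s ^ 2 * θ ^ 4 * (2 * t ^ 2) :=
        mul_le_mul_of_nonneg_left (by linarith) (by positivity)
      linarith
    have h6 : gauss θ⁻¹ t * s ^ 2 ≤ θ * s ^ 2 := mul_le_mul_of_nonneg_right h2 (sq_nonneg _)
    have h7 : 0 ≤ (K : ℝ) ^ 2 * θ ^ 4 * (gauss θ⁻¹ t * t ^ 2) := by positivity
    linarith
  · push Not at hx
    have h1 : s ≤ K := by
      refine (norm_sum_le _ _).trans (le_of_eq ?_)
      have hn : ‖Complex.exp (Complex.I * (θ ^ 2 * t : ℝ))‖ = 1 := by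
        rw [mul_comm]; exact Complex.norm_exp_ofReal_mul_I _
      simp only [norm_pow, hn, one_pow, sum_const, card_range, nsmul_eq_mul, mul_one]
    have h2 : 1 ≤ θ ^ 4 * t ^ 2 := by
      have := pow_le_pow_left₀ zero_le_one ((by linarith [pi_gt_three] : (1 : ℝ) ≤ π).trans hx.le) 2
      rw [sq_abs] at this
      linarith [show (θ ^ 2 * t) ^ 2 = θ ^ 4 * t ^ 2 by ring]
    have h3 : s ^ 2 ≤ K ^ 2 * (θ ^ 4 * t ^ 2) :=
      (pow_le_pow_left₀ hs0 h1 2).trans (le_mul_of_one_le_right (sq_nonneg _) h2)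
    have h4 := mul_le_mul_of_nonneg_left h3 hg
    have h5 : 0 ≤ 32 / (θ ^ 3 * a ^ 2) * (1 + (t / a) ^ 2)⁻¹ := by positivity
    linarith [show gauss θ⁻¹ t * (K ^ 2 * (θ ^ 4 * t ^ 2)) =
      K ^ 2 * θ ^ 4 * (gauss θ⁻¹ t * t ^ 2) by ring]

theorem fejer_tail (hθ : 0 < θ) (hK : 1 ≤ K * θ) {a : ℝ} (ha : 0 < a) :
    ∫ t in {t : ℝ | a < |t|}, gauss θ⁻¹ t *
      ‖∑ l : Fin K, Complex.exp (Complex.I * (((l : ℕ) : ℝ) * θ ^ 2 : ℝ) * t)‖ ^ 2 ≤
      K * gz θ K * (1000 / (K * θ ^ 2 * a) + 1000 * K * θ ^ 3) := by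
  have hK0 : (0 : ℝ) < K := by
    by_contra h
    push Not at h
    nlinarith
  have hθ' := inv_pos.2 hθ
  have i1 : Integrable fun t : ℝ => 32 / (θ ^ 3 * a ^ 2) * (1 + (t / a) ^ 2)⁻¹ :=
    (integrable_inv_one_add_sq.comp_div ha.ne').const_mul _
  have i2 : Integrable fun t : ℝ => (K : ℝ) ^ 2 * θ ^ 4 * (gauss θ⁻¹ t * t ^ 2) :=
    (integrable_gauss_sq hθ').const_mul _
  have hm : MeasurableSet {t : ℝ | a < |t|} :=
    (isOpen_lt continuous_const continuous_abs).measurableSet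
  refine (integral_mono_of_nonneg
    (Filter.Eventually.of_forall fun t => mul_nonneg (gauss_nonneg hθ' t) (sq_nonneg _))
    (i1.add i2).integrableOn
    (ae_restrict_of_forall_mem hm fun t ht => fejer_pt hθ K ha ht)).trans ?_
  refine (setIntegral_le_integral (i1.add i2) (Filter.Eventually.of_forall fun t => ?_)).trans ?_
  · have := gauss_nonneg hθ' t
    simp only [Pi.zero_apply, Pi.add_apply]
    positivity
  simp only [Pi.add_apply]
  rw [integral_add i1 i2, integral_const_mul, integral_const_mul,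
    Measure.integral_comp_div (fun t : ℝ => (1 + t ^ 2)⁻¹), integral_univ_inv_one_add_sq,
    abs_of_pos ha, smul_eq_mul]
  have h1 := mul_le_mul_of_nonneg_left (integral_gauss_sq hθ')
    (show (0 : ℝ) ≤ K ^ 2 * θ ^ 4 by positivity)
  have h2 := mul_le_mul_of_nonneg_right (mul_le_mul_of_nonneg_left (gz_ge hθ hK) hK0.le)
    (show (0 : ℝ) ≤ 1000 / (K * θ ^ 2 * a) + 1000 * K * θ ^ 3 by positivity)
  have h3 : K * (1 / (2 * θ)) * (1000 / (K * θ ^ 2 * a) + 1000 * K * θ ^ 3) =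
      500 * (θ ^ 3 * a)⁻¹ + 500 * (K ^ 2 * θ ^ 2) := by
    field_simp
    ring
  have h4 : 32 / (θ ^ 3 * a ^ 2) * (a * π) = 32 * π * (θ ^ 3 * a)⁻¹ := by field_simp
  have h5 : (K : ℝ) ^ 2 * θ ^ 4 * (2 * θ⁻¹ ^ 2) = 2 * (K ^ 2 * θ ^ 2) := by field_simp
  have h6 : 0 ≤ (θ ^ 3 * a)⁻¹ := by positivity
  have h7 : (0 : ℝ) ≤ K ^ 2 * θ ^ 2 := by positivity
  have h8 := mul_le_mul_of_nonneg_right pi_le_four h6
  rw [h4]
  nlinarith

end Crest.Agent.R78
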