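import Mathlib

/-! # Row 78: the index obstruction (helper of `Idx`). -/

set_option autoImplicit false

namespace Crest.Agent.R78

theorem surj_one_sub_of_inj {V : Type*} [AddCommGroup V] [Module ℂ V] (K : V →ₗ[ℂ] V)
    (hK : FiniteDimensional ℂ (LinearMap.range K)) (hinj : ∀ x, x - K x = 0 → x = 0) (y : V) :
    ∃ x, x - K x = y := by
  let L : LinearMap.range K →ₗ[ℂ] LinearMap.range K :=
    LinearMap.id - K.restrict (fun x _ => LinearMap.mem_range_self K x)
  have hL : ∀ w, (L w : V) = w - K w := fun w => rfl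
  have hLi : Function.Injective L := by
    rw [← LinearMap.ker_eq_bot, LinearMap.ker_eq_bot']
    intro w hw
    apply Subtype.ext
    apply hinj
    rw [← hL, hw]; rfl
  obtain ⟨w, hw⟩ := LinearMap.injective_iff_surjective.1 hLi ⟨K y, LinearMap.mem_range_self K y⟩
  have hw' : (w : V) - K w = K y := by rw [← hL, hw]
  refine ⟨y + w, ?_⟩
  rw [map_add, ← hw']; abel

variable {H : Type*} [NormedAddCommGroup H] [InnerProductSpace ℂ H] [CompleteSpace H]

theorem surj_of_normal {M F : H →L[ℂ] H} {c : ℝ} (hc : 0 < c) (hM : ∀ ξ, c * ‖ξ‖ ≤ ‖M ξ‖)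
    (hF : FiniteDimensional ℂ (LinearMap.range (F : H →ₗ[ℂ] H)))
    (hN : IsStarNormal (M + F)) : Function.Surjective M := by
  set N := M + F with hNdef
  have hM0 : ∀ ξ, M ξ = 0 → ξ = 0 := fun ξ h => by
    have := hM ξ
    rw [h, norm_zero] at this
    have h2 : ‖ξ‖ ≤ 0 := by
      by_contra h3
      push Not at h3
      have := mul_pos hc h3
      linarith
    exact norm_le_zero_iff.1 h2
  have hanti : AntilipschitzWith ⟨c⁻¹, by positivity⟩ M :=
    M.antilipschitz_of_bound fun x => by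
      have := hM x
      show ‖x‖ ≤ c⁻¹ * ‖M x‖
      rw [le_inv_mul_iff₀ hc]; exact this
  have hemb := hanti.isClosedEmbedding M.uniformContinuous
  have hFr : (F : H →ₗ[ℂ] H).HasFiniteRange := by
    rw [LinearMap.hasFiniteRange_iff_range]
    exact Module.Finite.iff_fg.1 hF
  have hco : (LinearMap.ker (F : H →ₗ[ℂ] H)).CoFG := LinearMap.ker_coFG_iff_hasFiniteRange.2 hFr
  have hcl : IsClosed ((N : H →ₗ[ℂ] H).range : Set H) := by
    refine LinearMap.isClosed_range_of_isClosed_map_of_finiteDimensional_quotient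
      (s := LinearMap.ker (F : H →ₗ[ℂ] H)) ?_
    have : (((LinearMap.ker (F : H →ₗ[ℂ] H)).map (N : H →ₗ[ℂ] H) : Submodule ℂ H) : Set H) =
        M '' (LinearMap.ker (F : H →ₗ[ℂ] H) : Set H) := by
      ext y
      simp only [Submodule.map_coe, Set.mem_image, SetLike.mem_coe, LinearMap.mem_ker,
        ContinuousLinearMap.coe_coe]
      constructor
      · rintro ⟨x, hx, rfl⟩
        exact ⟨x, hx, by simp [hNdef, hx]⟩
      · rintro ⟨x, hx, rfl⟩
        exact ⟨x, hx, by simp [hNdef, hx]⟩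
    rw [this]
    exact hemb.isClosedMap _ F.isClosed_ker
  set K₀ : Submodule ℂ H := LinearMap.ker (N : H →ₗ[ℂ] H) with hK₀
  have hfin : FiniteDimensional ℂ K₀ := by
    let g : K₀ →ₗ[ℂ] LinearMap.range (F : H →ₗ[ℂ] H) :=
      (F : H →ₗ[ℂ] H).rangeRestrict ∘ₗ K₀.subtype
    refine FiniteDimensional.of_injective g ?_
    rw [← LinearMap.ker_eq_bot, LinearMap.ker_eq_bot']
    intro w hw
    have h1 : F w = 0 := congrArg Subtype.val hw
    have h2 : N w = 0 := w.2
    apply Subtype.ext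
    apply hM0
    simpa [hNdef, h1] using h2
  have horth : (N : H →ₗ[ℂ] H).rangeᗮ = K₀ := ContinuousLinearMap.IsStarNormal.orthogonal_range hN
  have hcomp : CompleteSpace (N : H →ₗ[ℂ] H).range := hcl.completeSpace_coe
  have horth' : K₀ᗮ = (N : H →ₗ[ℂ] H).range := by
    rw [← horth, Submodule.orthogonal_orthogonal]
  let p : H →L[ℂ] H := K₀.starProjection
  have hp : ∀ x, p x ∈ K₀ := fun x => K₀.starProjection_apply_mem x
  have hbij : Function.Bijective ((N + p : H →L[ℂ] H) : H →ₗ[ℂ] H) := by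
    constructor
    · rw [← LinearMap.ker_eq_bot, LinearMap.ker_eq_bot']
      intro x hx
      have hx' : N x + p x = 0 := hx
      have h1 : N x ∈ K₀ := by
        rw [eq_neg_of_add_eq_zero_left hx']; exact K₀.neg_mem (hp x)
      have h2 : N x ∈ K₀ᗮ := by rw [horth']; exact ⟨x, rfl⟩
      have h3 : N x = 0 := by
        have := K₀.inf_orthogonal_eq_bot
        exact (Submodule.mem_bot ℂ).1 (this ▸ Submodule.mem_inf.2 ⟨h1, h2⟩)
      have h4 : p x = x := Submodule.starProjection_eq_self_iff.2 h3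
      rw [h3, h4, zero_add] at hx'
      exact hx'
    · intro y
      have h1 : y - p y ∈ K₀ᗮ := K₀.sub_starProjection_mem_orthogonal y
      rw [horth'] at h1
      obtain ⟨x, hx⟩ := h1
      have hx' : N x = y - p y := hx
      refine ⟨x - p x + p y, ?_⟩
      have e1 : N (p x) = 0 := hp x
      have e2 : N (p y) = 0 := hp y
      have e3 : p (p x) = p x := Submodule.starProjection_eq_self_iff.2 (hp x)
      have e4 : p (p y) = p y := Submodule.starProjection_eq_self_iff.2 (hp y)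
      show N (x - p x + p y) + p (x - p x + p y) = y
      rw [map_add, map_sub, map_add, map_sub, e1, e2, e3, e4, hx']; abel
  let e := LinearEquiv.ofBijective _ hbij
  have he : ∀ x, e x = N x + p x := fun x => rfl
  let K : H →ₗ[ℂ] H := e.symm.toLinearMap ∘ₗ ((p : H →ₗ[ℂ] H) + (F : H →ₗ[ℂ] H))
  have hK : ∀ x, e (x - K x) = M x := fun x => by
    rw [map_sub, he]
    have : e (K x) = p x + F x := e.apply_symm_apply _
    rw [this]
    show M x + F x + p x - (p x + F x) = M x
    abel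
  have hKf : FiniteDimensional ℂ (LinearMap.range K) := by
    have h1 : (p : H →ₗ[ℂ] H).HasFiniteRange := by
      rw [LinearMap.hasFiniteRange_iff_range]
      have : LinearMap.range (p : H →ₗ[ℂ] H) ≤ K₀ := by
        rintro _ ⟨x, rfl⟩; exact hp x
      exact Module.Finite.iff_fg.1 (Submodule.finiteDimensional_of_le this)
    have h2 : K.HasFiniteRange := (h1.add hFr).comp_left _
    rw [LinearMap.hasFiniteRange_iff_range] at h2
    exact Module.Finite.iff_fg.2 h2
  intro y
  obtain ⟨x, hx⟩ := surj_one_sub_of_inj K hKf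
    (fun x hx => hM0 x (by rw [← hK, hx, map_zero])) (e.symm y)
  exact ⟨x, by rw [← hK, hx, e.apply_symm_apply]⟩

theorem idx' {A F N : H →L[ℂ] H} {c : ℝ} (hc : 0 < c) (hA : ∀ ξ, c * ‖ξ‖ ≤ ‖A ξ‖)
    (hA' : ¬ Function.Surjective A) (hF : FiniteDimensional ℂ (LinearMap.range (F : H →ₗ[ℂ] H)))
    (hN : star N * N = N * star N) : c / 3 < ‖N - (A + F)‖ := by
  by_contra hcon
  push Not at hcon
  set D := N - (A + F) with hD
  have hM : ∀ ξ, (2 * c / 3) * ‖ξ‖ ≤ ‖(A + D) ξ‖ := fun ξ => by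
    have h1 := hA ξ
    have h2 : ‖D ξ‖ ≤ c / 3 * ‖ξ‖ :=
      (D.le_opNorm ξ).trans (mul_le_mul_of_nonneg_right hcon (norm_nonneg _))
    have h3 : ‖A ξ‖ ≤ ‖(A + D) ξ‖ + ‖D ξ‖ := by
      have : A ξ = (A + D) ξ - D ξ := by simp
      rw [this]; exact norm_sub_le _ _
    linarith
  have hc' : 0 < 2 * c / 3 := by positivity
  have hs : Function.Surjective (A + D) := by
    refine surj_of_normal hc' hM hF ?_
    have : A + D + F = N := by rw [hD]; abel
    rw [this]
    exact ⟨hN⟩
  have hi : Function.Injective (A + D) := by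
    intro x y hxy
    have := hM (x - y)
    rw [map_sub, hxy, sub_self, norm_zero] at this
    have h2 : ‖x - y‖ ≤ 0 := by
      by_contra h3
      push Not at h3
      have := mul_pos hc' h3
      linarith
    exact sub_eq_zero.1 (norm_le_zero_iff.1 h2)
  obtain ⟨u, hu⟩ := ContinuousLinearMap.isUnit_iff_bijective.2 ⟨hi, hs⟩
  have hui : ‖(↑u⁻¹ : H →L[ℂ] H) * D‖ ≤ 1 / 2 := by
    refine ContinuousLinearMap.opNorm_le_bound _ (by norm_num) fun ξ => ?_
    have h1 := hM (((↑u⁻¹ : H →L[ℂ] H) * D) ξ)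
    have h2 : (A + D) (((↑u⁻¹ : H →L[ℂ] H) * D) ξ) = D ξ := by
      rw [← hu, ← ContinuousLinearMap.mul_apply, ← mul_assoc, Units.mul_inv, one_mul]
    have h3 : ‖D ξ‖ ≤ c / 3 * ‖ξ‖ :=
      (D.le_opNorm ξ).trans (mul_le_mul_of_nonneg_right hcon (norm_nonneg _))
    rw [h2] at h1
    nlinarith
  have h1 : IsUnit (1 - (↑u⁻¹ : H →L[ℂ] H) * D) :=
    isUnit_one_sub_of_norm_lt_one (lt_of_le_of_lt hui (by norm_num))
  have h2 : A = u * (1 - (↑u⁻¹ : H →L[ℂ] H) * D) := by
    rw [mul_sub, mul_one, ← mul_assoc, Units.mul_inv, one_mul, hu]; abel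
  have h3 : IsUnit A := h2 ▸ u.isUnit.mul h1
  exact hA' (ContinuousLinearMap.isUnit_iff_bijective.1 h3).2

end Crest.Agent.R78
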