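import Mathlib

/-! # Row 78: a unitary with prescribed imaginary part (helper of `Idx`). -/

set_option autoImplicit false

namespace Crest.Agent.R78

theorem exists_sqrt_aux {A : Type*} [CStarAlgebra A] {X : A} (hX : IsSelfAdjoint X)
    (hX' : ‖X‖ ≤ 1) : ∃ a : A, IsSelfAdjoint a ∧ a * a = 1 - (1 / 4 : ℝ) • (X * X) ∧
      a * X = X * a ∧ ‖a - 1‖ ≤ 1 / 4 := by
  have hsp : ∀ t ∈ spectrum ℝ X, |t| ≤ 1 := fun t ht => by
    rcases subsingleton_or_nontrivial A with h | h
    · simp at ht
    · exact (spectrum.norm_le_norm_of_mem ht).trans hX'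
  have hsq : ∀ t ∈ spectrum ℝ X, t ^ 2 ≤ 1 := fun t ht => by
    have := hsp t ht
    rw [← sq_abs]; nlinarith [abs_nonneg t]
  let f : ℝ → ℝ := fun t => √(1 - (1 / 4) * (t * t))
  have hf : Continuous f := by fun_prop
  refine ⟨cfc f X, cfc_predicate f X, ?_, ?_, ?_⟩
  · rw [← cfc_mul f f X]
    have : cfc (fun t => f t * f t) X = cfc (fun t : ℝ => 1 - (1 / 4 : ℝ) • (t * t)) X := by
      refine cfc_congr fun t ht => ?_
      have := hsq t ht
      exact Real.mul_self_sqrt (by nlinarith)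
    rw [this, cfc_sub _ _ X, cfc_smul (1 / 4 : ℝ) _ X, cfc_mul _ _ X, cfc_id' ℝ X, cfc_const_one ℝ X]
  · have := cfc_commute_cfc f (fun t : ℝ => t) X
    rw [cfc_id' ℝ X] at this
    exact this
  · rw [← cfc_const_one ℝ X, ← cfc_sub f _ X]
    refine norm_cfc_le (by norm_num) fun t ht => ?_
    have h := hsq t ht
    have h1 : f t ≤ 1 := Real.sqrt_le_one.2 (by nlinarith [mul_self_nonneg t])
    have h2 : 3 / 4 ≤ f t := Real.le_sqrt_of_sq_le (by nlinarith)
    rw [Real.norm_eq_abs, abs_le]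
    constructor <;> linarith

theorem exists_unit_aux {A : Type*} [CStarAlgebra A] {X : A} (hX : IsSelfAdjoint X)
    (hX' : ‖X‖ ≤ 1) : ∃ u : unitary A, (u : A) - star (u : A) = Complex.I • X ∧
      ∀ T : A, ‖u * T - T * u‖ ≤ ‖X * T - T * X‖ := by
  obtain ⟨a, ha, h2, hc, hn⟩ := exists_sqrt_aux hX hX'
  have hst : star (a + (Complex.I / 2) • X) = a - (Complex.I / 2) • X := by
    rw [star_add, star_smul, ha.star_eq, hX.star_eq, sub_eq_add_neg, ← neg_smul]
    congr 2
    simp [neg_div]
  have hI : (Complex.I / 2) * (Complex.I / 2) = -((1 / 4 : ℝ) : ℂ) := by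
    have : (Complex.I / 2) * (Complex.I / 2) = (Complex.I * Complex.I) / 4 := by ring
    rw [this, Complex.I_mul_I]; push_cast; ring
  have h2' : a * a = 1 - ((1 / 4 : ℝ) : ℂ) • (X * X) := by rw [h2, Complex.coe_smul]
  refine ⟨⟨a + (Complex.I / 2) • X, ?_, ?_⟩, ?_, fun T => ?_⟩
  · rw [hst]
    simp only [sub_mul, mul_add, smul_mul_assoc, mul_smul_comm, smul_smul, hc, hI, h2', neg_smul,
      smul_sub]
    abel
  · rw [hst]
    simp only [add_mul, mul_sub, smul_mul_assoc, mul_smul_comm, smul_smul, hc, hI, h2', neg_smul,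
      smul_add]
    abel
  · show a + (Complex.I / 2) • X - star (a + (Complex.I / 2) • X) = Complex.I • X
    rw [hst, add_sub_sub_cancel, ← add_smul]
    congr 1; ring
  · show ‖(a + (Complex.I / 2) • X) * T - T * (a + (Complex.I / 2) • X)‖ ≤ _
    set D := a * T - T * a with hD
    set E := X * T - T * X with hE
    have e1 : (a + (Complex.I / 2) • X) * T - T * (a + (Complex.I / 2) • X) =
        D + (Complex.I / 2) • E := by
      simp only [hD, hE, add_mul, mul_add, smul_mul_assoc, mul_smul_comm, smul_sub]; abel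
    have e2 : a * D + D * a = -((1 / 4 : ℝ) • (X * E + E * X)) := by
      have : a * D + D * a = a * a * T - T * (a * a) := by rw [hD]; noncomm_ring
      rw [this, h2, hE]
      simp only [sub_mul, mul_sub, smul_mul_assoc, mul_smul_comm, one_mul, mul_one, smul_add,
        smul_sub, mul_assoc]
      abel
    have e3 : D + D = (a * D + D * a) - (a - 1) * D - D * (a - 1) := by noncomm_ring
    have n1 : ‖X * E + E * X‖ ≤ 2 * ‖E‖ := by
      have := norm_add_le (X * E) (E * X)
      have h3 := norm_mul_le X E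
      have h4 := norm_mul_le E X
      nlinarith [norm_nonneg E, norm_nonneg X]
    have n2 : ‖a * D + D * a‖ ≤ ‖E‖ / 2 := by
      rw [e2, norm_neg, norm_smul, Real.norm_eq_abs, abs_of_pos (by norm_num)]
      linarith
    have n3 : 2 * ‖D‖ ≤ ‖E‖ / 2 + ‖D‖ / 2 := by
      have h3 : ‖D + D‖ = 2 * ‖D‖ := by rw [← two_smul ℝ D, norm_smul]; simp
      rw [← h3, e3]
      have h4 := norm_sub_le ((a * D + D * a) - (a - 1) * D) (D * (a - 1))
      have h5 := norm_sub_le (a * D + D * a) ((a - 1) * D)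
      have h6 := norm_mul_le (a - 1) D
      have h7 := norm_mul_le D (a - 1)
      nlinarith [norm_nonneg D, norm_nonneg (a - 1)]
    rw [e1]
    have n4 : ‖(Complex.I / 2) • E‖ = ‖E‖ / 2 := by
      rw [norm_smul]; simp; ring
    have := norm_add_le D ((Complex.I / 2) • E)
    linarith [norm_nonneg E]

end Crest.Agent.R78
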