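import Crest.Agent.R78.L2K
import Crest.Agent.R78.Idx_A
import Crest.Agent.R78.Idx_B

/-!
# Row 78, task R78-Idx: the index obstruction and the weighted shift.

PLAN.  `idx`: suppose `N` normal, `‖N - (A + F)‖ ≤ c/3`.  `γ = (c/2)²`, `f t = max 0 (1 - t/γ)`,
`k = cfc f (N⋆ N)`; `k` commutes with `N`, `N⋆`.  On the range of `k`: `‖N ξ‖ ≤ (c/2) ‖ξ‖` (`t f² ≤ γ f²`); on
`ker F`: `‖N ξ‖ ≥ (2c/3) ‖ξ‖`; so `F` is injective on `range k`, which is finite dimensional.  With `p` the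
orthogonal projection onto it (commutes with `N`, `N⋆`; `k (1 - p) = 0`), `N' = N (1 - p) + c p` is normal and
bounded below by `c/2` (`t + γ f t ≥ γ`), hence invertible (`N'⋆` is bounded below too: closed dense range),
`G = N' + (A + F - N)` is invertible (`‖A + F - N‖ ‖N'⁻¹‖ ≤ 2/3`), `A = G (1 + F'')` with `F''` of finite rank;
`1 + F''` is injective, so bijective on `range F''`, so surjective: `x = y - w`, `(1 + F'') w = F'' y`.
`exists_shift`: `K = ell ℕ ℂ`, `S = adjoint (cmp ℂ Nat.succ)`, `w k = √(min 1 ((k+1) η))`, `T = S * mop (w k • 1)`,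
`X = (T + T⋆)/2`, `Y = (T - T⋆)/(2i)`; `X Y - Y X = (T⋆T - TT⋆)/(2i)`, `T⋆T - TT⋆` is diagonal with entries
`w k² - w (k-1)² ∈ [0, η]`; `F = S * mop ((w k - 1) • 1)` has finite rank (its range lies in the span of
finitely many `single (k+1) 1`); `κ k = (conj lam)^k`.
`exists_unit`: `a = √(1 - X²/4)` (`cfc`), `u = a + (i/2) X`, `‖a - 1‖ ≤ 1/4`; for `D = a T - T a`:
`a D + D a = -(X² T - T X²)/4`, so `2 D = (a D + D a) - (a - 1) D - D (a - 1)` gives
`‖D‖ ≤ ‖X T - T X‖/2`.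
-/

set_option autoImplicit false

open scoped ComplexConjugate

namespace Crest.Agent.R78

variable {H : Type*} [NormedAddCommGroup H] [InnerProductSpace ℂ H] [CompleteSpace H]

theorem idx {A F N : H →L[ℂ] H} {c : ℝ} (hc : 0 < c) (hA : ∀ ξ, c * ‖ξ‖ ≤ ‖A ξ‖)
    (hA' : ¬ Function.Surjective A) (hF : FiniteDimensional ℂ (LinearMap.range (F : H →ₗ[ℂ] H)))
    (hN : star N * N = N * star N) : c / 3 < ‖N - (A + F)‖ :=
  idx' hc hA hA' hF hN

theorem exists_shift {η : ℝ} (hη : 0 < η) (lam : ℂ) (hlam : ‖lam‖ < 1) :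
    ∃ (X Y S F : ell ℕ ℂ →L[ℂ] ell ℕ ℂ) (κ : ell ℕ ℂ), IsSelfAdjoint X ∧ IsSelfAdjoint Y ∧
      ‖X‖ ≤ 1 ∧ ‖Y‖ ≤ 1 ∧ ‖X * Y - Y * X‖ ≤ η ∧ X + Complex.I • Y = S + F ∧ (∀ ξ, ‖S ξ‖ = ‖ξ‖) ∧
      FiniteDimensional ℂ (LinearMap.range (F : ell ℕ ℂ →ₗ[ℂ] ell ℕ ℂ)) ∧ κ ≠ 0 ∧
      star S κ = conj lam • κ := by
  classical
  have hinj : Function.Injective Nat.succ := Nat.succ_injective
  let B : ell ℕ ℂ →L[ℂ] ell ℕ ℂ := cmp ℂ Nat.succ
  let S : ell ℕ ℂ →L[ℂ] ell ℕ ℂ := star B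
  have hB : ∀ ξ k, B ξ k = ξ (k + 1) := fun ξ k => cmp_apply hinj ξ k
  have hS1 : ∀ ξ k, S ξ (k + 1) = ξ k := fun ξ k => adjoint_cmp_apply hinj ξ k
  have hS0 : ∀ ξ, S ξ 0 = 0 := fun ξ =>
    adjoint_cmp_apply_of_not_mem hinj ξ fun k => Nat.succ_ne_zero k
  have hBS : B * S = 1 := cmp_adjoint hinj
  have hsS : star S = B := star_star B
  have hdiag : ∀ (g : ℕ → ℝ) (C : ℝ), 0 ≤ C → (∀ k, |g k| ≤ C) →
      ∃ W : ell ℕ ℂ →L[ℂ] ell ℕ ℂ, (∀ ξ k, W ξ k = (g k : ℂ) * ξ k) ∧ ‖W‖ ≤ C ∧ star W = W := by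
    intro g C hC hg
    have hb : ∀ k, ‖((g k : ℂ) • (1 : ℂ →L[ℂ] ℂ))‖ ≤ C := fun k => by
      rw [norm_smul, norm_one, mul_one, Complex.norm_real]; exact hg k
    refine ⟨mop fun k => (g k : ℂ) • (1 : ℂ →L[ℂ] ℂ), fun ξ k => ?_, mop_norm_le hC hb, ?_⟩
    · rw [mop_apply ⟨C, hb⟩]; rfl
    · rw [← mop_star ⟨C, hb⟩]
      congr 1
      funext k
      rw [star_smul, star_one, RCLike.star_def, Complex.conj_ofReal]
  let m : ℕ → ℝ := fun k => min 1 (k * η)
  have hm0 : ∀ k, 0 ≤ m k := fun k => le_min zero_le_one (by positivity)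
  have hm1 : ∀ k, m k ≤ 1 := fun k => min_le_left _ _
  have hmd : ∀ k, |m (k + 1) - m k| ≤ η := fun k => by
    have : |min 1 (((k + 1 : ℕ) : ℝ) * η) - min 1 (k * η)| ≤
        max |(1 : ℝ) - 1| |((k + 1 : ℕ) : ℝ) * η - k * η| := abs_min_sub_min_le_max _ _ _ _
    refine this.trans (max_le (by simpa using hη.le) ?_)
    have : ((k + 1 : ℕ) : ℝ) * η - k * η = η := by push_cast; ring
    rw [this, abs_of_pos hη]
  let w : ℕ → ℝ := fun k => √(m (k + 1))
  have hww : ∀ k, (w k : ℂ) * w k = m (k + 1) := fun k => by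
    rw [← Complex.ofReal_mul, Real.mul_self_sqrt (hm0 _)]
  obtain ⟨W, hW, hWn, hWs⟩ := hdiag w 1 zero_le_one fun k => by
    rw [abs_of_nonneg (Real.sqrt_nonneg _)]; exact Real.sqrt_le_one.2 (hm1 _)
  obtain ⟨D, hD, hDn, -⟩ := hdiag (fun k => m (k + 1) - m k) η hη.le hmd
  let T := S * W
  have hsT : star T = W * B := by rw [star_mul, hWs, hsS]
  have hcomm : star T * T - T * star T = D := by
    rw [hsT]
    have : W * B * T = W * W := by
      show W * B * (S * W) = W * W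
      rw [mul_assoc, ← mul_assoc B, hBS, one_mul]
    rw [this]
    ext ξ k
    show W (W ξ) k - S (W (W (B ξ))) k = D ξ k
    rw [hW, hW, hD, ← mul_assoc, hww]
    cases k with
    | zero => rw [hS0]; simp [m]
    | succ k => rw [hS1, hW, hW, hB, ← mul_assoc, hww]; push_cast; ring
  have hSn : ∀ ξ, ‖S ξ‖ = ‖ξ‖ := fun ξ => by
    have h1 : inner ℂ (S ξ) (S ξ) = inner ℂ ξ ξ := by
      rw [← ContinuousLinearMap.adjoint_inner_right, ← ContinuousLinearMap.star_eq_adjoint, hsS]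
      have : B (S ξ) = ξ := by
        show (B * S) ξ = ξ
        rw [hBS]; rfl
      rw [this]
    rw [inner_self_eq_norm_sq_to_K, inner_self_eq_norm_sq_to_K] at h1
    have h2 : ‖S ξ‖ ^ 2 = ‖ξ‖ ^ 2 := by exact_mod_cast h1
    exact (sq_eq_sq₀ (norm_nonneg _) (norm_nonneg _)).1 h2
  have hTn : ‖T‖ ≤ 1 := by
    refine ContinuousLinearMap.opNorm_le_bound _ zero_le_one fun ξ => ?_
    show ‖S (W ξ)‖ ≤ _
    rw [hSn]
    exact (W.le_opNorm ξ).trans (mul_le_mul_of_nonneg_right hWn (norm_nonneg _))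
  have hκ : Summable fun k : ℕ => ‖(conj lam) ^ k‖ ^ 2 := by
    have : Summable fun k : ℕ => (‖lam‖ ^ 2) ^ k :=
      summable_geometric_of_lt_one (by positivity) (by nlinarith [norm_nonneg lam])
    refine this.congr fun k => ?_
    rw [norm_pow, RCLike.norm_conj, ← pow_mul, ← pow_mul, mul_comm]
  refine ⟨(1 / 2 : ℂ) • (T + star T), (-Complex.I / 2) • (T - star T), S, T - S,
    ell.mk (fun k => (conj lam) ^ k) hκ, ?_, ?_, ?_, ?_, ?_, ?_, hSn, ?_, ?_, ?_⟩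
  · rw [IsSelfAdjoint, star_smul, star_add, star_star, add_comm]
    congr 1; simp
  · rw [IsSelfAdjoint, star_smul, star_sub, star_star, ← neg_sub, smul_neg, ← neg_smul]
    congr 1; simp [neg_div]
  · rw [norm_smul]
    have := norm_add_le T (star T)
    rw [norm_star] at this
    have h2 : ‖(1 / 2 : ℂ)‖ = 1 / 2 := by simp
    rw [h2]; linarith
  · rw [norm_smul]
    have := norm_sub_le T (star T)
    rw [norm_star] at this
    have h2 : ‖(-Complex.I / 2 : ℂ)‖ = 1 / 2 := by simp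
    rw [h2]; linarith
  · have : (1 / 2 : ℂ) • (T + star T) * (-Complex.I / 2) • (T - star T) -
        (-Complex.I / 2) • (T - star T) * (1 / 2 : ℂ) • (T + star T) = (-Complex.I / 2) • D := by
      rw [← hcomm, smul_mul_smul_comm, smul_mul_smul_comm, mul_comm (-Complex.I / 2), ← smul_sub]
      have : (T + star T) * (T - star T) - (T - star T) * (T + star T) =
          (2 : ℂ) • (star T * T - T * star T) := by
        rw [two_smul]; noncomm_ring
      rw [this, smul_smul]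
      congr 1; ring
    rw [this, norm_smul]
    have h2 : ‖(-Complex.I / 2 : ℂ)‖ = 1 / 2 := by simp
    rw [h2]; linarith [norm_nonneg D]
  · rw [smul_smul]
    have : Complex.I * (-Complex.I / 2) = 1 / 2 := by
      have : Complex.I * (-Complex.I / 2) = -(Complex.I * Complex.I) / 2 := by ring
      rw [this, Complex.I_mul_I]; ring
    rw [this, ← smul_add, add_add_sub_cancel, add_sub_cancel, ← two_smul ℂ T, smul_smul]
    simp
  · obtain ⟨n, hn⟩ := exists_nat_ge (1 / η)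
    have hw1 : ∀ k, n ≤ k → w k = 1 := fun k hk => by
      have h1 : (1 : ℝ) ≤ ((k + 1 : ℕ) : ℝ) * η := by
        rw [div_le_iff₀ hη] at hn
        have : (n : ℝ) ≤ ((k + 1 : ℕ) : ℝ) := by exact_mod_cast hk.trans (Nat.le_succ k)
        nlinarith
      show √(min 1 _) = 1
      rw [min_eq_left h1, Real.sqrt_one]
    have hfin : FiniteDimensional ℂ (Submodule.span ℂ
        (Set.range fun k : Fin n => S (ell.single (k : ℕ) (1 : ℂ)))) :=
      FiniteDimensional.span_of_finite ℂ (Set.finite_range _)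
    refine Submodule.finiteDimensional_of_le (S₂ := Submodule.span ℂ
        (Set.range fun k : Fin n => S (ell.single (k : ℕ) (1 : ℂ)))) ?_
    rintro _ ⟨ξ, rfl⟩
    have h1 : W ξ - ξ = ∑ k ∈ Finset.range n, (((w k : ℂ) - 1) * ξ k) • ell.single k (1 : ℂ) := by
      ext j
      rw [ell.sub_apply, hW, ell.sum_apply]
      simp only [ell.smul_apply, ell.single_apply, smul_eq_mul, mul_ite, mul_one, mul_zero,
        Finset.sum_ite_eq, Finset.mem_range]
      split_ifs with h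
      · ring
      · rw [hw1 j (not_lt.1 h)]; simp
    have h2 : ((T - S : ell ℕ ℂ →L[ℂ] ell ℕ ℂ) : ell ℕ ℂ →ₗ[ℂ] ell ℕ ℂ) ξ = S (W ξ - ξ) := by
      rw [map_sub]; rfl
    rw [h2, h1, map_sum]
    refine Submodule.sum_mem _ fun k hk => ?_
    rw [map_smul]
    exact Submodule.smul_mem _ _ (Submodule.subset_span ⟨⟨k, Finset.mem_range.1 hk⟩, rfl⟩)
  · intro h
    have := congrArg (fun ξ : ell ℕ ℂ => ξ 0) h
    simp at this
  · rw [hsS]
    ext k
    rw [hB, ell.smul_apply, ell.mk_apply, ell.mk_apply, smul_eq_mul, pow_succ']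

theorem exists_unit {X : H →L[ℂ] H} (hX : IsSelfAdjoint X) (hX' : ‖X‖ ≤ 1) :
    ∃ u : unitary (H →L[ℂ] H), (u : H →L[ℂ] H) - star (u : H →L[ℂ] H) = Complex.I • X ∧
      ∀ T : H →L[ℂ] H, ‖u * T - T * u‖ ≤ ‖X * T - T * X‖ :=
  exists_unit_aux hX hX'

end Crest.Agent.R78
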