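import Mathlib

/-!
# Row 78, task R78-UP: ultraproducts of Hilbert spaces.

PLAN.  `Pre` = type synonym of the submodule of bounded families with the semi-inner product
`limUnder ω ⟪x i, y i⟫` (`PreInnerProductSpace.Core`; compare `Crest/Agent/R73/Ultra.lean`, which
does this for `ι = ℕ` and can be copied), `K = UniformSpace.Completion Pre` (Mathlib has the
`InnerProductSpace` instance on the completion).  `mk x` = class of `x` if bounded, else `0`.  A bounded
family `T` acts on `Pre` by a bounded linear map, extend to the completion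
(`ContinuousLinearMap.completion` or `LinearMap.extendOfNorm`/`ContinuousLinearMap.extend`); `op T = 0`
if unbounded.  All the lemmas below the structure follow from `inner`, `dense`, `op_mk`:
two vectors/operators agree if the inner products against the dense set of `mk y` agree.
-/

set_option autoImplicit false

open Filter Topology
open scoped InnerProductSpace

namespace Crest.Agent.R78

noncomputable section

universe u v

/-- bounded families -/
def Bd {ι : Type*} {X : ι → Type*} [∀ i, Norm (X i)] (x : ∀ i, X i) : Prop := ∃ C, ∀ i, ‖x i‖ ≤ C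

/-- `K` is an ultraproduct of the Hilbert spaces `E i` -/
structure UPD {ι : Type*} (ω : Ultrafilter ι) (E : ι → Type*) [∀ i, NormedAddCommGroup (E i)]
    [∀ i, InnerProductSpace ℂ (E i)] (K : Type*) [NormedAddCommGroup K]
    [InnerProductSpace ℂ K] where
  mk' : (∀ i, E i) → K
  op : (∀ i, E i →L[ℂ] E i) → (K →L[ℂ] K)
  inner : ∀ {x y}, Bd x → Bd y → Tendsto (fun i => ⟪x i, y i⟫_ℂ) ω (𝓝 ⟪mk' x, mk' y⟫_ℂ)
  dense : Dense (mk' '' {x | Bd x})
  op_mk : ∀ {T x}, Bd T → Bd x → op T (mk' x) = mk' fun i => T i (x i)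

section Bd
variable {ι : Type*} {X : ι → Type*} [∀ i, SeminormedAddCommGroup (X i)]

theorem Bd.add {x y : ∀ i, X i} (hx : Bd x) (hy : Bd y) : Bd fun i => x i + y i := by
  obtain ⟨C, hC⟩ := hx; obtain ⟨D, hD⟩ := hy
  exact ⟨C + D, fun i => (norm_add_le _ _).trans (add_le_add (hC i) (hD i))⟩

theorem Bd.sub {x y : ∀ i, X i} (hx : Bd x) (hy : Bd y) : Bd fun i => x i - y i := by
  obtain ⟨C, hC⟩ := hx; obtain ⟨D, hD⟩ := hy
  exact ⟨C + D, fun i => (norm_sub_le _ _).trans (add_le_add (hC i) (hD i))⟩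

theorem Bd.smul [∀ i, NormedSpace ℂ (X i)] {x : ∀ i, X i} (hx : Bd x) (c : ℂ) :
    Bd fun i => c • x i := by
  obtain ⟨C, hC⟩ := hx
  exact ⟨‖c‖ * C, fun i => by rw [norm_smul]; gcongr; exact hC i⟩

theorem Bd.app [∀ i, NormedSpace ℂ (X i)] {Y : ι → Type*} [∀ i, SeminormedAddCommGroup (Y i)]
    [∀ i, NormedSpace ℂ (Y i)] {T : ∀ i, X i →L[ℂ] Y i} {x : ∀ i, X i} (hT : Bd T) (hx : Bd x) :
    Bd fun i => T i (x i) := by
  obtain ⟨C, hC⟩ := hT; obtain ⟨D, hD⟩ := hx
  exact ⟨C * D, fun i => ((T i).le_opNorm _).trans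
    (mul_le_mul (hC i) (hD i) (norm_nonneg _) ((norm_nonneg _).trans (hC i)))⟩

theorem Bd.mul {Y : ι → Type*} [∀ i, SeminormedRing (Y i)] {x y : ∀ i, Y i} (hx : Bd x)
    (hy : Bd y) : Bd fun i => x i * y i := by
  obtain ⟨C, hC⟩ := hx; obtain ⟨D, hD⟩ := hy
  exact ⟨C * D, fun i => (norm_mul_le _ _).trans
    (mul_le_mul (hC i) (hD i) (norm_nonneg _) ((norm_nonneg _).trans (hC i)))⟩

end Bd

theorem up_exists_lim {ι : Type*} (ω : Ultrafilter ι) {f : ι → ℂ} {C : ℝ} (h : ∀ n, ‖f n‖ ≤ C) :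
    ∃ c, Tendsto f ω (𝓝 c) := by
  obtain ⟨c, -, hc⟩ := (isCompact_closedBall (0 : ℂ) C).ultrafilter_le_nhds (ω.map f) (by
    rw [Ultrafilter.coe_map, le_principal_iff, Filter.mem_map]
    exact univ_mem' fun n => by simpa using h n)
  exact ⟨c, hc⟩

section constr

variable {ι : Type v} (ω : Ultrafilter ι) (V : ι → Type u) [∀ n, NormedAddCommGroup (V n)]
  [∀ n, InnerProductSpace ℂ (V n)]

/-- bounded families -/
def upBd : Submodule ℂ (∀ n, V n) where
  carrier := {x | Bd x}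
  add_mem' hx hy := Bd.add hx hy
  zero_mem' := ⟨0, fun n => by simp⟩
  smul_mem' c _ hx := Bd.smul hx c

variable {V}

/-- the limit inner product -/
def upIp (x y : upBd V) : ℂ := limUnder (ω : Filter ι) fun n => ⟪x.1 n, y.1 n⟫_ℂ

theorem tendsto_upIp (x y : upBd V) :
    Tendsto (fun n => ⟪x.1 n, y.1 n⟫_ℂ) ω (𝓝 (upIp ω x y)) := by
  obtain ⟨C, hC⟩ := x.2
  obtain ⟨D, hD⟩ := y.2
  exact tendsto_nhds_limUnder (up_exists_lim ω (C := C * D) fun n =>
    (norm_inner_le_norm _ _).trans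
      (mul_le_mul (hC n) (hD n) (norm_nonneg _) ((norm_nonneg _).trans (hC n))))

variable (V)

/-- bounded families with the limit seminorm -/
def upPre {ι : Type v} (_ω : Ultrafilter ι) (V : ι → Type u) [∀ n, NormedAddCommGroup (V n)]
  [∀ n, InnerProductSpace ℂ (V n)] : Type (max u v) := ↥(upBd V)

instance : AddCommGroup (upPre ω V) := inferInstanceAs (AddCommGroup (upBd V))
instance : Module ℂ (upPre ω V) := inferInstanceAs (Module ℂ (upBd V))

/-- the identity -/
def toUpPre : upBd V ≃ₗ[ℂ] upPre ω V := LinearEquiv.refl ℂ _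

/-- the limit semi-inner product -/
@[reducible] def upCore : PreInnerProductSpace.Core ℂ (upPre ω V) where
  inner x y := upIp ω ((toUpPre ω V).symm x) ((toUpPre ω V).symm y)
  conj_inner_symm x y := by
    refine tendsto_nhds_unique ((Complex.continuous_conj.tendsto _).comp (tendsto_upIp ω _ _))
      ((tendsto_upIp ω _ _).congr fun n => ?_)
    simp
  re_inner_nonneg x :=
    ge_of_tendsto' ((Complex.continuous_re.tendsto _).comp (tendsto_upIp ω _ _)) fun n =>
      inner_self_nonneg (𝕜 := ℂ)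
  add_left x y z := by
    refine tendsto_nhds_unique (tendsto_upIp ω _ _)
      (((tendsto_upIp ω _ _).add (tendsto_upIp ω _ _)).congr fun n => ?_)
    simp [inner_add_left]
  smul_left x y c := by
    refine tendsto_nhds_unique (tendsto_upIp ω _ _)
      (((tendsto_upIp ω _ _).const_mul _).congr fun n => ?_)
    simp [inner_smul_left, mul_comm]

instance : SeminormedAddCommGroup (upPre ω V) :=
  InnerProductSpace.Core.toSeminormedAddCommGroup (c := upCore ω V)

instance : InnerProductSpace ℂ (upPre ω V) := InnerProductSpace.ofCore (upCore ω V)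

variable {V}

theorem up_tendsto_inner (x y : upBd V) :
    Tendsto (fun n => ⟪x.1 n, y.1 n⟫_ℂ) ω (𝓝 ⟪toUpPre ω V x, toUpPre ω V y⟫_ℂ) :=
  tendsto_upIp ω x y

theorem up_tendsto_norm (x : upBd V) : Tendsto (fun n => ‖x.1 n‖) ω (𝓝 ‖toUpPre ω V x‖) := by
  have := (Complex.continuous_re.tendsto _).comp (up_tendsto_inner ω x x)
  have h2 : Tendsto (fun n => ‖x.1 n‖ ^ 2) ω (𝓝 (‖toUpPre ω V x‖ ^ 2)) := by
    rw [← inner_self_eq_norm_sq (𝕜 := ℂ)]
    exact this.congr fun n => inner_self_eq_norm_sq (𝕜 := ℂ) _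
  simpa using h2.sqrt

theorem up_exists_op {T : ∀ n, V n →L[ℂ] V n} (hT : Bd T) :
    ∃ S : upPre ω V →L[ℂ] upPre ω V, ∀ x : upBd V,
      S (toUpPre ω V x) = toUpPre ω V ⟨fun n => T n (x.1 n), hT.app x.2⟩ := by
  let l : upBd V →ₗ[ℂ] upBd V :=
    { toFun := fun x => ⟨fun n => T n (x.1 n), hT.app x.2⟩
      map_add' := fun x y => Subtype.ext (funext fun n => map_add (T n) _ _)
      map_smul' := fun c x => Subtype.ext (funext fun n => map_smul (T n) _ _) }
  obtain ⟨C, hC⟩ := hT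
  refine ⟨LinearMap.mkContinuous
    ((toUpPre ω V).toLinearMap ∘ₗ l ∘ₗ (toUpPre ω V).symm.toLinearMap) C fun x => ?_,
    fun x => rfl⟩
  exact le_of_tendsto_of_tendsto' (up_tendsto_norm ω (l ((toUpPre ω V).symm x)))
    ((up_tendsto_norm ω ((toUpPre ω V).symm x)).const_mul C) fun n =>
      (T n).le_of_opNorm_le (hC n) _

end constr

theorem exists_UPD {ι : Type v} (ω : Ultrafilter ι) (E : ι → Type u)
    [∀ i, NormedAddCommGroup (E i)] [∀ i, InnerProductSpace ℂ (E i)] :
    ∃ (K : Type (max u v)) (_ : NormedAddCommGroup K) (_ : InnerProductSpace ℂ K)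
      (_ : CompleteSpace K), Nonempty (UPD ω E K) := by
  classical
  refine ⟨UniformSpace.Completion (upPre ω E), inferInstance, inferInstance, inferInstance,
    ⟨⟨fun x => if h : Bd x then (toUpPre ω E ⟨x, h⟩ : upPre ω E) else 0,
      fun T => if h : Bd T then (up_exists_op ω h).choose.completion else 0, ?_, ?_, ?_⟩⟩⟩
  · intro x y hx hy
    rw [dif_pos hx, dif_pos hy, UniformSpace.Completion.inner_coe]
    exact up_tendsto_inner ω ⟨x, hx⟩ ⟨y, hy⟩
  · refine (UniformSpace.Completion.denseRange_coe (α := upPre ω E)).mono ?_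
    rintro _ ⟨x, rfl⟩
    have hx : Bd ((toUpPre ω E).symm x).1 := ((toUpPre ω E).symm x).2
    exact ⟨((toUpPre ω E).symm x).1, hx, by simp only [dif_pos hx]; rfl⟩
  · intro T x hT hx
    rw [dif_pos hT, dif_pos hx, dif_pos (hT.app hx), ContinuousLinearMap.completion_apply_coe,
      (up_exists_op ω hT).choose_spec]

namespace UPD

variable {ι : Type*} {ω : Ultrafilter ι} {E : ι → Type*} [∀ i, NormedAddCommGroup (E i)]
  [∀ i, InnerProductSpace ℂ (E i)] {K : Type*} [NormedAddCommGroup K] [InnerProductSpace ℂ K]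
  (U : UPD ω E K)

theorem norm_mk {x : ∀ i, E i} (hx : Bd x) : Tendsto (fun i => ‖x i‖) ω (𝓝 ‖U.mk' x‖) := by
  have := (Complex.continuous_re.tendsto _).comp (U.inner hx hx)
  have h2 : Tendsto (fun n => ‖x n‖ ^ 2) ω (𝓝 (‖U.mk' x‖ ^ 2)) := by
    rw [← inner_self_eq_norm_sq (𝕜 := ℂ)]
    exact this.congr fun n => inner_self_eq_norm_sq (𝕜 := ℂ) _
  simpa using h2.sqrt

theorem ext_vec {a b : K} (h : ∀ z, Bd z → ⟪U.mk' z, a⟫_ℂ = ⟪U.mk' z, b⟫_ℂ) : a = b :=
  U.dense.eq_of_inner_right ℂ (by rintro _ ⟨z, hz, rfl⟩; exact h z hz)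

theorem mk_congr {x y : ∀ i, E i} (hx : Bd x) (hy : Bd y)
    (h : Tendsto (fun i => ‖x i - y i‖) ω (𝓝 0)) : U.mk' x = U.mk' y := by
  refine U.ext_vec fun z hz => ?_
  have h1 := (U.inner hz hx).sub (U.inner hz hy)
  have h2 : Tendsto (fun i => ⟪z i, x i⟫_ℂ - ⟪z i, y i⟫_ℂ) ω (𝓝 0) := by
    have h3 := (U.norm_mk hz).mul h
    rw [mul_zero] at h3
    refine squeeze_zero_norm (fun i => ?_) h3
    rw [← inner_sub_right]
    exact norm_inner_le_norm _ _
  exact sub_eq_zero.1 (tendsto_nhds_unique h1 h2)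

theorem mk_add {x y : ∀ i, E i} (hx : Bd x) (hy : Bd y) :
    U.mk' (fun i => x i + y i) = U.mk' x + U.mk' y := by
  refine U.ext_vec fun z hz => ?_
  rw [inner_add_right]
  exact tendsto_nhds_unique (U.inner hz (hx.add hy))
    (((U.inner hz hx).add (U.inner hz hy)).congr fun i => (inner_add_right _ _ _).symm)

theorem mk_sub {x y : ∀ i, E i} (hx : Bd x) (hy : Bd y) :
    U.mk' (fun i => x i - y i) = U.mk' x - U.mk' y := by
  refine U.ext_vec fun z hz => ?_
  rw [inner_sub_right]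
  exact tendsto_nhds_unique (U.inner hz (hx.sub hy))
    (((U.inner hz hx).sub (U.inner hz hy)).congr fun i => (inner_sub_right _ _ _).symm)

theorem mk_smul {x : ∀ i, E i} (hx : Bd x) (c : ℂ) : U.mk' (fun i => c • x i) = c • U.mk' x := by
  refine U.ext_vec fun z hz => ?_
  rw [inner_smul_right]
  exact tendsto_nhds_unique (U.inner hz (hx.smul c))
    (((U.inner hz hx).const_mul c).congr fun i => (inner_smul_right _ _ _).symm)

theorem ext_op {S T : K →L[ℂ] K} (h : ∀ x, Bd x → S (U.mk' x) = T (U.mk' x)) : S = T := by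
  refine ContinuousLinearMap.coeFn_injective
    (Continuous.ext_on U.dense S.continuous T.continuous ?_)
  rintro _ ⟨x, hx, rfl⟩
  exact h x hx

theorem op_norm_le {T : ∀ i, E i →L[ℂ] E i} {C : ℝ} (hT : ∀ i, ‖T i‖ ≤ C) : ‖U.op T‖ ≤ C := by
  have hC : 0 ≤ C := by
    obtain ⟨i, -⟩ := ω.nonempty_of_mem univ_mem
    exact (norm_nonneg _).trans (hT i)
  refine ContinuousLinearMap.opNorm_le_bound _ hC fun v => ?_
  refine (closure_minimal (t := {v | ‖U.op T v‖ ≤ C * ‖v‖}) ?_ ?_) (U.dense v)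
  · rintro _ ⟨x, hx, rfl⟩
    change ‖U.op T (U.mk' x)‖ ≤ C * ‖U.mk' x‖
    rw [U.op_mk ⟨C, hT⟩ hx]
    exact le_of_tendsto_of_tendsto' (U.norm_mk (Bd.app ⟨C, hT⟩ hx)) ((U.norm_mk hx).const_mul C)
      fun n => (T n).le_of_opNorm_le (hT n) _
  · exact isClosed_le (by fun_prop) (by fun_prop)

theorem op_one : U.op (fun _ => 1) = 1 := by
  refine U.ext_op fun x hx => ?_
  rw [U.op_mk (T := fun _ => 1) ⟨1, fun _ => ContinuousLinearMap.norm_id_le⟩ hx]
  rfl

theorem op_mul {S T : ∀ i, E i →L[ℂ] E i} (hS : Bd S) (hT : Bd T) :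
    U.op (fun i => S i * T i) = U.op S * U.op T := by
  refine U.ext_op fun x hx => ?_
  rw [ContinuousLinearMap.mul_apply, U.op_mk (hS.mul hT) hx, U.op_mk hT hx, U.op_mk hS (hT.app hx)]
  rfl

theorem op_add {S T : ∀ i, E i →L[ℂ] E i} (hS : Bd S) (hT : Bd T) :
    U.op (fun i => S i + T i) = U.op S + U.op T := by
  refine U.ext_op fun x hx => ?_
  rw [ContinuousLinearMap.add_apply, U.op_mk (hS.add hT) hx, U.op_mk hT hx, U.op_mk hS hx,
    ← U.mk_add (hS.app hx) (hT.app hx)]
  rfl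

theorem op_smul {T : ∀ i, E i →L[ℂ] E i} (hT : Bd T) (c : ℂ) :
    U.op (fun i => c • T i) = c • U.op T := by
  refine U.ext_op fun x hx => ?_
  rw [ContinuousLinearMap.smul_apply, U.op_mk (hT.smul c) hx, U.op_mk hT hx,
    ← U.mk_smul (hT.app hx)]
  rfl

theorem op_star [∀ i, CompleteSpace (E i)] [CompleteSpace K] {T : ∀ i, E i →L[ℂ] E i}
    (hT : Bd T) : U.op (fun i => star (T i)) = star (U.op T) := by
  have hT' : Bd fun i => star (T i) := by
    obtain ⟨C, hC⟩ := hT
    exact ⟨C, fun i => by rw [norm_star]; exact hC i⟩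
  refine U.ext_op fun x hx => U.ext_vec fun z hz => ?_
  rw [ContinuousLinearMap.star_eq_adjoint (U.op T), ContinuousLinearMap.adjoint_inner_right,
    U.op_mk hT hz, U.op_mk hT' hx]
  refine tendsto_nhds_unique (U.inner hz (hT'.app hx))
    ((U.inner (hT.app hz) hx).congr fun i => ?_)
  rw [ContinuousLinearMap.star_eq_adjoint, ContinuousLinearMap.adjoint_inner_right]

end UPD

end

end Crest.Agent.R78
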