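import Crest.Agent.R78.Law
import Crest.Agent.R78.UP

/-! # Row 78: multiplication operators, composition operators and kernels on `ℓ²(Ξ; H)`. -/

set_option autoImplicit false
set_option linter.unusedSectionVars false

open scoped InnerProductSpace ENNReal
open ContinuousLinearMap

namespace Crest.Agent.R78

noncomputable section

/-- `ℓ²(Ξ; H)` -/
def ell (Ξ : Type*) (H : Type*) [NormedAddCommGroup H] : Type _ := lp (fun _ : Ξ => H) 2

variable {Ξ Ξ' Ξ'' S : Type*} {H H' : Type*} [NormedAddCommGroup H] [InnerProductSpace ℂ H]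
  [NormedAddCommGroup H'] [InnerProductSpace ℂ H']

instance : NormedAddCommGroup (ell Ξ H) :=
  inferInstanceAs (NormedAddCommGroup (lp (fun _ : Ξ => H) 2))

instance : InnerProductSpace ℂ (ell Ξ H) :=
  inferInstanceAs (InnerProductSpace ℂ (lp (fun _ : Ξ => H) 2))

instance [CompleteSpace H] : CompleteSpace (ell Ξ H) :=
  inferInstanceAs (CompleteSpace (lp (fun _ : Ξ => H) 2))

namespace ell

/-- coordinates -/
@[coe] def val (η : ell Ξ H) : Ξ → H := (η : lp (fun _ : Ξ => H) 2).1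

instance : CoeFun (ell Ξ H) fun _ => Ξ → H := ⟨val⟩

/-- the vector with given coordinates -/
def mk (f : Ξ → H) (h : Summable fun ξ => ‖f ξ‖ ^ 2) : ell Ξ H :=
  (⟨f, memℓp_gen (by simpa using h)⟩ : lp (fun _ : Ξ => H) 2)

open Classical in
/-- the vector `δ_ξ ⊗ v` -/
def single (ξ : Ξ) (v : H) : ell Ξ H := (lp.single 2 ξ v : lp (fun _ : Ξ => H) 2)

@[ext] theorem ext {η ζ : ell Ξ H} (h : ∀ ξ, η ξ = ζ ξ) : η = ζ := Subtype.ext (funext h)

@[simp] theorem mk_apply (f : Ξ → H) (h) (ξ : Ξ) : mk f h ξ = f ξ := rfl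
@[simp] theorem zero_apply (ξ : Ξ) : (0 : ell Ξ H) ξ = 0 := rfl
@[simp] theorem add_apply (η ζ : ell Ξ H) (ξ : Ξ) : (η + ζ) ξ = η ξ + ζ ξ := rfl
@[simp] theorem sub_apply (η ζ : ell Ξ H) (ξ : Ξ) : (η - ζ) ξ = η ξ - ζ ξ := rfl
@[simp] theorem neg_apply (η : ell Ξ H) (ξ : Ξ) : (-η) ξ = -η ξ := rfl
@[simp] theorem smul_apply (c : ℂ) (η : ell Ξ H) (ξ : Ξ) : (c • η) ξ = c • η ξ := rfl
@[simp] theorem real_smul_apply (c : ℝ) (η : ell Ξ H) (ξ : Ξ) : (c • η) ξ = c • η ξ := rfl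

@[simp] theorem sum_apply {ι : Type*} (s : Finset ι) (η : ι → ell Ξ H) (ξ : Ξ) :
    (∑ i ∈ s, η i) ξ = ∑ i ∈ s, η i ξ := by
  classical
  induction s using Finset.induction_on with
  | empty => simp
  | insert a s ha ih => simp [Finset.sum_insert ha, ih]

@[simp] theorem single_apply_self (ξ : Ξ) (v : H) : single ξ v ξ = v := by
  classical exact lp.single_apply_self (E := fun _ : Ξ => H) 2 _ _

theorem single_apply_ne {ξ ξ' : Ξ} (h : ξ' ≠ ξ) (v : H) : single ξ v ξ' = 0 := by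
  classical exact lp.single_apply_ne (E := fun _ : Ξ => H) 2 _ _ h

theorem single_apply [DecidableEq Ξ] (ξ ξ' : Ξ) (v : H) :
    single ξ v ξ' = if ξ' = ξ then v else 0 := by
  split_ifs with h
  · subst h; exact single_apply_self _ _
  · exact single_apply_ne h _

theorem hasSum (η : ell Ξ H) : HasSum (fun ξ => ‖η ξ‖ ^ 2) (‖η‖ ^ 2) := by
  have := lp.hasSum_norm (p := 2) (by norm_num) (η : lp (fun _ : Ξ => H) 2)
  simp only [ENNReal.toReal_ofNat, Real.rpow_two] at this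
  exact this

theorem hasSum_inner (η ζ : ell Ξ H) : HasSum (fun ξ => ⟪η ξ, ζ ξ⟫_ℂ) ⟪η, ζ⟫_ℂ :=
  lp.hasSum_inner (G := fun _ : Ξ => H) η ζ

theorem norm_apply_le (η : ell Ξ H) (ξ : Ξ) : ‖η ξ‖ ≤ ‖η‖ :=
  lp.norm_apply_le_norm (E := fun _ : Ξ => H) (by norm_num) η ξ

@[simp] theorem norm_single (ξ : Ξ) (v : H) : ‖single ξ v‖ = ‖v‖ := by
  classical exact lp.norm_single (E := fun _ : Ξ => H) (by norm_num) _ _

theorem inner_single_left (ξ : Ξ) (v : H) (η : ell Ξ H) : ⟪single ξ v, η⟫_ℂ = ⟪v, η ξ⟫_ℂ := by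
  classical exact lp.inner_single_left (G := fun _ : Ξ => H) _ _ _

theorem inner_single_right (ξ : Ξ) (v : H) (η : ell Ξ H) : ⟪η, single ξ v⟫_ℂ = ⟪η ξ, v⟫_ℂ := by
  classical exact lp.inner_single_right (G := fun _ : Ξ => H) _ _ _

theorem hasSum_single [CompleteSpace H] (η : ell Ξ H) : HasSum (fun ξ => single ξ (η ξ)) η := by
  classical exact lp.hasSum_single (E := fun _ : Ξ => H) (by norm_num) η

theorem ext_single [CompleteSpace H] {F : Type*} [NormedAddCommGroup F] [NormedSpace ℂ F]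
    {A B : ell Ξ H →L[ℂ] F} (h : ∀ ξ v, A (single ξ v) = B (single ξ v)) : A = B := by
  refine ContinuousLinearMap.ext fun η => ?_
  have h1 := A.hasSum (hasSum_single η)
  have h2 := B.hasSum (hasSum_single η)
  simp only [h] at h1
  exact h1.unique h2

/-- `v ↦ δ_ξ ⊗ v` -/
def sng (ξ : Ξ) : H →L[ℂ] ell Ξ H :=
  LinearMap.mkContinuous
    { toFun := single ξ
      map_add' := fun v w => by
        classical
        ext ξ'; simp only [single_apply, add_apply]; split_ifs <;> simp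
      map_smul' := fun c v => by
        classical
        ext ξ'; simp only [single_apply, smul_apply]; split_ifs <;> simp } 1 fun v => by simp

@[simp] theorem sng_apply (ξ : Ξ) (v : H) : sng ξ v = single ξ v := rfl

@[simp] theorem adjoint_sng_apply [CompleteSpace H] (ξ : Ξ) (η : ell Ξ H) :
    adjoint (sng ξ) η = η ξ :=
  ext_inner_left ℂ fun v => by rw [adjoint_inner_right, sng_apply, inner_single_left]

theorem separable [Countable Ξ] [CompleteSpace H] [TopologicalSpace.SeparableSpace H] :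
    TopologicalSpace.SeparableSpace (ell Ξ H) := by
  rw [← TopologicalSpace.isSeparable_univ_iff]
  have h1 : TopologicalSpace.IsSeparable (⋃ v, Set.range (sng v : H → ell Ξ H)) :=
    TopologicalSpace.IsSeparable.iUnion fun v =>
      TopologicalSpace.isSeparable_range (sng v).continuous
  refine (h1.span (R := ℂ)).closure.mono fun f _ => ?_
  refine mem_closure_of_tendsto (hasSum_single f) ?_
  refine Filter.Eventually.of_forall fun s => ?_
  refine Submodule.sum_mem _ fun v _ => Submodule.subset_span ?_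
  exact Set.mem_iUnion.2 ⟨v, _, rfl⟩

end ell

theorem Bd.exists_nonneg {ι : Type*} {X : ι → Type*} [∀ i, Norm (X i)] {x : ∀ i, X i} (h : Bd x) :
    ∃ C, 0 ≤ C ∧ ∀ i, ‖x i‖ ≤ C := by
  obtain ⟨C, hC⟩ := h
  exact ⟨max C 0, le_max_right _ _, fun i => (hC i).trans (le_max_left _ _)⟩

theorem exists_mop {X : Ξ → H →L[ℂ] H'} {C : ℝ} (hC : 0 ≤ C) (hX : ∀ ξ, ‖X ξ‖ ≤ C) :
    ∃ T : ell Ξ H →L[ℂ] ell Ξ H', (∀ η ξ, T η ξ = X ξ (η ξ)) ∧ ‖T‖ ≤ C :=
  ⟨lp.mapCLM 2 X hC hX, fun _ _ => rfl, lp.norm_mapCLM_le _ _ _ _⟩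

open Classical in
/-- multiplication operator -/
def mop (X : Ξ → H →L[ℂ] H') : ell Ξ H →L[ℂ] ell Ξ H' :=
  if h : Bd X then (exists_mop h.exists_nonneg.choose_spec.1 h.exists_nonneg.choose_spec.2).choose
  else 0

theorem mop_apply {X : Ξ → H →L[ℂ] H'} (hX : Bd X) (η : ell Ξ H) (ξ : Ξ) :
    mop X η ξ = X ξ (η ξ) := by
  rw [mop, dif_pos hX]
  exact (exists_mop hX.exists_nonneg.choose_spec.1 hX.exists_nonneg.choose_spec.2).choose_spec.1 η ξ

theorem mop_norm_le {X : Ξ → H →L[ℂ] H'} {C : ℝ} (hC : 0 ≤ C) (hX : ∀ ξ, ‖X ξ‖ ≤ C) :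
    ‖mop X‖ ≤ C := by
  obtain ⟨T, h1, h2⟩ := exists_mop hC hX
  have : mop X = T := by
    ext η ξ; rw [mop_apply ⟨C, hX⟩, h1]
  rwa [this]

theorem mop_single {X : Ξ → H →L[ℂ] H'} (hX : Bd X) (ξ : Ξ) (v : H) :
    mop X (ell.single ξ v) = ell.single ξ (X ξ v) := by
  ext w
  rw [mop_apply hX]
  by_cases h : w = ξ
  · subst h; simp
  · rw [ell.single_apply_ne h, ell.single_apply_ne h, map_zero]

theorem norm_le_mop {X : Ξ → H →L[ℂ] H'} (hX : Bd X) (ξ : Ξ) : ‖X ξ‖ ≤ ‖mop X‖ := by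
  classical
  refine opNorm_le_bound _ (norm_nonneg _) fun v => ?_
  have := (mop X).le_opNorm (ell.single ξ v)
  rwa [mop_single hX, ell.norm_single, ell.norm_single] at this

theorem Bd.const {ι Y : Type*} [Norm Y] (y : Y) : Bd fun _ : ι => y := ⟨‖y‖, fun _ => le_rfl⟩

theorem Bd.comp {ι ι' Y : Type*} [Norm Y] {x : ι → Y} (h : Bd x) (φ : ι' → ι) :
    Bd fun i => x (φ i) := let ⟨C, hC⟩ := h; ⟨C, fun _ => hC _⟩

theorem Bd.star {ι : Type*} {Y : ι → Type*} [∀ i, SeminormedAddCommGroup (Y i)]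
    [∀ i, StarAddMonoid (Y i)] [∀ i, NormedStarGroup (Y i)] {x : ∀ i, Y i} (h : Bd x) :
    Bd fun i => star (x i) := let ⟨C, hC⟩ := h; ⟨C, fun i => by rw [norm_star]; exact hC i⟩

theorem mop_one : mop (fun _ : Ξ => (1 : H →L[ℂ] H)) = 1 := by
  ext η ξ; rw [mop_apply (Bd.const _)]; rfl

theorem mop_mul {X Y : Ξ → H →L[ℂ] H} (hX : Bd X) (hY : Bd Y) :
    mop (fun ξ => X ξ * Y ξ) = mop X * mop Y := by
  ext η ξ
  rw [mop_apply (hX.mul hY), mul_def, mul_def, comp_apply, comp_apply, mop_apply hX, mop_apply hY]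

theorem mop_add {X Y : Ξ → H →L[ℂ] H'} (hX : Bd X) (hY : Bd Y) :
    mop (fun ξ => X ξ + Y ξ) = mop X + mop Y := by
  ext η ξ
  rw [mop_apply (hX.add hY), add_apply, add_apply, ell.add_apply, mop_apply hX,
    mop_apply hY]

theorem mop_sub {X Y : Ξ → H →L[ℂ] H'} (hX : Bd X) (hY : Bd Y) :
    mop (fun ξ => X ξ - Y ξ) = mop X - mop Y := by
  ext η ξ
  rw [mop_apply (hX.sub hY), sub_apply, sub_apply, ell.sub_apply, mop_apply hX,
    mop_apply hY]

theorem mop_smul {X : Ξ → H →L[ℂ] H'} (hX : Bd X) (c : ℂ) :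
    mop (fun ξ => c • X ξ) = c • mop X := by
  ext η ξ
  rw [mop_apply (hX.smul c), smul_apply, smul_apply, ell.smul_apply, mop_apply hX]

theorem mop_star [CompleteSpace H] {X : Ξ → H →L[ℂ] H} (hX : Bd X) :
    mop (fun ξ => star (X ξ)) = star (mop X) := by
  classical
  ext η ξ
  refine ext_inner_left ℂ fun x => ?_
  rw [mop_apply hX.star, ← ell.inner_single_left (η := star (mop X) η), star_eq_adjoint,
    star_eq_adjoint, adjoint_inner_right, adjoint_inner_right, mop_single hX, ell.inner_single_left]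

theorem exists_cmp {φ : Ξ' → Ξ} (hφ : Function.Injective φ) :
    ∃ T : ell Ξ H →L[ℂ] ell Ξ' H, (∀ η ξ, T η ξ = η (φ ξ)) ∧ ‖T‖ ≤ 1 := by
  let T₀ : ell Ξ H →ₗ[ℂ] ell Ξ' H :=
    { toFun := fun η => ell.mk (fun ξ => η (φ ξ)) ((ell.hasSum η).summable.comp_injective hφ)
      map_add' := fun _ _ => rfl
      map_smul' := fun _ _ => rfl }
  have h : ∀ η, ‖T₀ η‖ ≤ 1 * ‖η‖ := fun η => by
    rw [one_mul]
    refine le_of_sq_le_sq ?_ (norm_nonneg _)
    exact hasSum_le_inj φ hφ (fun _ _ => by positivity) (fun _ => le_rfl) (ell.hasSum (T₀ η))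
      (ell.hasSum η)
  exact ⟨T₀.mkContinuous 1 h, fun _ _ => rfl, T₀.mkContinuous_norm_le zero_le_one h⟩

open Classical in
/-- composition with an injective map -/
def cmp (H : Type*) [NormedAddCommGroup H] [InnerProductSpace ℂ H] (φ : Ξ' → Ξ) :
    ell Ξ H →L[ℂ] ell Ξ' H :=
  if h : Function.Injective φ then (exists_cmp h).choose else 0

theorem cmp_apply {φ : Ξ' → Ξ} (hφ : Function.Injective φ) (η : ell Ξ H) (ξ : Ξ') :
    cmp H φ η ξ = η (φ ξ) := by
  rw [cmp, dif_pos hφ]; exact (exists_cmp hφ).choose_spec.1 η ξ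

theorem cmp_norm_le (φ : Ξ' → Ξ) : ‖cmp H φ‖ ≤ 1 := by
  rw [cmp]; split_ifs with h
  · exact (exists_cmp h).choose_spec.2
  · simp

theorem cmp_mop {φ : Ξ' → Ξ} (hφ : Function.Injective φ) {X : Ξ → H →L[ℂ] H'} (hX : Bd X) :
    cmp H' φ ∘L mop X = mop (fun ξ => X (φ ξ)) ∘L cmp H φ := by
  ext η ξ
  rw [comp_apply, comp_apply, cmp_apply hφ, mop_apply hX, mop_apply (hX.comp φ), cmp_apply hφ]

theorem cmp_comp {φ : Ξ' → Ξ} {ψ : Ξ'' → Ξ'} (hφ : Function.Injective φ)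
    (hψ : Function.Injective ψ) : cmp H ψ ∘L cmp H φ = cmp H (φ ∘ ψ) := by
  ext η ξ
  rw [comp_apply, cmp_apply hψ, cmp_apply hφ, cmp_apply (hφ.comp hψ)]; rfl

theorem cmp_id : cmp H (id : Ξ → Ξ) = 1 := by
  ext η ξ; rw [cmp_apply Function.injective_id]; rfl

variable [CompleteSpace H]

theorem adjoint_cmp_single {φ : Ξ' → Ξ}
    (hφ : Function.Injective φ) (ξ : Ξ') (v : H) :
    adjoint (cmp H φ) (ell.single ξ v) = ell.single (φ ξ) v := by
  refine ext_inner_right ℂ fun η => ?_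
  rw [adjoint_inner_left, ell.inner_single_left, ell.inner_single_left, cmp_apply hφ]

theorem adjoint_cmp_apply {φ : Ξ' → Ξ} (hφ : Function.Injective φ) (η : ell Ξ' H) (ξ : Ξ') :
    adjoint (cmp H φ) η (φ ξ) = η ξ := by
  classical
  refine ext_inner_left ℂ fun v => ?_
  rw [← ell.inner_single_left (η := adjoint (cmp H φ) η), adjoint_inner_right,
    ← ell.inner_single_left (η := η)]
  congr 1
  ext ξ'
  rw [cmp_apply hφ]
  by_cases h : ξ' = ξ
  · subst h; simp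
  · rw [ell.single_apply_ne h, ell.single_apply_ne (hφ.ne h)]

theorem adjoint_cmp_apply_of_not_mem {φ : Ξ' → Ξ} (hφ : Function.Injective φ) (η : ell Ξ' H)
    {ξ : Ξ} (h : ∀ ξ', φ ξ' ≠ ξ) : adjoint (cmp H φ) η ξ = 0 := by
  classical
  refine ext_inner_left ℂ fun v => ?_
  rw [← ell.inner_single_left (η := adjoint (cmp H φ) η), adjoint_inner_right]
  have : cmp H φ (ell.single ξ v) = 0 := by
    ext ξ'
    rw [cmp_apply hφ, ell.single_apply_ne (h ξ')]; rfl
  simp [this]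

theorem cmp_adjoint {φ : Ξ' → Ξ} (hφ : Function.Injective φ) :
    cmp H φ ∘L adjoint (cmp H φ) = 1 := by
  ext η ξ
  rw [comp_apply, cmp_apply hφ, adjoint_cmp_apply hφ]; rfl

theorem cmp_adjoint_of_ne {φ : Ξ' → Ξ} {ψ : Ξ'' → Ξ} (hφ : Function.Injective φ)
    (hψ : Function.Injective ψ) (h : ∀ a b, ψ a ≠ φ b) : cmp H φ ∘L adjoint (cmp H ψ) = 0 := by
  ext η ξ
  rw [comp_apply, cmp_apply hφ, adjoint_cmp_apply_of_not_mem hψ _ fun a => h a ξ]; rfl

theorem star_cmp_equiv (e : Ξ ≃ Ξ) : star (cmp H e) = cmp H e.symm := by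
  ext η ξ
  obtain ⟨ξ, rfl⟩ := e.surjective ξ
  rw [star_eq_adjoint, adjoint_cmp_apply e.injective, cmp_apply e.symm.injective,
    e.symm_apply_apply]

/-- the kernel operator `η ↦ ∑ₛ √(w s) η ∘ φ s` -/
def ker (H : Type*) [NormedAddCommGroup H] [InnerProductSpace ℂ H] (w : Law S) (φ : S → Ξ → Ξ) :
    ell Ξ H →L[ℂ] ell Ξ H :=
  ∑ s ∈ w.f.support, ((√(w.f s) : ℝ) : ℂ) • cmp H (φ s)

variable {w : Law S} {φ : S → Ξ → Ξ}

theorem ker_conj (hφ : Function.Injective fun p : S × Ξ => φ p.1 p.2) {X : Ξ → H →L[ℂ] H}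
    (hX : Bd X) : ker H w φ * mop X * star (ker H w φ) = mop fun ξ => w.E fun s => X (φ s ξ) := by
  classical
  have inj : ∀ s, Function.Injective (φ s) := fun s a b h =>
    congrArg Prod.snd (hφ (a₁ := (s, a)) (a₂ := (s, b)) h)
  have key : ∀ s s', cmp H (φ s) * mop X * star (cmp H (φ s')) =
      if s' = s then mop fun ξ => X (φ s ξ) else 0 := fun s s' => by
    rw [mul_def, mul_def, cmp_mop (inj s) hX, comp_assoc, star_eq_adjoint]
    split_ifs with h
    · subst h; rw [cmp_adjoint (inj _)]; rfl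
    · rw [cmp_adjoint_of_ne (inj s) (inj s') fun a b hab =>
        h (congrArg Prod.fst (hφ (a₁ := (s', a)) (a₂ := (s, b)) hab)), comp_zero]
  have hb : Bd fun ξ => w.E fun s => X (φ s ξ) := by
    obtain ⟨C, hC⟩ := hX
    exact ⟨C, fun ξ => w.norm_E_le_of_le fun s _ => hC _⟩
  simp only [ker, star_sum, star_smul, Finset.sum_mul, Finset.mul_sum, smul_mul_assoc,
    mul_smul_comm, key, smul_ite, smul_zero, Finset.sum_ite_eq, Finset.sum_ite_eq']
  ext η ξ
  rw [mop_apply hb, Law.E_apply, Law.E_def, ContinuousLinearMap.sum_apply, ell.sum_apply]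
  refine Finset.sum_congr rfl fun s hs => ?_
  rw [if_pos hs, smul_smul, smul_apply, ell.smul_apply, mop_apply (hX.comp _),
    ← Complex.coe_smul]
  congr 1
  rw [RCLike.star_def, Complex.conj_ofReal, ← Complex.ofReal_mul, Real.mul_self_sqrt (w.nonneg s)]

theorem ker_mul_star (hφ : Function.Injective fun p : S × Ξ => φ p.1 p.2) :
    ker H w φ * star (ker H w φ) = 1 := by
  have := ker_conj (H := H) (w := w) hφ (Bd.const (1 : H →L[ℂ] H))
  simpa only [mop_one, mul_one, Law.E_const] using this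

theorem ker_norm_le (hφ : Function.Injective fun p : S × Ξ => φ p.1 p.2) : ‖ker H w φ‖ ≤ 1 := by
  refine le_of_sq_le_sq ?_ zero_le_one
  rw [sq, ← CStarRing.norm_self_mul_star, ker_mul_star hφ, one_pow]
  exact norm_id_le

omit [CompleteSpace H] in
theorem ker_mop (hφ : Function.Injective fun p : S × Ξ => φ p.1 p.2) {X Y : Ξ → H →L[ℂ] H}
    (hX : Bd X) (h : ∀ s ξ, X (φ s ξ) = Y ξ) : ker H w φ * mop X = mop Y * ker H w φ := by
  have inj : ∀ s, Function.Injective (φ s) := fun s a b h =>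
    congrArg Prod.snd (hφ (a₁ := (s, a)) (a₂ := (s, b)) h)
  simp only [ker, Finset.sum_mul, Finset.mul_sum, smul_mul_assoc, mul_smul_comm]
  refine Finset.sum_congr rfl fun s _ => ?_
  rw [mul_def, mul_def, cmp_mop (inj s) hX]
  simp only [h]

end

end Crest.Agent.R78
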