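import Mathlib

/-! # Row 78: finitely supported probability laws and their expectations. -/

set_option autoImplicit false

open scoped BigOperators InnerProductSpace

namespace Crest.Agent.R78

noncomputable section

/-- a finitely supported probability law -/
structure Law (α : Type*) where
  f : α →₀ ℝ
  nonneg : ∀ a, 0 ≤ f a
  sum_one : ∑ a ∈ f.support, f a = 1

namespace Law

variable {α β γ : Type*} {V W : Type*} [AddCommGroup V] [Module ℝ V] [AddCommGroup W] [Module ℝ W]

/-- expectation -/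
def E (μ : Law α) (F : α → V) : V := Finsupp.linearCombination ℝ F μ.f

theorem E_def (μ : Law α) (F : α → V) : μ.E F = ∑ a ∈ μ.f.support, μ.f a • F a := by
  simp [E, Finsupp.linearCombination_apply, Finsupp.sum]

theorem E_congr (μ : Law α) {F G : α → V} (h : ∀ a ∈ μ.f.support, F a = G a) : μ.E F = μ.E G := by
  rw [E_def, E_def]; exact Finset.sum_congr rfl fun a ha => by rw [h a ha]

@[simp] theorem E_const (μ : Law α) (v : V) : μ.E (fun _ => v) = v := by
  rw [E_def, ← Finset.sum_smul, μ.sum_one, one_smul]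

theorem E_add (μ : Law α) (F G : α → V) : μ.E (fun a => F a + G a) = μ.E F + μ.E G := by
  simp [E_def, Finset.sum_add_distrib]

theorem E_neg (μ : Law α) (F : α → V) : μ.E (fun a => -F a) = -μ.E F := by
  simp [E_def]

theorem E_sub (μ : Law α) (F G : α → V) : μ.E (fun a => F a - G a) = μ.E F - μ.E G := by
  simp [E_def, smul_sub, Finset.sum_sub_distrib]

theorem E_smul {R : Type*} [Monoid R] [DistribMulAction R V] [SMulCommClass ℝ R V] (μ : Law α)
    (c : R) (F : α → V) : μ.E (fun a => c • F a) = c • μ.E F := by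
  simp only [E_def, Finset.smul_sum]
  exact Finset.sum_congr rfl fun a _ => smul_comm _ _ _

theorem E_sum {ι : Type*} (μ : Law α) (s : Finset ι) (F : ι → α → V) :
    μ.E (fun a => ∑ i ∈ s, F i a) = ∑ i ∈ s, μ.E (F i) := by
  simp only [E_def, Finset.smul_sum]; exact Finset.sum_comm

theorem E_comm (μ : Law α) (ν : Law β) (F : α → β → V) :
    μ.E (fun a => ν.E (F a)) = ν.E fun b => μ.E fun a => F a b := by
  simp only [E_def, Finset.smul_sum]
  rw [Finset.sum_comm]
  exact Finset.sum_congr rfl fun _ _ => Finset.sum_congr rfl fun _ _ => smul_comm _ _ _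

theorem map_E {T : Type*} [FunLike T V W] [LinearMapClass T ℝ V W] (μ : Law α) (t : T)
    (F : α → V) : t (μ.E F) = μ.E fun a => t (F a) := by
  simp [E_def, map_sum]

theorem clm_E {X Y : Type*} [NormedAddCommGroup X] [NormedSpace ℂ X] [NormedAddCommGroup Y]
    [NormedSpace ℂ Y] (μ : Law α) (t : X →L[ℂ] Y) (F : α → X) :
    t (μ.E F) = μ.E fun a => t (F a) := μ.map_E (t.restrictScalars ℝ) F

theorem E_apply {X Y : Type*} [NormedAddCommGroup X] [NormedSpace ℂ X] [NormedAddCommGroup Y]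
    [NormedSpace ℂ Y] (μ : Law α) (F : α → X →L[ℂ] Y) (x : X) :
    μ.E F x = μ.E fun a => F a x := by
  simp [E_def, ContinuousLinearMap.sum_apply]

theorem mul_E {A : Type*} [Ring A] [Algebra ℝ A] (μ : Law α) (x : A) (F : α → A) :
    x * μ.E F = μ.E fun a => x * F a := by
  simp [E_def, Finset.mul_sum]

theorem E_mul {A : Type*} [Ring A] [Algebra ℝ A] (μ : Law α) (x : A) (F : α → A) :
    μ.E F * x = μ.E fun a => F a * x := by
  simp [E_def, Finset.sum_mul]

theorem inner_E {X : Type*} [NormedAddCommGroup X] [InnerProductSpace ℂ X] (μ : Law α) (x : X)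
    (F : α → X) : ⟪x, μ.E F⟫_ℂ = μ.E fun a => ⟪x, F a⟫_ℂ := μ.clm_E (innerSL ℂ x) F

theorem E_inner {X : Type*} [NormedAddCommGroup X] [InnerProductSpace ℂ X] (μ : Law α) (x : X)
    (F : α → X) : ⟪μ.E F, x⟫_ℂ = μ.E fun a => ⟪F a, x⟫_ℂ := by
  simp only [E_def, sum_inner]
  refine Finset.sum_congr rfl fun a _ => ?_
  rw [← Complex.coe_smul, inner_smul_left]; simp

theorem re_E (μ : Law α) (F : α → ℂ) : (μ.E F).re = μ.E fun a => (F a).re :=
  μ.map_E Complex.reLm F

theorem E_mem {S : Type*} [SetLike S V] [AddSubmonoidClass S V] [SMulMemClass S ℝ V] (μ : Law α)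
    {s : S} {F : α → V} (h : ∀ a ∈ μ.f.support, F a ∈ s) : μ.E F ∈ s := by
  rw [E_def]; exact sum_mem fun a ha => SMulMemClass.smul_mem _ (h a ha)

theorem E_mem_starSubalgebra {A : Type*} [CStarAlgebra A] (μ : Law α) {s : StarSubalgebra ℂ A}
    {F : α → A} (h : ∀ a ∈ μ.f.support, F a ∈ s) : μ.E F ∈ s := by
  rw [E_def]
  exact sum_mem fun a ha => by
    rw [← Complex.coe_smul]; exact SMulMemClass.smul_mem _ (h a ha)

theorem E_mono (μ : Law α) {F G : α → ℝ} (h : ∀ a ∈ μ.f.support, F a ≤ G a) : μ.E F ≤ μ.E G := by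
  rw [E_def, E_def]
  exact Finset.sum_le_sum fun a ha => smul_le_smul_of_nonneg_left (h a ha) (μ.nonneg a)

theorem E_nonneg (μ : Law α) {F : α → ℝ} (h : ∀ a ∈ μ.f.support, 0 ≤ F a) : 0 ≤ μ.E F := by
  simpa using μ.E_mono (F := fun _ => 0) h

theorem E_le (μ : Law α) {F : α → ℝ} {C : ℝ} (h : ∀ a ∈ μ.f.support, F a ≤ C) : μ.E F ≤ C := by
  simpa using μ.E_mono (G := fun _ => C) h

theorem E_const_mul (μ : Law α) (c : ℝ) (F : α → ℝ) : μ.E (fun a => c * F a) = c * μ.E F :=
  μ.E_smul c F

theorem norm_E_le {X : Type*} [SeminormedAddCommGroup X] [NormedSpace ℝ X] (μ : Law α)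
    (F : α → X) : ‖μ.E F‖ ≤ μ.E fun a => ‖F a‖ := by
  rw [E_def, E_def]
  refine (norm_sum_le _ _).trans (Finset.sum_le_sum fun a _ => ?_)
  rw [norm_smul, Real.norm_of_nonneg (μ.nonneg a), smul_eq_mul]

theorem norm_E_le_of_le {X : Type*} [SeminormedAddCommGroup X] [NormedSpace ℝ X] (μ : Law α)
    {F : α → X} {C : ℝ} (h : ∀ a ∈ μ.f.support, ‖F a‖ ≤ C) : ‖μ.E F‖ ≤ C :=
  (μ.norm_E_le F).trans (μ.E_le h)

/-- Cauchy–Schwarz -/
theorem E_mul_sq_le (μ : Law α) (F G : α → ℝ) :
    (μ.E fun a => F a * G a) ^ 2 ≤ (μ.E fun a => F a ^ 2) * μ.E fun a => G a ^ 2 := by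
  simp only [E_def, smul_eq_mul]
  have h := Finset.sum_mul_sq_le_sq_mul_sq μ.f.support (fun a => √(μ.f a) * F a)
    (fun a => √(μ.f a) * G a)
  have e : ∀ a, √(μ.f a) * √(μ.f a) = μ.f a := fun a => Real.mul_self_sqrt (μ.nonneg a)
  rw [show ∑ a ∈ μ.f.support, μ.f a * (F a * G a) = _ from
      Finset.sum_congr rfl fun a _ => show _ = √(μ.f a) * F a * (√(μ.f a) * G a) by
        linear_combination (-(F a * G a)) * e a,
    show ∑ a ∈ μ.f.support, μ.f a * F a ^ 2 = _ from
      Finset.sum_congr rfl fun a _ => show _ = (√(μ.f a) * F a) ^ 2 by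
        linear_combination (-(F a ^ 2)) * e a,
    show ∑ a ∈ μ.f.support, μ.f a * G a ^ 2 = _ from
      Finset.sum_congr rfl fun a _ => show _ = (√(μ.f a) * G a) ^ 2 by
        linear_combination (-(G a ^ 2)) * e a]
  exact h

theorem sq_E_le (μ : Law α) (F : α → ℝ) : (μ.E F) ^ 2 ≤ μ.E fun a => F a ^ 2 := by
  simpa using μ.E_mul_sq_le F fun _ => 1

theorem norm_E_sq_le {X : Type*} [SeminormedAddCommGroup X] [NormedSpace ℝ X] (μ : Law α)
    (F : α → X) : ‖μ.E F‖ ^ 2 ≤ μ.E fun a => ‖F a‖ ^ 2 :=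
  (pow_le_pow_left₀ (norm_nonneg _) (μ.norm_E_le F) 2).trans (μ.sq_E_le _)

theorem exists_le_E (μ : Law α) (F : α → ℝ) : ∃ a ∈ μ.f.support, F a ≤ μ.E F := by
  by_contra h
  push Not at h
  have hne : μ.f.support.Nonempty := by
    rw [Finset.nonempty_iff_ne_empty]; intro h0
    have := μ.sum_one; rw [h0] at this; simp at this
  have : μ.E (fun _ => μ.E F) < μ.E F := by
    rw [E_def, E_def (F := F)]
    refine Finset.sum_lt_sum_of_nonempty hne fun a ha => ?_
    have h1 : 0 < μ.f a := (μ.nonneg a).lt_of_ne' (Finsupp.mem_support_iff.1 ha)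
    have := h a ha
    rw [E_def] at this
    exact smul_lt_smul_of_pos_left this h1
  simp at this

/-- point mass -/
def pure (a : α) : Law α where
  f := Finsupp.single a 1
  nonneg b := by classical rw [Finsupp.single_apply]; split_ifs <;> norm_num
  sum_one := by rw [Finsupp.support_single_ne_zero _ one_ne_zero]; simp

@[simp] theorem E_pure (a : α) (F : α → V) : (pure a).E F = F a := by simp [E, pure]

/-- mixture -/
def bind (μ : Law α) (κ : α → Law β) : Law β where
  f := μ.E fun a => (κ a).f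
  nonneg b := by
    rw [show (μ.E fun a => (κ a).f) b = μ.E fun a => (κ a).f b from
      μ.map_E (Finsupp.lapply b : (β →₀ ℝ) →ₗ[ℝ] ℝ) _]
    exact μ.E_nonneg fun a _ => (κ a).nonneg b
  sum_one := by
    have h := μ.map_E (Finsupp.linearCombination ℝ fun _ : β => (1 : ℝ)) fun a => (κ a).f
    have h2 : ∀ a, Finsupp.linearCombination ℝ (fun _ : β => (1 : ℝ)) (κ a).f = 1 :=
      fun a => (κ a).E_const 1
    simp only [h2, E_const] at h
    simpa [Finsupp.linearCombination_apply, Finsupp.sum] using h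

theorem E_bind (μ : Law α) (κ : α → Law β) (F : β → V) :
    (μ.bind κ).E F = μ.E fun a => (κ a).E F := μ.map_E (Finsupp.linearCombination ℝ F) _

theorem mem_support_bind {μ : Law α} {κ : α → Law β} {b : β} (h : b ∈ (μ.bind κ).f.support) :
    ∃ a ∈ μ.f.support, b ∈ (κ a).f.support := by
  by_contra hc
  push Not at hc
  apply Finsupp.mem_support_iff.1 h
  change (μ.E fun a => (κ a).f) b = 0
  rw [show (μ.E fun a => (κ a).f) b = μ.E fun a => (κ a).f b from
      μ.map_E (Finsupp.lapply b : (β →₀ ℝ) →ₗ[ℝ] ℝ) _,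
    μ.E_congr (G := fun _ => 0) fun a ha => Finsupp.notMem_support_iff.1 (hc a ha), E_const]

theorem mem_support_pure {a b : α} (h : b ∈ (pure a).f.support) : b = a := by
  simpa [pure, Finsupp.support_single_ne_zero] using h

/-- image law -/
def map (g : α → β) (μ : Law α) : Law β := μ.bind fun a => pure (g a)

theorem E_map (g : α → β) (μ : Law α) (F : β → V) : (μ.map g).E F = μ.E fun a => F (g a) := by
  simp [map, E_bind]

/-- product law -/
def prod (μ : Law α) (ν : Law β) : Law (α × β) := μ.bind fun a => ν.map fun b => (a, b)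

theorem E_prod (μ : Law α) (ν : Law β) (F : α × β → V) :
    (μ.prod ν).E F = μ.E fun a => ν.E fun b => F (a, b) := by
  simp [prod, E_bind, E_map]

/-- uniform law -/
def unif (α : Type*) [Fintype α] [Nonempty α] : Law α where
  f := Finsupp.equivFunOnFinite.symm fun _ => (Fintype.card α : ℝ)⁻¹
  nonneg _ := by simp
  sum_one := by
    rw [Finset.sum_subset (Finset.subset_univ _) fun a _ ha => Finsupp.notMem_support_iff.1 ha]
    simp

theorem E_unif [Fintype α] [Nonempty α] (F : α → V) :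
    (unif α).E F = (Fintype.card α : ℝ)⁻¹ • ∑ a, F a := by
  rw [E_def, Finset.sum_subset (Finset.subset_univ _) fun a _ ha => by
    rw [Finsupp.notMem_support_iff.1 ha, zero_smul], Finset.smul_sum]
  simp [unif]

/-- convolution -/
def conv [Mul α] (μ ν : Law α) : Law α := μ.bind fun a => ν.map fun b => a * b

theorem E_conv [Mul α] (μ ν : Law α) (F : α → V) :
    (μ.conv ν).E F = μ.E fun a => ν.E fun b => F (a * b) := by
  simp [conv, E_bind, E_map]

/-- convolution powers -/
def pow [Monoid α] (μ : Law α) : ℕ → Law α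
  | 0 => pure 1
  | n + 1 => (pow μ n).conv μ

@[simp] theorem E_pow_zero [Monoid α] (μ : Law α) (F : α → V) : (μ.pow 0).E F = F 1 := E_pure _ _

theorem E_pow_succ [Monoid α] (μ : Law α) (n : ℕ) (F : α → V) :
    (μ.pow (n + 1)).E F = (μ.pow n).E fun a => μ.E fun b => F (a * b) := E_conv _ _ _

@[simp] theorem E_pow_one [Monoid α] (μ : Law α) (F : α → V) : (μ.pow 1).E F = μ.E F := by
  simp [E_pow_succ]

theorem E_pow_add [Monoid α] (μ : Law α) (i l : ℕ) (F : α → V) :
    (μ.pow (i + l)).E F = (μ.pow i).E fun a => (μ.pow l).E fun b => F (a * b) := by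
  induction l generalizing F with
  | zero => simp
  | succ l ih => simp only [← add_assoc, E_pow_succ, ih, mul_assoc]

theorem E_pow_succ' [Monoid α] (μ : Law α) (n : ℕ) (F : α → V) :
    (μ.pow (n + 1)).E F = μ.E fun a => (μ.pow n).E fun b => F (a * b) := by
  rw [add_comm, E_pow_add, E_pow_one]

theorem E_map_pow [Monoid α] [Monoid β] (g : α →* β) (μ : Law α) (n : ℕ) (F : β → V) :
    ((μ.map g).pow n).E F = (μ.pow n).E fun a => F (g a) := by
  induction n generalizing F with
  | zero => simp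
  | succ n ih => simp only [E_pow_succ, ih, E_map, map_mul]

end Law

end

end Crest.Agent.R78
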