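import Crest.Agent.R78.TomCyc
import Crest.Agent.R124.Restrict

/-!
# Row 78, task R78-TomMP: the modular package for an arbitrary vector.

PLAN.  `exists_MP`: let `e`, `e'` be the projections onto the closures of `N' Ω`, `N Ω` (`exists_cproj`);
`e ∈ N`, `e' ∈ N'`, `p = e e'` is a projection, `I : H₀ → H` an isometry with `I I⋆ = p`
(`R124.exists_iso`), `Ω₀ = I⋆ Ω`.  Let `N₀` be the von Neumann algebra on `H₀` which is the commutant
of `{I⋆ y I | y ∈ N'}` (star closed).  `lift` (applied to `N`, and to `N'` with `e, e'` exchanged) shows: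
every `T ∈ N₀` is `I⋆ x I` with `x ∈ N`, `x = e x e`, `‖x‖ ≤ ‖T‖`, and every `T` commuting with all
`I⋆ x I`, `x ∈ N` (in particular every `T ∈ N₀'`) is `I⋆ y I`, `y ∈ N'`, `y = e' y e'`, `‖y‖ ≤ ‖T‖`.
Such lifts are unique (`x = x e`, `x y Ω = y x Ω = y I T Ω₀`).  `Ω₀` is cyclic for `N₀` and `N₀'`.
Put `s t x` = lift of `s₀ t (I⋆ x I)`, `s' t x` = lift of `s₀' t (I⋆ x I)`; algebraic properties by
uniqueness, strong continuity on `N' Ω + ker e` and boundedness.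
`lift`: define `x` on `N' Ω` by `y Ω ↦ y I T Ω₀`; `‖y I T Ω₀‖² = ⟪TΩ₀, I⋆ y⋆y I TΩ₀⟫ = ‖T c Ω₀‖²`, where
`c = √(I⋆ y⋆ y I)` commutes with `T`, `≤ ‖T‖² ‖y Ω‖²`; extend (`LinearMap.extendOfNorm` into the closure)
and compose with `e`.
-/

set_option autoImplicit false

open ContinuousLinearMap MeasureTheory
open scoped InnerProductSpace

namespace Crest.Agent.R78

universe u

variable {H : Type u} [NormedAddCommGroup H] [InnerProductSpace ℂ H] [CompleteSpace H]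

open TomAux

/-- the projection onto the closure of the span of `N' Z` -/
theorem exists_cproj (N : VonNeumannAlgebra H) (Z : Set H) :
    ∃ e ∈ N, IsStarProjection e ∧ (∀ y ∈ N.commutant, ∀ ζ ∈ Z, e (y ζ) = y ζ) ∧
      ∀ ξ, e ξ ∈ closure (Submodule.span ℂ {v | ∃ y ∈ N.commutant, ∃ ζ ∈ Z, v = y ζ} : Set H) := by
  let V : Submodule ℂ H := Submodule.span ℂ {v | ∃ y ∈ N.commutant, ∃ ζ ∈ Z, v = y ζ}
  refine ⟨V.topologicalClosure.starProjection, ?_, isStarProjection_starProjection,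
    fun y hy ζ hζ => Submodule.starProjection_eq_self_iff.2
      (V.le_topologicalClosure (Submodule.subset_span ⟨y, hy, ζ, hζ, rfl⟩)),
    fun ξ => V.topologicalClosure.starProjection_apply_mem ξ⟩
  rw [VonNeumannAlgebra.IsStarProjection.mem_iff isStarProjection_starProjection,
    Submodule.range_starProjection]
  intro y hy v hv
  refine map_mem_closure y.continuous hv fun w hw => ?_
  refine (Submodule.span_le (p := V.comap (y : H →ₗ[ℂ] H))).2 ?_ hw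
  rintro _ ⟨z, hz, ζ, hζ, rfl⟩
  exact Submodule.subset_span ⟨y * z, mul_mem hy hz, ζ, hζ, rfl⟩

theorem exists_cproj' (N : VonNeumannAlgebra H) (Ω : H) :
    ∃ e ∈ N, IsStarProjection e ∧ (∀ y ∈ N.commutant, e (y Ω) = y Ω) ∧
      ∀ ξ, e ξ ∈ closure ((fun y : H →L[ℂ] H => y Ω) '' N.commutant) := by
  obtain ⟨e, h1, h2, h3, h4⟩ := exists_cproj N {Ω}
  refine ⟨e, h1, h2, fun y hy => h3 y hy Ω rfl, fun ξ => closure_mono ?_ (h4 ξ)⟩
  refine (Submodule.span_le (p := (Subalgebra.toSubmodule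
    N.commutant.toStarSubalgebra.toSubalgebra).map
      (ContinuousLinearMap.apply ℂ H Ω : (H →L[ℂ] H) →ₗ[ℂ] H))).2 ?_
  rintro _ ⟨z, hz, ζ, rfl, rfl⟩
  exact ⟨z, hz, rfl⟩

theorem norm_comm_le {H₀ : Type u} [NormedAddCommGroup H₀] [InnerProductSpace ℂ H₀]
    [CompleteSpace H₀] (A : H₀ →L[ℂ] H) {T : H₀ →L[ℂ] H₀}
    (h : T * (adjoint A ∘L A) = (adjoint A ∘L A) * T) (v : H₀) : ‖A (T v)‖ ≤ ‖T‖ * ‖A v‖ := by
  have h0 : 0 ≤ adjoint A ∘L A := (nonneg_iff_isPositive _).2 (isPositive_adjoint_comp_self A)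
  have h1 := CFC.sqrt_mul_sqrt_self _ h0
  have h2 : IsSelfAdjoint (CFC.sqrt (adjoint A ∘L A)) := .of_nonneg (CFC.sqrt_nonneg _)
  have h3 : Commute (CFC.sqrt (adjoint A ∘L A)) T := Commute.cfcₙ_nnreal h.symm _
  generalize CFC.sqrt (adjoint A ∘L A) = c at *
  have h4 : ∀ w, ‖A w‖ = ‖c w‖ := fun w => by
    rw [@norm_eq_sqrt_re_inner ℂ, @norm_eq_sqrt_re_inner ℂ _ _ _ _ (c w), ← adj c, h2.star_eq,
      ← adjoint_inner_right, ← mul_apply_eq_comp, h1]
    rfl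
  rw [h4, h4, ← mul_apply_eq_comp, h3.eq]
  exact T.le_opNorm _

omit [CompleteSpace H] in
theorem dense_cyc {S : Set (H →L[ℂ] H)} {Ω : H} {e : H →L[ℂ] H}
    (hcl : ∀ ξ, e ξ ∈ closure ((fun y : H →L[ℂ] H => y Ω) '' S)) :
    Dense {v | ∃ y ∈ S, ∃ η, v = y Ω + (η - e η)} := fun ξ => by
  have := map_mem_closure (f := fun v => v + (ξ - e ξ)) (by fun_prop) (hcl ξ)
    (t := {v | ∃ y ∈ S, ∃ η, v = y Ω + (η - e η)}) (by
      rintro _ ⟨y, hy, rfl⟩; exact ⟨y, hy, ξ, rfl⟩)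
  simpa using this

theorem proj_iso {H₀ : Type u} [NormedAddCommGroup H₀] [InnerProductSpace ℂ H₀] [CompleteSpace H₀]
    {e e' : H →L[ℂ] H} (hep : IsStarProjection e)
    (I : H₀ →L[ℂ] H) (hI : ∀ v, adjoint I (I v) = v) (hI' : ∀ v, I (adjoint I v) = (e * e') v) :
    (∀ v, e (I v) = I v) ∧ ∀ v, adjoint I (e v) = adjoint I v := by
  have h1 : ∀ v, e (I v) = I v := fun v => by
    conv_lhs => rw [← hI v, hI', ← mul_apply_eq_comp, ← mul_assoc, hep.isIdempotentElem.eq, ← hI',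
      hI]
  refine ⟨h1, fun v => ext_inner_left ℂ fun w => ?_⟩
  rw [adjoint_inner_right, adjoint_inner_right, ← hep.isSelfAdjoint.star_eq, adj, h1]

theorem lift {H₀ : Type u} [NormedAddCommGroup H₀] [InnerProductSpace ℂ H₀] [CompleteSpace H₀]
    (N : VonNeumannAlgebra H) (Ω : H) {e e' : H →L[ℂ] H} (he : e ∈ N) (hep : IsStarProjection e)
    (hfix : ∀ y ∈ N.commutant, e (y Ω) = y Ω)
    (hcl : ∀ ξ, e ξ ∈ closure ((fun y : H →L[ℂ] H => y Ω) '' N.commutant))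
    (he' : e' ∈ N.commutant) (hep' : IsStarProjection e') (hfix' : e' Ω = Ω)
    (I : H₀ →L[ℂ] H) (hI : ∀ v, adjoint I (I v) = v) (hI' : ∀ v, I (adjoint I v) = (e * e') v)
    {T : H₀ →L[ℂ] H₀}
    (hT : ∀ y ∈ N.commutant, T * (adjoint I ∘L y ∘L I) = (adjoint I ∘L y ∘L I) * T) :
    ∃ x ∈ N, x = e * x * e ∧ ‖x‖ ≤ ‖T‖ ∧ adjoint I ∘L x ∘L I = T ∧ x Ω = I (T (adjoint I Ω)) := by
  obtain ⟨eI, Ie⟩ := proj_iso hep I hI hI'
  have ee : ∀ v, e (e v) = e v := fun v =>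
    congrArg (fun A : H →L[ℂ] H => A v) hep.isIdempotentElem.eq
  have hΩ : I (adjoint I Ω) = Ω := by
    rw [hI', mul_apply_eq_comp, hfix']; exact hfix 1 (one_mem _)
  let D := Subalgebra.toSubmodule N.commutant.toStarSubalgebra.toSubalgebra
  let f : (D × H) →ₗ[ℂ] H :=
    { toFun := fun z => z.1.1 (I (T (adjoint I Ω)))
      map_add' := fun _ _ => rfl
      map_smul' := fun _ _ => rfl }
  let g : (D × H) →ₗ[ℂ] H :=
    { toFun := fun z => z.1.1 Ω + (z.2 - e z.2)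
      map_add' := fun a b => by simp; abel
      map_smul' := fun c a => by simp [smul_sub] }
  have hd := dense_cyc hcl
  have hg : DenseRange g := hd.mono (by
    rintro _ ⟨y, hy, η, rfl⟩; exact ⟨(⟨y, hy⟩, η), rfl⟩)
  have eg : ∀ y ∈ N.commutant, ∀ η, e (y Ω + (η - e η)) = y Ω := fun y hy η => by
    rw [map_add, map_sub, ee, sub_self, add_zero, hfix y hy]
  have hb : ∀ z, ‖f z‖ ≤ ‖T‖ * ‖g z‖ := by
    rintro ⟨⟨y, hy⟩, η⟩
    have h1 := norm_comm_le (y ∘L I) (T := T) (by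
      have := hT (star y * y) (mul_mem (star_mem hy) hy)
      rw [adjoint_comp]
      exact this) (adjoint I Ω)
    refine h1.trans (mul_le_mul_of_nonneg_left ?_ (norm_nonneg _))
    change ‖y (I (adjoint I Ω))‖ ≤ ‖y Ω + (η - e η)‖
    rw [hΩ]
    conv_lhs => rw [← eg y hy η]
    exact (e.le_opNorm _).trans (mul_le_of_le_one_left (norm_nonneg _) (hep.norm_le _))
  obtain ⟨x, hx1, hx2⟩ : ∃ x : H →L[ℂ] H, ‖x‖ ≤ ‖T‖ ∧ ∀ y ∈ N.commutant, ∀ η,
      x (y Ω + (η - e η)) = y (I (T (adjoint I Ω))) :=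
    ⟨f.extendOfNorm g, LinearMap.opNorm_extendOfNorm_le hg (norm_nonneg _) hb,
      fun y hy η => LinearMap.extendOfNorm_eq hg ⟨_, hb⟩ (⟨y, hy⟩, η)⟩
  have hx3 : ∀ y ∈ N.commutant, x (y Ω) = y (I (T (adjoint I Ω))) := fun y hy => by
    simpa using hx2 y hy 0
  refine ⟨x, vn_mem_of_comm fun b hb => ?_, ?_, hx1, ?_, hx3 1 (one_mem _)⟩
  · ext ξ
    refine hd.induction (P := fun ξ => b (x ξ) = x (b ξ)) ?_
      (isClosed_eq (by fun_prop) (by fun_prop)) ξ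
    rintro _ ⟨y, hy, η, rfl⟩
    rw [hx2 y hy, map_add, map_sub, ← comm_apply he hb]
    exact (hx2 (b * y) (mul_mem hb hy) _).symm
  · ext ξ
    refine hd.induction (P := fun ξ => x ξ = e (x (e ξ))) ?_
      (isClosed_eq (by fun_prop) (by fun_prop)) ξ
    rintro _ ⟨y, hy, η, rfl⟩
    rw [hx2 y hy, eg y hy, hx3 y hy, comm_apply he hy, eI]
  · have : ∀ ξ, adjoint I (x ξ) = T (adjoint I ξ) := fun ξ => by
      refine hd.induction (P := fun ξ => adjoint I (x ξ) = T (adjoint I ξ)) ?_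
        (isClosed_eq (by fun_prop) (by fun_prop)) ξ
      rintro _ ⟨y, hy, η, rfl⟩
      have h1 := congrArg (fun A : H₀ →L[ℂ] H₀ => A (adjoint I Ω)) (hT y hy)
      simp only [mul_apply_eq_comp, comp_apply, hΩ] at h1
      rw [hx2 y hy, ← Ie (y Ω + _), eg y hy, h1]
    ext v
    rw [comp_apply, comp_apply, this, hI]

theorem eq_of_cyc {N : VonNeumannAlgebra H} {Ω : H} {e : H →L[ℂ] H} (hep : IsStarProjection e)
    (hcl : ∀ ξ, e ξ ∈ closure ((fun y : H →L[ℂ] H => y Ω) '' N.commutant))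
    {x z : H →L[ℂ] H} (hx : x ∈ N) (hz : z ∈ N) (hxe : x = e * x * e) (hze : z = e * z * e)
    (h : x Ω = z Ω) : x = z := by
  have k : ∀ {x : H →L[ℂ] H}, x = e * x * e → ∀ η, x (η - e η) = 0 := fun {x} hxe η => by
    rw [hxe, mul_apply_eq_comp, map_sub e, ← mul_apply_eq_comp e e, hep.isIdempotentElem.eq,
      sub_self, map_zero]
  ext ξ
  refine (dense_cyc hcl).induction (P := fun ξ => x ξ = z ξ) ?_
    (isClosed_eq (by fun_prop) (by fun_prop)) ξ
  rintro _ ⟨y, hy, η, rfl⟩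
  rw [map_add, map_add, k hxe, k hze, comm_apply hx hy, comm_apply hz hy, h]

theorem cont_of_cyc {N : VonNeumannAlgebra H} {Ω : H} {e : H →L[ℂ] H} (hep : IsStarProjection e)
    (hcl : ∀ ξ, e ξ ∈ closure ((fun y : H →L[ℂ] H => y Ω) '' N.commutant))
    {x : ℝ → H →L[ℂ] H} (hx : ∀ t, x t ∈ N) (hxe : ∀ t, x t = e * x t * e) {C : ℝ}
    (hC : ∀ t, ‖x t‖ ≤ C) (h : Continuous fun t => x t Ω) (ξ : H) : Continuous fun t => x t ξ := by
  have k : ∀ t η, x t (η - e η) = 0 := fun t η => by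
    rw [hxe, mul_apply_eq_comp, map_sub e, ← mul_apply_eq_comp e e, hep.isIdempotentElem.eq,
      sub_self, map_zero]
  have hC0 : 0 < C + 1 := by linarith [(norm_nonneg _).trans (hC 0)]
  refine continuous_of_uniform_approx_of_continuous fun u hu => ?_
  obtain ⟨ε, hε, hu⟩ := Metric.mem_uniformity_dist.1 hu
  obtain ⟨_, ⟨y, hy, η, rfl⟩, hη⟩ := (dense_cyc hcl).exists_dist_lt ξ (div_pos hε hC0)
  refine ⟨fun t => x t (y Ω + (η - e η)), ?_, fun t => hu ?_⟩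
  · simp only [map_add, k, add_zero, comm_apply (hx _) hy]
    exact y.continuous.comp h
  · rw [dist_eq_norm, ← map_sub]
    rw [dist_eq_norm, lt_div_iff₀ hC0] at hη
    refine ((x t).le_of_opNorm_le (hC t) _).trans_lt ?_
    nlinarith [norm_nonneg (ξ - (y Ω + (η - e η)))]

theorem cyc_compress {H₀ : Type u} [NormedAddCommGroup H₀] [InnerProductSpace ℂ H₀]
    [CompleteSpace H₀] {S : Set (H →L[ℂ] H)} {Ω : H} {e : H →L[ℂ] H}
    (hcl : ∀ ξ, e ξ ∈ closure ((fun y : H →L[ℂ] H => y Ω) '' S)) {I : H₀ →L[ℂ] H}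
    (hI : ∀ v, adjoint I (I v) = v) (eI : ∀ v, e (I v) = I v) (hΩ : I (adjoint I Ω) = Ω)
    {M : VonNeumannAlgebra H₀} (hM : ∀ y ∈ S, adjoint I ∘L y ∘L I ∈ M) : Cyc M (adjoint I Ω) := by
  intro v
  rw [← hI v, ← eI]
  refine map_mem_closure (adjoint I).continuous (hcl _) ?_
  rintro _ ⟨y, hy, rfl⟩
  exact ⟨_, hM y hy, by simp only [comp_apply, hΩ]⟩

theorem exists_MP (N : VonNeumannAlgebra H) (Ω : H) : Nonempty (MP N Ω) := by
  obtain ⟨e, he, hep, hfix, hcl⟩ := exists_cproj' N Ω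
  obtain ⟨e', he', hep', hfix', hcl'⟩ := exists_cproj' N.commutant Ω
  have hNN := N.commutant_commutant
  have hee : e * e' = e' * e := VonNeumannAlgebra.mem_commutant_iff.1 he' e he
  obtain ⟨H₀, _, _, _, I, nI, hI, hI'⟩ := R124.Restrict.exists_iso (hep.mul hep' hee)
  have hI'' : ∀ v, I (adjoint I v) = (e' * e) v := hee ▸ hI'
  obtain ⟨eI, Ie⟩ := proj_iso hep I hI hI'
  obtain ⟨eI', Ie'⟩ := proj_iso hep' I hI hI''
  have eΩ : e Ω = Ω := hfix 1 (one_mem _)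
  have eΩ' : e' Ω = Ω := hfix' 1 (one_mem _)
  have hΩ : I (adjoint I Ω) = Ω := by rw [hI', mul_apply_eq_comp, eΩ', eΩ]
  have nI' : ∀ v, ‖adjoint I v‖ ≤ ‖v‖ := fun v => by
    rw [← nI, hI']
    exact (le_opNorm _ _).trans (mul_le_of_le_one_left (norm_nonneg _)
      ((hep.mul hep' hee).norm_le _))
  obtain ⟨c, hc⟩ : ∃ c : (H →L[ℂ] H) → (H₀ →L[ℂ] H₀), ∀ x, c x = adjoint I ∘L x ∘L I :=
    ⟨_, fun _ => rfl⟩
  have ca : ∀ x v, c x v = adjoint I (x (I v)) := fun x v => by rw [hc]; rfl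
  have cn : ∀ x, ‖c x‖ ≤ ‖x‖ := fun x => by
    rw [hc]; exact R124.Restrict.norm_comp_le I _ (fun v => (nI v).le) nI' x
  have cs : ∀ x, c (star x) = star (c x) := fun x => by
    rw [hc, hc, star_eq_adjoint, star_eq_adjoint, adjoint_comp, adjoint_comp, adjoint_adjoint,
      comp_assoc]
  have cadd : ∀ x y, c (x + y) = c x + c y := fun x y => by ext v; simp [ca]
  have csmul : ∀ (a : ℂ) x, c (a • x) = a • c x := fun a x => by ext v; simp [ca]
  have cc : ∀ x ∈ N, ∀ y ∈ N.commutant, c x * c y = c y * c x := fun x hx y hy => by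
    ext v
    simp only [mul_apply_eq_comp, ca]
    rw [hI'', hI']
    simp only [mul_apply_eq_comp]
    rw [comm_apply hx he', Ie', comm_apply he hy, eI, ← comm_apply he hy, Ie, ← comm_apply hx he',
      eI', comm_apply hx hy]
  let N₀ : VonNeumannAlgebra H₀ :=
    { toStarSubalgebra := StarSubalgebra.centralizer ℂ (c '' N.commutant)
      centralizer_centralizer' := by simp }
  have mem₀ : ∀ T, T ∈ N₀ ↔ ∀ y ∈ N.commutant, T * c y = c y * T := fun T => by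
    change T ∈ StarSubalgebra.centralizer ℂ (c '' N.commutant) ↔ _
    rw [StarSubalgebra.mem_centralizer_iff]
    constructor
    · exact fun h y hy => (h _ ⟨y, hy, rfl⟩).1.symm
    · rintro h _ ⟨y, hy, rfl⟩
      exact ⟨(h y hy).symm, by rw [← cs]; exact (h _ (star_mem hy)).symm⟩
  have cm : ∀ x ∈ N, c x ∈ N₀ := fun x hx => (mem₀ _).2 (cc x hx)
  have cm' : ∀ y ∈ N.commutant, c y ∈ N₀.commutant := fun y hy =>
    VonNeumannAlgebra.mem_commutant_iff.2 fun T hT => (mem₀ T).1 hT y hy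
  obtain ⟨m, hm⟩ := exists_MP_cyc (N := N₀) (Ω := adjoint I Ω)
    (cyc_compress hcl' hI eI' hΩ fun y hy => hc y ▸ cm y (hNN ▸ hy))
    (cyc_compress hcl hI eI hΩ fun y hy => hc y ▸ cm' y hy)
  have l1 : ∀ T, ∃ x, T ∈ N₀ → x ∈ N ∧ x = e * x * e ∧ ‖x‖ ≤ ‖T‖ ∧ c x = T ∧
      x Ω = I (T (adjoint I Ω)) := fun T => by
    by_cases hT : T ∈ N₀
    · obtain ⟨x, h⟩ := lift N Ω he hep hfix hcl he' hep' eΩ' I hI hI'
        fun y hy => hc y ▸ (mem₀ T).1 hT y hy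
      exact ⟨x, fun _ => hc x ▸ h⟩
    · exact ⟨0, fun h => (hT h).elim⟩
  have l2 : ∀ T, ∃ x, T ∈ N₀.commutant → x ∈ N.commutant ∧ x = e' * x * e' ∧ ‖x‖ ≤ ‖T‖ ∧
      c x = T ∧ x Ω = I (T (adjoint I Ω)) := fun T => by
    by_cases hT : T ∈ N₀.commutant
    · obtain ⟨x, h⟩ := lift N.commutant Ω he' hep' hfix' hcl' (hNN.symm ▸ he) hep eΩ I hI hI''
        (T := T) fun y hy => hc y ▸
          (VonNeumannAlgebra.mem_commutant_iff.1 hT _ (cm y (hNN ▸ hy))).symm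
      exact ⟨x, fun _ => hc x ▸ h⟩
    · exact ⟨0, fun h => (hT h).elim⟩
  choose L hL using l1
  choose L' hL' using l2
  have u1 : ∀ x ∈ N, ∀ z ∈ N, x = e * x * e → z = e * z * e → c x = c z → x = z := by
    have k : ∀ x ∈ N, x = e * x * e → x Ω = I (c x (adjoint I Ω)) := fun x hx hxe => by
      rw [ca, hΩ, hI', mul_apply_eq_comp, ← comm_apply hx he', eΩ']
      conv_lhs => rw [hxe, mul_apply_eq_comp, mul_apply_eq_comp, eΩ]
    exact fun x hx z hz h1 h2 h => eq_of_cyc hep hcl hx hz h1 h2 (by rw [k x hx h1, k z hz h2, h])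
  have u2 : ∀ x ∈ N.commutant, ∀ z ∈ N.commutant, x = e' * x * e' → z = e' * z * e' →
      c x = c z → x = z := by
    have k : ∀ x ∈ N.commutant, x = e' * x * e' → x Ω = I (c x (adjoint I Ω)) := fun x hx hxe => by
      rw [ca, hΩ, hI'', mul_apply_eq_comp, comm_apply he hx, eΩ]
      conv_lhs => rw [hxe, mul_apply_eq_comp, mul_apply_eq_comp, eΩ']
    exact fun x hx z hz h1 h2 h =>
      eq_of_cyc hep' hcl' hx hz h1 h2 (by rw [k x hx h1, k z hz h2, h])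
  have st : ∀ {e x : H →L[ℂ] H}, IsStarProjection e → x = e * x * e → star x = e * star x * e :=
    fun {e x} he h => by
      conv_lhs => rw [h, star_mul, star_mul, he.isSelfAdjoint.star_eq, ← mul_assoc]
  have A := fun t x hx => hL _ (m.s_mem t _ (cm x hx))
  have A' := fun t x hx => hL' _ (m.s'_mem t _ (cm x hx))
  refine ⟨⟨e, fun t x => L (m.s t (c x)), fun t x => L' (m.s' t (c x)), hep, he, hfix,
    fun t x hx => (A t x hx).1,
    fun t x hx => (A t x hx).2.2.1.trans ((m.s_norm t _ (cm x hx)).trans (cn x)),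
    fun t x hx y hy => ?_, fun t a x hx => ?_, fun t x hx => ?_, fun x hx => ?_, fun x hx => ?_,
    fun t x hx => (A' t x hx).1,
    fun t x hx => (A' t x hx).2.2.1.trans ((m.s'_norm t _ (cm x hx)).trans (cn x)),
    fun t x hx hxs => ?_, fun x hx => ?_, fun x hx hxs T hT V B hB => ?_⟩⟩
  · obtain ⟨a1, a2, -, a3, -⟩ := A t x hx
    obtain ⟨b1, b2, -, b3, -⟩ := A t y hy
    obtain ⟨c1, c2, -, c3, -⟩ := A t _ (add_mem hx hy)
    refine u1 _ c1 _ (add_mem a1 b1) c2 (by rw [mul_add, add_mul, ← a2, ← b2]) ?_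
    rw [c3, cadd, cadd, a3, b3, m.s_add t _ (cm x hx) _ (cm y hy)]
  · obtain ⟨a1, a2, -, a3, -⟩ := A t x hx
    obtain ⟨c1, c2, -, c3, -⟩ := A t _ (vn_smul_mem a hx)
    refine u1 _ c1 _ (vn_smul_mem a a1) c2 (by rw [mul_smul_comm, smul_mul_assoc, ← a2]) ?_
    rw [c3, csmul, csmul, a3, m.s_smul t _ _ (cm x hx)]
  · obtain ⟨a1, a2, -, a3, -⟩ := A t x hx
    obtain ⟨c1, c2, -, c3, -⟩ := A t _ (star_mem hx)
    refine u1 _ c1 _ (star_mem a1) c2 (st hep a2) ?_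
    rw [c3, cs, cs, a3, m.s_star t _ (cm x hx)]
  · refine cont_of_cyc hep hcl (fun t => (A t x hx).1) (fun t => (A t x hx).2.1)
      (fun t => (A t x hx).2.2.1.trans (m.s_norm t _ (cm x hx))) ?_
    simp only [fun t => (A t x hx).2.2.2.2]
    exact I.continuous.comp (m.s_cont _ (cm x hx) _)
  · obtain ⟨a1, a2, -, a3, -⟩ := A 0 x hx
    refine u1 _ a1 _ (mul_mem (mul_mem he hx) he) a2 ?_ ?_
    · simp only [← mul_assoc, hep.isIdempotentElem.eq]
      rw [mul_assoc _ e e, hep.isIdempotentElem.eq]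
    · rw [a3, m.s_zero _ (cm x hx), hm, one_mul, mul_one]
      ext v
      simp only [ca, mul_apply_eq_comp, eI, Ie]
  · obtain ⟨a1, a2, -, a3, -⟩ := A' t x hx
    refine u2 _ (star_mem a1) _ a1 (st hep' a2) a2 ?_
    rw [cs, a3]
    exact m.s'_sa t _ (cm x hx) (by rw [IsSelfAdjoint, ← cs, hxs.star_eq])
  · refine cont_of_cyc hep' hcl' (fun t => (A' t x hx).1) (fun t => (A' t x hx).2.1)
      (fun t => (A' t x hx).2.2.1.trans (m.s'_norm t _ (cm x hx))) ?_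
    simp only [fun t => (A' t x hx).2.2.2.2]
    exact I.continuous.comp (m.s'_cont _ (cm x hx) _)
  · have hB0 : 0 ≤ B := (Finset.sum_nonneg fun _ _ => sq_nonneg _).trans (hB 0)
    have h1 := m.kap _ (cm x hx) (by rw [IsSelfAdjoint, ← cs, hxs.star_eq]) T hT V B hB
    simp only [fun t => (A t x hx).2.2.2.2, fun t => (A' t x hx).2.2.2.2, ← map_smul I,
      ← map_sub I]
    have h2 := (⟨(I : H₀ →ₗ[ℂ] H), nI⟩ : H₀ →ₗᵢ[ℂ] H).integral_comp_comm (μ := (volume : Measure ℝ))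
    simp only [LinearIsometry.coe_mk, coe_coe] at h2
    simp only [h2, nI]
    refine h1.trans (mul_le_mul_of_nonneg_left (pow_le_pow_left₀ (by positivity)
      (mul_le_mul (cn x) (nI' Ω) (norm_nonneg _) (norm_nonneg _)) 2) (by positivity))

end Crest.Agent.R78
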