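import Crest.Agent.R78.Stage
import Crest.Agent.R78.TomMP

/-!
# Row 78, task R78-Lift: the linear lift.

PLAN.  `mainl`: `Ω = 0`: `e = 1`, `Φ = 0`, `h = 0`.  Else normalise `Ω`, take `P` from `exists_MP`, apply `limit`
to `stage`; `e Ω = Ω` by `e_fix` with `y = 1`.
`finl`: `exists_forall_le` on the convex set `𝒞` of families `Φ : I → B(H)` with `Φ i ∈ M`, `‖Φ i‖ ≤ 1`,
respecting the relations, and the convex functions `f (i, j) Φ = ‖Φ i (ζ j) - x i (ζ j)‖²`.  Given weights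
`w (i, j)`, put `lam j = ∑ i, w (i, j)`, `J' = J ⊕ I × J`, `Ω' (inl j) = √(lam j) ζ j`,
`Ω' (inr (i, j)) = τ x i (ζ j)` with `τ > 0` so small that `‖Ω'‖² ≤ 2`.  Apply `mainl` on `L2 J' H` to
`Ñ = (ampVN J' N.commutant).commutant`, `M̃` (`Cm.dg_amp`, `Cm.anear`, `Cm.symm`, `commutant_commutant`,
`δ = 2 C² (C g)`) and the family `dgH (x i)`; by `mem_commutant_ampVN` the outputs are `dgH e₀`, `dgH (Φ i)`,
`dgH h₀` (`norm_dgH`).  With `γ = 10¹⁰ δ`: `e₀` fixes `ζ j` (if `lam j > 0`) and `x i (ζ j)`, so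
`‖Φ i ζ j - x i ζ j‖ ≤ γ + ‖h₀ ζ j - ζ j‖/2` and `∑ lam j ‖h₀ ζ j - ζ j‖² ≤ 2 γ²`; `c = 3 γ²`, `c' = (2γ + ε)²`.
`exists_lift`: for a finite set `F ⊆ N` and a finite set `Z` of vectors apply `finl` to the family
`(2‖x‖)⁻¹ ℜ x`, `(2‖x‖)⁻¹ ℑ x` (`x ∈ F`; add `0` to get nonempty index types), normalised vectors, and
`exists_linear_of_rel` to get a linear `Φ_{F,Z}` on `B(H)` with `Φ x ∈ M`, `‖Φ x‖ ≤ 4 ‖x‖`,
`‖Φ x ζ - x ζ‖ ≤ 4 (2γ + ε) ‖x‖ ‖ζ‖` for `x ∈ F`, `ζ ∈ Z`.  Take the weak limit along an ultrafilter finer than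
`atTop` on `Finset × Finset × ℕ` (`R124.Sh.exists_wot_ultralimit`).
-/

set_option autoImplicit false

namespace Crest.Agent.R78

open Finset Filter Crest.Agent.R124
open scoped InnerProductSpace Topology ComplexStarModule

universe u

variable {H : Type u} [NormedAddCommGroup H] [InnerProductSpace ℂ H] [CompleteSpace H]
  {N M : VonNeumannAlgebra H}

theorem mainl {δ : ℝ} (hδ0 : 0 ≤ δ) (hδ : δ ≤ 1 / 10 ^ 11) (h1 : ANear N M δ)
    (h2 : ANear N.commutant M.commutant δ) (Ω : H) {I : Type} [Fintype I] [Nonempty I]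
    {x : I → H →L[ℂ] H} (hx : ∀ i, x i ∈ N) (hsa : ∀ i, IsSelfAdjoint (x i))
    (hn : ∀ i, ‖x i‖ ≤ 1 / 2) :
    ∃ (e : H →L[ℂ] H) (Φ : I → H →L[ℂ] H) (h : H →L[ℂ] H), e ∈ N ∧ ‖e‖ ≤ 1 ∧ e Ω = Ω ∧
      (∀ i, Φ i ∈ M) ∧ h ∈ M ∧ ‖h‖ ≤ 1 ∧ ‖h Ω - Ω‖ ≤ 10 ^ 10 * δ * ‖Ω‖ ∧
      (∀ i, ‖Φ i - e * x i * e * h‖ ≤ 10 ^ 10 * δ) ∧
      ∀ c : I → ℂ, ∑ i, c i • x i = 0 → ∑ i, c i • Φ i = 0 := by
  have hγ : 0 ≤ 10 ^ 10 * δ := by positivity
  by_cases hΩ : Ω = 0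
  · subst hΩ
    refine ⟨1, 0, 0, one_mem N.toStarSubalgebra, ContinuousLinearMap.norm_id_le, rfl,
      fun _ => zero_mem M.toStarSubalgebra, zero_mem M.toStarSubalgebra, by simp, by simp,
      fun i => by simpa using hγ, fun c _ => by simp⟩
  have hΩ' : (‖Ω‖ : ℂ) ≠ 0 := by simpa using hΩ
  set Ω₁ : H := (‖Ω‖ : ℂ)⁻¹ • Ω with hΩ₁
  have e1 : Ω = (‖Ω‖ : ℂ) • Ω₁ := by rw [hΩ₁, smul_smul, mul_inv_cancel₀ hΩ', one_smul]
  have n1 : ‖Ω₁‖ = 1 := by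
    rw [hΩ₁, norm_smul, norm_inv, Complex.norm_real, norm_norm, inv_mul_cancel₀ (by simpa using hΩ)]
  obtain ⟨P⟩ := exists_MP N Ω₁
  obtain ⟨Φ, h, a1, a2, a3, a4, a5, a6⟩ := limit (M := M) (Ω := Ω₁) (x := x)
    (z := fun i => P.e * x i * P.e)
    (fun i => by
      have := (hsa i).conjugate P.e
      rwa [P.e_proj.isSelfAdjoint.star_eq] at this) hγ
    fun Z ε hε => stage hδ0 hδ h1 h2 n1 P hx hsa hn Z hε
  refine ⟨P.e, Φ, h, P.e_mem, P.e_proj.norm_le _, ?_, a1, a2, a3, ?_, a5, a6⟩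
  · have := P.e_fix 1 (one_mem N.commutant.toStarSubalgebra)
    rw [e1, map_smul]; congr 1
  · have e2 : h Ω - Ω = (‖Ω‖ : ℂ) • (h Ω₁ - Ω₁) := by
      rw [smul_sub, ← map_smul, ← e1]
    rw [e2, norm_smul, Complex.norm_real, norm_norm, mul_comm]
    exact mul_le_mul_of_nonneg_right a4 (norm_nonneg _)

variable {C g : ℝ}

theorem finl (hC : DPC.{u} C) (hg : 0 ≤ g) (hg' : 2 * C ^ 3 * g ≤ 1 / 10 ^ 11)
    (h1 : CmV N M.commutant g) (h2 : CmV M N.commutant g) {I J : Type} [Fintype I] [Nonempty I]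
    [Fintype J] [Nonempty J] {x : I → H →L[ℂ] H} (hx : ∀ i, x i ∈ N)
    (hsa : ∀ i, IsSelfAdjoint (x i)) (hn : ∀ i, ‖x i‖ ≤ 1 / 2) (ζ : J → H) (hζ : ∀ j, ‖ζ j‖ ≤ 1)
    {ε : ℝ} (hε : 0 < ε) :
    ∃ Φ : I → H →L[ℂ] H, (∀ i, Φ i ∈ M ∧ ‖Φ i‖ ≤ 1) ∧
      (∀ c : I → ℂ, ∑ i, c i • x i = 0 → ∑ i, c i • Φ i = 0) ∧
      ∀ i j, ‖Φ i (ζ j) - x i (ζ j)‖ ≤ 2 * (10 ^ 10 * (2 * C ^ 3 * g)) + ε := by
  classical
  set γ : ℝ := 10 ^ 10 * (2 * C ^ 3 * g) with hγ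
  have hC0 : 0 ≤ C := zero_le_one.trans hC.one_le
  have hγ0 : 0 ≤ γ := by positivity
  have hγ1 : γ ≤ 1 / 10 := by rw [hγ]; linarith
  let 𝒞 : Set (I → H →L[ℂ] H) := {Φ | (∀ i, Φ i ∈ M ∧ ‖Φ i‖ ≤ 1) ∧
    ∀ c : I → ℂ, ∑ i, c i • x i = 0 → ∑ i, c i • Φ i = 0}
  have hconv : Convex ℝ 𝒞 := by
    rintro Φ ⟨a1, a2⟩ Ψ ⟨b1, b2⟩ a b ha hb hab
    refine ⟨fun i => ⟨?_, ?_⟩, fun c hc => ?_⟩
    · simp only [Pi.add_apply, Pi.smul_apply, ← Complex.coe_smul]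
      exact add_mem (M.toStarSubalgebra.smul_mem (a1 i).1 _) (M.toStarSubalgebra.smul_mem (b1 i).1 _)
    · simp only [Pi.add_apply, Pi.smul_apply]
      refine (norm_add_le _ _).trans ?_
      rw [norm_smul, norm_smul, Real.norm_of_nonneg ha, Real.norm_of_nonneg hb]
      nlinarith [(a1 i).2, (b1 i).2]
    · simp only [Pi.add_apply, Pi.smul_apply, smul_add, sum_add_distrib]
      simp only [smul_comm (c _) a, smul_comm (c _) b, ← smul_sum, a2 c hc, b2 c hc, smul_zero,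
        add_zero]
  let f : I × J → (I → H →L[ℂ] H) → ℝ := fun p Φ => ‖Φ p.1 (ζ p.2) - x p.1 (ζ p.2)‖ ^ 2
  have hf : ∀ p, ConvexOn ℝ 𝒞 (f p) := fun p => by
    have h0 : ConvexOn ℝ 𝒞 fun Φ => ‖Φ p.1 (ζ p.2) - x p.1 (ζ p.2)‖ := by
      refine ⟨hconv, fun Φ _ Ψ _ a b ha hb hab => ?_⟩
      have e : (a • Φ + b • Ψ) p.1 (ζ p.2) - x p.1 (ζ p.2) =
          a • (Φ p.1 (ζ p.2) - x p.1 (ζ p.2)) + b • (Ψ p.1 (ζ p.2) - x p.1 (ζ p.2)) := by
        have : x p.1 (ζ p.2) = a • x p.1 (ζ p.2) + b • x p.1 (ζ p.2) := by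
          rw [← add_smul, hab, one_smul]
        simp only [Pi.add_apply, Pi.smul_apply, add_apply, smul_apply, smul_sub]
        conv_lhs => rw [this]
        abel
      simp only [e, smul_eq_mul]
      refine (norm_add_le _ _).trans ?_
      rw [norm_smul, norm_smul, Real.norm_of_nonneg ha, Real.norm_of_nonneg hb]
    exact h0.pow (fun _ _ => norm_nonneg _) 2
  suffices hs : ∀ w : I × J → ℝ, (∀ i, 0 ≤ w i) → ∑ i, w i = 1 →
      ∃ Φ ∈ 𝒞, ∑ i, w i * f i Φ ≤ 3 * γ ^ 2 by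
    obtain ⟨Φ, ⟨a1, a2⟩, a3⟩ := exists_forall_le (𝒞 := 𝒞) f hf (c := 3 * γ ^ 2)
      (c' := (2 * γ + ε) ^ 2) (by nlinarith) hs
    exact ⟨Φ, a1, a2, fun i j => (pow_le_pow_iff_left₀ (norm_nonneg _) (by positivity)
      two_ne_zero).1 (a3 (i, j))⟩
  intro w hw0 hw1
  let J' : Type := (I × J) ⊕ (I × J)
  let Ω : L2 J' H := L2.mk (Sum.elim (fun p => (√(w p) : ℂ) • ζ p.2)
    fun p => (√(w p) : ℂ) • x p.1 (ζ p.2))
  have hsq : ∀ (p : I × J) (v : H), ‖(√(w p) : ℂ) • v‖ ^ 2 = w p * ‖v‖ ^ 2 := fun p v => by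
    rw [norm_smul, mul_pow, Complex.norm_real, Real.norm_eq_abs, sq_abs, Real.sq_sqrt (hw0 p)]
  have hΩ : ‖Ω‖ ^ 2 ≤ 2 := by
    rw [L2.norm_sq, Fintype.sum_sum_type]
    simp only [Ω, L2.mk_apply, Sum.elim_inl, Sum.elim_inr, hsq]
    have b1 : ∑ p : I × J, w p * ‖ζ p.2‖ ^ 2 ≤ ∑ p, w p := sum_le_sum fun p _ =>
      mul_le_of_le_one_right (hw0 p) (pow_le_one₀ (norm_nonneg _) (hζ _))
    have b2 : ∑ p : I × J, w p * ‖x p.1 (ζ p.2)‖ ^ 2 ≤ ∑ p, w p := sum_le_sum fun p _ =>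
      mul_le_of_le_one_right (hw0 p) (pow_le_one₀ (norm_nonneg _) (by
        refine ((x p.1).le_opNorm _).trans ?_
        nlinarith [hn p.1, hζ p.2, norm_nonneg (x p.1), norm_nonneg (ζ p.2)]))
    linarith
  have hCg : 0 ≤ C * g := mul_nonneg hC0 hg
  have eδ : 2 * C ^ 2 * (C * g) = 2 * C ^ 3 * g := by ring
  have k1 : ANear (ampVN J' N.commutant).commutant (ampVN J' M.commutant).commutant
      (2 * C ^ 3 * g) := by
    rw [← eδ]
    refine Cm.anear hC hCg ?_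
    rw [VonNeumannAlgebra.commutant_commutant]
    exact Cm.dg_amp hC hg h1 J'
  have k2 : ANear (ampVN J' N.commutant).commutant.commutant
      (ampVN J' M.commutant).commutant.commutant (2 * C ^ 3 * g) := by
    rw [← eδ, VonNeumannAlgebra.commutant_commutant, VonNeumannAlgebra.commutant_commutant]
    exact Cm.anear hC hCg (Cm.dg_amp hC hg h2 J').symm
  obtain ⟨e, Φ, h, c1, c2, c3, c4, c5, c6, c7, c8, c9⟩ := mainl (by positivity) hg' k1 k2 Ω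
    (x := fun i => dgH J' (x i))
    (fun i => mem_commutant_ampVN.2 ⟨x i, by rw [N.commutant_commutant]; exact hx i, rfl⟩)
    (fun i => (hsa i).map (dgH J')) fun i => (norm_dgH_le _).trans (hn i)
  obtain ⟨e₀, -, rfl⟩ := mem_commutant_ampVN.1 c1
  obtain ⟨h₀, -, rfl⟩ := mem_commutant_ampVN.1 c5
  choose Φ₀ hΦ₀ hΦ using fun i => mem_commutant_ampVN.1 (c4 i)
  rw [norm_dgH] at c2 c6
  have d1 : ∀ i, ‖Φ₀ i - e₀ * x i * e₀ * h₀‖ ≤ γ := fun i => by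
    have := c8 i
    rwa [hΦ, ← map_mul, ← map_mul, ← map_mul, ← map_sub, norm_dgH] at this
  have d2 : ∀ i, ‖e₀ * x i * e₀‖ ≤ 1 / 2 := fun i => by
    refine norm_mul₃_le.trans ?_
    have : ‖e₀‖ * ‖x i‖ * ‖e₀‖ ≤ 1 * (1 / 2) * 1 := by gcongr; exact hn i
    linarith
  refine ⟨Φ₀, ⟨fun i => ⟨?_, ?_⟩, fun c hc => ?_⟩, ?_⟩
  · rw [← M.commutant_commutant]; exact hΦ₀ i
  · have b1 := norm_le_norm_add_norm_sub' (Φ₀ i) (e₀ * x i * e₀ * h₀)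
    have b2 : ‖e₀ * x i * e₀ * h₀‖ ≤ 1 / 2 * 1 := (norm_mul_le _ _).trans (by gcongr; exact d2 i)
    linarith [d1 i]
  · have b1 := c9 c (by simp only [← map_smul, ← map_sum, hc, map_zero])
    simp only [hΦ, ← map_smul, ← map_sum] at b1
    rw [← norm_eq_zero, ← norm_dgH (ι := J'), b1, norm_zero]
  · have b0 : ∑ p : I × J, w p * ‖h₀ (ζ p.2) - ζ p.2‖ ^ 2 ≤ 2 * γ ^ 2 := by
      have b1 := pow_le_pow_left₀ (norm_nonneg _) c7 2
      rw [L2.norm_sq, Fintype.sum_sum_type] at b1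
      have b2 : ∀ p : I × J, ‖(dgH J' h₀ Ω - Ω) (Sum.inl p)‖ ^ 2 =
          w p * ‖h₀ (ζ p.2) - ζ p.2‖ ^ 2 := fun p => by
        rw [← hsq]
        simp only [Ω, L2.sub_apply, dgH_apply, L2.mk_apply, Sum.elim_inl, map_smul, smul_sub]
      simp only [b2] at b1
      have b3 : 0 ≤ ∑ p : I × J, ‖(dgH J' h₀ Ω - Ω) (Sum.inr p)‖ ^ 2 :=
        sum_nonneg fun _ _ => sq_nonneg _
      have b4 : (γ * ‖Ω‖) ^ 2 ≤ 2 * γ ^ 2 := by rw [mul_pow]; nlinarith [sq_nonneg γ]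
      linarith
    have b5 : ∀ p : I × J, w p * f p Φ₀ ≤
        w p * (2 * γ ^ 2) + 1 / 2 * (w p * ‖h₀ (ζ p.2) - ζ p.2‖ ^ 2) := fun p => by
      rcases (hw0 p).eq_or_lt with h0 | h0
      · rw [← h0]; simp
      have hs : (√(w p) : ℂ) ≠ 0 := by
        simpa using (Real.sqrt_pos.2 h0).ne'
      have f1 : e₀ (ζ p.2) = ζ p.2 := by
        have := congrArg (fun v : L2 J' H => v (Sum.inl p)) c3
        simp only [Ω, dgH_apply, L2.mk_apply, Sum.elim_inl, map_smul] at this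
        exact smul_right_injective H hs this
      have f2 : e₀ (x p.1 (ζ p.2)) = x p.1 (ζ p.2) := by
        have := congrArg (fun v : L2 J' H => v (Sum.inr p)) c3
        simp only [Ω, dgH_apply, L2.mk_apply, Sum.elim_inr, map_smul] at this
        exact smul_right_injective H hs this
      have f3 : Φ₀ p.1 (ζ p.2) - x p.1 (ζ p.2) = (Φ₀ p.1 - e₀ * x p.1 * e₀ * h₀) (ζ p.2) +
          (e₀ * x p.1 * e₀) (h₀ (ζ p.2) - ζ p.2) := by
        simp only [sub_apply, mul_apply_eq_comp, map_sub, f1, f2]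
        abel
      have f4 : ‖Φ₀ p.1 (ζ p.2) - x p.1 (ζ p.2)‖ ≤ γ * 1 + 1 / 2 * ‖h₀ (ζ p.2) - ζ p.2‖ := by
        rw [f3]
        refine (norm_add_le _ _).trans (add_le_add ?_ ?_)
        · refine (ContinuousLinearMap.le_opNorm _ _).trans ?_
          gcongr
          exacts [d1 _, hζ _]
        · refine (ContinuousLinearMap.le_opNorm _ _).trans ?_
          gcongr
          exact d2 _
      have f5 : f p Φ₀ ≤ 2 * γ ^ 2 + 1 / 2 * ‖h₀ (ζ p.2) - ζ p.2‖ ^ 2 := by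
        refine (pow_le_pow_left₀ (norm_nonneg _) f4 2).trans ?_
        nlinarith [sq_nonneg (γ - 1 / 2 * ‖h₀ (ζ p.2) - ζ p.2‖)]
      nlinarith [mul_le_mul_of_nonneg_left f5 h0.le]
    refine (sum_le_sum fun p _ => b5 p).trans ?_
    rw [sum_add_distrib, ← sum_mul, ← mul_sum, hw1]
    linarith

theorem finl2 (hC : DPC.{u} C) (hg : 0 ≤ g) (hg' : 2 * C ^ 3 * g ≤ 1 / 10 ^ 11)
    (h1 : CmV N M.commutant g) (h2 : CmV M N.commutant g) {I J : Type} [Fintype I] [Nonempty I]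
    [Fintype J] [Nonempty J] {x : I → H →L[ℂ] H} (hx : ∀ i, x i ∈ N) (ζ : J → H)
    {ε : ℝ} (hε : 0 < ε) :
    ∃ Φ : (H →L[ℂ] H) →ₗ[ℂ] (H →L[ℂ] H), ∀ i, Φ (x i) ∈ M ∧ ‖Φ (x i)‖ ≤ 4 * ‖x i‖ ∧
      ∀ j, ‖Φ (x i) (ζ j) - x i (ζ j)‖ ≤
        4 * (2 * (10 ^ 10 * (2 * C ^ 3 * g)) + ε) * ‖x i‖ * ‖ζ j‖ := by
  classical
  let x' : I ⊕ I → H →L[ℂ] H := Sum.elim (fun i => (2 * ‖x i‖)⁻¹ • (ℜ (x i) : H →L[ℂ] H))
    fun i => (2 * ‖x i‖)⁻¹ • (ℑ (x i) : H →L[ℂ] H)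
  have rs : ∀ (r : ℝ), ∀ a ∈ N, r • a ∈ N := fun r a ha => by
    rw [← Complex.coe_smul]; exact N.toStarSubalgebra.smul_mem ha _
  have nb : ∀ (t : ℝ) (a : H →L[ℂ] H), ‖a‖ ≤ t → ‖(2 * t)⁻¹ • a‖ ≤ 1 / 2 := fun t a h => by
    have ht : 0 ≤ t := (norm_nonneg _).trans h
    rw [norm_smul, norm_inv, Real.norm_of_nonneg (by positivity)]
    rcases ht.eq_or_lt with h0 | h0
    · rw [← h0]; simp
    · rw [inv_mul_le_iff₀ (by positivity)]; linarith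
  obtain ⟨Φ', a1, a2, a3⟩ := finl hC hg hg' h1 h2 (x := x')
    (by
      rintro (i | i)
      · refine rs _ _ ?_
        rw [realPart_apply_coe]
        exact rs _ _ (add_mem (hx i) (star_mem (hx i)))
      · refine rs _ _ ?_
        rw [imaginaryPart_apply_coe]
        exact N.toStarSubalgebra.smul_mem (rs _ _ (sub_mem (hx i) (star_mem (hx i)))) _)
    (by
      rintro (i | i)
      · exact (IsSelfAdjoint.all _).smul (ℜ (x i)).2
      · exact (IsSelfAdjoint.all _).smul (ℑ (x i)).2)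
    (by
      rintro (i | i)
      · exact nb _ _ (realPart.norm_le (x i))
      · exact nb _ _ (imaginaryPart.norm_le (x i)))
    (fun j => (‖ζ j‖ : ℂ)⁻¹ • ζ j)
    (fun j => by
      rw [norm_smul, norm_inv, Complex.norm_real, norm_norm]
      exact inv_mul_le_one_of_le₀ le_rfl (norm_nonneg _)) hε
  obtain ⟨Φ, hΦ⟩ := exists_linear_of_rel x' Φ' a2
  set β := 2 * (10 ^ 10 * (2 * C ^ 3 * g)) + ε with hβ
  refine ⟨Φ, fun i => ?_⟩
  have e1 : x i = ((2 * ‖x i‖ : ℝ) : ℂ) • (x' (Sum.inl i) + Complex.I • x' (Sum.inr i)) := by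
    by_cases h0 : x i = 0
    · simp [h0]
    have : (2 * ‖x i‖ : ℝ) ≠ 0 := by simpa using h0
    simp only [x', Sum.elim_inl, Sum.elim_inr]
    rw [smul_comm Complex.I, ← smul_add, realPart_add_I_smul_imaginaryPart, Complex.coe_smul,
      smul_smul, mul_inv_cancel₀ this, one_smul]
  have e2 : Φ (x i) = ((2 * ‖x i‖ : ℝ) : ℂ) • (Φ' (Sum.inl i) + Complex.I • Φ' (Sum.inr i)) := by
    rw [← hΦ, ← hΦ, ← map_smul, ← map_add, ← map_smul, ← e1]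
  have n2 : ‖((2 * ‖x i‖ : ℝ) : ℂ)‖ = 2 * ‖x i‖ := by
    rw [Complex.norm_real, Real.norm_of_nonneg (by positivity)]
  refine ⟨?_, ?_, fun j => ?_⟩
  · rw [e2]
    exact M.toStarSubalgebra.smul_mem (add_mem (a1 _).1 (M.toStarSubalgebra.smul_mem (a1 _).1 _)) _
  · rw [e2, norm_smul, n2]
    have := norm_add_le (Φ' (Sum.inl i)) (Complex.I • Φ' (Sum.inr i))
    rw [norm_smul, Complex.norm_I] at this
    nlinarith [(a1 (Sum.inl i)).2, (a1 (Sum.inr i)).2, norm_nonneg (x i)]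
  · set ζ' := (‖ζ j‖ : ℂ)⁻¹ • ζ j with hζ'
    have e3 : ζ j = (‖ζ j‖ : ℂ) • ζ' := by
      by_cases h0 : ζ j = 0
      · simp [h0]
      rw [hζ', smul_smul, mul_inv_cancel₀ (by simpa using h0), one_smul]
    have e4 : Φ (x i) (ζ j) - x i (ζ j) = (‖ζ j‖ : ℂ) • ((2 * ‖x i‖ : ℝ) : ℂ) •
        ((Φ' (Sum.inl i) ζ' - x' (Sum.inl i) ζ') +
          Complex.I • (Φ' (Sum.inr i) ζ' - x' (Sum.inr i) ζ')) := by
      have e5 : x i ζ' = ((2 * ‖x i‖ : ℝ) : ℂ) • (x' (Sum.inl i) ζ' +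
          Complex.I • x' (Sum.inr i) ζ') := by
        conv_lhs => rw [e1]
        simp only [smul_apply, add_apply]
      have e6 : Φ (x i) ζ' = ((2 * ‖x i‖ : ℝ) : ℂ) • (Φ' (Sum.inl i) ζ' +
          Complex.I • Φ' (Sum.inr i) ζ') := by
        rw [e2]; simp only [smul_apply, add_apply]
      have e7 : ∀ t : H →L[ℂ] H, t (ζ j) = (‖ζ j‖ : ℂ) • t ζ' := fun t => by
        rw [← map_smul, ← e3]
      rw [e7, e7 (x i), e5, e6]
      module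
    rw [e4, norm_smul, norm_smul, n2, Complex.norm_real, norm_norm]
    have b1 := norm_add_le (Φ' (Sum.inl i) ζ' - x' (Sum.inl i) ζ')
      (Complex.I • (Φ' (Sum.inr i) ζ' - x' (Sum.inr i) ζ'))
    rw [norm_smul, Complex.norm_I] at b1
    have b2 := a3 (Sum.inl i) j
    have b3 := a3 (Sum.inr i) j
    have b4 : ‖(Φ' (Sum.inl i) ζ' - x' (Sum.inl i) ζ') +
      Complex.I • (Φ' (Sum.inr i) ζ' - x' (Sum.inr i) ζ')‖ ≤ 2 * β := by linarith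
    calc _ ≤ ‖ζ j‖ * (2 * ‖x i‖ * (2 * β)) := by gcongr
      _ = _ := by ring

theorem exists_lift (hC : DPC.{u} C) (hg : 0 ≤ g) (hg' : 2 * C ^ 3 * g ≤ 1 / 10 ^ 11)
    (h1 : CmV N M.commutant g) (h2 : CmV M N.commutant g) :
    ∃ Φ : N.toStarSubalgebra →ₗ[ℂ] M.toStarSubalgebra,
      ∀ x, ‖(Φ x : H →L[ℂ] H) - x‖ ≤ 10 ^ 11 * (2 * C ^ 3 * g) * ‖x‖ := by
  classical
  set γ : ℝ := 10 ^ 10 * (2 * C ^ 3 * g) with hγ
  have hC0 : 0 ≤ C := zero_le_one.trans hC.one_le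
  have hγ0 : 0 ≤ γ := by positivity
  have key : ∀ p : Finset N.toStarSubalgebra × Finset H × ℕ,
      ∃ Φ : (H →L[ℂ] H) →ₗ[ℂ] (H →L[ℂ] H), ∀ x ∈ p.1, Φ x ∈ M ∧ ‖Φ x‖ ≤ 4 * ‖x‖ ∧
        ∀ ζ ∈ p.2.1, ‖Φ x ζ - (x : H →L[ℂ] H) ζ‖ ≤
          4 * (2 * γ + 1 / ((p.2.2 : ℝ) + 1)) * ‖x‖ * ‖ζ‖ := by
    rintro ⟨F, Z, n⟩
    obtain ⟨Φ, hΦ⟩ := finl2 hC hg hg' h1 h2 (I := Option (Fin F.card)) (J := Option (Fin Z.card))
      (x := fun o => o.elim 0 fun k => ((F.equivFin.symm k : N.toStarSubalgebra) : H →L[ℂ] H))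
      (fun o => by
        cases o with
        | none => exact zero_mem N.toStarSubalgebra
        | some k => exact (F.equivFin.symm k : N.toStarSubalgebra).2)
      (fun o => o.elim 0 fun k => (Z.equivFin.symm k : H)) (Nat.one_div_pos_of_nat (n := n))
    refine ⟨Φ, fun x hx => ?_⟩
    obtain ⟨a1, a2, a3⟩ := hΦ (some (F.equivFin ⟨x, hx⟩))
    simp only [Option.elim_some, Equiv.symm_apply_apply] at a1 a2 a3
    refine ⟨a1, a2, fun ζ hζ => ?_⟩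
    have := a3 (some (Z.equivFin ⟨ζ, hζ⟩))
    simp only [Option.elim_some, Equiv.symm_apply_apply] at this
    exact this
  choose T hT using key
  let U : Ultrafilter (Finset N.toStarSubalgebra × Finset H × ℕ) := Ultrafilter.of atTop
  have hU : (U : Filter (Finset N.toStarSubalgebra × Finset H × ℕ)) ≤ atTop := Ultrafilter.of_le _
  have ev1 : ∀ x : N.toStarSubalgebra, ∀ᶠ p : Finset N.toStarSubalgebra × Finset H × ℕ in U, x ∈ p.1 := fun x =>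
    hU ((eventually_ge_atTop ({x}, ∅, 0)).mono fun p hp => hp.1 (mem_singleton_self x))
  have ev2 : ∀ ζ : H, ∀ᶠ p : Finset N.toStarSubalgebra × Finset H × ℕ in U, ζ ∈ p.2.1 := fun ζ =>
    hU ((eventually_ge_atTop (∅, {ζ}, 0)).mono fun p hp => hp.2.1 (mem_singleton_self ζ))
  have ev3 : Tendsto (fun p : Finset N.toStarSubalgebra × Finset H × ℕ => 1 / ((p.2.2 : ℝ) + 1))
      U (𝓝 0) := by
    refine tendsto_one_div_add_atTop_nhds_zero_nat.comp (Tendsto.mono_left ?_ hU)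
    exact tendsto_atTop.2 fun n => (eventually_ge_atTop (∅, ∅, n)).mono fun p hp => hp.2.2
  choose L hL1 hL2 using fun x : N.toStarSubalgebra =>
    R124.Sh.exists_wot_ultralimit U (fun p => T p x) (C := 4 * ‖x‖) (by positivity)
      ((ev1 x).mono fun p hp => (hT p x hp).2.1)
  have hM : ∀ x, L x ∈ M := fun x => by
    rw [← M.commutant_commutant, VonNeumannAlgebra.mem_commutant_iff]
    intro y hy
    ext b
    refine ext_inner_left ℂ fun a => ?_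
    simp only [mul_apply_eq_comp]
    rw [← ContinuousLinearMap.adjoint_inner_left y]
    refine tendsto_nhds_unique (hL2 x _ _) ((hL2 x _ _).congr' ((ev1 x).mono fun p hp => ?_))
    have := congrArg (fun t : H →L[ℂ] H => t b)
      (VonNeumannAlgebra.mem_commutant_iff.1 hy _ (hT p x hp).1)
    simp only [mul_apply_eq_comp] at this
    simp only [this, ContinuousLinearMap.adjoint_inner_left]
  refine ⟨⟨⟨fun x => ⟨L x, hM x⟩, fun x y => Subtype.ext ?_⟩, fun c x => Subtype.ext ?_⟩,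
    fun x => ?_⟩
  · ext b
    refine ext_inner_left ℂ fun a => ?_
    change ⟪a, L (x + y) b⟫_ℂ = ⟪a, L x b + L y b⟫_ℂ
    rw [inner_add_right]
    refine tendsto_nhds_unique (hL2 _ a b) (((hL2 x a b).add (hL2 y a b)).congr fun p => ?_)
    simp
  · ext b
    refine ext_inner_left ℂ fun a => ?_
    change ⟪a, L (c • x) b⟫_ℂ = ⟪a, c • L x b⟫_ℂ
    rw [inner_smul_right]
    refine tendsto_nhds_unique (hL2 _ a b) (((hL2 x a b).const_mul c).congr fun p => ?_)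
    simp
  · change ‖L x - x‖ ≤ _
    have hb : ∀ a ζ : H, ‖⟪a, (L x - x) ζ⟫_ℂ‖ ≤ ‖a‖ * (4 * (2 * γ + 0) * ‖x‖ * ‖ζ‖) := by
      intro a ζ
      have t1 : Tendsto (fun p => ‖⟪a, T p x ζ⟫_ℂ - ⟪a, (x : H →L[ℂ] H) ζ⟫_ℂ‖) U
          (𝓝 ‖⟪a, (L x - x) ζ⟫_ℂ‖) := by
        rw [sub_apply, inner_sub_right]
        exact ((hL2 x a ζ).sub_const _).norm
      refine le_of_tendsto_of_tendsto t1
        (((((ev3.const_add (2 * γ)).const_mul 4).mul_const ‖x‖).mul_const ‖ζ‖).const_mul ‖a‖)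
        (((ev1 x).and (ev2 ζ)).mono fun p hp => ?_)
      simp only [← inner_sub_right]
      exact (norm_inner_le_norm _ _).trans
        (mul_le_mul_of_nonneg_left ((hT p x hp.1).2.2 ζ hp.2) (norm_nonneg _))
    have e : 10 ^ 11 * (2 * C ^ 3 * g) = 10 * γ := by rw [hγ]; ring
    rw [e]
    refine ContinuousLinearMap.opNorm_le_bound _ (by positivity) fun ζ => ?_
    have h := hb ((L x - x) ζ) ζ
    rw [inner_self_eq_norm_sq_to_K] at h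
    simp only [norm_pow, RCLike.norm_ofReal, abs_norm] at h
    rcases (norm_nonneg ((L x - x) ζ)).eq_or_lt with h0 | h0
    · rw [← h0]; positivity
    · have h' : ‖(L x - x) ζ‖ ≤ 4 * (2 * γ + 0) * ‖x‖ * ‖ζ‖ := by
        refine le_of_mul_le_mul_left ?_ h0
        rwa [← sq]
      have : 0 ≤ γ * ‖x‖ * ‖ζ‖ := by positivity
      nlinarith

end Crest.Agent.R78
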