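import Crest.Agent.R78.UP

/-!
# Row 78, task R78-Limit: the ultraproduct of the stages.

PLAN.  Index set `Finset H × ℕ` (directed), `ω = Ultrafilter.of atTop`, stage `T p` for `Z = p.1`,
`ε = 1/(p.2+1)`; `U` from `exists_UPD`.  `ι ζ = mk' (fun p => (T p).ι ζ)` is a linear isometry `H → 𝒦`
(`mk_add`, `mk_smul`, `norm_mk`), `π y = op (fun p => (T p).π y)`, `R i = op r`, `Θ i = op Θ`, `ξ = mk' ξ`.
`π y ι = ι y`, hence `ι⋆ π y = y ι⋆`; `Θ i ι = ι (z i)` (`mk_congr`), hence `ι⋆ Θ i = z i ι⋆`.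
`⟪ζ, ι⋆ (∑ c i R i) ξ⟫ = lim ⟪ζ, ∑ c i ι_p⋆ r_p i ξ_p⟫ = 0` for a relation `c`.
`E` = orthogonal projection onto the closure of `{π y ξ | y ∈ M'}` (a subspace invariant under `π M'`, which is
star closed), so `E` commutes with `π M'`, `E ξ = ξ`, and `ι⋆ (∑ c i R i) E = 0`.
`Φ i = ι⋆ R i E ι`, `h = ι⋆ E ι` commute with `M'` (`VonNeumannAlgebra.commutant_commutant`);
`h Ω - Ω = ι⋆ (E - 1) (ι Ω - ξ)`.
-/

set_option autoImplicit false

namespace Crest.Agent.R78

open Finset ContinuousLinearMap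

universe u

variable {H : Type u} [NormedAddCommGroup H] [InnerProductSpace ℂ H] [CompleteSpace H]

/-- one stage of the construction -/
structure Stg (M : VonNeumannAlgebra H) (Ω : H) {I : Type} [Fintype I] (x z : I → H →L[ℂ] H)
    (γ : ℝ) (Z : Finset H) (ε : ℝ) : Type (u + 1) where
  H₁ : Type u
  [i1 : NormedAddCommGroup H₁]
  [i2 : InnerProductSpace ℂ H₁]
  [i3 : CompleteSpace H₁]
  π : (H →L[ℂ] H) →⋆ₐ[ℂ] (H₁ →L[ℂ] H₁)
  ι : H →L[ℂ] H₁
  r : I → H₁ →L[ℂ] H₁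
  Θ : I → H₁ →L[ℂ] H₁
  ξ : H₁
  ι_iso : ∀ v, adjoint ι (ι v) = v
  π_ι : ∀ y v, π y (ι v) = ι (y v)
  r_comm : ∀ i, ∀ y ∈ M.commutant, π y * r i = r i * π y
  r_near : ∀ i, ‖r i - Θ i‖ ≤ γ
  Θ_le : ∀ i, ‖Θ i‖ ≤ 1
  Θ_sa : ∀ i, IsSelfAdjoint (Θ i)
  Θ_ι : ∀ i, ∀ ζ ∈ Z, ‖Θ i (ι ζ) - ι (z i ζ)‖ ≤ ε
  ξ_near : ‖ξ - ι Ω‖ ≤ γ + ε
  rel : ∀ c : I → ℂ, ∑ i, c i • x i = 0 → ‖∑ i, c i • adjoint ι (r i ξ)‖ ≤ ε * ∑ i, ‖c i‖

attribute [instance] Stg.i1 Stg.i2 Stg.i3

open scoped InnerProductSpace in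
theorem Limit_adj {K : Type*} [NormedAddCommGroup K] [InnerProductSpace ℂ K] [CompleteSpace K]
    {J : H →L[ℂ] K} {A : K →L[ℂ] K} {a : H →L[ℂ] H} (h : ∀ v, star A (J v) = J (star a v)) (k : K) :
    adjoint J (A k) = a (adjoint J k) := by
  refine ext_inner_left ℂ fun v => ?_
  rw [adjoint_inner_right, ← adjoint_inner_left A, ← star_eq_adjoint, h, ← adjoint_inner_right,
    star_eq_adjoint, adjoint_inner_left]

open scoped InnerProductSpace in
theorem Limit_norm {K : Type*} [NormedAddCommGroup K] [InnerProductSpace ℂ K] [CompleteSpace K]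
    {J : H →L[ℂ] K} (h : ∀ v, adjoint J (J v) = v) (v : H) : ‖J v‖ = ‖v‖ := by
  have h1 : ⟪J v, J v⟫_ℂ = ⟪v, v⟫_ℂ := by rw [← adjoint_inner_right, h]
  have h2 := congrArg RCLike.re h1
  rw [inner_self_eq_norm_sq, inner_self_eq_norm_sq] at h2
  exact (pow_left_inj₀ (norm_nonneg _) (norm_nonneg _) two_ne_zero).1 h2

open scoped InnerProductSpace in
theorem Limit_abs {M : VonNeumannAlgebra H} {Ω : H} {I : Type} [Fintype I] {x z : I → H →L[ℂ] H}
    (hz : ∀ i, IsSelfAdjoint (z i)) {γ : ℝ} (hγ : 0 ≤ γ)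
    {K : Type*} [NormedAddCommGroup K] [InnerProductSpace ℂ K] [CompleteSpace K]
    (π : (H →L[ℂ] H) →⋆ₐ[ℂ] (K →L[ℂ] K)) (J : H →L[ℂ] K) (R Θ : I → K →L[ℂ] K) (ξ : K)
    (hJ : ∀ v, adjoint J (J v) = v) (πJ : ∀ y v, π y (J v) = J (y v))
    (rc : ∀ i, ∀ y ∈ M.commutant, π y * R i = R i * π y) (near : ∀ i, ‖R i - Θ i‖ ≤ γ)
    (sa : ∀ i, IsSelfAdjoint (Θ i)) (ΘJ : ∀ i v, Θ i (J v) = J (z i v)) (ξn : ‖ξ - J Ω‖ ≤ γ)
    (rel : ∀ c : I → ℂ, ∑ i, c i • x i = 0 → ∑ i, c i • adjoint J (R i ξ) = 0) :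
    ∃ (Φ : I → H →L[ℂ] H) (h : H →L[ℂ] H), (∀ i, Φ i ∈ M) ∧ h ∈ M ∧ ‖h‖ ≤ 1 ∧ ‖h Ω - Ω‖ ≤ γ ∧
      (∀ i, ‖Φ i - z i * h‖ ≤ γ) ∧ ∀ c : I → ℂ, ∑ i, c i • x i = 0 → ∑ i, c i • Φ i = 0 := by
  let L : (H →L[ℂ] H) →ₗ[ℂ] K :=
    { toFun := fun y => π y ξ
      map_add' := fun a b => by rw [map_add]; rfl
      map_smul' := fun c a => by rw [map_smul]; rfl }
  let W₀ : Submodule ℂ K := (M.commutant.toStarSubalgebra.toSubalgebra.toSubmodule).map L
  let W : Submodule ℂ K := W₀.topologicalClosure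
  have hW : ∀ {p : K → Prop}, IsClosed {w | p w} → (∀ y ∈ M.commutant, p (π y ξ)) →
      ∀ w ∈ W, p w := by
    intro p h1 h2 w hw
    refine closure_minimal (s := (W₀ : Set K)) (t := {w | p w}) ?_ h1 hw
    rintro _ ⟨y, hy, rfl⟩
    exact h2 y hy
  have hmem : ∀ y ∈ M.commutant, π y ξ ∈ W := fun y hy =>
    W₀.le_topologicalClosure ⟨y, hy, rfl⟩
  have hinv : ∀ y ∈ M.commutant, ∀ w ∈ W, π y w ∈ W := by
    intro y hy
    refine hW (W₀.isClosed_topologicalClosure.preimage (π y).continuous) fun y' hy' => ?_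
    have := hmem (y * y') (mul_mem hy hy')
    rwa [map_mul] at this
  set E := W.starProjection with hE
  have hEc : ∀ y ∈ M.commutant, ∀ v, E (π y v) = π y (E v) := by
    intro y hy v
    refine Submodule.eq_starProjection_of_mem_of_inner_eq_zero
      (hinv y hy _ (W.starProjection_apply_mem v)) fun w hw => ?_
    rw [← map_sub, ← adjoint_inner_right, ← star_eq_adjoint, ← map_star]
    exact W.starProjection_inner_eq_zero v _ (hinv _ (star_mem hy) w hw)
  have hEξ : E ξ = ξ := by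
    have := hmem 1 (one_mem _)
    rw [map_one] at this
    exact Submodule.starProjection_eq_self_iff.2 this
  have hJπ : ∀ y k, adjoint J (π y k) = y (adjoint J k) := fun y =>
    Limit_adj fun v => by rw [← map_star, πJ]
  have hJΘ : ∀ i k, adjoint J (Θ i k) = z i (adjoint J k) := fun i =>
    Limit_adj fun v => by rw [(sa i).star_eq, (hz i).star_eq, ΘJ]
  have nJ := Limit_norm hJ
  have nJ' : ∀ k, ‖adjoint J k‖ ≤ ‖k‖ := fun k => by
    have h1 : ‖adjoint J‖ ≤ 1 := by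
      rw [LinearIsometryEquiv.norm_map]
      exact opNorm_le_bound _ zero_le_one fun v => by rw [nJ, one_mul]
    simpa using (adjoint J).le_of_opNorm_le h1 k
  have nE : ∀ k, ‖E k‖ ≤ ‖k‖ := W.norm_starProjection_apply_le
  have hM : ∀ T : K →L[ℂ] K, (∀ y ∈ M.commutant, π y * T = T * π y) →
      adjoint J ∘L T ∘L E ∘L J ∈ M := by
    intro T hT
    rw [← M.commutant_commutant, VonNeumannAlgebra.mem_commutant_iff]
    intro y hy
    ext1 v
    change y (adjoint J (T (E (J v)))) = adjoint J (T (E (J (y v))))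
    rw [← hJπ, ← πJ, hEc y hy]
    exact congrArg (fun S : K →L[ℂ] K => adjoint J (S (E (J v)))) (hT y hy)
  refine ⟨fun i => adjoint J ∘L R i ∘L E ∘L J, adjoint J ∘L 1 ∘L E ∘L J, fun i => hM _ (rc i),
    hM 1 fun y _ => by rw [mul_one, one_mul], ?_, ?_, fun i => ?_, fun c hc => ?_⟩
  · refine opNorm_le_bound _ zero_le_one fun v => ?_
    rw [one_mul]
    exact (nJ' _).trans ((nE _).trans (nJ v).le)
  · have e : (adjoint J ∘L 1 ∘L E ∘L J) Ω - Ω = adjoint J (Wᗮ.starProjection (ξ - J Ω)) := by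
      rw [Submodule.starProjection_orthogonal_val, ← hE, map_sub E, hEξ]
      change adjoint J (E (J Ω)) - Ω = _
      simp only [map_sub, hJ]
      abel
    rw [e]
    exact (nJ' _).trans ((Wᗮ.norm_starProjection_apply_le _).trans ξn)
  · refine opNorm_le_bound _ hγ fun v => ?_
    have e : (adjoint J ∘L R i ∘L E ∘L J - z i * adjoint J ∘L 1 ∘L E ∘L J) v =
        adjoint J ((R i - Θ i) (E (J v))) := by
      change adjoint J (R i (E (J v))) - z i (adjoint J (E (J v))) = _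
      rw [← hJΘ, ← map_sub]
      rfl
    rw [e]
    refine (nJ' _).trans (((R i - Θ i).le_of_opNorm_le (near i) _).trans ?_)
    exact mul_le_mul_of_nonneg_left ((nE _).trans (nJ v).le) hγ
  · have key : ∀ w ∈ W, ∑ i, c i • adjoint J (R i w) = 0 := by
      refine hW (isClosed_eq (by fun_prop) continuous_const) fun y hy => ?_
      have : ∀ i, adjoint J (R i (π y ξ)) = y (adjoint J (R i ξ)) := fun i => by
        rw [← hJπ]
        exact congrArg (fun S : K →L[ℂ] K => adjoint J (S ξ)) (rc i y hy).symm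
      simp only [this, ← map_smul y, ← map_sum y, rel c hc, map_zero]
    ext1 v
    rw [ContinuousLinearMap.sum_apply]
    exact key _ (W.starProjection_apply_mem (J v))

theorem limit {M : VonNeumannAlgebra H} {Ω : H} {I : Type} [Fintype I] {x z : I → H →L[ℂ] H}
    (hz : ∀ i, IsSelfAdjoint (z i)) {γ : ℝ} (hγ : 0 ≤ γ)
    (h : ∀ Z ε, 0 < ε → Nonempty (Stg M Ω x z γ Z ε)) :
    ∃ (Φ : I → H →L[ℂ] H) (h : H →L[ℂ] H), (∀ i, Φ i ∈ M) ∧ h ∈ M ∧ ‖h‖ ≤ 1 ∧ ‖h Ω - Ω‖ ≤ γ ∧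
      (∀ i, ‖Φ i - z i * h‖ ≤ γ) ∧ ∀ c : I → ℂ, ∑ i, c i • x i = 0 → ∑ i, c i • Φ i = 0 := by
  classical
  let ω : Ultrafilter (Finset H × ℕ) := Ultrafilter.of Filter.atTop
  have hω : (ω : Filter (Finset H × ℕ)) ≤ Filter.atTop := Ultrafilter.of_le _
  let ε : Finset H × ℕ → ℝ := fun p => 1 / ((p.2 : ℝ) + 1)
  have ε0 : ∀ p, 0 < ε p := fun p => by positivity
  have ε1 : ∀ p, ε p ≤ 1 := fun p => by
    have : (0 : ℝ) ≤ p.2 := Nat.cast_nonneg _
    exact (div_le_one (by positivity)).2 (by linarith)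
  have εt : Filter.Tendsto ε ω (nhds 0) := by
    refine (tendsto_one_div_add_atTop_nhds_zero_nat.comp ?_).mono_left hω
    rw [← Filter.prod_atTop_atTop_eq]
    exact Filter.tendsto_snd
  have Zt : ∀ ζ : H, ∀ᶠ p in (ω : Filter (Finset H × ℕ)), ζ ∈ p.1 := fun ζ =>
    hω ((Filter.eventually_ge_atTop (({ζ}, 0) : Finset H × ℕ)).mono fun p hp =>
      hp.1 (mem_singleton_self ζ))
  let T : ∀ p : Finset H × ℕ, Stg M Ω x z γ p.1 (ε p) := fun p => (h p.1 (ε p) (ε0 p)).some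
  obtain ⟨K, _, _, _, ⟨U⟩⟩ := exists_UPD ω fun p => (T p).H₁
  have nι : ∀ p v, ‖(T p).ι v‖ = ‖v‖ := fun p => Limit_norm (T p).ι_iso
  have bι : ∀ v, Bd fun p => (T p).ι v := fun v => ⟨‖v‖, fun p => (nι p v).le⟩
  have bπ : ∀ y, Bd fun p => (T p).π y := fun y =>
    ⟨‖y‖, fun p => NonUnitalStarAlgHom.norm_apply_le _ y⟩
  have bΘ : ∀ i, Bd fun p => (T p).Θ i := fun i => ⟨1, fun p => (T p).Θ_le i⟩
  have bd : ∀ i, Bd fun p => (T p).r i - (T p).Θ i := fun i => ⟨γ, fun p => (T p).r_near i⟩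
  have br : ∀ i, Bd fun p => (T p).r i := fun i => by simpa using (bd i).add (bΘ i)
  have bξ' : Bd fun p => (T p).ξ - (T p).ι Ω :=
    ⟨γ + 1, fun p => (T p).ξ_near.trans (by linarith [ε1 p])⟩
  have bξ : Bd fun p => (T p).ξ := by simpa using bξ'.add (bι Ω)
  have nJ : ∀ v, ‖U.mk' fun p => (T p).ι v‖ = ‖v‖ := fun v =>
    tendsto_nhds_unique (U.norm_mk (bι v)) (by simp only [nι]; exact tendsto_const_nhds)
  let J₀ : H →ₗ[ℂ] K :=
    { toFun := fun v => U.mk' fun p => (T p).ι v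
      map_add' := fun a b => by simp only [map_add]; exact U.mk_add (bι a) (bι b)
      map_smul' := fun c a => by simp only [map_smul]; exact U.mk_smul (bι a) c }
  let J : H →L[ℂ] K := J₀.mkContinuous 1 fun v => by rw [one_mul]; exact (nJ v).le
  have hJ : ∀ v, J v = U.mk' fun p => (T p).ι v := fun v => rfl
  let π : (H →L[ℂ] H) →⋆ₐ[ℂ] (K →L[ℂ] K) :=
    { toFun := fun y => U.op fun p => (T p).π y
      map_one' := by simp only [map_one]; exact U.op_one
      map_mul' := fun a b => by simp only [map_mul]; exact U.op_mul (bπ a) (bπ b)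
      map_zero' := by
        have := U.op_smul (bπ 0) 0
        simpa only [zero_smul, map_zero] using this
      map_add' := fun a b => by simp only [map_add]; exact U.op_add (bπ a) (bπ b)
      commutes' := fun c => by
        have := U.op_smul (bπ 1) c
        simp only [map_one, U.op_one] at this
        simp only [Algebra.algebraMap_eq_smul_one, map_smul, map_one, this]
      map_star' := fun a => by simp only [map_star]; exact U.op_star (bπ a) }
  have hπ : ∀ y, π y = U.op fun p => (T p).π y := fun y => rfl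
  refine Limit_abs hz hγ π J (fun i => U.op fun p => (T p).r i) (fun i => U.op fun p => (T p).Θ i)
    (U.mk' fun p => (T p).ξ) (fun v => ?_) (fun y v => ?_) (fun i y hy => ?_) (fun i => ?_)
    (fun i => ?_) (fun i v => ?_) ?_ fun c hc => ?_
  · refine ext_inner_left ℂ fun w => ?_
    rw [adjoint_inner_right, hJ, hJ]
    refine tendsto_nhds_unique (U.inner (bι w) (bι v)) ?_
    simp only [← adjoint_inner_right, Stg.ι_iso]
    exact tendsto_const_nhds
  · rw [hπ, hJ, hJ, U.op_mk (bπ y) (bι v)]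
    simp only [Stg.π_ι]
  · rw [hπ, ← U.op_mul (bπ y) (br i), ← U.op_mul (br i) (bπ y)]
    simp only [fun p => (T p).r_comm i y hy]
  · have := U.op_add (bd i) (bΘ i)
    simp only [sub_add_cancel] at this
    rw [this, add_sub_cancel_right]
    exact U.op_norm_le fun p => (T p).r_near i
  · rw [IsSelfAdjoint, ← U.op_star (bΘ i)]
    simp only [fun p => ((T p).Θ_sa i).star_eq]
  · rw [hJ, hJ, U.op_mk (bΘ i) (bι v)]
    refine U.mk_congr ((bΘ i).app (bι v)) (bι _) ?_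
    exact squeeze_zero' (Filter.Eventually.of_forall fun p => norm_nonneg _)
      ((Zt v).mono fun p hp => (T p).Θ_ι i v hp) εt
  · rw [hJ, ← U.mk_sub bξ (bι Ω)]
    have := εt.const_add γ
    rw [add_zero] at this
    exact le_of_tendsto_of_tendsto' (U.norm_mk bξ') this fun p => (T p).ξ_near
  · refine ext_inner_left ℂ fun w => ?_
    rw [inner_zero_right, inner_sum]
    have h1 : Filter.Tendsto (fun p => ∑ i, c i * inner ℂ ((T p).ι w) ((T p).r i (T p).ξ)) ω
        (nhds (∑ i, inner ℂ w (c i • adjoint J ((U.op fun p => (T p).r i)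
          (U.mk' fun p => (T p).ξ))))) := by
      refine tendsto_finset_sum _ fun i _ => ?_
      rw [inner_smul_right, adjoint_inner_right, hJ, U.op_mk (br i) bξ]
      exact (U.inner (bι w) ((br i).app bξ)).const_mul _
    refine tendsto_nhds_unique h1 ?_
    have h2 := (εt.mul_const (∑ i, ‖c i‖)).const_mul ‖w‖
    rw [zero_mul, mul_zero] at h2
    refine squeeze_zero_norm (fun p => ?_) h2
    simp only [← adjoint_inner_right, ← inner_smul_right, ← inner_sum]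
    exact (norm_inner_le_norm _ _).trans
      (mul_le_mul_of_nonneg_left ((T p).rel c hc) (norm_nonneg _))

end Crest.Agent.R78
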