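import Crest.Agent.R78.Law

/-!
# Row 78, task R78-Mart: the martingale estimate and Markov type 2.

PLAN for `mart`.  `lam i` are laws with `lam (i + t) = lam i ⋆ lam t` for an associative operation.
Put `Xi i h = E_{a ∼ lam i} X (a ⋆ h)` (so `E_{f ∼ lam t} Xi i (f ⋆ c) = Xi (i + t) c`),
`B i l = E_{c ∼ lam l} ‖Xi i c‖² ∈ [0, 1]`, `Γbar = E_f Γ f`.
* `Γ f - Γbar = avg_{i,l} E_c Y c (Xi i (f ⋆ c) - Xi (i + t) c)`; Jensen (`norm_E_sq_le`, finite sums) and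
  `E_f ‖Z f - E Z‖² = E ‖Z‖² - ‖E Z‖²` give `E_f ‖Γ f - Γbar‖² ≤ avg_{i,l<N} (B i (l + t) - B (i + t) l)`
  (use `lam (t + l)`), and `∑_{i,l<N} B i (l+t) - ∑_{i,l<N} B (i+t) l ≤ t N` (both are sums over
  rectangles containing `[t,N) × [t,N)`…; simplest: `∑_{l<N} B i (l+t) ≤ t + ∑_{l<N} B i l` and
  `∑_{i<N} B (i+t) l ≥ ∑_{i<N} B i l - t`), so the variance is `≤ 2 t / N`.
* `Γbar - Γ0 = avg_l E_c Y c (avg_i (Xi (i+t) c - Xi i c))` has norm `≤ 2 t / N` (telescoping) and also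
  `≤ 2`, so its square is `≤ 4 t / N`.
`markov`: `P = E ρ g` is a self-adjoint contraction (`ρ g⁻¹ = (ρ g)⋆`, symmetry),
`E_{μ^n} ‖ρ g Ω - Ω‖² = 2 ‖Ω‖² - 2 re ⟪Ω, Pⁿ Ω⟫` (`ρ g` is unitary; `E_{μ^n} ρ = Pⁿ` by induction) and
`1 - Pⁿ ≤ n (1 - P)` (cfc with `1 - xⁿ ≤ n (1 - x)` on `[-1,1]`, or `1 - Pⁿ = ∑ S Pʲ S`, `S = √(1 - P)`).
-/

set_option autoImplicit false

open Finset

open scoped InnerProductSpace

namespace Crest.Agent.R78

theorem mart_tele {M : Type*} [AddCommGroup M] (u : ℕ → M) (N t : ℕ) :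
    ∑ i ∈ range N, u (i + t) - ∑ i ∈ range N, u i =
      ∑ i ∈ range t, u (N + i) - ∑ i ∈ range t, u i := by
  have h1 := sum_range_add u N t
  have h2 := sum_range_add u t N
  rw [add_comm t N, h1] at h2
  simp only [add_comm _ t]
  rw [sub_eq_sub_iff_add_eq_add, add_comm, ← h2, add_comm]

theorem mart_sum_le {u : ℕ → ℝ} (h : ∀ i, u i ≤ 1) (t : ℕ) : ∑ i ∈ range t, u i ≤ t := by
  simpa using sum_le_card_nsmul (range t) u 1 fun i _ => h i

theorem mart_jensen {X : Type*} [NormedAddCommGroup X] (v : ℕ → X) (N : ℕ) :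
    ‖∑ i ∈ range N, v i‖ ^ 2 ≤ N * ∑ i ∈ range N, ‖v i‖ ^ 2 := by
  have := sq_sum_le_card_mul_sum_sq (s := range N) (f := fun i => ‖v i‖)
  rw [card_range] at this
  exact (pow_le_pow_left₀ (norm_nonneg _) (norm_sum_le _ _) 2).trans this

theorem mart_jensen2 {X : Type*} [NormedAddCommGroup X] [NormedSpace ℝ X] (v : ℕ → ℕ → X) {N : ℕ}
    (hN : 0 < N) : ‖((N : ℝ) ^ 2)⁻¹ • ∑ i ∈ range N, ∑ l ∈ range N, v i l‖ ^ 2 ≤
      ((N : ℝ) ^ 2)⁻¹ * ∑ i ∈ range N, ∑ l ∈ range N, ‖v i l‖ ^ 2 := by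
  have hN' : (0 : ℝ) < N := by exact_mod_cast hN
  have h1 := mart_jensen (fun i => ∑ l ∈ range N, v i l) N
  have h2 : ∑ i ∈ range N, ‖∑ l ∈ range N, v i l‖ ^ 2 ≤
      N * ∑ i ∈ range N, ∑ l ∈ range N, ‖v i l‖ ^ 2 := by
    rw [mul_sum]; exact sum_le_sum fun i _ => mart_jensen _ N
  have h3 := h1.trans (mul_le_mul_of_nonneg_left h2 hN'.le)
  rw [norm_smul, mul_pow, Real.norm_of_nonneg (by positivity)]
  refine (mul_le_mul_of_nonneg_left h3 (by positivity)).trans (le_of_eq ?_)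
  field_simp

theorem mart_var {G X : Type*} [NormedAddCommGroup X] [InnerProductSpace ℂ X] (μ : Law G)
    (W : G → X) : μ.E (fun f => ‖W f - μ.E W‖ ^ 2) = μ.E (fun f => ‖W f‖ ^ 2) - ‖μ.E W‖ ^ 2 := by
  have h : μ.E (fun f => (⟪W f, μ.E W⟫_ℂ).re) = ‖μ.E W‖ ^ 2 := by
    rw [← μ.re_E, ← μ.E_inner]
    exact inner_self_eq_norm_sq (𝕜 := ℂ) _
  have e : ∀ f, ‖W f - μ.E W‖ ^ 2 = ‖W f‖ ^ 2 - 2 * (⟪W f, μ.E W⟫_ℂ).re + ‖μ.E W‖ ^ 2 :=
    fun f => norm_sub_sq (𝕜 := ℂ) _ _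
  simp only [e]
  rw [μ.E_add, μ.E_sub, μ.E_const_mul, h, μ.E_const]
  ring

theorem mart {G X : Type*} [NormedAddCommGroup X] [InnerProductSpace ℂ X] (op : G → G → G)
    (assoc : ∀ a b c, op (op a b) c = op a (op b c)) (lam : ℕ → Law G)
    (hlam : ∀ (i t : ℕ) (F : G → X), (lam (i + t)).E F = (lam i).E fun a => (lam t).E fun f => F (op a f))
    (hlam' : ∀ (i t : ℕ) (F : G → ℝ), (lam (i + t)).E F = (lam i).E fun a => (lam t).E fun f => F (op a f))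
    (Z : G → X) (Y : G → X →L[ℂ] X) (hZ : ∀ g, ‖Z g‖ ≤ 1) (hY : ∀ g, ‖Y g‖ ≤ 1) (N t : ℕ)
    (hN : 0 < N) :
    (lam t).E (fun f =>
      ‖((N : ℝ) ^ 2)⁻¹ • ∑ i ∈ range N, ∑ l ∈ range N,
          ((lam i).E fun a => (lam l).E fun c => Y c (Z (op (op a f) c))) -
        ((N : ℝ) ^ 2)⁻¹ • ∑ i ∈ range N, ∑ l ∈ range N,
          ((lam i).E fun a => (lam l).E fun c => Y c (Z (op a c)))‖ ^ 2) ≤ 12 * t / N := by
  have hN' : (0 : ℝ) < N := by exact_mod_cast hN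
  obtain ⟨Xi, hXi⟩ : ∃ Xi : ℕ → G → X, ∀ i h, Xi i h = (lam i).E fun a => Z (op a h) :=
    ⟨_, fun _ _ => rfl⟩
  have hX1 : ∀ i h, ‖Xi i h‖ ≤ 1 := fun i h => by
    rw [hXi]; exact (lam i).norm_E_le_of_le fun a _ => hZ _
  have hXt : ∀ i c, Xi (i + t) c = (lam t).E fun f => Xi i (op f c) := fun i c => by
    simp only [hXi]
    rw [hlam, Law.E_comm]
    simp only [assoc]
  have e1 : ∀ i l (k : G → G), ((lam i).E fun a => (lam l).E fun c => Y c (Z (op a (k c)))) =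
      (lam l).E fun c => Y c (Xi i (k c)) := fun i l k => by
    rw [Law.E_comm]
    simp only [hXi, Law.clm_E]
  have hYv : ∀ c v, ‖Y c v‖ ≤ ‖v‖ := fun c v =>
    ((Y c).le_opNorm v).trans (mul_le_of_le_one_left (norm_nonneg _) (hY c))
  simp only [assoc, e1 _ _ (fun c => c), fun i l f => e1 i l (op f)]
  obtain ⟨B, hB⟩ : ∃ B : ℕ → ℕ → ℝ, ∀ i l, B i l = (lam l).E fun c => ‖Xi i c‖ ^ 2 :=
    ⟨_, fun _ _ => rfl⟩
  have hB0 : ∀ i l, 0 ≤ B i l := fun i l => by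
    rw [hB]; exact (lam l).E_nonneg fun _ _ => by positivity
  have hB1 : ∀ i l, B i l ≤ 1 := fun i l => by
    rw [hB]; exact (lam l).E_le fun c _ => pow_le_one₀ (norm_nonneg _) (hX1 _ _)
  obtain ⟨Γ1, hΓ1⟩ : ∃ Γ1 : X, Γ1 = ((N : ℝ) ^ 2)⁻¹ • ∑ i ∈ range N, ∑ l ∈ range N,
    (lam l).E fun c => Y c (Xi (i + t) c) := ⟨_, rfl⟩
  -- the variance
  have v1 : (lam t).E (fun f => ‖((N : ℝ) ^ 2)⁻¹ • (∑ i ∈ range N, ∑ l ∈ range N,
      (lam l).E fun c => Y c (Xi i (op f c))) - Γ1‖ ^ 2) ≤ 2 * t / N := by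
    have a1 : ∀ f, ‖((N : ℝ) ^ 2)⁻¹ • (∑ i ∈ range N, ∑ l ∈ range N,
        (lam l).E fun c => Y c (Xi i (op f c))) - Γ1‖ ^ 2 ≤ ((N : ℝ) ^ 2)⁻¹ *
          ∑ i ∈ range N, ∑ l ∈ range N, (lam l).E fun c => ‖Xi i (op f c) - Xi (i + t) c‖ ^ 2 := by
      intro f
      rw [hΓ1, ← smul_sub, ← sum_sub_distrib]
      simp only [← sum_sub_distrib, ← Law.E_sub, ← map_sub]
      refine (mart_jensen2 _ hN).trans (mul_le_mul_of_nonneg_left
        (sum_le_sum fun i _ => sum_le_sum fun l _ => ((lam l).norm_E_sq_le _).trans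
          ((lam l).E_mono fun c _ => pow_le_pow_left₀ (norm_nonneg _) (hYv _ _) 2))
        (by positivity))
    refine ((lam t).E_mono fun f _ => a1 f).trans ?_
    have a2 : ∀ i l, ((lam t).E fun f => (lam l).E fun c => ‖Xi i (op f c) - Xi (i + t) c‖ ^ 2) =
        B i (l + t) - B (i + t) l := fun i l => by
      rw [Law.E_comm, hB, hB, add_comm l t, hlam', Law.E_comm (lam t), ← Law.E_sub]
      refine (lam l).E_congr fun c _ => ?_
      rw [hXt, mart_var]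
    rw [Law.E_const_mul, Law.E_sum]
    simp only [Law.E_sum, a2, sum_sub_distrib]
    have a3 : ∑ i ∈ range N, ∑ l ∈ range N, B i (l + t) ≤
        ∑ i ∈ range N, ∑ l ∈ range N, B i l + N * t := by
      have : ∀ i ∈ range N, ∑ l ∈ range N, B i (l + t) ≤ ∑ l ∈ range N, B i l + t := fun i _ => by
        have b1 := mart_tele (B i) N t
        have b2 := mart_sum_le (u := fun l => B i (N + l)) (fun l => hB1 _ _) t
        have b3 : 0 ≤ ∑ l ∈ range t, B i l := sum_nonneg fun l _ => hB0 _ _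
        linarith
      simpa [sum_add_distrib] using sum_le_sum this
    have a4 : ∑ i ∈ range N, ∑ l ∈ range N, B i l ≤
        ∑ i ∈ range N, ∑ l ∈ range N, B (i + t) l + N * t := by
      rw [sum_comm, sum_comm (f := fun i l => B (i + t) l)]
      have : ∀ l ∈ range N, ∑ i ∈ range N, B i l ≤ ∑ i ∈ range N, B (i + t) l + t := fun l _ => by
        have b1 := mart_tele (fun i => B i l) N t
        have b2 := mart_sum_le (u := fun i => B i l) (fun l => hB1 _ _) t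
        have b3 : 0 ≤ ∑ i ∈ range t, B (N + i) l := sum_nonneg fun l _ => hB0 _ _
        linarith
      simpa [sum_add_distrib] using sum_le_sum this
    rw [inv_mul_le_iff₀ (by positivity)]
    have : (N : ℝ) ^ 2 * (2 * t / N) = 2 * (N * t) := by field_simp
    linarith
  -- the drift
  have v2 : ‖Γ1 - ((N : ℝ) ^ 2)⁻¹ • ∑ i ∈ range N, ∑ l ∈ range N,
      (lam l).E fun c => Y c (Xi i c)‖ ^ 2 ≤ 4 * t / N := by
    have key : ∀ C : ℝ, (∀ c, ‖∑ i ∈ range N, Xi (i + t) c - ∑ i ∈ range N, Xi i c‖ ≤ C) →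
        ‖Γ1 - ((N : ℝ) ^ 2)⁻¹ • ∑ i ∈ range N, ∑ l ∈ range N,
          (lam l).E fun c => Y c (Xi i c)‖ ≤ C / N := fun C hC => by
      rw [hΓ1, ← smul_sub, sum_comm, sum_comm (f := fun i l => (lam l).E fun c => Y c (Xi i c)),
        ← sum_sub_distrib]
      simp only [← Law.E_sum, ← Law.E_sub, ← map_sum, ← map_sub]
      rw [norm_smul, Real.norm_of_nonneg (by positivity), inv_mul_le_iff₀ (by positivity)]
      refine (norm_sum_le_of_le _ fun l _ => (lam l).norm_E_le_of_le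
        fun c _ => (hYv _ _).trans (hC c)).trans (le_of_eq ?_)
      simp only [sum_const, card_range, nsmul_eq_mul]
      field_simp
    have hs : ∀ (c : G) (k : ℕ → ℕ) (n : ℕ), ‖∑ i ∈ range n, Xi (k i) c‖ ≤ n := fun c k n =>
      (norm_sum_le _ _).trans (mart_sum_le (fun _ => hX1 _ _) n)
    have a1 := key (2 * t) fun c => by
      rw [mart_tele (fun i => Xi i c)]
      linarith [norm_sub_le (∑ i ∈ range t, Xi (N + i) c) (∑ i ∈ range t, Xi i c),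
        hs c (fun i => N + i) t, hs c (fun i => i) t]
    have a2 := key (2 * N) fun c => by
      linarith [norm_sub_le (∑ i ∈ range N, Xi (i + t) c) (∑ i ∈ range N, Xi i c),
        hs c (fun i => i + t) N, hs c (fun i => i) N]
    rw [mul_div_cancel_right₀ _ hN'.ne'] at a2
    rw [sq]
    refine (mul_le_mul a2 a1 (norm_nonneg _) (by norm_num)).trans (le_of_eq ?_)
    ring
  have sq2 : ∀ a b c : X, ‖a - c‖ ^ 2 ≤ 2 * ‖a - b‖ ^ 2 + 2 * ‖b - c‖ ^ 2 := fun a b c => by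
    have h := pow_le_pow_left₀ (norm_nonneg _) (norm_sub_le_norm_sub_add_norm_sub a b c) 2
    nlinarith [sq_nonneg (‖a - b‖ - ‖b - c‖)]
  refine ((lam t).E_mono fun f _ => sq2 _ Γ1 _).trans ?_
  rw [Law.E_add, Law.E_const_mul, Law.E_const]
  have : (12 : ℝ) * t / N = 2 * (2 * t / N) + 2 * (4 * t / N) := by ring
  linarith

theorem markov {G H : Type*} [Group G] [NormedAddCommGroup H] [InnerProductSpace ℂ H]
    [CompleteSpace H] (ρ : G →* (H →L[ℂ] H)) (hρ : ∀ g, ρ g⁻¹ = star (ρ g)) (μ : Law G)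
    (hμ : μ.E (fun g => ρ g⁻¹) = μ.E fun g => ρ g) (Ω : H) (n : ℕ) :
    (μ.pow n).E (fun g => ‖ρ g Ω - Ω‖ ^ 2) ≤ n * μ.E fun g => ‖ρ g Ω - Ω‖ ^ 2 := by
  obtain ⟨P, hP⟩ : ∃ P, P = μ.E fun g => ρ g := ⟨_, rfl⟩
  have hU : ∀ g v, ‖ρ g v‖ = ‖v‖ := fun g v => by
    have : ⟪ρ g v, ρ g v⟫_ℂ = ⟪v, v⟫_ℂ := by
      rw [← ContinuousLinearMap.adjoint_inner_right, ← ContinuousLinearMap.star_eq_adjoint, ← hρ,
        ← ContinuousLinearMap.mul_apply, ← map_mul, inv_mul_cancel, map_one]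
      rfl
    rw [norm_eq_sqrt_re_inner (𝕜 := ℂ), this, ← norm_eq_sqrt_re_inner]
  have hPs : IsSelfAdjoint P := by
    have := μ.map_E (starL' ℝ : (H →L[ℂ] H) ≃L[ℝ] (H →L[ℂ] H)) fun g => ρ g
    simp only [starL'_apply, ← hρ] at this
    rw [IsSelfAdjoint, hP, this, hμ]
  have hP1 : ‖P‖ ≤ 1 := by
    rw [hP]
    exact μ.norm_E_le_of_le fun g _ => ContinuousLinearMap.opNorm_le_bound _ zero_le_one
      fun v => by rw [hU, one_mul]
  have hpow : ∀ n, ((μ.pow n).E fun g => ρ g) = P ^ n := fun n => by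
    induction n with
    | zero => simp
    | succ n ih =>
      rw [Law.E_pow_succ, pow_succ, ← ih, Law.E_mul]
      simp only [map_mul, hP, Law.mul_E]
  have e : ∀ ν : Law G, ν.E (fun g => ‖ρ g Ω - Ω‖ ^ 2) =
      2 * ‖Ω‖ ^ 2 - 2 * (⟪(ν.E fun g => ρ g) Ω, Ω⟫_ℂ).re := fun ν => by
    have e1 : ∀ g, ‖ρ g Ω - Ω‖ ^ 2 = 2 * ‖Ω‖ ^ 2 - 2 * (⟪ρ g Ω, Ω⟫_ℂ).re := fun g => by
      rw [norm_sub_sq (𝕜 := ℂ), hU]
      change _ - 2 * (⟪ρ g Ω, Ω⟫_ℂ).re + _ = _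
      ring
    simp only [e1]
    rw [Law.E_sub, Law.E_const, Law.E_const_mul, Law.E_apply, Law.E_inner, Law.re_E]
  rw [e, e, hpow, ← hP]
  have h0 : 0 ≤ cfc (fun x : ℝ => x ^ n - (1 + n * (x - 1))) P := by
    rcases subsingleton_or_nontrivial (H →L[ℂ] H) with hB | hB
    · exact (Subsingleton.elim _ _).le
    refine cfc_nonneg fun x hx => sub_nonneg.2 ?_
    have h1 : |x| ≤ 1 := (spectrum.norm_le_norm_of_mem hx).trans hP1
    simpa using one_add_mul_le_pow (a := x - 1) (by linarith [abs_le.1 h1]) n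
  rw [cfc_sub _ _ P, cfc_pow_id P n, cfc_add P _ _, cfc_const_mul _ _ P, cfc_sub _ _ P,
    cfc_id' ℝ P, cfc_const_one ℝ P, ContinuousLinearMap.nonneg_iff_isPositive] at h0
  have h1 := h0.re_inner_nonneg_left Ω
  have h2 : (⟪Ω, Ω⟫_ℂ).re = ‖Ω‖ ^ 2 := inner_self_eq_norm_sq (𝕜 := ℂ) _
  change 0 ≤ (⟪(P ^ n) Ω - (Ω + (n : ℝ) • (P Ω - Ω)), Ω⟫_ℂ).re at h1
  rw [← Complex.coe_smul, inner_sub_left, inner_add_left, inner_smul_left, inner_sub_left,
    Complex.conj_ofReal] at h1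
  simp only [Complex.sub_re, Complex.add_re, Complex.re_ofReal_mul, h2] at h1
  linarith

end Crest.Agent.R78
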