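import Crest.Agent.R78.Bic
import Crest.Agent.R78.Abs

/-!
# Row 78: pre-models.

`𝔸` is an algebra of "internal" operator valued functions, represented by `ρ` on `K`.  `A0`, `A3`,
`C0`, `D0` are the functions of `f`, of `(f, a, c)`, the constants, the functions of `(a, c)`.
The system `Sys` lives on the bicommutants.
-/

set_option autoImplicit false
set_option linter.unusedSectionVars false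

open Filter Topology Finset
open scoped InnerProductSpace

namespace Crest.Agent.R78

noncomputable section

variable {𝔸 : Type*} [CStarAlgebra 𝔸] {K : Type*} [NormedAddCommGroup K] [InnerProductSpace ℂ K]
  [CompleteSpace K]

/-- average over a square -/
def sqav {V : Type*} [AddCommMonoid V] [Module ℝ V] (N : ℕ) (F : ℕ → ℕ → V) : V :=
  ((N : ℝ) ^ 2)⁻¹ • ∑ i ∈ range N, ∑ l ∈ range N, F i l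

structure Pre (ρ : 𝔸 →⋆ₐ[ℂ] (K →L[ℂ] K)) where
  A0 : StarSubalgebra ℂ 𝔸
  A3 : StarSubalgebra ℂ 𝔸
  C0 : StarSubalgebra ℂ 𝔸
  D0 : StarSubalgebra ℂ 𝔸
  M0 : StarSubalgebra ℂ 𝔸
  M0' : StarSubalgebra ℂ 𝔸
  M3 : StarSubalgebra ℂ 𝔸
  M3' : StarSubalgebra ℂ 𝔸
  A0c : IsClosed (A0 : Set 𝔸)
  A3c : IsClosed (A3 : Set 𝔸)
  C0c : IsClosed (C0 : Set 𝔸)
  D0c : IsClosed (D0 : Set 𝔸)
  M0c : IsClosed (M0 : Set 𝔸)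
  M0c' : IsClosed (M0' : Set 𝔸)
  M3c : IsClosed (M3 : Set 𝔸)
  M3c' : IsClosed (M3' : Set 𝔸)
  C0_le : C0 ≤ A0
  M0_le : M0 ≤ A0
  M0'_le : M0' ≤ A0
  A0_le : A0 ≤ A3
  M0_le3 : M0 ≤ M3
  M0'_le3 : M0' ≤ M3'
  comm3 : ∀ a ∈ M3, ∀ b ∈ M3', a * b = b * a
  kα : Hk ρ
  kβ : Hk ρ
  kγ : Hk ρ
  kκ : Hk ρ
  J : ℕ → ℕ → K →L[ℂ] K
  tJ : ℕ → ℕ → 𝔸 → 𝔸
  JJ : ∀ i l, J i l * star (J i l) = 1
  J_conj : ∀ i l a, J i l * ρ a * star (J i l) = ρ (tJ i l a)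
  J_comm : ∀ i l, ∀ a ∈ A0, ρ a * J i l = J i l * ρ a
  α_A : ∀ a ∈ A0, kα.t a ∈ A3
  β_A : ∀ a ∈ A0, kβ.t a ∈ A3
  γ_A : ∀ a ∈ A0, kγ.t a ∈ A3
  α_D : ∀ a ∈ A0, kα.t a ∈ D0
  γ_D : ∀ a ∈ A0, kγ.t a ∈ D0
  κ_C : ∀ a ∈ A0, kκ.t a ∈ C0
  J_A : ∀ i l, ∀ a ∈ A3, tJ i l a ∈ A0
  J_D : ∀ i l, ∀ a ∈ D0, tJ i l a ∈ C0
  fix : ∀ a ∈ C0, kα.t a = a ∧ kβ.t a = a ∧ kγ.t a = a ∧ kκ.t a = a
  M_mem : ∀ a ∈ M0, kα.t a ∈ M3 ∧ kβ.t a ∈ M3 ∧ kγ.t a ∈ M3 ∧ kκ.t a ∈ M0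
  M'_mem : ∀ a ∈ M0', kα.t a ∈ M3' ∧ kβ.t a ∈ M3' ∧ kγ.t a ∈ M3' ∧ kκ.t a ∈ M0'
  J_M : ∀ i l, ∀ a ∈ M3, tJ i l a ∈ M0
  J_M' : ∀ i l, ∀ a ∈ M3', tJ i l a ∈ M0'
  g : 𝔸
  g' : 𝔸
  g_mem : g ∈ A0
  g'_mem : g' ∈ A0
  g_un : g ∈ unitary 𝔸
  g'_un : g' ∈ unitary 𝔸
  β_g : kβ.t g = kα.t g * g * kγ.t g
  β_g' : kβ.t g' = kγ.t g' * g' * kα.t g'
  κ_g : kκ.t g = 1
  κ_g' : kκ.t g' = 1
  αγ : kα.t g * kγ.t g' = kγ.t g' * kα.t g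
  πγ : g * kγ.t g' = kγ.t g' * g
  απ : kα.t g * g' = g' * kα.t g
  Ω : ℕ → K
  Ω_le : ∀ t, ‖Ω t‖ ≤ 1
  Ω_α : ∀ a ∈ A0, ∀ t i l, ‖ρ (kα.t a) (star (J i l) (Ω t))‖ = ‖ρ a (Ω i)‖
  Ω_β : ∀ a ∈ A0, ∀ t i l, ‖ρ (kβ.t a) (star (J i l) (Ω t))‖ = ‖ρ a (Ω (i + t + l))‖
  Ω_γ : ∀ a ∈ A0, ∀ t i l, ‖ρ (kγ.t a) (star (J i l) (Ω t))‖ = ‖ρ a (Ω l)‖
  Ω_π : ∀ a ∈ A0, ∀ t i l, ‖ρ a (star (J i l) (Ω t))‖ = ‖ρ a (Ω t)‖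
  Ω_κ : ∀ a ∈ A0, ∀ t, ‖ρ (kκ.t a) (Ω t)‖ = ‖ρ a (Ω 0)‖
  Ω_g : ∀ t, ρ g (Ω t) = ρ g' (Ω t)
  mart_α : ∀ x ∈ A0, ∀ y ∈ A0, ∀ N, 0 < N → ∀ t : ℕ,
    ‖ρ (sqav N (fun i l => tJ i l (kα.t y * kβ.t x)) -
      kκ.t (sqav N fun i l => tJ i l (kα.t y * kβ.t x))) (Ω t)‖ ^ 2 ≤
        12 * t / N * (‖x‖ * ‖y‖) ^ 2
  mart_γ : ∀ x ∈ A0, ∀ y ∈ A0, ∀ N, 0 < N → ∀ t : ℕ,
    ‖ρ (sqav N (fun i l => tJ i l (kγ.t y * kβ.t x)) -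
      kκ.t (sqav N fun i l => tJ i l (kγ.t y * kβ.t x))) (Ω t)‖ ^ 2 ≤
        12 * t / N * (‖x‖ * ‖y‖) ^ 2
  idem : ∀ V ∈ C0, ∀ i l i' l',
    tJ i l (star (kα.t g) * star (kγ.t g') *
      tJ i' l' (star (kα.t g) * star (kγ.t g') * V * kα.t g * kγ.t g') * kα.t g * kγ.t g') =
    tJ (i + i') (l + l') (star (kα.t g) * star (kγ.t g') * V * kα.t g * kγ.t g')

namespace Pre

variable {ρ : 𝔸 →⋆ₐ[ℂ] (K →L[ℂ] K)} (S : Pre ρ)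

theorem J_norm_le (i l : ℕ) : ‖S.J i l‖ ≤ 1 := by
  refine le_of_sq_le_sq ?_ zero_le_one
  rw [sq, ← CStarRing.norm_self_mul_star, S.JJ, one_pow]
  exact ContinuousLinearMap.norm_id_le

/-- the finite averages -/
def avg (N : ℕ) (X : K →L[ℂ] K) : K →L[ℂ] K := sqav N fun i l => S.J i l * X * star (S.J i l)

theorem _root_.Crest.Agent.R78.norm_sqav_le {V : Type*} [SeminormedAddCommGroup V]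
    [NormedSpace ℝ V] (N : ℕ) {F : ℕ → ℕ → V} {C : ℝ} (hC : 0 ≤ C) (h : ∀ i l, ‖F i l‖ ≤ C) :
    ‖sqav N F‖ ≤ C := by
  rcases Nat.eq_zero_or_pos N with rfl | hN
  · simpa [sqav] using hC
  have h1 : ‖∑ i ∈ range N, ∑ l ∈ range N, F i l‖ ≤ (N : ℝ) ^ 2 * C := by
    refine (norm_sum_le _ _).trans ((sum_le_sum fun i _ =>
      (norm_sum_le _ _).trans (sum_le_sum fun l _ => h i l)).trans_eq ?_)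
    simp [sq, mul_assoc]
  have hN' : (0 : ℝ) < (N : ℝ) ^ 2 := by positivity
  rw [sqav, norm_smul, norm_inv, Real.norm_of_nonneg hN'.le, inv_mul_le_iff₀ hN']
  exact h1

theorem avg_norm_le (N : ℕ) (X : K →L[ℂ] K) : ‖S.avg N X‖ ≤ ‖X‖ :=
  norm_sqav_le N (norm_nonneg _) fun i l =>
    calc _ ≤ ‖S.J i l‖ * ‖X‖ * ‖star (S.J i l)‖ := norm_mul₃_le
      _ ≤ 1 * ‖X‖ * 1 := by rw [norm_star]; gcongr <;> exact S.J_norm_le i l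
      _ = ‖X‖ := by ring

/-- the limit of the averages -/
def Lop (X : K →L[ℂ] K) : K →L[ℂ] K :=
  (R124.Sh.exists_wot_ultralimit (hyperfilter ℕ) (fun N => S.avg N X) (norm_nonneg X)
    (Eventually.of_forall fun N => S.avg_norm_le N X)).choose

theorem Lop_norm_le (X : K →L[ℂ] K) : ‖S.Lop X‖ ≤ ‖X‖ :=
  (R124.Sh.exists_wot_ultralimit (hyperfilter ℕ) (fun N => S.avg N X) (norm_nonneg X)
    (Eventually.of_forall fun N => S.avg_norm_le N X)).choose_spec.1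

theorem Lop_lim (X : K →L[ℂ] K) (a b : K) :
    Tendsto (fun N => ⟪a, S.avg N X b⟫_ℂ) (hyperfilter ℕ) (𝓝 ⟪a, S.Lop X b⟫_ℂ) :=
  (R124.Sh.exists_wot_ultralimit (hyperfilter ℕ) (fun N => S.avg N X) (norm_nonneg X)
    (Eventually.of_forall fun N => S.avg_norm_le N X)).choose_spec.2 a b

/-- `sup_t ‖x Ω_t‖` -/
def nu (x : K →L[ℂ] K) : ℝ := ⨆ t, ‖x (S.Ω t)‖

/-- `sup_{t,i,l} ‖x J_{il}⋆ Ω_t‖` -/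
def nu3 (x : K →L[ℂ] K) : ℝ := ⨆ p : ℕ × ℕ × ℕ, ‖x (star (S.J p.2.1 p.2.2) (S.Ω p.1))‖

end Pre

end

end Crest.Agent.R78
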