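import Crest.Agent.R78.Dat
import Crest.Agent.R78.L2K
import Crest.Agent.R78.Pre

/-! # Row 78: the ultraproduct model (definitions and basic facts). -/

set_option autoImplicit false
set_option linter.unusedSectionVars false

open Filter Topology
open scoped InnerProductSpace ENNReal

namespace Crest.Agent.R78

noncomputable section

universe u

section Linf

variable {I : Type*} (B : I → Type*) [∀ i, CStarAlgebra (B i)] [∀ i, Nontrivial (B i)]

/-- the product C⋆-algebra -/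
def Linf : Type _ := lp B ∞

@[reducible] def lpCStar : CStarAlgebra (lp B ∞) where

instance : CStarAlgebra (Linf B) := lpCStar B

variable {B}

namespace Linf

/-- coordinates -/
@[coe] def val (a : Linf B) : ∀ i, B i := (a : lp B ∞).1

instance : CoeFun (Linf B) fun _ => ∀ i, B i := ⟨val⟩

/-- the element with given coordinates -/
def mk (f : ∀ i, B i) (h : Bd f) : Linf B :=
  (⟨f, memℓp_infty (let ⟨C, hC⟩ := h; ⟨C, by rintro _ ⟨i, rfl⟩; exact hC i⟩)⟩ : lp B ∞)

@[ext] theorem ext {a b : Linf B} (h : ∀ i, a i = b i) : a = b := Subtype.ext (funext h)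

@[simp] theorem mk_apply (f : ∀ i, B i) (h) (i : I) : mk f h i = f i := rfl
@[simp] theorem zero_apply (i : I) : (0 : Linf B) i = 0 := rfl
@[simp] theorem one_apply (i : I) : (1 : Linf B) i = 1 := rfl
@[simp] theorem add_apply (a b : Linf B) (i : I) : (a + b) i = a i + b i := rfl
@[simp] theorem sub_apply (a b : Linf B) (i : I) : (a - b) i = a i - b i := rfl
@[simp] theorem mul_apply (a b : Linf B) (i : I) : (a * b) i = a i * b i := rfl
@[simp] theorem star_apply (a : Linf B) (i : I) : (star a) i = star (a i) := rfl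
@[simp] theorem smul_apply (c : ℂ) (a : Linf B) (i : I) : (c • a) i = c • a i := rfl
@[simp] theorem real_smul_apply (c : ℝ) (a : Linf B) (i : I) : (c • a) i = c • a i := rfl
@[simp] theorem algebraMap_apply (c : ℂ) (i : I) :
    (algebraMap ℂ (Linf B) c) i = algebraMap ℂ (B i) c := rfl

@[simp] theorem sum_apply {ι : Type*} (s : Finset ι) (a : ι → Linf B) (i : I) :
    (∑ j ∈ s, a j) i = ∑ j ∈ s, a j i := by
  classical
  induction s using Finset.induction_on with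
  | empty => simp
  | insert a s ha ih => simp [Finset.sum_insert ha, ih]

instance [Nonempty I] : Nontrivial (Linf B) :=
  ⟨0, 1, fun h => zero_ne_one (congrFun (congrArg val h) (Classical.arbitrary I))⟩

theorem norm_apply_le (a : Linf B) (i : I) : ‖a i‖ ≤ ‖a‖ :=
  lp.norm_apply_le_norm (E := B) ENNReal.top_ne_zero a i

theorem norm_le {a : Linf B} {C : ℝ} (hC : 0 ≤ C) (h : ∀ i, ‖a i‖ ≤ C) : ‖a‖ ≤ C :=
  lp.norm_le_of_forall_le (E := B) hC h

theorem bd (a : Linf B) : Bd a.val := ⟨‖a‖, a.norm_apply_le⟩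

theorem continuous_apply (i : I) : Continuous fun a : Linf B => a i :=
  (LipschitzWith.of_dist_le_mul (K := 1) fun a b => by
    rw [dist_eq_norm, dist_eq_norm, NNReal.coe_one, one_mul]
    exact (a - b).norm_apply_le i).continuous

end Linf

end Linf

section Seq

variable {G : Type*}

/-- put a letter in front -/
def cns (s : G) (ξ : ℕ → G) : ℕ → G
  | 0 => s
  | k + 1 => ξ k

@[simp] theorem cns_zero (s : G) (ξ : ℕ → G) : cns s ξ 0 = s := rfl
@[simp] theorem cns_succ (s : G) (ξ : ℕ → G) (k : ℕ) : cns s ξ (k + 1) = ξ k := rfl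

theorem cns_inj {s s' : G} {ξ ξ' : ℕ → G} (h : cns s ξ = cns s' ξ') : s = s' ∧ ξ = ξ' :=
  ⟨congrFun h 0, funext fun k => congrFun h (k + 1)⟩

/-- insert two letters after the first one -/
def ins (p : G × G) (ξ : ℕ → G) : ℕ → G := cns (ξ 0) (cns p.1 (cns p.2 fun k => ξ (k + 1)))

@[simp] theorem ins_zero (p : G × G) (ξ : ℕ → G) : ins p ξ 0 = ξ 0 := rfl
@[simp] theorem ins_one (p : G × G) (ξ : ℕ → G) : ins p ξ 1 = p.1 := rfl
@[simp] theorem ins_two (p : G × G) (ξ : ℕ → G) : ins p ξ 2 = p.2 := rfl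

theorem ins_inj : Function.Injective fun p : (G × G) × (ℕ → G) => ins p.1 p.2 := by
  rintro ⟨⟨a, c⟩, ξ⟩ ⟨⟨a', c'⟩, ξ'⟩ h
  obtain ⟨h0, h⟩ := cns_inj h
  obtain ⟨h1, h⟩ := cns_inj h
  obtain ⟨h2, h⟩ := cns_inj h
  refine Prod.ext (Prod.ext h1 h2) (funext fun k => ?_)
  cases k with
  | zero => exact h0
  | succ k => exact congrFun h k

theorem cns_inj' : Function.Injective fun p : G × (ℕ → G) => cns p.1 p.2 := fun _ _ h =>
  Prod.ext (cns_inj h).1 (cns_inj h).2

/-- exchange coordinates -/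
def swp (j : ℕ) (ξ : ℕ → G) : ℕ → G := fun k => ξ (Equiv.swap 0 j k)

@[simp] theorem swp_zero (j : ℕ) (ξ : ℕ → G) : swp j ξ 0 = ξ j := by simp [swp]

theorem swp_inj (j : ℕ) : Function.Injective (swp j : (ℕ → G) → ℕ → G) := fun ξ ξ' h =>
  funext fun k => by simpa [swp] using congrFun h (Equiv.swap 0 j k)

/-- `(f, a, c, …) ↦ (a f c, a, c, …)` -/
def bet [Mul G] (ξ : ℕ → G) : ℕ → G := cns (ξ 1 * ξ 0 * ξ 2) fun k => ξ (k + 1)

@[simp] theorem bet_zero [Mul G] (ξ : ℕ → G) : bet ξ 0 = ξ 1 * ξ 0 * ξ 2 := rfl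

theorem bet_inj [Group G] : Function.Injective (bet : (ℕ → G) → ℕ → G) := fun ξ ξ' h => by
  obtain ⟨h0, h⟩ := cns_inj h
  have h1 : ξ 1 = ξ' 1 := congrFun h 0
  have h2 : ξ 2 = ξ' 2 := congrFun h 1
  funext k
  cases k with
  | zero => rw [h1, h2] at h0; simpa using h0
  | succ k => exact congrFun h k

end Seq

namespace Mod

variable (D : ℕ → Dat.{u})

/-- sequences of group elements -/
abbrev Ξ (n : ℕ) : Type u := ℕ → (D n).G

/-- the Hilbert spaces -/
abbrev EE (n : ℕ) : Type u := ell (Ξ D n) (D n).H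

/-- internal functions -/
abbrev IA : Type u := Linf fun n => Linf fun _ : Ξ D n => (D n).H →L[ℂ] (D n).H

/-- functions of the coordinates in `I` with values in `P` -/
def dep (I : Set ℕ) (P : ∀ n, StarSubalgebra ℂ ((D n).H →L[ℂ] (D n).H)) :
    StarSubalgebra ℂ (IA D) where
  carrier := {a | (∀ n ξ, a n ξ ∈ P n) ∧
    ∀ n (ξ ξ' : Ξ D n), (∀ i ∈ I, ξ i = ξ' i) → a n ξ = a n ξ'}
  mul_mem' ha hb := ⟨fun n ξ => mul_mem (ha.1 n ξ) (hb.1 n ξ), fun n ξ ξ' h => by
    simp only [Linf.mul_apply, ha.2 n ξ ξ' h, hb.2 n ξ ξ' h]⟩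
  add_mem' ha hb := ⟨fun n ξ => add_mem (ha.1 n ξ) (hb.1 n ξ), fun n ξ ξ' h => by
    simp only [Linf.add_apply, ha.2 n ξ ξ' h, hb.2 n ξ ξ' h]⟩
  algebraMap_mem' c := ⟨fun n _ => algebraMap_mem (P n) c, fun _ _ _ _ => rfl⟩
  star_mem' ha := ⟨fun n ξ => star_mem (ha.1 n ξ), fun n ξ ξ' h => by
    simp only [Linf.star_apply, ha.2 n ξ ξ' h]⟩

variable {D}

theorem mem_dep {I : Set ℕ} {P : ∀ n, StarSubalgebra ℂ ((D n).H →L[ℂ] (D n).H)} {a : IA D} :
    a ∈ dep D I P ↔ (∀ n ξ, a n ξ ∈ P n) ∧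
      ∀ n (ξ ξ' : Ξ D n), (∀ i ∈ I, ξ i = ξ' i) → a n ξ = a n ξ' := Iff.rfl

theorem norm_apply_le (a : IA D) (n : ℕ) (ξ : Ξ D n) : ‖a n ξ‖ ≤ ‖a‖ :=
  ((a n).norm_apply_le ξ).trans (a.norm_apply_le n)

theorem norm_le {a : IA D} {C : ℝ} (hC : 0 ≤ C) (h : ∀ n ξ, ‖a n ξ‖ ≤ C) : ‖a‖ ≤ C :=
  Linf.norm_le hC fun n => Linf.norm_le hC (h n)

theorem continuous_ev (n : ℕ) (ξ : Ξ D n) : Continuous fun a : IA D => a n ξ :=
  (Linf.continuous_apply ξ).comp (Linf.continuous_apply n)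

theorem dep_closed (I : Set ℕ) {P : ∀ n, StarSubalgebra ℂ ((D n).H →L[ℂ] (D n).H)}
    (h : ∀ n, IsClosed (P n : Set ((D n).H →L[ℂ] (D n).H))) : IsClosed (dep D I P : Set (IA D)) := by
  refine IsClosed.inter (s₁ := {a : IA D | ∀ n ξ, a n ξ ∈ P n}) ?_ ?_
  · simp only [Set.setOf_forall]
    exact isClosed_iInter fun n => isClosed_iInter fun ξ => (h n).preimage (continuous_ev n ξ)
  · change IsClosed {a : IA D | ∀ n (ξ ξ' : Ξ D n), (∀ i ∈ I, ξ i = ξ' i) → a n ξ = a n ξ'}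
    simp only [Set.setOf_forall]
    exact isClosed_iInter fun n => isClosed_iInter fun ξ => isClosed_iInter fun ξ' =>
      isClosed_iInter fun _ => isClosed_eq (continuous_ev n ξ) (continuous_ev n ξ')

theorem dep_mono {I I' : Set ℕ} {P P' : ∀ n, StarSubalgebra ℂ ((D n).H →L[ℂ] (D n).H)}
    (h : I ⊆ I') (h' : ∀ n, P n ≤ P' n) : dep D I P ≤ dep D I' P' := fun _ ha =>
  ⟨fun n ξ => h' n (ha.1 n ξ), fun n ξ ξ' e => ha.2 n ξ ξ' fun i hi => e i (h hi)⟩

theorem bd_mop (a : IA D) : Bd fun n => mop (a n).val :=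
  ⟨‖a‖, fun _ => mop_norm_le (norm_nonneg _) fun _ => norm_apply_le a _ _⟩

/-- the internal function with given values -/
def mk (f : ∀ n, Ξ D n → (D n).H →L[ℂ] (D n).H) {C : ℝ} (h : ∀ n ξ, ‖f n ξ‖ ≤ C) : IA D :=
  Linf.mk (fun n => Linf.mk (f n) ⟨C, h n⟩)
    ⟨C, fun n => Linf.norm_le ((norm_nonneg _).trans (h n 1)) (h n)⟩

@[simp] theorem mk_apply (f : ∀ n, Ξ D n → (D n).H →L[ℂ] (D n).H) {C : ℝ}
    (h : ∀ n ξ, ‖f n ξ‖ ≤ C) (n : ℕ) (ξ : Ξ D n) : mk f h n ξ = f n ξ := rfl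

/-- pull-back -/
def pb (φ : ∀ n, Ξ D n → Ξ D n) (a : IA D) : IA D :=
  mk (fun n ξ => a n (φ n ξ)) fun _ _ => norm_apply_le a _ _

@[simp] theorem pb_apply (φ : ∀ n, Ξ D n → Ξ D n) (a : IA D) (n : ℕ) (ξ : Ξ D n) :
    pb φ a n ξ = a n (φ n ξ) := rfl

/-- averaged pull-back -/
def apb {S : ℕ → Type u} (w : ∀ n, Law (S n)) (φ : ∀ n, S n → Ξ D n → Ξ D n) (a : IA D) : IA D :=
  mk (fun n ξ => (w n).E fun s => a n (φ n s ξ))
    fun _ _ => Law.norm_E_le_of_le _ fun _ _ => norm_apply_le a _ _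

@[simp] theorem apb_apply {S : ℕ → Type u} (w : ∀ n, Law (S n)) (φ : ∀ n, S n → Ξ D n → Ξ D n)
    (a : IA D) (n : ℕ) (ξ : Ξ D n) : apb w φ a n ξ = (w n).E fun s => a n (φ n s ξ) := rfl

variable {ω : Ultrafilter ℕ} {K : Type u} [NormedAddCommGroup K] [InnerProductSpace ℂ K]
  [CompleteSpace K] (U : UPD ω (EE D) K)

/-- the representation of the internal functions -/
def rho : IA D →⋆ₐ[ℂ] (K →L[ℂ] K) where
  toFun a := U.op fun n => mop (a n).val
  map_one' := (congrArg U.op (funext fun _ => mop_one)).trans U.op_one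
  map_mul' a b := (congrArg U.op (funext fun n => mop_mul (a n).bd (b n).bd)).trans
    (U.op_mul (bd_mop a) (bd_mop b))
  map_zero' := by
    have h := (congrArg U.op (funext fun n => mop_smul ((0 : IA D) n).bd 0)).trans
      (U.op_smul (bd_mop (0 : IA D)) 0)
    simp only [zero_smul] at h
    exact h
  map_add' a b := (congrArg U.op (funext fun n => mop_add (a n).bd (b n).bd)).trans
    (U.op_add (bd_mop a) (bd_mop b))
  commutes' c := by
    have h := (congrArg U.op (funext fun n => mop_smul ((1 : IA D) n).bd c)).trans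
      (U.op_smul (bd_mop (1 : IA D)) c)
    rw [show (U.op fun n => mop ((1 : IA D) n).val) = 1 from
      (congrArg U.op (funext fun _ => mop_one)).trans U.op_one] at h
    rw [Algebra.algebraMap_eq_smul_one, Algebra.algebraMap_eq_smul_one]
    exact h
  map_star' a := (congrArg U.op (funext fun n => mop_star (a n).bd)).trans (U.op_star (bd_mop a))

theorem rho_apply (a : IA D) : rho U a = U.op fun n => mop (a n).val := rfl

/-- the co-isometry of an injective map -/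
def hk (φ : ∀ n, Ξ D n → Ξ D n) (hφ : ∀ n, Function.Injective (φ n)) : Hk (rho U) where
  P := U.op fun n => cmp (D n).H (φ n)
  t := pb φ
  PP := by
    have hb : Bd fun n => cmp (D n).H (φ n) := ⟨1, fun _ => cmp_norm_le _⟩
    rw [← U.op_star hb, ← U.op_mul hb hb.star, ← U.op_one]
    exact congrArg U.op (funext fun n => cmp_adjoint (hφ n))
  int a := by
    have hb : Bd fun n => cmp (D n).H (φ n) := ⟨1, fun _ => cmp_norm_le _⟩
    rw [rho_apply, rho_apply, ← U.op_mul hb (bd_mop a), ← U.op_mul (bd_mop _) hb]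
    exact congrArg U.op (funext fun n => cmp_mop (hφ n) (a n).bd)

section kr

variable {S : ℕ → Type u} (w : ∀ n, Law (S n)) {φ : ∀ n, S n → Ξ D n → Ξ D n}

variable (φ) in
/-- the co-isometry of a kernel -/
def kr : K →L[ℂ] K := U.op fun n => ker (D n).H (w n) (φ n)

variable (hφ : ∀ n, Function.Injective fun p : S n × Ξ D n => φ n p.1 p.2)
include hφ

theorem kr_conj (a : IA D) : kr U w φ * rho U a * star (kr U w φ) = rho U (apb w φ a) := by
  have hb : Bd fun n => ker (D n).H (w n) (φ n) := ⟨1, fun n => ker_norm_le (hφ n)⟩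
  rw [kr, rho_apply, rho_apply, ← U.op_star hb, ← U.op_mul hb (bd_mop a),
    ← U.op_mul (hb.mul (bd_mop a)) hb.star]
  exact congrArg U.op (funext fun n => ker_conj (hφ n) (a n).bd)

theorem kr_mul_star : kr U w φ * star (kr U w φ) = 1 := by
  have h := kr_conj U w hφ 1
  rw [map_one, mul_one] at h
  rw [h, ← map_one (rho U)]
  congr 1
  ext1 n; ext1 ξ
  exact Law.E_const _ _

theorem kr_comm {a : IA D} (h : ∀ n s ξ, a n (φ n s ξ) = a n ξ) :
    rho U a * kr U w φ = kr U w φ * rho U a := by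
  have hb : Bd fun n => ker (D n).H (w n) (φ n) := ⟨1, fun n => ker_norm_le (hφ n)⟩
  rw [kr, rho_apply, ← U.op_mul hb (bd_mop a), ← U.op_mul (bd_mop _) hb]
  exact congrArg U.op (funext fun n => (ker_mop (hφ n) (a n).bd (h n)).symm)

end kr

/-- `J i l` -/
def JJ (i l : ℕ) : K →L[ℂ] K := kr U (fun n => ((D n).μ.pow i).prod ((D n).μ.pow l)) fun _ => ins

/-- the map induced by `J i l` -/
def tJ (i l : ℕ) : IA D → IA D := apb (fun n => ((D n).μ.pow i).prod ((D n).μ.pow l)) fun _ => ins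

theorem tJ_apply (i l : ℕ) (a : IA D) (n : ℕ) (ξ : Ξ D n) : tJ i l a n ξ =
    ((D n).μ.pow i).E fun x => ((D n).μ.pow l).E fun z => a n (ins (x, z) ξ) := by
  rw [tJ, apb_apply, Law.E_prod]

/-- the base vector -/
def e0 : K := U.mk' fun n => ell.single 1 (D n).Ω

/-- the vectors `Ω t` -/
def Om (t : ℕ) : K := star (kr U (fun n => (D n).μ.pow t) fun _ => cns) (e0 U)

variable (D) in
/-- the universal unitary -/
def gu : IA D := mk (fun n ξ => (D n).u (ξ 0)) fun _ _ => (Dat.u_norm _ _).le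

variable (D) in
/-- its companion -/
def gv : IA D := mk (fun n ξ => (D n).v (ξ 0)⁻¹) fun _ _ => (Dat.v_norm _ _).le

@[simp] theorem gu_apply (n : ℕ) (ξ : Ξ D n) : gu D n ξ = (D n).u (ξ 0) := rfl
@[simp] theorem gv_apply (n : ℕ) (ξ : Ξ D n) : gv D n ξ = (D n).v (ξ 0)⁻¹ := rfl

end Mod

end

end Crest.Agent.R78
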