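import Crest.Agent.R78.ModVec
import Crest.Agent.R78.Mart

/-!
# Row 78, task R78-ModMart: martingale estimates and idempotence for internal functions.

PLAN.  `mart_γ`: by `Om_sq` and `le_of_tendsto'` it suffices to bound, for each `n`,
`E_{f ∼ μ^t} ‖(Γ f - Γ 1) Ω‖²` where `Γ f = sqav N fun i l => E_{a ∼ μ^i} E_{c ∼ μ^l} Y c * X (a f c)`,
`X g = x n (cns g 1)`, `Y g = y n (cns g 1)` (unfold with `tJ_apply`, `pb_apply`, `Linf.*_apply`, `hx.2`, `hy.2`;
`cns 1 (cns f 1)` has first letter `1`).  Normalise (`x = 0` or `y = 0` is trivial; else divide by the norms)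
and apply `mart` with `op = (· * ·)`, `lam = μ.pow` (`Law.E_pow_add`), `Z g = X g Ω`.
`mart_α`: the same with `op a b = b * a`, exchanging the roles of `(i, a)` and `(l, c)` (`Finset.sum_comm`,
`Law.E_comm`, `add_comm`).
`idem`: evaluate at `n ξ`; `V` is constant; `u`, `v` commute; `Law.mul_E`, `Law.E_mul`, `Law.E_pow_add`
(for the first index use `i + i' = i' + i`), `Law.E_comm`, `u_star`, `v_star`.
-/

set_option autoImplicit false
set_option linter.unusedSectionVars false

open Filter Topology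
open scoped InnerProductSpace

namespace Crest.Agent.R78

universe u

theorem exists_unit_smul {G V : Type*} [NormedAddCommGroup V] [NormedSpace ℝ V] {Z : G → V} {A : ℝ}
    (hA : 0 ≤ A) (h : ∀ g, ‖Z g‖ ≤ A) : ∃ Z' : G → V, (∀ g, ‖Z' g‖ ≤ 1) ∧ Z = fun g => A • Z' g := by
  rcases hA.eq_or_lt with rfl | hA
  · exact ⟨0, by simp, funext fun g => by simpa using h g⟩
  · refine ⟨fun g => A⁻¹ • Z g, fun g => ?_, funext fun g => by rw [smul_inv_smul₀ hA.ne']⟩
    rw [norm_smul, norm_inv, Real.norm_of_nonneg hA.le, inv_mul_le_iff₀ hA, mul_one]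
    exact h g

open Finset in
theorem mart' {G X : Type*} [NormedAddCommGroup X] [InnerProductSpace ℂ X] (op : G → G → G)
    (assoc : ∀ a b c, op (op a b) c = op a (op b c)) (lam : ℕ → Law G)
    (hlam : ∀ (i t : ℕ) (F : G → X),
      (lam (i + t)).E F = (lam i).E fun a => (lam t).E fun f => F (op a f))
    (hlam' : ∀ (i t : ℕ) (F : G → ℝ),
      (lam (i + t)).E F = (lam i).E fun a => (lam t).E fun f => F (op a f))
    (Z : G → X) (Y : G → X →L[ℂ] X) {A B : ℝ} (hA : 0 ≤ A) (hB : 0 ≤ B) (hZ : ∀ g, ‖Z g‖ ≤ A)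
    (hY : ∀ g, ‖Y g‖ ≤ B) (N t : ℕ) (hN : 0 < N) :
    (lam t).E (fun f =>
      ‖((N : ℝ) ^ 2)⁻¹ • ∑ i ∈ range N, ∑ l ∈ range N,
          ((lam i).E fun a => (lam l).E fun c => Y c (Z (op (op a f) c))) -
        ((N : ℝ) ^ 2)⁻¹ • ∑ i ∈ range N, ∑ l ∈ range N,
          ((lam i).E fun a => (lam l).E fun c => Y c (Z (op a c)))‖ ^ 2) ≤
      12 * t / N * (A * B) ^ 2 := by
  obtain ⟨Z', hZ', rfl⟩ := exists_unit_smul hA hZ
  obtain ⟨Y', hY', rfl⟩ := exists_unit_smul hB hY
  have h := mul_le_mul_of_nonneg_left (mart op assoc lam hlam hlam' Z' Y' hZ' hY' N t hN)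
    (sq_nonneg (A * B))
  rw [← Law.E_const_mul, mul_comm ((A * B) ^ 2)] at h
  refine le_of_eq_of_le (congrArg _ (funext fun f => ?_)) h
  have e : ∀ c z, (B • Y' c) (A • z) = (A * B) • Y' c z := fun c z => by
    rw [smul_apply, ContinuousLinearMap.map_smul_of_tower, smul_smul, mul_comm]
  simp only [e, Law.E_smul, ← smul_sum]
  rw [smul_comm _ (A * B), smul_comm _ (A * B), ← smul_sub, norm_smul, mul_pow, Real.norm_eq_abs,
    sq_abs]

namespace Mod

variable {D : ℕ → Dat.{u}} {ω : Ultrafilter ℕ} {K : Type u} [NormedAddCommGroup K]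
  [InnerProductSpace ℂ K] [CompleteSpace K] (U : UPD ω (EE D) K)

theorem mart_α {x y : IA D} (hx : x ∈ dep D {0} fun _ => ⊤) (hy : y ∈ dep D {0} fun _ => ⊤) (N : ℕ)
    (hN : 0 < N) (t : ℕ) :
    ‖rho U (sqav N (fun i l => tJ i l (pb (fun _ => swp 1) y * pb (fun _ => bet) x)) -
      pb (fun _ => cns 1) (sqav N fun i l => tJ i l (pb (fun _ => swp 1) y * pb (fun _ => bet) x)))
        (Om U t)‖ ^ 2 ≤ 12 * t / N * (‖x‖ * ‖y‖) ^ 2 := by
  refine le_of_tendsto' (Om_sq U _ t) fun n => ?_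
  have h := mart' (fun a b => b * a) (fun a b c => (mul_assoc _ _ _).symm) (D n).μ.pow
    (fun i t F => by rw [add_comm, Law.E_pow_add, Law.E_comm])
    (fun i t F => by rw [add_comm, Law.E_pow_add, Law.E_comm])
    (fun g => x n (cns g 1) (D n).Ω) (fun g => y n (cns g 1)) (norm_nonneg x) (norm_nonneg y)
    (fun g => by
      simpa only [Dat.Ω_norm, mul_one] using (x n (cns g 1)).le_of_opNorm_le (norm_apply_le x n _) (D n).Ω)
    (fun g => norm_apply_le y n _) N t hN
  refine le_of_eq_of_le (congrArg _ (funext fun f => ?_)) h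
  simp only [sqav, Linf.sub_apply, Linf.real_smul_apply, Linf.sum_apply, pb_apply, tJ_apply,
    Linf.mul_apply, dep0_eq hy n (swp _ _), dep0_eq hx n (bet _), swp_zero, bet_zero, ins_zero,
    ins_one, ins_two, cns_zero, mul_one, sub_apply, smul_apply, _root_.sum_apply, Law.E_apply,
    mul_apply_eq_comp, mul_assoc]
  congr 3
  all_goals
    congr 1
    rw [Finset.sum_comm]
    exact Finset.sum_congr rfl fun _ _ => Finset.sum_congr rfl fun _ _ => Law.E_comm _ _ _

theorem mart_γ {x y : IA D} (hx : x ∈ dep D {0} fun _ => ⊤) (hy : y ∈ dep D {0} fun _ => ⊤) (N : ℕ)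
    (hN : 0 < N) (t : ℕ) :
    ‖rho U (sqav N (fun i l => tJ i l (pb (fun _ => swp 2) y * pb (fun _ => bet) x)) -
      pb (fun _ => cns 1) (sqav N fun i l => tJ i l (pb (fun _ => swp 2) y * pb (fun _ => bet) x)))
        (Om U t)‖ ^ 2 ≤ 12 * t / N * (‖x‖ * ‖y‖) ^ 2 := by
  refine le_of_tendsto' (Om_sq U _ t) fun n => ?_
  have h := mart' (fun a b => a * b) mul_assoc (D n).μ.pow
    (fun i t F => Law.E_pow_add _ _ _ _) (fun i t F => Law.E_pow_add _ _ _ _)
    (fun g => x n (cns g 1) (D n).Ω) (fun g => y n (cns g 1)) (norm_nonneg x) (norm_nonneg y)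
    (fun g => by
      simpa only [Dat.Ω_norm, mul_one] using (x n (cns g 1)).le_of_opNorm_le (norm_apply_le x n _) (D n).Ω)
    (fun g => norm_apply_le y n _) N t hN
  refine le_of_eq_of_le (congrArg _ (funext fun f => ?_)) h
  simp only [sqav, Linf.sub_apply, Linf.real_smul_apply, Linf.sum_apply, pb_apply, tJ_apply,
    Linf.mul_apply, dep0_eq hy n (swp _ _), dep0_eq hx n (bet _), swp_zero, bet_zero, ins_zero,
    ins_one, ins_two, cns_zero, mul_one, sub_apply, smul_apply, _root_.sum_apply, Law.E_apply,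
    mul_apply_eq_comp]

theorem idem {V : IA D} (hV : V ∈ dep D ∅ fun _ => ⊤) (i l i' l' : ℕ) :
    tJ i l (star (pb (fun _ => swp 1) (gu D)) * star (pb (fun _ => swp 2) (gv D)) *
      tJ i' l' (star (pb (fun _ => swp 1) (gu D)) * star (pb (fun _ => swp 2) (gv D)) * V *
        pb (fun _ => swp 1) (gu D) * pb (fun _ => swp 2) (gv D)) *
      pb (fun _ => swp 1) (gu D) * pb (fun _ => swp 2) (gv D)) =
    tJ (i + i') (l + l') (star (pb (fun _ => swp 1) (gu D)) * star (pb (fun _ => swp 2) (gv D)) * V *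
      pb (fun _ => swp 1) (gu D) * pb (fun _ => swp 2) (gv D)) := by
  ext1 n; ext1 ξ
  have hc : ∀ ξ', V n ξ' = V n 1 := fun ξ' => hV.2 n _ _ fun i hi => hi.elim
  simp only [tJ_apply, Linf.mul_apply, Linf.star_apply, pb_apply, gu_apply, gv_apply, swp_zero,
    ins_one, ins_two, hc (ins _ _), Law.mul_E, Law.E_mul]
  rw [add_comm i i', Law.E_pow_add, Law.E_comm ((D n).μ.pow i')]
  refine congrArg _ (funext fun a => ?_)
  simp only [Law.E_pow_add]
  rw [Law.E_comm]
  refine congrArg _ (funext fun a' => congrArg _ (funext fun c => congrArg _ (funext fun c' => ?_)))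
  have h1 : ∀ g h (z : (D n).H →L[ℂ] (D n).H), (D n).v h * ((D n).u g * z) = (D n).u g * ((D n).v h * z) :=
    fun g h z => by rw [← mul_assoc, ← (D n).uv, mul_assoc]
  simp only [← (D n).u_star, ← (D n).v_star, mul_inv_rev, inv_inv, map_mul, star_mul, mul_assoc,
    h1]

end Mod

end Crest.Agent.R78
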