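import Crest.Agent.R78.ModDef

/-!
# Row 78, task R78-ModVec: norms of the model vectors.

PLAN.  `e0_inner`: `U.op_mk`, `U.inner`, `mop_single`, `ell.inner_single_left`.
`Om_sq`: `‖ρ a (P⋆ e)‖² = ⟪e, P ρ(a⋆ a) P⋆ e⟫ = ⟪e, ρ (apb .. (a⋆ a)) e⟫` (`kr_conj` with `cns_inj'`), take
real parts in `e0_inner` (`Law.E_apply`, `Law.inner_E`, `Law.re_E`).  `OmJ_sq`: the same with two kernels
(`tJ_apply`, `ins_inj`).  The `Om_*` equalities: both squares are limits of the same sequence: use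
`ha.2` to replace the arguments by `cns g 1`, `Law.E_const`, `Law.E_pow_add`, `Law.E_comm`.
`Om_g`: with `d g = ‖u g Ω - v g⁻¹ Ω‖`: `d (g h) ≤ d g + d h`
(`u g (u h Ω - v h⁻¹ Ω) + v h⁻¹ (u g Ω - v g⁻¹ Ω)`), so `E_{μ^(t+1)} d² ≤ 2 E_{μ^t} d² + 2 E_μ d²`, hence
`E_{μ^t} d² ≤ 4^t kap → 0`.
-/

set_option autoImplicit false
set_option linter.unusedSectionVars false

open Filter Topology
open scoped InnerProductSpace

namespace Crest.Agent.R78

universe u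

theorem re_inner_star_mul {H : Type*} [NormedAddCommGroup H] [InnerProductSpace ℂ H]
    [CompleteSpace H] (x : H →L[ℂ] H) (ζ : H) : (⟪ζ, (star x * x) ζ⟫_ℂ).re = ‖x ζ‖ ^ 2 := by
  rw [mul_apply_eq_comp, ContinuousLinearMap.star_eq_adjoint, ContinuousLinearMap.adjoint_inner_right]
  exact inner_self_eq_norm_sq (𝕜 := ℂ) _

theorem re_inner_conj {H : Type*} [NormedAddCommGroup H] [InnerProductSpace ℂ H]
    [CompleteSpace H] (x P : H →L[ℂ] H) (ζ : H) :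
    (⟪ζ, (P * (star x * x) * star P) ζ⟫_ℂ).re = ‖x (star P ζ)‖ ^ 2 := by
  rw [← mul_apply_eq_comp x, ← re_inner_star_mul]
  simp only [star_mul, star_star, mul_assoc]

theorem Dat.E_pow_le (D : Dat.{u}) (t : ℕ) :
    (D.μ.pow t).E (fun g => ‖D.u g D.Ω - D.v g⁻¹ D.Ω‖ ^ 2) ≤ 4 ^ t * D.kap := by
  have hk : 0 ≤ D.kap := Law.E_nonneg _ fun _ _ => sq_nonneg _
  induction t with
  | zero => simpa using hk
  | succ t ih =>
    have key : ∀ g h : D.G, ‖D.u (g * h) D.Ω - D.v (g * h)⁻¹ D.Ω‖ ^ 2 ≤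
        2 * ‖D.u g D.Ω - D.v g⁻¹ D.Ω‖ ^ 2 + 2 * ‖D.u h D.Ω - D.v h⁻¹ D.Ω‖ ^ 2 := fun g h => by
      have e : D.u (g * h) D.Ω - D.v (g * h)⁻¹ D.Ω =
          D.u g (D.u h D.Ω - D.v h⁻¹ D.Ω) + D.v h⁻¹ (D.u g D.Ω - D.v g⁻¹ D.Ω) := by
        have h1 := congrArg (fun x : D.H →L[ℂ] D.H => x D.Ω) (D.uv g h⁻¹)
        simp only [mul_apply_eq_comp] at h1
        simp only [mul_inv_rev, map_mul, mul_apply_eq_comp, map_sub, h1]
        abel
      have h1 := (D.u g).le_opNorm (D.u h D.Ω - D.v h⁻¹ D.Ω)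
      have h2 := (D.v h⁻¹).le_opNorm (D.u g D.Ω - D.v g⁻¹ D.Ω)
      rw [D.u_norm, one_mul] at h1
      rw [D.v_norm, one_mul] at h2
      have h3 := (norm_add_le _ _).trans (add_le_add h1 h2)
      rw [← e] at h3
      refine (pow_le_pow_left₀ (norm_nonneg _) h3 2).trans ?_
      nlinarith [sq_nonneg (‖D.u g D.Ω - D.v g⁻¹ D.Ω‖ - ‖D.u h D.Ω - D.v h⁻¹ D.Ω‖)]
    rw [Law.E_pow_succ]
    refine (Law.E_mono _ fun g _ => Law.E_mono _ fun h _ => key g h).trans ?_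
    simp only [Law.E_add, Law.E_const, Law.E_const_mul]
    have h4 : (1 : ℝ) ≤ 4 ^ t := one_le_pow₀ (by norm_num)
    have h5 : D.μ.E (fun g => ‖D.u g D.Ω - D.v g⁻¹ D.Ω‖ ^ 2) = D.kap := rfl
    rw [h5, pow_succ]
    nlinarith [mul_le_mul_of_nonneg_right h4 hk]

namespace Mod

variable {D : ℕ → Dat.{u}} {ω : Ultrafilter ℕ} {K : Type u} [NormedAddCommGroup K]
  [InnerProductSpace ℂ K] [CompleteSpace K] (U : UPD ω (EE D) K)

theorem e0_inner (a : IA D) :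
    Tendsto (fun n => ⟪(D n).Ω, a n 1 (D n).Ω⟫_ℂ) ω (𝓝 ⟪e0 U, rho U a (e0 U)⟫_ℂ) := by
  have hb : Bd fun n => ell.single (1 : Ξ D n) (D n).Ω :=
    ⟨1, fun n => by rw [ell.norm_single, Dat.Ω_norm]⟩
  rw [e0, rho_apply, U.op_mk (bd_mop a) hb]
  refine (U.inner hb ((bd_mop a).app hb)).congr fun n => ?_
  rw [mop_single (a n).bd, ell.inner_single_left, ell.single_apply_self]

theorem Om_sq (a : IA D) (t : ℕ) :
    Tendsto (fun n => ((D n).μ.pow t).E fun f => ‖a n (cns f 1) (D n).Ω‖ ^ 2) ω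
      (𝓝 (‖rho U a (Om U t)‖ ^ 2)) := by
  have h := (Complex.continuous_re.tendsto _).comp
    (e0_inner U (apb (fun n => (D n).μ.pow t) (fun _ => cns) (star a * a)))
  rw [← kr_conj U _ (fun _ => cns_inj'), map_mul, map_star, re_inner_conj] at h
  refine h.congr fun n => ?_
  simp only [Function.comp_apply, apb_apply, Law.E_apply, Law.inner_E, Law.re_E, Linf.mul_apply,
    Linf.star_apply, re_inner_star_mul]

theorem OmJ_sq (a : IA D) (t i l : ℕ) :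
    Tendsto (fun n => ((D n).μ.pow t).E fun f => ((D n).μ.pow i).E fun x => ((D n).μ.pow l).E fun z =>
      ‖a n (ins (x, z) (cns f 1)) (D n).Ω‖ ^ 2) ω (𝓝 (‖rho U a (star (JJ U i l) (Om U t))‖ ^ 2)) := by
  have h := (Complex.continuous_re.tendsto _).comp
    (e0_inner U (apb (fun n => (D n).μ.pow t) (fun _ => cns) (tJ i l (star a * a))))
  rw [← kr_conj U _ (fun _ => cns_inj'), tJ, ← kr_conj U _ (fun _ => ins_inj), map_mul,
    map_star] at h
  have e : ∀ P Q x : K →L[ℂ] K, P * (Q * (star x * x) * star Q) * star P =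
      P * Q * (star x * x) * star (P * Q) := fun P Q x => by simp only [star_mul, mul_assoc]
  rw [e, re_inner_conj, star_mul, mul_apply_eq_comp] at h
  refine h.congr fun n => ?_
  simp only [Function.comp_apply, apb_apply, Law.E_prod, Law.E_apply, Law.inner_E, Law.re_E,
    Linf.mul_apply, Linf.star_apply, re_inner_star_mul]

theorem Om_le (t : ℕ) : ‖Om U t‖ ≤ 1 := by
  have h := Om_sq U 1 t
  simp only [Linf.one_apply, one_apply_eq_self, Dat.Ω_norm, Law.E_const, map_one] at h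
  have h1 := tendsto_nhds_unique h tendsto_const_nhds
  exact le_of_sq_le_sq h1.le zero_le_one

theorem norm_eq_of_lim {f g : ℕ → ℝ} {x y : K} (hf : Tendsto f ω (𝓝 (‖x‖ ^ 2)))
    (hg : Tendsto g ω (𝓝 (‖y‖ ^ 2))) (h : ∀ n, f n = g n) : ‖x‖ = ‖y‖ :=
  (sq_eq_sq₀ (norm_nonneg _) (norm_nonneg _)).1 (tendsto_nhds_unique (hf.congr h) hg)

variable {a : IA D} (ha : a ∈ dep D {0} fun _ => ⊤)
include ha

theorem dep0_eq (n : ℕ) (ξ : Ξ D n) : a n ξ = a n (cns (ξ 0) 1) :=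
  ha.2 n _ _ fun i hi => by rw [Set.mem_singleton_iff.1 hi]; rfl

theorem Om_α (t i l : ℕ) :
    ‖rho U (pb (fun _ => swp 1) a) (star (JJ U i l) (Om U t))‖ = ‖rho U a (Om U i)‖ := by
  refine norm_eq_of_lim (OmJ_sq U _ t i l) (Om_sq U a i) fun n => ?_
  simp only [pb_apply, dep0_eq ha n (swp _ _), swp_zero, ins_one, Law.E_const]

theorem Om_β (t i l : ℕ) :
    ‖rho U (pb (fun _ => bet) a) (star (JJ U i l) (Om U t))‖ = ‖rho U a (Om U (i + t + l))‖ := by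
  refine norm_eq_of_lim (OmJ_sq U _ t i l) (Om_sq U a _) fun n => ?_
  simp only [pb_apply, dep0_eq ha n (bet _), bet_zero, ins_one, ins_zero, ins_two, cns_zero,
    Law.E_pow_add]
  exact Law.E_comm _ _ _

theorem Om_γ (t i l : ℕ) :
    ‖rho U (pb (fun _ => swp 2) a) (star (JJ U i l) (Om U t))‖ = ‖rho U a (Om U l)‖ := by
  refine norm_eq_of_lim (OmJ_sq U _ t i l) (Om_sq U a l) fun n => ?_
  simp only [pb_apply, dep0_eq ha n (swp _ _), swp_zero, ins_two, Law.E_const]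

theorem Om_π (t i l : ℕ) : ‖rho U a (star (JJ U i l) (Om U t))‖ = ‖rho U a (Om U t)‖ := by
  refine norm_eq_of_lim (OmJ_sq U _ t i l) (Om_sq U a t) fun n => ?_
  simp only [dep0_eq ha n (ins _ _), ins_zero, cns_zero, Law.E_const]

theorem Om_κ (t : ℕ) : ‖rho U (pb (fun _ => cns 1) a) (Om U t)‖ = ‖rho U a (Om U 0)‖ := by
  refine norm_eq_of_lim (Om_sq U _ t) (Om_sq U a 0) fun n => ?_
  simp only [pb_apply, dep0_eq ha n (cns 1 (cns _ _)), cns_zero, Law.E_const, Law.E_pow_zero]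

omit ha in
theorem Om_g (hκ : Tendsto (fun n => (D n).kap) ω (𝓝 0)) (t : ℕ) :
    rho U (gu D) (Om U t) = rho U (gv D) (Om U t) := by
  have h := Om_sq U (gu D - gv D) t
  simp only [Linf.sub_apply, gu_apply, gv_apply, cns_zero, sub_apply, map_sub] at h
  have h1 : ‖rho U (gu D) (Om U t) - rho U (gv D) (Om U t)‖ ^ 2 ≤ 4 ^ t * 0 :=
    le_of_tendsto_of_tendsto' h (hκ.const_mul _) fun n => (D n).E_pow_le t
  rw [mul_zero] at h1
  rw [← sub_eq_zero, ← norm_eq_zero]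
  exact pow_eq_zero_iff two_ne_zero |>.1 (le_antisymm h1 (sq_nonneg _))

end Mod

end Crest.Agent.R78
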