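import Crest.Agent.R78.PSAlg

/-!
# Row 78, task R78-PSLaur: the Laurent expansion of the Pytlik–Szwarc representations.

PLAN.  `B = E →L[ℂ] E`, `R = AddMonoidAlgebra B ℤ` (= `LaurentPolynomial B`), `c₀ = √(1 - s²)`.  Note
`gen a b c l = k₀ l - a * (Λ l p₁ Λ l) + b * p₁` with `k₀ l = (1 + (c - 1)(p₁ + p l)) Λ l`.  Universal elements
`U l = single 0 (k₀ l) - single (-1) (s Λ l p₁ Λ l) + single 1 (s p₁)`, `U' l` = the same for `l⁻¹` with the
exponents exchanged.  To see `U l * U' l = 1 = U' l * U l` and to define evaluations: for a nonzero scalar `z`,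
`ev z : R →+* B` (`AddMonoidAlgebra.liftNCRingHom (RingHom.id B) (n ↦ z ^ n • 1)`), `ev z (U l) = gen (s z⁻¹) (s z) c₀ l`,
and an element of `R` killed by all `ev z`, `‖z‖ = 1`, vanishes (`coeff_le` with `C = 0`).
`Π = FreeGroup.lift` into `Rˣ`, `c g = Π g`.  `c_le`: `ev z ∘ Π` is a monoid hom to which `ps_bound` applies with
`2 s`, for `‖z‖ = 2` and `‖z‖ = 1/2`; so `‖ev z (Π g)‖ ≤ 1 + 12 s ≤ 2`; `coeff_le`.  `c_comm`: induction on `g`
(the set of `p ∈ R` all of whose coefficients commute with `T` is a subring).  `conv`: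
`AddMonoidAlgebra.mul_apply_right` (or `mul_apply`).  For a unitary `w` commuting with the system,
`p ↦ ∑ p e * w ^ e` is additive, and multiplicative on `p * q` when the coefficients of `q` commute with `w`
(induction on `p`, `q`, or `liftNCRingHom` over the subring centralising `w`); this gives `π_mul`, `π_of`;
`π_star` by `star_gen` and induction on `g`; `π_near` by `ps_bound` (`‖c₀ - 1‖ ≤ s² ≤ s`).
`coeff_le`: `∫ θ in 0..2π, e^{-i e θ} • ∑ (r e^{iθ})^k • p k = 2π r^e • p e` (`integral_exp_mul_complex`), or average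
over roots of unity of large order.
-/

set_option autoImplicit false

namespace Crest.Agent.R78

theorem coeff_le {X : Type*} [NormedAddCommGroup X] [NormedSpace ℂ X] (p : ℤ →₀ X) {r C : ℝ}
    (hr : 0 < r) (h : ∀ z : ℂ, ‖z‖ = r → ‖∑ k ∈ p.support, z ^ k • p k‖ ≤ C) (e : ℤ) :
    r ^ e * ‖p e‖ ≤ C := by
  obtain ⟨N, hN⟩ : ∃ N : ℕ, N = (p.support.sup fun k => (k - e).natAbs) + 1 := ⟨_, rfl⟩
  have hN0 : N ≠ 0 := by omega
  have hζ := Complex.isPrimitiveRoot_exp N hN0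
  generalize Complex.exp _ = ζ at hζ
  have hζ1 : ‖ζ‖ = 1 := hζ.norm'_eq_one hN0
  have hζ0 : ζ ≠ 0 := hζ.ne_zero hN0
  have key : ∑ j ∈ Finset.range N, (ζ ^ j) ^ (-e) • ∑ k ∈ p.support, ((r : ℂ) * ζ ^ j) ^ k • p k =
      ((r : ℂ) ^ e * N) • p e := by
    have h1 : ∀ j : ℕ, ∀ k : ℤ, (ζ ^ j) ^ (-e) * ((r : ℂ) * ζ ^ j) ^ k =
        (r : ℂ) ^ k * (ζ ^ (k - e)) ^ j := fun j k => by
      rw [mul_zpow, mul_left_comm, ← zpow_add₀ (pow_ne_zero _ hζ0), ← zpow_natCast, ← zpow_natCast,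
        ← zpow_mul, ← zpow_mul]
      congr 2
      ring
    simp only [Finset.smul_sum, smul_smul, h1]
    rw [Finset.sum_comm]
    simp only [← Finset.sum_smul, ← Finset.mul_sum]
    rw [Finset.sum_eq_single e]
    · simp
    · intro k hk hke
      have h2 : (k - e).natAbs < N := by
        have := Finset.le_sup (f := fun k => (k - e).natAbs) hk
        omega
      have h3 : ζ ^ (k - e) ≠ 1 := fun h => by
        have := Int.natAbs_le_of_dvd_ne_zero ((hζ.zpow_eq_one_iff_dvd _).1 h) (sub_ne_zero.2 hke)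
        omega
      have h4 : (ζ ^ (k - e)) ^ N = 1 := by
        rw [← zpow_natCast, ← zpow_mul, mul_comm, zpow_mul, zpow_natCast, hζ.pow_eq_one, one_zpow]
      rw [geom_sum_eq h3, h4, sub_self, zero_div, mul_zero, zero_smul]
    · intro he
      rw [Finsupp.notMem_support_iff.1 he, smul_zero]
  have h5 : ‖((r : ℂ) ^ e * N) • p e‖ ≤ N * C := by
    rw [← key]
    refine (norm_sum_le _ _).trans ((Finset.sum_le_card_nsmul _ _ C fun j _ => ?_).trans_eq (by simp))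
    rw [norm_smul, norm_zpow, norm_pow, hζ1, one_pow, one_zpow, one_mul]
    exact h _ (by rw [norm_mul, norm_pow, hζ1, one_pow, mul_one, Complex.norm_real,
      Real.norm_of_nonneg hr.le])
  rw [norm_smul, norm_mul, norm_zpow, Complex.norm_real, Real.norm_of_nonneg hr.le,
    Complex.norm_natCast, mul_comm (r ^ e), mul_assoc] at h5
  exact le_of_mul_le_mul_left h5 (by exact_mod_cast Nat.pos_of_ne_zero hN0)

open AddMonoidAlgebra

section Ev
variable {B : Type*} [Ring B]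

/-- evaluation of a Laurent polynomial at a unit -/
noncomputable def PSLev (w : Bˣ) : AddMonoidAlgebra B ℤ →+ B :=
  liftNC (RingHom.id B : B →+ B) ((Units.coeHom B).comp (zpowersHom Bˣ w))

theorem PSLev_single (w : Bˣ) (e : ℤ) (b : B) : PSLev w (single e b) = b * ↑(w ^ e) :=
  liftNC_single _ _ _ _

theorem PSL_coeff {T : B} {q : AddMonoidAlgebra B ℤ} (h : Commute (single 0 T) q) (x : ℤ) :
    q.coeff x * T = T * q.coeff x := by
  have := congrArg (fun r => r.coeff x) h.eq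
  simp only [coeff_single_zero_mul, coeff_mul_single_zero] at this
  exact this.symm

theorem PSLev_sum (w : Bˣ) (p : AddMonoidAlgebra B ℤ) :
    PSLev w p = ∑ e ∈ p.coeff.support, p.coeff e * ↑(w ^ e) := by
  conv_lhs => rw [← sum_coeff_single p, Finsupp.sum, map_sum]
  simp only [PSLev_single]

theorem PSLev_one (w : Bˣ) : PSLev w 1 = 1 := liftNC_one _ _

theorem PSLev_mul (w : Bˣ) (p q : AddMonoidAlgebra B ℤ) (h : Commute (single 0 (w : B)) q) :
    PSLev w (p * q) = PSLev w p * PSLev w q := by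
  refine liftNC_mul _ _ _ _ fun {x y} _ => ?_
  have h1 : Commute (q.coeff x) (w : B) := PSL_coeff h x
  exact h1.units_zpow_right y

end Ev

section PS
variable {E : Type*} [NormedAddCommGroup E] [InnerProductSpace ℂ E] [CompleteSpace E]
  {G : Type*} [Group G] (C : Cov G E)

/-- scalar units -/
noncomputable def PSLsc (E : Type*) [NormedAddCommGroup E] [InnerProductSpace ℂ E] {z : ℂ}
    (hz : z ≠ 0) : (E →L[ℂ] E)ˣ :=
  Units.map (algebraMap ℂ (E →L[ℂ] E) : ℂ →* (E →L[ℂ] E)) (Units.mk0 z hz)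

omit [CompleteSpace E] in
theorem PSLsc_zpow {z : ℂ} (hz : z ≠ 0) (e : ℤ) :
    ((PSLsc E hz ^ e : (E →L[ℂ] E)ˣ) : E →L[ℂ] E) = z ^ e • 1 := by
  rw [PSLsc, ← map_zpow, Units.coe_map]
  simp [Algebra.algebraMap_eq_smul_one]

omit [CompleteSpace E] in
theorem PSLev_sc {z : ℂ} (hz : z ≠ 0) (p : AddMonoidAlgebra (E →L[ℂ] E) ℤ) :
    PSLev (PSLsc E hz) p = ∑ k ∈ p.coeff.support, z ^ k • p.coeff k := by
  simp only [PSLev_sum, PSLsc_zpow, mul_smul_comm, mul_one]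

theorem PSL_smul {T : E →L[ℂ] E} (h : C.Cm T) (z : ℂ) : C.Cm (z • T) :=
  ⟨fun g => by rw [mul_smul_comm, smul_mul_assoc, h.1],
    fun S => by rw [mul_smul_comm, smul_mul_assoc, h.2]⟩

theorem PSL_one : C.Cm 1 := ⟨fun _ => by simp, fun _ => by simp⟩

theorem PSL_zpow {w : (E →L[ℂ] E)ˣ} (h : C.Cm w) (e : ℤ) : C.Cm ↑(w ^ e) :=
  ⟨fun g => Commute.units_zpow_right (h.1 g) e, fun S => Commute.units_zpow_right (h.2 S) e⟩

theorem PSL_sc {z : ℂ} (hz : z ≠ 0) : C.Cm (PSLsc E hz) := by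
  have := PSLsc_zpow (E := E) hz 1
  rw [zpow_one] at this
  rw [this]
  exact PSL_smul C (PSL_one C) _

/-- universal generators -/
noncomputable def PSLU (s : ℝ) (ε : ℤ) (l : G) : AddMonoidAlgebra (E →L[ℂ] E) ℤ :=
  single 0 ((1 + (((√(1 - s ^ 2) : ℝ) : ℂ) • 1 - 1) * (C.P {1} + C.P {l})) * C.Λ l)
    - single (-ε) ((s : ℂ) • (C.Λ l * C.P {1} * C.Λ l)) + single ε ((s : ℂ) • C.P {1})

theorem PSLU_comm (s : ℝ) (ε : ℤ) (l : G) {T : E →L[ℂ] E} (h : C.Cm T) :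
    Commute (single 0 T) (PSLU C s ε l) := by
  have k : ∀ (e : ℤ) {X : E →L[ℂ] E}, Commute T X → Commute (single (0 : ℤ) T) (single e X) :=
    fun e X hX => by
      rw [Commute, SemiconjBy, single_mul_single, single_mul_single, hX.eq, zero_add, add_zero]
  have h1 : ∀ g, Commute T (C.Λ g) := fun g => (h.1 g).symm
  have h2 : ∀ S, Commute T (C.P S) := fun S => (h.2 S).symm
  refine ((k _ ?_).sub_right (k _ ?_)).add_right (k _ ?_)
  · exact ((Commute.one_right T).add_right (((((Commute.one_right T).smul_right _).sub_right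
      (Commute.one_right T))).mul_right ((h2 _).add_right (h2 _)))).mul_right (h1 l)
  · exact (((h1 l).mul_right (h2 _)).mul_right (h1 l)).smul_right _
  · exact (h2 _).smul_right _

theorem PSLev_U (s : ℝ) (ε : ℤ) (l : G) {w : (E →L[ℂ] E)ˣ} (h : C.Cm w) :
    PSLev w (PSLU C s ε l) = C.gen ((s : ℂ) • ↑(w ^ (-ε))) ((s : ℂ) • ↑(w ^ ε))
      (((√(1 - s ^ 2) : ℝ) : ℂ) • 1) l := by
  have h1 := PSL_zpow C h (-ε)
  have h2 := PSL_zpow C h ε
  rw [PSLU, map_add, map_sub, PSLev_single, PSLev_single, PSLev_single, zpow_zero, Units.val_one,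
    mul_one, Cov.gen, add_mul (_ - _), sub_mul (_ + _), mul_assoc _ (C.Λ l⁻¹), C.inv_Λ, mul_one]
  simp only [smul_mul_assoc]
  rw [h2.2, mul_assoc _ (C.Λ l), h1.1, ← mul_assoc, mul_assoc _ (C.P {1}), h1.2, ← mul_assoc, h1.1]

omit [CompleteSpace E] in
theorem PSL_alg {s : ℝ} (hs0 : 0 ≤ s) (hs : s ≤ 1) (w : (E →L[ℂ] E)ˣ) (ε : ℤ) :
    (((√(1 - s ^ 2) : ℝ) : ℂ) • (1 : E →L[ℂ] E)) * (((√(1 - s ^ 2) : ℝ) : ℂ) • 1) +
      ((s : ℂ) • ↑(w ^ (-ε))) * ((s : ℂ) • ↑(w ^ ε)) = 1 := by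
  rw [smul_mul_smul_comm, smul_mul_smul_comm, ← Units.val_mul, ← zpow_add, neg_add_cancel, zpow_zero,
    Units.val_one, mul_one, ← add_smul, ← Complex.ofReal_mul, ← Complex.ofReal_mul,
    ← Complex.ofReal_add, Real.mul_self_sqrt (by nlinarith)]
  rw [show 1 - s ^ 2 + s * s = 1 by ring, Complex.ofReal_one, one_smul]

omit [CompleteSpace E] in
theorem PSL_ab (s : ℝ) (w : (E →L[ℂ] E)ˣ) (e e' : ℤ) :
    ((s : ℂ) • (↑(w ^ e) : E →L[ℂ] E)) * ((s : ℂ) • ↑(w ^ e')) =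
      ((s : ℂ) • ↑(w ^ e')) * ((s : ℂ) • ↑(w ^ e)) := by
  rw [smul_mul_smul_comm, smul_mul_smul_comm, ← Units.val_mul, ← Units.val_mul, ← zpow_add,
    ← zpow_add, add_comm]

omit [CompleteSpace E] in
theorem PSL_sc1 (T : E →L[ℂ] E) (z : ℂ) : T * (z • 1) = (z • 1) * T := by simp

theorem PSLU_mul {s : ℝ} (hs0 : 0 ≤ s) (hs : s ≤ 1) (ε : ℤ) {l : G} (hl : l ≠ 1) :
    PSLU C s ε l * PSLU C s (-ε) l⁻¹ = 1 := by
  rw [← sub_eq_zero]
  refine coeff_eq_zero.1 (Finsupp.ext fun e => ?_)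
  have := coeff_le (PSLU C s ε l * PSLU C s (-ε) l⁻¹ - 1).coeff (r := 1) (C := 0) one_pos
    (fun z hz => ?_) e
  · simpa using this
  have hz0 : z ≠ 0 := by rintro rfl; simp at hz
  have hw := PSL_sc C hz0
  rw [← PSLev_sc hz0, map_sub, PSLev_mul _ _ _ (PSLU_comm C _ _ _ hw), PSLev_U C _ _ _ hw,
    PSLev_U C _ _ _ hw, neg_neg, PSLev_one, C.gen_mul_gen (PSL_smul C (PSL_zpow C hw _) _)
      (PSL_smul C (PSL_zpow C hw _) _) (PSL_smul C (PSL_one C) _) (PSL_ab _ _ _ _) (PSL_sc1 _ _) (PSL_sc1 _ _)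
      (PSL_alg hs0 hs _ _) hl, sub_self, norm_zero]

end PS

section Free
variable {E : Type*} [NormedAddCommGroup E] [InnerProductSpace ℂ E] [CompleteSpace E]
  {ι : Type*} (C : Cov (FreeGroup ι) E) {s : ℝ} (hs0 : 0 ≤ s) (hs : s ≤ 1)

/-- the universal representation -/
noncomputable def PSLPi : FreeGroup ι →* (AddMonoidAlgebra (E →L[ℂ] E) ℤ)ˣ :=
  FreeGroup.lift fun i => ⟨PSLU C s 1 (FreeGroup.of i), PSLU C s (-1) (FreeGroup.of i)⁻¹,
    PSLU_mul C hs0 hs 1 (FreeGroup.of_ne_one i), by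
      simpa using PSLU_mul C hs0 hs (-1) (inv_ne_one.2 (FreeGroup.of_ne_one i))⟩

theorem PSLPi_of (i : ι) : (PSLPi C hs0 hs (FreeGroup.of i)).val = PSLU C s 1 (FreeGroup.of i) := by
  rw [PSLPi, FreeGroup.lift_apply_of]

theorem PSLPi_inv (i : ι) :
    (PSLPi C hs0 hs (FreeGroup.of i)⁻¹).val = PSLU C s (-1) (FreeGroup.of i)⁻¹ := by
  rw [map_inv, PSLPi, FreeGroup.lift_apply_of]; rfl

theorem PSLPi_comm {T : E →L[ℂ] E} (h : C.Cm T) (g : FreeGroup ι) :
    Commute (single 0 T) (PSLPi C hs0 hs g).val := by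
  induction g using FreeGroup.induction_on with
  | C1 => rw [map_one]; exact Commute.one_right _
  | of i => rw [PSLPi_of]; exact PSLU_comm C _ _ _ h
  | inv_of i _ => rw [PSLPi_inv]; exact PSLU_comm C _ _ _ h
  | mul x y hx hy => rw [map_mul]; exact hx.mul_right hy

/-- evaluation of the universal representation -/
noncomputable def PSLpi {w : (E →L[ℂ] E)ˣ} (h : C.Cm w) : FreeGroup ι →* (E →L[ℂ] E) where
  toFun g := PSLev w (PSLPi C hs0 hs g).val
  map_one' := by rw [map_one, Units.val_one, PSLev_one]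
  map_mul' g g' := by rw [map_mul, Units.val_mul, PSLev_mul _ _ _ (PSLPi_comm C hs0 hs h g')]

theorem PSLpi_near {w : (E →L[ℂ] E)ˣ} (h : C.Cm w) {r : ℝ} (hr1 : 1 ≤ r) (hr : s * r ≤ 1 / 3)
    (h1 : ‖(↑(w ^ (-1 : ℤ)) : E →L[ℂ] E)‖ ≤ r) (h2 : ‖(↑(w ^ (1 : ℤ)) : E →L[ℂ] E)‖ ≤ r)
    (g : FreeGroup ι) : ‖PSLev w (PSLPi C hs0 hs g).val - C.Λ g‖ ≤ 6 * (s * r) := by
  have n : ∀ {T : E →L[ℂ] E}, ‖T‖ ≤ r → ‖(s : ℂ) • T‖ ≤ s * r := fun hT => by
    rw [norm_smul, Complex.norm_real, Real.norm_of_nonneg hs0]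
    exact mul_le_mul_of_nonneg_left hT hs0
  refine C.ps_bound (PSL_smul C (PSL_zpow C h _) _) (PSL_smul C (PSL_zpow C h _) _)
    (PSL_smul C (PSL_one C) _) (PSL_ab _ _ _ _) (PSL_sc1 _ _) (PSL_sc1 _ _) (PSL_alg hs0 hs w 1) hr (n h1)
    (n h2) ?_ (PSLpi C hs0 hs h) (fun i => ?_) g
  · have e : ((√(1 - s ^ 2) : ℝ) : ℂ) • (1 : E →L[ℂ] E) - 1 = ((√(1 - s ^ 2) - 1 : ℝ) : ℂ) • 1 := by
      rw [Complex.ofReal_sub, sub_smul, Complex.ofReal_one, one_smul]
    rw [e, norm_smul, Complex.norm_real, Real.norm_eq_abs]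
    have u1 : √(1 - s ^ 2) ≤ 1 := Real.sqrt_le_one.2 (by nlinarith)
    have u2 : 1 - s ≤ √(1 - s ^ 2) := Real.le_sqrt_of_sq_le (by nlinarith)
    have u3 : |√(1 - s ^ 2) - 1| ≤ s := abs_le.2 ⟨by linarith, by linarith⟩
    exact mul_le_mul u3 (ContinuousLinearMap.norm_id_le.trans hr1) (norm_nonneg _) hs0
  · change PSLev w _ = _
    rw [PSLPi_of, PSLev_U C _ _ _ h]

end Free

theorem exists_PSys {E : Type*} [NormedAddCommGroup E] [InnerProductSpace ℂ E] [CompleteSpace E]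
    {ι : Type*} (C : Cov (FreeGroup ι) E) {s : ℝ} (hs0 : 0 ≤ s) (hs : s ≤ 1 / 12) :
    Nonempty (PSys C s) := by
  have hs1 : s ≤ 1 := by linarith
  have n1 : ‖(1 : E →L[ℂ] E)‖ ≤ 1 := ContinuousLinearMap.norm_id_le
  have nU : ∀ u ∈ unitary (E →L[ℂ] E), ‖u‖ ≤ 1 := fun u hu =>
    ContinuousLinearMap.opNorm_le_bound _ zero_le_one fun ξ => by
      rw [ContinuousLinearMap.norm_map_of_mem_unitary hu, one_mul]
  have cu : ∀ (w : unitary (E →L[ℂ] E)) (e : ℤ),
      ((Unitary.toUnits w ^ e : (E →L[ℂ] E)ˣ) : E →L[ℂ] E) = (w ^ e : unitary (E →L[ℂ] E)) :=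
    fun w e => by rw [← map_zpow]; rfl
  have cu1 : ∀ w : unitary (E →L[ℂ] E),
      ((Unitary.toUnits w ^ (1 : ℤ) : (E →L[ℂ] E)ˣ) : E →L[ℂ] E) = w := fun w => by
    rw [cu, zpow_one]
  have cu2 : ∀ w : unitary (E →L[ℂ] E),
      ((Unitary.toUnits w ^ (-1 : ℤ) : (E →L[ℂ] E)ˣ) : E →L[ℂ] E) = star (w : E →L[ℂ] E) :=
    fun w => by rw [cu, zpow_neg_one]; rfl
  have bd : ∀ (g : FreeGroup ι) (r : ℝ), r = 2 ∨ r = 1 / 2 → ∀ e : ℤ,
      r ^ e * ‖(PSLPi C hs0 hs1 g).val.coeff e‖ ≤ 2 := fun g r hr e => by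
    have hr0 : 0 < r := by rcases hr with rfl | rfl <;> norm_num
    refine coeff_le _ hr0 (fun z hz => ?_) e
    have hz0 : z ≠ 0 := by rintro rfl; rw [norm_zero] at hz; exact hr0.ne hz
    have k : ∀ e : ℤ, e = 1 ∨ e = -1 → ‖((PSLsc E hz0 ^ e : (E →L[ℂ] E)ˣ) : E →L[ℂ] E)‖ ≤ 2 :=
      fun e he => by
        rw [PSLsc_zpow, norm_smul, norm_zpow, hz]
        refine (mul_le_of_le_one_right (by positivity) n1).trans ?_
        rcases hr with rfl | rfl <;> rcases he with rfl | rfl <;> norm_num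
    have := PSLpi_near C hs0 hs1 (PSL_sc C hz0) (r := 2) (by norm_num) (by linarith)
      (k _ (Or.inr rfl)) (k _ (Or.inl rfl)) g
    rw [← PSLev_sc hz0]
    have h2 := norm_le_norm_add_norm_sub' (PSLev (PSLsc E hz0) (PSLPi C hs0 hs1 g).val) (C.Λ g)
    have h3 := nU _ (C.Λ_mem g)
    linarith
  refine ⟨{
    c := fun g => (PSLPi C hs0 hs1 g).val.coeff
    π := fun w g => PSLev (Unitary.toUnits w) (PSLPi C hs0 hs1 g).val
    π_def := fun w g => by simp only [PSLev_sum, cu]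
    c_le := fun g e => ?_
    c_comm := fun T hT g e => ?_
    conv := fun g h e => ?_
    π_one := fun w => by rw [map_one, Units.val_one, PSLev_one]
    π_mul := fun w hw g h => (PSLpi C hs0 hs1 (w := Unitary.toUnits w) hw).map_mul g h
    π_star := fun w hw g => ?_
    π_of := fun w hw i => by rw [PSLPi_of, PSLev_U C _ _ _ (w := Unitary.toUnits w) hw, cu1, cu2]
    π_near := fun w hw g => ?_ }⟩
  · rcases Int.natAbs_eq e with he | he
    · have := bd g 2 (Or.inl rfl) e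
      rw [he, zpow_natCast, ← he] at this
      rw [one_div, inv_pow, ← div_eq_mul_inv, le_div_iff₀ (by positivity)]
      linarith
    · have := bd g (1 / 2) (Or.inr rfl) e
      rw [he, one_div, inv_zpow, zpow_neg, inv_inv, zpow_natCast, ← he] at this
      rw [one_div, inv_pow, ← div_eq_mul_inv, le_div_iff₀ (by positivity)]
      linarith
  · exact PSL_coeff (PSLPi_comm C hs0 hs1 hT g) e
  · rw [map_mul, Units.val_mul, coeff_mul_apply_right, Finsupp.sum]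
    simp only [sub_eq_add_neg]
  · have hw' : C.Cm (Unitary.toUnits w : (E →L[ℂ] E)ˣ) := hw
    have h0 : ∀ i, star (PSLev (Unitary.toUnits w) (PSLPi C hs0 hs1 (FreeGroup.of i)).val) =
        PSLev (Unitary.toUnits w) (PSLPi C hs0 hs1 (FreeGroup.of i)⁻¹).val := fun i => by
      rw [PSLPi_of, PSLPi_inv, PSLev_U C _ _ _ hw', PSLev_U C _ _ _ hw',
        C.star_gen (PSL_smul C (PSL_zpow C hw' _) _) (PSL_smul C (PSL_zpow C hw' _) _)
          (PSL_smul C (PSL_one C) _), neg_neg, cu1, cu2]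
      simp
    induction g using FreeGroup.induction_on with
    | C1 => rw [inv_one, map_one, Units.val_one, PSLev_one, star_one]
    | of i => exact h0 i
    | inv_of i _ => rw [← h0, star_star, inv_inv]
    | mul x y hx hy =>
      rw [mul_inv_rev, map_mul, map_mul, Units.val_mul, Units.val_mul,
        PSLev_mul _ _ _ (PSLPi_comm C hs0 hs1 hw' _), PSLev_mul _ _ _ (PSLPi_comm C hs0 hs1 hw' _),
        star_mul, hx, hy]
  · have := PSLpi_near C hs0 hs1 (w := Unitary.toUnits w) hw (r := 1) le_rfl (by linarith)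
      (by rw [cu]; exact nU _ (Subtype.property _)) (by rw [cu]; exact nU _ (Subtype.property _)) g
    rwa [mul_one] at this

end Crest.Agent.R78
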