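import Crest.Agent.R78.PSDef
import Crest.Agent.R124.Mat

/-!
# Row 78, task R78-Red: the reduced group C⋆-algebra, scalar matrices, uncurrying.

PLAN.  `Cr_induction`: `StarAlgebra.adjoin_induction`/`adjoin_le`, `closure_minimal` (the image of `D.comap θ`
under `subtype`, or sequences).  `Cr_sep`: the adjoin is the span of the countable set `range Λ` (it is closed
under products and star); `IsSeparable.span`, `.closure`, `IsSeparable.separableSpace`.
`tr_comm`: true for `a = Λ g`, `b = Λ h`; bilinear and continuous.  `tr_faith`: `re τ (a⋆ a) = ‖a δ₁‖²`; every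
element of `Cr G` commutes with the right translations `cmp ℂ (· * g)`, so `a δ_g = 0` for all `g` (`ell.ext_single`).
`scalar_of_mu`: the entry `t = adjoint (sng x') ∘L y ∘L sng x` commutes with all `mu a b`, so it is scalar.
`comm_dgE_of_mu`: from `scalar_of_mu` (`ell.ext_single`, `mop_single`).
`tens_bound`: for a finite set `F` of indices (reindexed by `Fin m`) let `Jₓ : L2 (Fin m) H₀ → ell X H₀` be
`∑ sng (x k) ∘L L2.proj k` (an isometry); `J⋆ (∑ dgE (c i) * y i) J = mat (fun k' k => ∑ i, Y i k' k • c i)`.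
`amp (Fin m) C₁` is a closed star subalgebra (`R124.isClosed_ampSet`) and
`Z ↦ mat (fun k' k => Γ ⟨ent Z k' k, _⟩)` is a `StarAlgHom` on it (`mat_ent`, `ent_mat`), hence contractive
(`NonUnitalStarAlgHom.norm_apply_le`).  So `|⟪η, T ξ⟫| ≤ ‖T'‖ ‖η‖ ‖ξ‖` for finitely supported `ξ, η`, which are
dense (`ell.hasSum_single`).
`exists_unc`: `summable_prod_of_nonneg`, `HasSum.prod_fiberwise`, `ell.hasSum`.
-/

set_option autoImplicit false

open ContinuousLinearMap TopologicalSpace
open scoped InnerProductSpace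

namespace Crest.Agent.R78

noncomputable section

variable (G : Type) [Group G]

/-- the regular covariant system -/
def covG : Cov G (ell G ℂ) := covE ℂ (MulAction.toPermHom G G) id fun _ _ => rfl

/-- the reduced group C⋆-algebra -/
def Cr : StarSubalgebra ℂ (ell G ℂ →L[ℂ] ell G ℂ) :=
  (StarAlgebra.adjoin ℂ (Set.range (covG G).Λ)).topologicalClosure

instance : IsClosed (Cr G : Set (ell G ℂ →L[ℂ] ell G ℂ)) :=
  StarSubalgebra.isClosed_topologicalClosure _

variable {G}

/-- the group elements in `Cr G` -/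
def lamC (g : G) : Cr G :=
  ⟨(covG G).Λ g, StarSubalgebra.le_topologicalClosure _ (StarAlgebra.subset_adjoin ℂ _ ⟨g, rfl⟩)⟩

theorem adjoin_le_span : ((StarAlgebra.adjoin ℂ (Set.range (covG G).Λ) :
      StarSubalgebra ℂ (ell G ℂ →L[ℂ] ell G ℂ)) : Set (ell G ℂ →L[ℂ] ell G ℂ)) ⊆
    Submodule.span ℂ (Set.range (covG G).Λ) := by
  intro x hx
  induction hx using StarAlgebra.adjoin_induction with
  | mem x hx => exact Submodule.subset_span hx
  | algebraMap r =>
    rw [Algebra.algebraMap_eq_smul_one]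
    exact Submodule.smul_mem _ _ (Submodule.subset_span ⟨1, map_one _⟩)
  | add x y _ _ hx hy => exact add_mem hx hy
  | mul x y _ _ hx hy =>
    have := Submodule.mul_mem_mul hx hy
    rw [Submodule.span_mul_span] at this
    refine Submodule.span_mono ?_ this
    rintro _ ⟨_, ⟨g, rfl⟩, _, ⟨h, rfl⟩, rfl⟩
    exact ⟨g * h, map_mul _ _ _⟩
  | star x hx' hx =>
    clear hx'
    induction hx using Submodule.span_induction with
    | mem x hx =>
      obtain ⟨g, rfl⟩ := hx
      rw [(covG G).Λ_star]; exact Submodule.subset_span ⟨_, rfl⟩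
    | zero => simp
    | add x y _ _ hx hy => rw [star_add]; exact add_mem hx hy
    | smul c x _ hx => rw [star_smul]; exact Submodule.smul_mem _ _ hx

theorem Cr_ind {p : Cr G → Prop} (hc : IsClosed {x | p x}) (h0 : p 0)
    (hadd : ∀ x y, p x → p y → p (x + y)) (hsm : ∀ (c : ℂ) x, p x → p (c • x))
    (hg : ∀ g, p (lamC g)) (c : Cr G) : p c := by
  have h1 : ((Submodule.span ℂ (Set.range (covG G).Λ) : Submodule ℂ (ell G ℂ →L[ℂ] ell G ℂ)) :
      Set (ell G ℂ →L[ℂ] ell G ℂ)) ⊆ Subtype.val '' {x : Cr G | p x} := by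
    intro x hx
    induction hx using Submodule.span_induction with
    | mem x hx => obtain ⟨g, rfl⟩ := hx; exact ⟨lamC g, hg g, rfl⟩
    | zero => exact ⟨0, h0, rfl⟩
    | add x y _ _ hx hy =>
      obtain ⟨x, hx, rfl⟩ := hx
      obtain ⟨y, hy, rfl⟩ := hy
      exact ⟨x + y, hadd x y hx hy, rfl⟩
    | smul c x _ hx =>
      obtain ⟨x, hx, rfl⟩ := hx
      exact ⟨c • x, hsm c x hx, rfl⟩
  have h2 : IsClosed (Subtype.val '' {x : Cr G | p x}) :=
    (IsClosed.isClosedEmbedding_subtypeVal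
      (s := (Cr G : Set (ell G ℂ →L[ℂ] ell G ℂ))) inferInstance).isClosedMap _ hc
  obtain ⟨x, hx, e⟩ := closure_minimal (adjoin_le_span.trans h1) h2 c.2
  rwa [← Subtype.ext e]

theorem Cr_induction {B : Type*} [CStarAlgebra B] (θ : Cr G →⋆ₐ[ℂ] B) {D : StarSubalgebra ℂ B}
    (hD : IsClosed (D : Set B)) (h : ∀ g, θ (lamC g) ∈ D) (c : Cr G) : θ c ∈ D := by
  have hθ : Continuous θ := AddMonoidHomClass.continuous_of_bound θ 1 fun c => by
    rw [one_mul]; exact NonUnitalStarAlgHom.norm_apply_le θ c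
  exact Cr_ind (p := fun c => θ c ∈ D) (hD.preimage hθ) (by simp)
    (fun x y hx hy => by rw [map_add]; exact add_mem hx hy)
    (fun c x hx => by rw [map_smul]; exact SMulMemClass.smul_mem c hx) h c

theorem Cr_sep [Countable G] : SeparableSpace (Cr G) := by
  have h1 : IsSeparable (Set.range (covG G).Λ) := (Set.countable_range _).isSeparable
  exact (((h1.span (R := ℂ)).mono adjoin_le_span).closure).separableSpace

variable (G) in
/-- the canonical trace -/
def tr : Cr G →L[ℂ] ℂ :=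
  LinearMap.mkContinuous
    { toFun := fun a => ⟪ell.single (1 : G) (1 : ℂ), (a : ell G ℂ →L[ℂ] ell G ℂ) (ell.single 1 1)⟫_ℂ
      map_add' := fun a b => by simp
      map_smul' := fun c a => by simp } 1 fun a => by
    refine (norm_inner_le_norm (𝕜 := ℂ) (E := ell G ℂ) _ _).trans ?_
    simpa using (a : ell G ℂ →L[ℂ] ell G ℂ).le_opNorm (ell.single 1 1)

theorem tr_apply (a : Cr G) : tr G a =
    ⟪ell.single (1 : G) (1 : ℂ), (a : ell G ℂ →L[ℂ] ell G ℂ) (ell.single 1 1)⟫_ℂ := rfl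

theorem Λ_apply (g : G) (η : ell G ℂ) (x : G) : (covG G).Λ g η x = η (g⁻¹ * x) :=
  actE_apply _ g η x

theorem lamC_mul (g h : G) : lamC g * lamC h = lamC (g * h) :=
  Subtype.ext (map_mul (covG G).Λ g h).symm

theorem tr_lamC [DecidableEq G] (g : G) : tr G (lamC g) = if g = 1 then 1 else 0 := by
  rw [tr_apply, ell.inner_single_left]
  change ⟪(1 : ℂ), (covG G).Λ g (ell.single 1 1) 1⟫_ℂ = _
  rw [Λ_apply, ell.single_apply]
  by_cases h : g = 1 <;> simp [h]

theorem tr_comm (a b : Cr G) : tr G (a * b) = tr G (b * a) := by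
  classical
  have h1 : ∀ g (b : Cr G), tr G (lamC g * b) = tr G (b * lamC g) := fun g b => by
    refine Cr_ind (p := fun b => tr G (lamC g * b) = tr G (b * lamC g))
      (isClosed_eq (by fun_prop) (by fun_prop)) (by simp)
      (fun x y hx hy => by rw [mul_add, add_mul, map_add, map_add, hx, hy])
      (fun c x hx => by rw [mul_smul_comm, smul_mul_assoc, map_smul, map_smul, hx]) (fun h => ?_) b
    rw [lamC_mul, lamC_mul, tr_lamC, tr_lamC]
    simp only [mul_eq_one_comm]
  exact Cr_ind (p := fun a => tr G (a * b) = tr G (b * a))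
    (isClosed_eq (by fun_prop) (by fun_prop)) (by simp)
    (fun x y hx hy => by rw [mul_add, add_mul, map_add, map_add, hx, hy])
    (fun c x hx => by rw [mul_smul_comm, smul_mul_assoc, map_smul, map_smul, hx])
    (fun g => h1 g b) a

theorem tr_star_mul (a : Cr G) : (tr G (star a * a)).re =
    ‖(a : ell G ℂ →L[ℂ] ell G ℂ) (ell.single 1 1)‖ ^ 2 := by
  rw [tr_apply]
  change (⟪_, star (a : ell G ℂ →L[ℂ] ell G ℂ) ((a : ell G ℂ →L[ℂ] ell G ℂ) _)⟫_ℂ).re = _
  rw [star_eq_adjoint, adjoint_inner_right, ← inner_self_eq_norm_sq (𝕜 := ℂ)]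
  rfl

theorem tr_pos (a : Cr G) : 0 ≤ (tr G (star a * a)).re := by
  rw [tr_star_mul]; positivity

theorem Cr_comm_right (g : G) (a : Cr G) : (a : ell G ℂ →L[ℂ] ell G ℂ) * cmp ℂ (fun x => x * g) =
    cmp ℂ (fun x => x * g) * (a : ell G ℂ →L[ℂ] ell G ℂ) := by
  refine Cr_ind (p := fun a => (a : ell G ℂ →L[ℂ] ell G ℂ) * cmp ℂ (fun x => x * g) =
    cmp ℂ (fun x => x * g) * (a : ell G ℂ →L[ℂ] ell G ℂ))
      (isClosed_eq (by fun_prop) (by fun_prop)) (by simp)
      (fun x y hx hy => by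
        change ((x : ell G ℂ →L[ℂ] ell G ℂ) + y) * _ = _ * ((x : ell G ℂ →L[ℂ] ell G ℂ) + y)
        rw [mul_add, add_mul, hx, hy])
      (fun c x hx => by
        change (c • (x : ell G ℂ →L[ℂ] ell G ℂ)) * _ = _ * (c • (x : ell G ℂ →L[ℂ] ell G ℂ))
        rw [mul_smul_comm, smul_mul_assoc, hx]) (fun h => ?_) a
  ext η x
  change (covG G).Λ h (cmp ℂ (fun x => x * g) η) x = cmp ℂ (fun x => x * g) ((covG G).Λ h η) x
  rw [Λ_apply, cmp_apply (mul_left_injective g), cmp_apply (mul_left_injective g), Λ_apply,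
    mul_assoc]

theorem tr_faith (a : Cr G) (h : (tr G (star a * a)).re = 0) : a = 0 := by
  classical
  rw [tr_star_mul, sq_eq_zero_iff, norm_eq_zero] at h
  refine Subtype.ext (ell.ext_single fun g v => ?_)
  have e : ell.single g v = v • cmp ℂ (fun x => x * g⁻¹) (ell.single (1 : G) (1 : ℂ)) := by
    ext x
    rw [ell.smul_apply, cmp_apply (mul_left_injective g⁻¹), ell.single_apply, ell.single_apply]
    simp [mul_inv_eq_one]
  have h2 := congrArg (fun T : ell G ℂ →L[ℂ] ell G ℂ => T (ell.single 1 1)) (Cr_comm_right g⁻¹ a)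
  simp only [mul_apply_eq_comp, h, map_zero] at h2
  rw [e, map_smul, h2]; simp

variable {X Y : Type}

/-- matrix units -/
def mu (a b : Y) : ell Y ℂ →L[ℂ] ell Y ℂ := ell.sng a ∘L adjoint (ell.sng b)

theorem scalar_of_mu {y : ell X (ell Y ℂ) →L[ℂ] ell X (ell Y ℂ)}
    (hy : ∀ a b, dgE X (mu a b) * y = y * dgE X (mu a b)) (x x' : X) :
    ∃ z : ℂ, ∀ v, y (ell.single x v) x' = z • v := by
  classical
  have h1 : ∀ a b v, mu a b (y (ell.single x v) x') = y (ell.single x (mu a b v)) x' := by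
    intro a b v
    have := congrArg (fun T : ell X (ell Y ℂ) →L[ℂ] ell X (ell Y ℂ) => T (ell.single x v) x')
      (hy a b)
    simp only [mul_apply_eq_comp, dgE_apply] at this
    rw [this]
    congr 2
    exact mop_single (Bd.const _) x v
  have hmu : ∀ (a b : Y) (v : ell Y ℂ), mu a b v = ell.single a (v b) := fun a b v => by
    simp [mu]
  rcases isEmpty_or_nonempty Y with hY | ⟨⟨b⟩⟩
  · exact ⟨0, fun v => ell.ext fun a => isEmptyElim a⟩
  refine ⟨y (ell.single x (ell.single b 1)) x' b, fun v => ?_⟩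
  let t : ell Y ℂ →L[ℂ] ell Y ℂ := adjoint (ell.sng x') ∘L y ∘L ell.sng x
  have ht : ∀ v, t v = y (ell.single x v) x' := fun v => by simp [t]
  have : t = (y (ell.single x (ell.single b 1)) x' b) • (1 : ell Y ℂ →L[ℂ] ell Y ℂ) := by
    refine ell.ext_single fun a c => ?_
    have e : ell.single a c = c • mu a b (ell.single b 1) := by
      rw [hmu]; ext w; simp [ell.single_apply]
    rw [e, map_smul, map_smul, ht, ← h1, hmu, hmu]
    congr 1
    ext w
    simp [ell.single_apply]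
  rw [← ht, this]; rfl

theorem comm_dgE_of_mu {y : ell X (ell Y ℂ) →L[ℂ] ell X (ell Y ℂ)}
    (hy : ∀ a b, dgE X (mu a b) * y = y * dgE X (mu a b)) (T : ell Y ℂ →L[ℂ] ell Y ℂ) :
    dgE X T * y = y * dgE X T := by
  refine ell.ext_single fun x v => ell.ext fun x' => ?_
  obtain ⟨z, hz⟩ := scalar_of_mu hy x x'
  have e : dgE X T (ell.single x v) = ell.single x (T v) := mop_single (Bd.const _) x v
  simp only [mul_apply_eq_comp, dgE_apply, e, hz, map_smul]

section cb

open Crest.Agent.R124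

variable {K : Type} [NormedAddCommGroup K] [InnerProductSpace ℂ K] [CompleteSpace K]

theorem amp_contr {C₁ : StarSubalgebra ℂ (K →L[ℂ] K)} [IsClosed (C₁ : Set (K →L[ℂ] K))]
    (Γ : C₁ →⋆ₐ[ℂ] C₁) {ι : Type} [Fintype ι] (m : ι → ι → C₁) :
    mn (Matrix.of fun i j => (Γ (m i j) : K →L[ℂ] K)) ≤
      mn (Matrix.of fun i j => (m i j : K →L[ℂ] K)) := by
  classical
  have : IsClosed (amp ι C₁ : Set (L2 ι K →L[ℂ] L2 ι K)) := isClosed_ampSet inferInstance
  let e : amp ι C₁ → Matrix ι ι C₁ := fun Z => Matrix.of fun i j => ⟨ent Z.1 i j, mem_ampSet.1 Z.2 i j⟩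
  have einj : ∀ {M N : Matrix ι ι C₁}, mat (M.map Subtype.val) = mat (N.map Subtype.val) → M = N := fun h => by
    refine Matrix.ext fun i j => ?_
    exact Subtype.ext (congrFun (congrFun (mat_injective h) i) j)
  have me : ∀ Z, mat ((e Z).map Subtype.val) = Z.1 := fun Z => mat_ent Z.1
  let ψ : C₁ →⋆ₐ[ℂ] (K →L[ℂ] K) := C₁.subtype.comp Γ
  let Φ : amp ι C₁ →⋆ₙₐ[ℂ] (L2 ι K →L[ℂ] L2 ι K) :=
    { toFun := fun Z => mat ((e Z).map ψ)
      map_smul' := fun c Z => by
        have : e (c • Z) = c • e Z := einj (by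
          rw [me]
          change c • Z.1 = mat (c • (e Z).map Subtype.val)
          rw [mat_smul, me])
        rw [this, MonoidHom.id_apply, ← mat_smul]
        congr 1; ext i j : 2; simp
      map_zero' := by
        have : e 0 = 0 := einj (by
          rw [me]
          change 0 = mat 0
          rw [mat_zero])
        rw [this, ← mat_zero]
        congr 1; ext i j : 2; simp
      map_add' := fun Z W => by
        have : e (Z + W) = e Z + e W := einj (by
          rw [me]
          change Z.1 + W.1 = mat ((e Z).map Subtype.val + (e W).map Subtype.val)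
          rw [mat_add, me, me])
        rw [this, ← mat_add]
        congr 1; ext i j : 2; simp
      map_mul' := fun Z W => by
        have : e (Z * W) = e Z * e W := einj (by
          rw [me]
          have : (e Z * e W).map Subtype.val = (e Z).map Subtype.val * (e W).map Subtype.val := by
            ext i j : 2; simp [Matrix.mul_apply]
          rw [this, mat_mul, me, me]; rfl)
        rw [this, ← mat_mul]
        congr 1; ext i j : 2; simp [Matrix.mul_apply, map_sum]
      map_star' := fun Z => by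
        have : e (star Z) = (e Z).conjTranspose := einj (by
          rw [me]
          change star Z.1 = mat ((e Z).map Subtype.val).conjTranspose
          rw [mat_star, me])
        rw [this, ← mat_star]
        congr 1; ext i j : 2; simp [map_star] }
  let Z : amp ι C₁ := ⟨mat (Matrix.of fun i j => (m i j : K →L[ℂ] K)), _, fun i j => (m i j).2, rfl⟩
  have hZ : e Z = Matrix.of m := einj (by rw [me]; rfl)
  have := NonUnitalStarAlgHom.norm_apply_le Φ Z
  change ‖mat ((e Z).map ψ)‖ ≤ _ at this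
  rw [hZ] at this
  exact this

/-- compression to finitely many coordinates -/
def cmpr (T : ell X K →L[ℂ] ell X K) (F : Finset X) : Matrix F F (K →L[ℂ] K) :=
  Matrix.of fun x' x => adjoint (ell.sng (x' : X)) ∘L T ∘L ell.sng (x : X)

omit [CompleteSpace K] in
theorem norm_sum_single (F : Finset X) (v : F → K) :
    ‖∑ x : F, ell.single (x : X) (v x)‖ ^ 2 = ∑ x, ‖v x‖ ^ 2 := by
  classical
  have h := ell.hasSum (∑ x : F, ell.single (x : X) (v x))
  refine h.unique ?_
  have e : ∀ x : F, (∑ x : F, ell.single (x : X) (v x)) x = v x := fun x => by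
    simp [ell.single_apply, Subtype.ext_iff.symm]
  have h2 : HasSum (fun x : X => ‖(∑ x : F, ell.single (x : X) (v x)) x‖ ^ 2)
      (∑ x ∈ F, ‖(∑ x : F, ell.single (x : X) (v x)) x‖ ^ 2) := by
    refine hasSum_sum_of_ne_finset_zero fun x hx => ?_
    have : ∀ a : F, x ≠ a := fun a e => hx (e ▸ a.2)
    simp [ell.single_apply, this]
  rw [← Finset.sum_coe_sort F fun x' => ‖(∑ x : F, ell.single (x : X) (v x)) x'‖ ^ 2] at h2
  simpa only [e] using h2

theorem cmpr_sum (T : ell X K →L[ℂ] ell X K) (F : Finset X) (v : F → K) (x' : F) :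
    ∑ x, cmpr T F x' x (v x) = T (∑ x : F, ell.single (x : X) (v x)) x' := by
  simp [cmpr, map_sum]

theorem mn_cmpr_le (T : ell X K →L[ℂ] ell X K) (F : Finset X) : mn (cmpr T F) ≤ ‖T‖ := by
  refine mn_le_of_sq (norm_nonneg _) fun v => ?_
  simp only [cmpr_sum]
  rw [← norm_sum_single F v, ← mul_pow]
  refine le_trans ?_ (pow_le_pow_left₀ (norm_nonneg _) (T.le_opNorm _) 2)
  rw [Finset.sum_coe_sort F fun x => ‖T (∑ x : F, ell.single (x : X) (v x)) x‖ ^ 2]
  exact sum_le_hasSum F (fun _ _ => by positivity) (ell.hasSum _)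

theorem norm_le_of_fin {T : ell X K →L[ℂ] ell X K} {c : ℝ} (hc : 0 ≤ c)
    (h : ∀ F : Finset X, mn (cmpr T F) ≤ c) : ‖T‖ ≤ c := by
  classical
  refine T.opNorm_le_bound hc fun ξ => le_of_sq_le_sq ?_ (by positivity)
  refine hasSum_le_of_sum_le (ell.hasSum _) fun F' => ?_
  have h1 : Filter.Tendsto (fun F : Finset X => ∑ x' ∈ F', ‖T (∑ x ∈ F, ell.single x (ξ x)) x'‖ ^ 2)
      Filter.atTop (nhds (∑ x' ∈ F', ‖T ξ x'‖ ^ 2)) := by
    refine tendsto_finsetSum _ fun x' _ => ?_
    have := ((adjoint (ell.sng x') ∘L T).continuous.tendsto ξ).comp (ell.hasSum_single ξ)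
    simp only [comp_apply, ell.adjoint_sng_apply, Function.comp_def] at this
    exact this.norm.pow 2
  refine le_of_tendsto h1 ?_
  filter_upwards [Filter.eventually_ge_atTop F'] with F hF
  have h2 := sum_sq_le_mn (cmpr T F) fun x => ξ x
  simp only [cmpr_sum] at h2
  rw [Finset.sum_coe_sort F fun x => ell.single x (ξ x),
    Finset.sum_coe_sort F fun x' => ‖T (∑ x ∈ F, ell.single x (ξ x)) x'‖ ^ 2,
    Finset.sum_coe_sort F fun x => ‖ξ x‖ ^ 2] at h2
  refine (Finset.sum_le_sum_of_subset_of_nonneg hF fun _ _ _ => by positivity).trans (h2.trans ?_)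
  rw [mul_pow]
  exact mul_le_mul (pow_le_pow_left₀ (mn_nonneg _) (h F) 2)
    (sum_le_hasSum F (fun _ _ => by positivity) (ell.hasSum _)) (by positivity) (by positivity)

end cb

theorem tens_bound {C₁ : StarSubalgebra ℂ (ell Y ℂ →L[ℂ] ell Y ℂ)}
    [IsClosed (C₁ : Set (ell Y ℂ →L[ℂ] ell Y ℂ))] (Γ : C₁ →⋆ₐ[ℂ] C₁) {I : Type*} [Fintype I]
    (c : I → C₁) {y : I → ell X (ell Y ℂ) →L[ℂ] ell X (ell Y ℂ)}
    (hy : ∀ i a b, dgE X (mu a b) * y i = y i * dgE X (mu a b)) :
    ‖∑ i, dgE X (Γ (c i) : ell Y ℂ →L[ℂ] ell Y ℂ) * y i‖ ≤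
      ‖∑ i, dgE X (c i : ell Y ℂ →L[ℂ] ell Y ℂ) * y i‖ := by
  classical
  choose z hz using fun i => scalar_of_mu (hy i)
  -- entries
  let m : X → X → C₁ := fun x' x => ∑ i, z i x x' • c i
  have ent1 : ∀ (d : I → C₁) x v x', (∑ i, dgE X (d i : ell Y ℂ →L[ℂ] ell Y ℂ) * y i)
      (ell.single x v) x' = ((∑ i, z i x x' • d i : C₁) : ell Y ℂ →L[ℂ] ell Y ℂ) v := by
    intro d x v x'
    simp [hz]
  have ent2 : ∀ x x', Γ (m x' x) = ∑ i, z i x x' • Γ (c i) := fun x x' => by
    simp [m, map_sum]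
  refine norm_le_of_fin (norm_nonneg _) fun F => ?_
  have h1 := amp_contr Γ (fun x' x : F => m x' x)
  have h2 := mn_cmpr_le (∑ i, dgE X (c i : ell Y ℂ →L[ℂ] ell Y ℂ) * y i) F
  have e1 : cmpr (∑ i, dgE X (Γ (c i) : ell Y ℂ →L[ℂ] ell Y ℂ) * y i) F =
      Matrix.of fun x' x : F => (Γ (m x' x) : ell Y ℂ →L[ℂ] ell Y ℂ) := by
    refine Matrix.ext fun x' x => ContinuousLinearMap.ext fun v => ?_
    simp only [cmpr, Matrix.of_apply, comp_apply, ell.sng_apply, ell.adjoint_sng_apply, ent2]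
    exact ent1 (fun i => Γ (c i)) x v x'
  have e2 : cmpr (∑ i, dgE X (c i : ell Y ℂ →L[ℂ] ell Y ℂ) * y i) F =
      Matrix.of fun x' x : F => (m x' x : ell Y ℂ →L[ℂ] ell Y ℂ) := by
    refine Matrix.ext fun x' x => ContinuousLinearMap.ext fun v => ?_
    simp only [cmpr, Matrix.of_apply, comp_apply, ell.sng_apply, ell.adjoint_sng_apply]
    exact ent1 c x v x'
  rw [e1]
  rw [e2] at h2
  exact h1.trans h2

theorem exists_unc (X Y : Type) : ∃ U : ell X (ell Y ℂ) ≃ₗᵢ[ℂ] ell (X × Y) ℂ,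
    ∀ ξ x y, U ξ (x, y) = ξ x y := by
  have hs : ∀ ξ : ell X (ell Y ℂ), Summable fun p : X × Y => ‖ξ p.1 p.2‖ ^ 2 := fun ξ => by
    rw [summable_prod_of_nonneg fun _ => by positivity]
    refine ⟨fun x => (ell.hasSum (ξ x)).summable, ?_⟩
    simp only [(ell.hasSum (ξ _)).tsum_eq]
    exact (ell.hasSum ξ).summable
  let U₀ : ell X (ell Y ℂ) →ₗ[ℂ] ell (X × Y) ℂ :=
    { toFun := fun ξ => ell.mk (fun p => ξ p.1 p.2) (hs ξ)
      map_add' := fun _ _ => rfl
      map_smul' := fun _ _ => rfl }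
  have hn : ∀ ξ, ‖U₀ ξ‖ = ‖ξ‖ := fun ξ => by
    have h1 := (ell.hasSum (U₀ ξ)).prod_fiberwise fun x => ell.hasSum (ξ x)
    exact (pow_left_inj₀ (norm_nonneg _) (norm_nonneg _) two_ne_zero).1 (h1.unique (ell.hasSum ξ))
  let U₁ : ell X (ell Y ℂ) →ₗᵢ[ℂ] ell (X × Y) ℂ := ⟨U₀, hn⟩
  have hsurj : Function.Surjective U₁ := fun η => by
    have h1 := (summable_prod_of_nonneg fun _ => by positivity).1 (ell.hasSum η).summable
    refine ⟨ell.mk (fun x => ell.mk (fun y => η (x, y)) (h1.1 x)) ?_, rfl⟩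
    refine h1.2.congr fun x => ?_
    exact (ell.hasSum (ell.mk (fun y => η (x, y)) (h1.1 x))).tsum_eq
  exact ⟨LinearIsometryEquiv.ofSurjective U₁ hsurj, fun _ _ _ => rfl⟩

end

end Crest.Agent.R78
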