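import Crest.Agent.R78.ExtB
import Crest.Agent.R78.Red
import Crest.Agent.R78.PSLaur
import Crest.Agent.R78.Free

/-!
# Row 78, task R78-NC: the model for S0105.

PLAN.  `Ek_apply` from `adjoint_cmp_apply`, `adjoint_cmp_apply_of_not_mem`, `cmp_apply`; all the `Ek`, `Lg`, `Rg`
identities are then checked on coordinates.  `Ek_sum`: `HasSum` via `ell.hasSum_single` and
`HasSum.prod_fiberwise`/`sigma`, or: bounded partial sums and density of `single`.
`exists_W`: `U` from `exists_unc`, `σ ((k,h),x) = ((k, x⁻¹ h), x)` (an `Equiv`), `W = U⁻¹ ∘ cmp ℂ σ ∘ U`, so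
`W ξ (k,h) x = ξ (k, x⁻¹ h) x`; unitary by `star_cmp_equiv` (`LinearIsometryEquiv.conjStarAlgEquiv` or
`Unitary.linearIsometryEquiv`).  If `y` commutes with `Lg` and `dgE (mu a b)` then
`y W p = y Lg x p = Lg x p y = W p y = W y p` for `p = dgE (mu x x)`; vectors `single α (single x z)` are total.
`DD_sep`: the adjoin of a countable set is separable (monomials in the generators and their adjoints:
`Submonoid.closure` of a countable set is countable, `Algebra.adjoin_eq_span`).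
`DD_comm`: `DD ≤ StarSubalgebra.centralizer ℂ {T}` (closed), by `topologicalClosure_minimal`, `adjoin_le`.
`Zop`: `mop_mul`, `mop_star`, `π_mem`, `π_near`.
`test`: `ξ k = single (k, 1) (single 1 1) = Ek k 0 (ξ 0)`, `Lg a (Rg a (ξ k)) = ξ k`, and
`⟪δ₁, π a δ₁⟫ = s` (`π_of`, unfold `gen`, `of i ≠ 1`, `of i * of i ≠ 1`).
-/

set_option autoImplicit false
set_option linter.unusedSectionVars false

open ContinuousLinearMap TopologicalSpace
open scoped InnerProductSpace

namespace Crest.Agent.R78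

noncomputable section

namespace NC

variable (G : Type) [Group G]

/-- the Hilbert space -/
abbrev HH : Type := ell (ℕ × G) (ell G ℂ)

/-- left translation of the index -/
def Lg : G →* (HH G →L[ℂ] HH G) :=
  actE (ell G ℂ) (MonoidHom.mk' (fun g => (Equiv.refl ℕ).prodCongr (Equiv.mulLeft g)) fun _ _ => by
    ext1; simp [Prod.map])

/-- right translation of the index -/
def Rg : G →* (HH G →L[ℂ] HH G) :=
  actE (ell G ℂ) (MonoidHom.mk' (fun g => (Equiv.refl ℕ).prodCongr (Equiv.mulRight g⁻¹)) fun _ _ => by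
    ext1; simp [Prod.map, mul_assoc])

/-- matrix units -/
def Ek (k l : ℕ) : HH G →L[ℂ] HH G :=
  adjoint (cmp (ell G ℂ) fun h : G => (k, h)) ∘L cmp (ell G ℂ) fun h : G => (l, h)

variable {G}

@[simp] theorem Lg_apply (g : G) (ξ : HH G) (k : ℕ) (h : G) : Lg G g ξ (k, h) = ξ (k, g⁻¹ * h) :=
  actE_apply _ g ξ _

@[simp] theorem Rg_apply (g : G) (ξ : HH G) (k : ℕ) (h : G) : Rg G g ξ (k, h) = ξ (k, h * g) := by
  rw [Rg, actE_apply]; simp

theorem Lg_mem (g : G) : Lg G g ∈ unitary (HH G →L[ℂ] HH G) := actE_mem _ g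

theorem Rg_mem (g : G) : Rg G g ∈ unitary (HH G →L[ℂ] HH G) := actE_mem _ g

theorem star_Rg (g : G) : star (Rg G g) = Rg G g⁻¹ := star_actE _ g

theorem HH_ext {A B : HH G →L[ℂ] HH G} (h : ∀ ξ k g, A ξ (k, g) = B ξ (k, g)) : A = B :=
  ContinuousLinearMap.ext fun ξ => ell.ext fun p => h ξ p.1 p.2

theorem row_inj (k : ℕ) : Function.Injective fun h : G => (k, h) :=
  fun _ _ e => congrArg Prod.snd e

theorem Λ_apply (g : G) (η : ell G ℂ) (x : G) : (covG G).Λ g η x = η (g⁻¹ * x) :=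
  actE_apply _ g η _

theorem mu_apply {Y : Type} (a b : Y) (v : ell Y ℂ) : mu a b v = ell.single a (v b) := by
  rw [mu, comp_apply, ell.adjoint_sng_apply, ell.sng_apply]

theorem Ek_apply (k l : ℕ) (ξ : HH G) (m : ℕ) (h : G) :
    Ek G k l ξ (m, h) = if m = k then ξ (l, h) else 0 := by
  rw [Ek, comp_apply]
  split_ifs with hm
  · subst hm
    exact (adjoint_cmp_apply (row_inj m) _ h).trans (cmp_apply (row_inj l) _ _)
  · exact adjoint_cmp_apply_of_not_mem (row_inj k) _ fun h' e => hm (congrArg Prod.fst e).symm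

theorem Ek_mul (k l m p : ℕ) : Ek G k l * Ek G m p = if l = m then Ek G k p else 0 := by
  refine HH_ext fun ξ a g => ?_
  rw [mul_apply_eq_comp, Ek_apply, Ek_apply]
  by_cases h : l = m
  · simp only [if_pos h, Ek_apply]
  · simp [h]

theorem Ek_star (k l : ℕ) : star (Ek G k l) = Ek G l k := by
  rw [Ek, Ek, star_eq_adjoint, adjoint_comp, adjoint_adjoint]

theorem Ek_sum (v : HH G) : HasSum (fun k => Ek G k k v) v := by
  refine (ell.hasSum_single v).prod_fiberwise fun k => ?_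
  have := (adjoint (cmp (ell G ℂ) fun h : G => (k, h))).hasSum
    (ell.hasSum_single (cmp (ell G ℂ) (fun h : G => (k, h)) v))
  simp only [adjoint_cmp_single (row_inj k), cmp_apply (row_inj k)] at this
  exact this

theorem Ek_Lg (k l : ℕ) (g : G) : Lg G g * Ek G k l = Ek G k l * Lg G g := by
  refine HH_ext fun ξ a g => ?_
  simp only [mul_apply_eq_comp, Ek_apply, Lg_apply]

theorem Ek_Rg (k l : ℕ) (g : G) : Rg G g * Ek G k l = Ek G k l * Rg G g := by
  refine HH_ext fun ξ a g => ?_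
  simp only [mul_apply_eq_comp, Ek_apply, Rg_apply]

theorem Ek_dg (k l : ℕ) (T : ell G ℂ →L[ℂ] ell G ℂ) :
    dgE (ℕ × G) T * Ek G k l = Ek G k l * dgE (ℕ × G) T := by
  refine HH_ext fun ξ a g => ?_
  simp only [mul_apply_eq_comp, Ek_apply, dgE_apply, apply_ite T, map_zero]

theorem Rg_Lg (g h : G) : Lg G g * Rg G h = Rg G h * Lg G g := by
  refine HH_ext fun ξ a g => ?_
  simp only [mul_apply_eq_comp, Lg_apply, Rg_apply, mul_assoc]

theorem Rg_dg (T : ell G ℂ →L[ℂ] ell G ℂ) (h : G) :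
    dgE (ℕ × G) T * Rg G h = Rg G h * dgE (ℕ × G) T := by
  refine HH_ext fun ξ a g => ?_
  simp only [mul_apply_eq_comp, dgE_apply, Rg_apply]

variable (G) in
theorem exists_W : ∃ W ∈ unitary (HH G →L[ℂ] HH G),
    (∀ g, W * dgE (ℕ × G) ((covG G).Λ g) * star W = Lg G g * dgE (ℕ × G) ((covG G).Λ g)) ∧
    ∀ y : HH G →L[ℂ] HH G, (∀ g, Lg G g * y = y * Lg G g) →
      (∀ a b, dgE (ℕ × G) (mu a b) * y = y * dgE (ℕ × G) (mu a b)) → W * y = y * W := by
  obtain ⟨U, hU⟩ := exists_unc (ℕ × G) G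
  let σ : (ℕ × G) × G ≃ (ℕ × G) × G :=
    { toFun p := ((p.1.1, p.2⁻¹ * p.1.2), p.2)
      invFun p := ((p.1.1, p.2 * p.1.2), p.2)
      left_inv p := by simp
      right_inv p := by simp }
  have h0 : cmp ℂ σ ∈ unitary (ell ((ℕ × G) × G) ℂ →L[ℂ] ell ((ℕ × G) × G) ℂ) := by
    rw [Unitary.mem_iff, star_cmp_equiv, mul_def, mul_def, cmp_comp σ.injective σ.symm.injective,
      cmp_comp σ.symm.injective σ.injective, σ.self_comp_symm, σ.symm_comp_self, cmp_id]
    exact ⟨rfl, rfl⟩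
  obtain ⟨W, hW, hW'⟩ : ∃ W ∈ unitary (HH G →L[ℂ] HH G),
      ∀ ξ k h x, W ξ (k, h) x = ξ (k, x⁻¹ * h) x :=
    ⟨U.symm.conjStarAlgEquiv (cmp ℂ σ), Unitary.map_mem _ h0, fun ξ k h x => by
      rw [← hU, LinearIsometryEquiv.conjStarAlgEquiv_apply_apply, U.apply_symm_apply,
        cmp_apply σ.injective, ← hU]
      rfl⟩
  refine ⟨W, hW, fun g => ?_, fun y h1 h2 => ?_⟩
  · have : W * dgE (ℕ × G) ((covG G).Λ g) = Lg G g * dgE (ℕ × G) ((covG G).Λ g) * W := by
      refine HH_ext fun ξ k h => ell.ext fun x => ?_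
      simp only [mul_apply_eq_comp, hW', dgE_apply, Lg_apply, Λ_apply]
      simp [mul_assoc]
    rw [this, mul_assoc, hW.2, mul_one]
  · refine HH_ext fun ξ k h => ell.ext fun x => ?_
    have e1 : dgE (ℕ × G) (mu x x) * W = dgE (ℕ × G) (mu x x) * Lg G x := by
      refine HH_ext fun ξ k h => ?_
      simp only [mul_apply_eq_comp, hW', dgE_apply, Lg_apply, mu_apply]
    have e2 : dgE (ℕ × G) (mu x x) * (W * y) = dgE (ℕ × G) (mu x x) * (y * W) := by
      rw [← mul_assoc, e1, mul_assoc, h1, ← mul_assoc, h2, mul_assoc, ← e1, ← mul_assoc, ← h2,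
        mul_assoc]
    have e3 := congrArg (fun T : HH G →L[ℂ] HH G => T ξ (k, h) x) e2
    simpa only [mul_apply_eq_comp, dgE_apply, mu_apply, ell.single_apply_self] using e3

/-- the coefficient algebra -/
def DD (π : G → ell G ℂ →L[ℂ] ell G ℂ) : StarSubalgebra ℂ (HH G →L[ℂ] HH G) :=
  (StarAlgebra.adjoin ℂ (Set.range (Lg G) ∪ dgE (ℕ × G) ''
    (Set.range (fun p : G × G => mu p.1 p.2) ∪ Set.range (covG G).Λ ∪ Set.range π))).topologicalClosure

variable (π : G → ell G ℂ →L[ℂ] ell G ℂ)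

theorem DD_closed : IsClosed (DD π : Set (HH G →L[ℂ] HH G)) :=
  StarSubalgebra.isClosed_topologicalClosure _

theorem Lg_DD (g : G) : Lg G g ∈ DD π :=
  StarSubalgebra.le_topologicalClosure _ (StarAlgebra.subset_adjoin ℂ _ (Or.inl ⟨g, rfl⟩))

theorem mu_DD (a b : G) : dgE (ℕ × G) (mu a b) ∈ DD π :=
  StarSubalgebra.le_topologicalClosure _ (StarAlgebra.subset_adjoin ℂ _
    (Or.inr ⟨_, Or.inl (Or.inl ⟨(a, b), rfl⟩), rfl⟩))

theorem Λ_DD (g : G) : dgE (ℕ × G) ((covG G).Λ g) ∈ DD π :=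
  StarSubalgebra.le_topologicalClosure _ (StarAlgebra.subset_adjoin ℂ _
    (Or.inr ⟨_, Or.inl (Or.inr ⟨g, rfl⟩), rfl⟩))

theorem π_DD (g : G) : dgE (ℕ × G) (π g) ∈ DD π :=
  StarSubalgebra.le_topologicalClosure _ (StarAlgebra.subset_adjoin ℂ _
    (Or.inr ⟨_, Or.inr ⟨g, rfl⟩, rfl⟩))

theorem adjoin_sep {A : Type*} [CStarAlgebra A] {t : Set A} (ht : t.Countable) :
    IsSeparable (StarAlgebra.adjoin ℂ t : Set A) := by
  have h1 : (t ∪ star t).Countable :=
    ht.union (ht.preimage star_injective)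
  have := h1.to_subtype
  have h2 : (Submonoid.closure (t ∪ star t) : Set A).Countable := by
    refine (Set.countable_range fun l : List ↥(t ∪ star t) => (l.map Subtype.val).prod).mono ?_
    intro x hx
    obtain ⟨l, hl, rfl⟩ := Submonoid.exists_list_of_mem_closure hx
    exact ⟨l.pmap Subtype.mk hl, by simp [List.map_pmap]⟩
  have h3 := h2.isSeparable.span (R := ℂ)
  rwa [← StarAlgebra.adjoin_eq_span] at h3

theorem DD_sep [Countable G] : IsSeparable (DD π : Set (HH G →L[ℂ] HH G)) := by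
  exact (adjoin_sep ((Set.countable_range _).union ((((Set.countable_range _).union
    (Set.countable_range _)).union (Set.countable_range _)).image _))).closure

theorem DD_comm {T : HH G →L[ℂ] HH G} (h1 : ∀ g, Lg G g * T = T * Lg G g)
    (h2 : ∀ x, dgE (ℕ × G) x * T = T * dgE (ℕ × G) x) : ∀ d ∈ DD π, d * T = T * d := by
  have : DD π ≤ StarSubalgebra.centralizer ℂ {T} := by
    refine StarSubalgebra.topologicalClosure_minimal (StarAlgebra.adjoin_le ?_)
      (Set.isClosed_centralizer _)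
    rintro _ (⟨g, rfl⟩ | ⟨x, -, rfl⟩) <;>
      refine (StarSubalgebra.mem_centralizer_iff ℂ).2 ?_ <;> rintro _ rfl
    · refine ⟨(h1 g).symm, ?_⟩
      have := congrArg star (h1 g⁻¹)
      rwa [star_mul, star_mul, show star (Lg G g⁻¹) = Lg G g from
        (star_actE _ _).trans (by rw [inv_inv]; rfl)] at this
    · refine ⟨(h2 x).symm, ?_⟩
      have := congrArg star (h2 (star x))
      rwa [star_mul, star_mul, ← map_star, star_star] at this
  exact fun d hd => ((StarSubalgebra.mem_centralizer_iff ℂ).1 (this hd) T rfl).1.symm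

variable {ι : Type} {s : ℝ} (S : PSys (covG (FreeGroup ι)) s)

theorem exists_Z (hs : 0 ≤ s) : ∃ Z ∈ unitary (HH (FreeGroup ι) →L[ℂ] HH (FreeGroup ι)),
    ‖Z - 1‖ ≤ 6 * s ∧ ∀ g, Z * (Lg _ g * dgE _ ((covG _).Λ g)) * star Z = Lg _ g * dgE _ (S.π 1 g) := by
  have h1 : (covG (FreeGroup ι)).Cm ((1 : unitary (ell (FreeGroup ι) ℂ →L[ℂ] ell (FreeGroup ι) ℂ)) :
      ell (FreeGroup ι) ℂ →L[ℂ] ell (FreeGroup ι) ℂ) := ⟨fun _ => by simp, fun _ => by simp⟩
  let z : ℕ × FreeGroup ι → ell (FreeGroup ι) ℂ →L[ℂ] ell (FreeGroup ι) ℂ :=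
    fun p => S.π 1 p.2 * (covG _).Λ p.2⁻¹
  have hz : ∀ p, z p ∈ unitary (ell (FreeGroup ι) ℂ →L[ℂ] ell (FreeGroup ι) ℂ) := fun p =>
    mul_mem (S.π_mem h1 _) ((covG _).Λ_mem _)
  have hb : Bd z := ⟨1, fun p => opNorm_le_bound _ zero_le_one fun v => by
    rw [norm_map_of_mem_unitary (hz p), one_mul]⟩
  have hZ : mop z ∈ unitary (HH (FreeGroup ι) →L[ℂ] HH (FreeGroup ι)) := by
    rw [Unitary.mem_iff, ← mop_star hb, ← mop_mul hb.star hb, ← mop_mul hb hb.star]
    simp only [(hz _).1, (hz _).2, mop_one, and_self]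
  refine ⟨mop z, hZ, ?_, fun g => ?_⟩
  · rw [← mop_one, ← mop_sub hb (Bd.const _)]
    refine mop_norm_le (by positivity) fun p => ?_
    have e : z p - 1 = (S.π 1 p.2 - (covG _).Λ p.2) * (covG _).Λ p.2⁻¹ := by
      rw [sub_mul, ← map_mul, mul_inv_cancel, map_one]
    rw [e, CStarRing.norm_mul_mem_unitary _ ((covG _).Λ_mem _)]
    exact S.π_near 1 h1 _
  · have : mop z * (Lg _ g * dgE _ ((covG _).Λ g)) = Lg _ g * dgE _ (S.π 1 g) * mop z := by
      refine HH_ext fun ξ k h => ?_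
      simp only [mul_apply_eq_comp, mop_apply hb, dgE_apply, Lg_apply, z]
      rw [← mul_apply_eq_comp (S.π 1 g), ← S.π_mul 1 h1, ← mul_apply_eq_comp ((covG _).Λ h⁻¹),
        ← map_mul]
      simp
    rw [this, mul_assoc, hZ.2, mul_one]

theorem Ek_single (k : ℕ) (g : G) (v : ell G ℂ) :
    Ek G k 0 (ell.single (0, g) v) = ell.single (k, g) v := by
  classical
  refine ell.ext fun ⟨m, h⟩ => ?_
  rw [Ek_apply, ell.single_apply, ell.single_apply]
  by_cases h1 : m = k <;> simp [h1]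

theorem Λ_single (g x : G) : (covG G).Λ g (ell.single x 1) = ell.single (g * x) 1 := by
  classical
  refine ell.ext fun y => ?_
  rw [Λ_apply, ell.single_apply, ell.single_apply]
  simp only [inv_mul_eq_iff_eq_mul]

theorem P_single (a x : G) [Decidable (x = a)] :
    (covG G).P {a} (ell.single x 1) = if x = a then ell.single x 1 else 0 := by
  classical
  refine ell.ext fun y => (pvmE_apply id {a} _ y).trans ?_
  by_cases h1 : x = a
  · subst h1
    by_cases h2 : y = x <;> simp [h2, ell.single_apply]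
  · by_cases h2 : y = a
    · subst h2; simp [h1, ell.single_apply_ne (Ne.symm h1)]
    · simp [h1, h2]

theorem test (i : ι) (k : ℕ) :
    ⟪Ek _ k 0 (ell.single (0, 1) (ell.single 1 1)),
      (Lg _ (FreeGroup.of i) * dgE (ℕ × FreeGroup ι) (S.π 1 (FreeGroup.of i)) :
        HH (FreeGroup ι) →L[ℂ] HH (FreeGroup ι)) (Rg _ (FreeGroup.of i)
        (Ek _ k 0 (ell.single (0, 1) (ell.single 1 1))))⟫_ℂ = s := by
  classical
  have h1 : (covG (FreeGroup ι)).Cm ((1 : unitary (ell (FreeGroup ι) ℂ →L[ℂ] ell (FreeGroup ι) ℂ)) :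
      ell (FreeGroup ι) ℂ →L[ℂ] ell (FreeGroup ι) ℂ) := ⟨fun _ => by simp, fun _ => by simp⟩
  have ha : FreeGroup.of i ≠ 1 := FreeGroup.of_ne_one i
  rw [Ek_single, ell.inner_single_left, mul_apply_eq_comp, Lg_apply, dgE_apply, Rg_apply, mul_one,
    inv_mul_cancel, ell.single_apply_self, ell.inner_single_left, S.π_of 1 h1, Cov.gen]
  simp [Λ_single, P_single, ha, ell.single_apply_ne ha.symm]

theorem norm_test (k : ℕ) : ‖Ek G k 0 (ell.single (0, 1) (ell.single 1 1))‖ = 1 := by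
  rw [Ek_single, ell.norm_single, ell.norm_single, norm_one]

end NC

end

end Crest.Agent.R78
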