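import Crest.Agent.R78.NIDef

/-!
# Row 78, task R78-NIA: the near inclusion.

PLAN.  `comm_zpow`: `‖w T - T w‖ = ‖w⁻¹ T - T w⁻¹‖`, induction (`Int.induction_on`).
`comm_π`: `π_def`, `c_comm`, `c_le`, `comm_zpow` and `∑_{e ∈ ℤ} 2 · 2^{-|e|} |e| = 8` (any finite partial sum is
`≤ 8`; the statement allows `20`).  `C1_π2`: `c_comm` with `C2_Λ1`, `C2_P1`, and `C1_dg`.
`V1_mem`, `V2_mem`: `mop_mul`, `mop_star`, `π_mem`.
`near`: `x₀ = V⋆ x V` commutes with `rho γ` and all `dgE T`.  `x₂ = V₂ x₀ V₂⋆` commutes with `rho γ`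
(`rho γ * V₂ = V₂ * dgE (π v γ.2) * rho (γ)`), and with `dgE T` whenever `T` commutes with all `S₂.π (am v) h`,
e.g. `T = S₁.c g e`.  Put `Ce e = mop fun α => S₁.c α.1 e` (norm `≤ 2 · 2^{-|e|}`), `U = dgE (am u)`,
`V₁ = ∑' e, Ce e * U^e` (check on coordinates), `y = ∑' e, Ce e * x₂ * U^e * V₁⋆`;
`x - y = ∑' Ce e (U^e x₂ - x₂ U^e) V₁⋆` and `‖U V₂ - V₂ U‖ ≤ 20 κ` (`comm_π`, `mop_norm_le`).
`y` commutes with `rho γ`: `rho γ * Ce e = (∑ e₂ ∈ supp (c γ.1), Ce (e - e₂) * dgE (c γ.1 e₂)) * rho γ` (`conv`),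
`rho γ * V₁⋆ = dgE (π u γ.1⁻¹) * V₁⋆ * rho γ`; exchange the finite sum with `∑'`, shift `e`
(`Equiv.tsum_eq (Equiv.subRight e₂)`), and `∑ e₂, c γ.1 e₂ * u^e₂ = π u γ.1`.
-/

set_option autoImplicit false

namespace Crest.Agent.R78

theorem comm_pow {A : Type*} [CStarAlgebra A] (w : unitary A) (T : A) (n : ℕ) :
    ‖(w ^ n : unitary A) * T - T * (w ^ n : unitary A)‖ ≤ n * ‖w * T - T * w‖ := by
  induction n with
  | zero => simp
  | succ n ih =>
    have e : ((w ^ (n + 1) : unitary A) : A) * T - T * (w ^ (n + 1) : unitary A) =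
        (w ^ n : unitary A) * (w * T - T * w) +
          ((w ^ n : unitary A) * T - T * (w ^ n : unitary A)) * w := by
      rw [pow_succ, Submonoid.coe_mul]; noncomm_ring
    rw [e]
    refine (norm_add_le _ _).trans ?_
    rw [CStarRing.norm_coe_unitary_mul, CStarRing.norm_mul_coe_unitary]
    rw [Nat.cast_succ]
    linarith

theorem hasSum_congr' {α β : Type*} [AddCommMonoid α] [TopologicalSpace α] {f g : β → α}
    {a : α} (h : HasSum f a) (e : ∀ b, g b = f b) : HasSum g a := by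
  rwa [funext e]

theorem hasSum_w0 : HasSum (fun e : ℤ => 2 * (1 / 2 : ℝ) ^ e.natAbs) 6 := by
  have h := hasSum_geometric_two.mul_left 2
  have := HasSum.of_nat_of_neg (f := fun e : ℤ => 2 * (1 / 2 : ℝ) ^ e.natAbs)
    (by simpa using h) (by simpa using h)
  rwa [show (2 * 2 + 2 * 2 - 2 * (1 / 2 : ℝ) ^ Int.natAbs 0) = 6 by norm_num] at this

theorem hasSum_w1 : HasSum (fun e : ℤ => 2 * (1 / 2 : ℝ) ^ e.natAbs * e.natAbs) 8 := by
  have h := (hasSum_coe_mul_geometric_of_norm_lt_one (r := (1 / 2 : ℝ)) (by norm_num)).mul_left 2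
  have h' : HasSum (fun n : ℕ => 2 * (1 / 2 : ℝ) ^ n * n) 4 := by
    rw [show (2 * (1 / 2 / (1 - 1 / 2) ^ 2) : ℝ) = 4 by norm_num] at h
    simpa only [mul_assoc, mul_comm (_ ^ _ : ℝ)] using h
  have := HasSum.of_nat_of_neg (f := fun e : ℤ => 2 * (1 / 2 : ℝ) ^ e.natAbs * e.natAbs)
    (by simpa using h') (by simpa using h')
  rwa [show (4 + 4 - 2 * (1 / 2 : ℝ) ^ Int.natAbs 0 * (Int.natAbs 0 : ℕ)) = 8 by norm_num] at this

theorem norm_le_one_of_unitary {E : Type*} [NormedAddCommGroup E] [InnerProductSpace ℂ E]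
    [CompleteSpace E] {U : E →L[ℂ] E} (hU : U ∈ unitary (E →L[ℂ] E)) : ‖U‖ ≤ 1 := by
  rw [← mul_one U, CStarRing.norm_mem_unitary_mul _ hU]
  exact ContinuousLinearMap.norm_id_le

theorem comm_zpow {A : Type*} [CStarAlgebra A] (w : unitary A) (T : A) (e : ℤ) :
    ‖(w ^ e : unitary A) * T - T * (w ^ e : unitary A)‖ ≤ e.natAbs * ‖w * T - T * w‖ := by
  rcases Int.natAbs_eq e with h | h
  · conv_lhs => rw [h, zpow_natCast]
    exact comm_pow w T _
  · conv_lhs => rw [h, zpow_neg, zpow_natCast, ← inv_pow]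
    refine (comm_pow w⁻¹ T _).trans (le_of_eq ?_)
    congr 1
    have e1 : ((w⁻¹ : unitary A) : A) * T - T * (w⁻¹ : unitary A) =
        (w⁻¹ : unitary A) * (T * w - w * T) * (w⁻¹ : unitary A) := by
      have a1 : ((w⁻¹ : unitary A) : A) * w = 1 := by
        rw [← Submonoid.coe_mul, inv_mul_cancel]; rfl
      have a2 : (w : A) * (w⁻¹ : unitary A) = 1 := by
        rw [← Submonoid.coe_mul, mul_inv_cancel]; rfl
      rw [mul_sub, sub_mul, ← mul_assoc _ (w : A), a1, one_mul, mul_assoc, mul_assoc T, a2, mul_one]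
    rw [e1, CStarRing.norm_mul_coe_unitary, CStarRing.norm_coe_unitary_mul, norm_sub_rev]

theorem comm_zpow' {E : Type*} [NormedAddCommGroup E] [InnerProductSpace ℂ E] [CompleteSpace E]
    (w : unitary (E →L[ℂ] E)) (T : E →L[ℂ] E) (e : ℤ) :
    ‖(w ^ e : unitary (E →L[ℂ] E)) * T - T * (w ^ e : unitary (E →L[ℂ] E))‖ ≤
      e.natAbs * ‖w * T - T * w‖ := comm_zpow w T e

theorem comm_zpow_of_comm {E : Type*} [NormedAddCommGroup E] [InnerProductSpace ℂ E]
    [CompleteSpace E] (w : unitary (E →L[ℂ] E)) {T : E →L[ℂ] E} (h : T * w = w * T) (e : ℤ) :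
    T * (w ^ e : unitary (E →L[ℂ] E)) = (w ^ e : unitary (E →L[ℂ] E)) * T := by
  have := comm_zpow' w T e
  rw [h, sub_self, norm_zero, mul_zero, norm_le_zero_iff, sub_eq_zero] at this
  exact this.symm

theorem PSys.comm_π {E : Type*} [NormedAddCommGroup E] [InnerProductSpace ℂ E] [CompleteSpace E]
    {ι : Type*} {C : Cov (FreeGroup ι) E} {s : ℝ} (S : PSys C s) (w : unitary (E →L[ℂ] E))
    {T : E →L[ℂ] E} (hT : C.Cm T) (g : FreeGroup ι) :
    ‖S.π w g * T - T * S.π w g‖ ≤ 20 * ‖w * T - T * w‖ := by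
  have e : S.π w g * T - T * S.π w g = ∑ e ∈ (S.c g).support, S.c g e *
      ((w ^ e : unitary (E →L[ℂ] E)) * T - T * (w ^ e : unitary (E →L[ℂ] E))) := by
    rw [S.π_def, Finset.sum_mul, Finset.mul_sum, ← Finset.sum_sub_distrib]
    refine Finset.sum_congr rfl fun e _ => ?_
    rw [mul_sub, ← mul_assoc T, ← S.c_comm T hT, mul_assoc, mul_assoc]
  rw [e]
  refine (norm_sum_le _ _).trans ?_
  have h1 : ∀ e ∈ (S.c g).support, ‖S.c g e *
      ((w ^ e : unitary (E →L[ℂ] E)) * T - T * (w ^ e : unitary (E →L[ℂ] E)))‖ ≤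
      2 * (1 / 2 : ℝ) ^ e.natAbs * e.natAbs * ‖w * T - T * w‖ := fun e _ => by
    refine (norm_mul_le _ _).trans ?_
    rw [mul_assoc _ (e.natAbs : ℝ)]
    exact mul_le_mul (S.c_le g e) (comm_zpow w T e) (norm_nonneg _) (by positivity)
  refine (Finset.sum_le_sum h1).trans ?_
  rw [← Finset.sum_mul]
  refine mul_le_mul_of_nonneg_right ?_ (norm_nonneg _)
  exact (sum_le_hasSum _ (fun _ _ => by positivity) hasSum_w1).trans (by norm_num)

namespace NI

variable {K : Type} [NormedAddCommGroup K] [InnerProductSpace ℂ K] [CompleteSpace K]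
  {ι : Type} {s : ℝ} (S₁ : PSys (C1 (FreeGroup ι) K) s) (S₂ : PSys (C2 (FreeGroup ι) K) s)
  (u v : unitary (K →L[ℂ] K))

theorem C1_π2 (h : FreeGroup ι) : (C1 (FreeGroup ι) K).Cm (S₂.π (am v) h) := by
  have key : ∀ T, (C2 (FreeGroup ι) K).Cm T → T * dgE _ (v : K →L[ℂ] K) = dgE _ (v : K →L[ℂ] K) * T →
      T * S₂.π (am v) h = S₂.π (am v) h * T := fun T h1 h2 => by
    have := S₂.comm_π (am v) h1 h
    rw [coe_am, h2, sub_self, norm_zero, mul_zero, norm_le_zero_iff, sub_eq_zero] at this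
    exact this.symm
  exact ⟨fun g => key _ (C2_Λ1 g) ((C1_dg _).1 g), fun S => key _ (C2_P1 S) ((C1_dg _).2 S)⟩

theorem π2_am (h : FreeGroup ι) :
    ‖S₂.π (am v) h * (am u : unitary (EE (FreeGroup ι) K →L[ℂ] EE (FreeGroup ι) K)) -
      (am u : unitary (EE (FreeGroup ι) K →L[ℂ] EE (FreeGroup ι) K)) * S₂.π (am v) h‖ ≤
      20 * ‖(u : K →L[ℂ] K) * v - v * u‖ := by
  refine (S₂.comm_π (am v) (C2_dg (u : K →L[ℂ] K)) h).trans ?_
  rw [coe_am, ← map_mul, ← map_mul, ← map_sub, norm_dgE, norm_sub_rev]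

theorem comm_ππ (g h : FreeGroup ι) :
    ‖S₁.π (am u) g * S₂.π (am v) h - S₂.π (am v) h * S₁.π (am u) g‖ ≤
      400 * ‖(u : K →L[ℂ] K) * v - v * u‖ := by
  have h1 := S₁.comm_π (am u) (C1_π2 S₂ v h) g
  have h2 := π2_am S₂ u v h
  rw [norm_sub_rev] at h2
  linarith

theorem mop_mem_unitary {Ξ E : Type*} [NormedAddCommGroup E] [InnerProductSpace ℂ E]
    [CompleteSpace E] {X : Ξ → E →L[ℂ] E} (hX : ∀ ξ, X ξ ∈ unitary (E →L[ℂ] E)) :
    mop X ∈ unitary (ell Ξ E →L[ℂ] ell Ξ E) := by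
  have hb : Bd X := ⟨1, fun ξ => norm_le_one_of_unitary (hX ξ)⟩
  rw [Unitary.mem_iff, ← mop_star hb, ← mop_mul hb.star hb, ← mop_mul hb hb.star]
  simp only [fun ξ => (hX ξ).1, fun ξ => (hX ξ).2, mop_one, and_self]

theorem π1_mem (g : FreeGroup ι) :
    S₁.π (am u) g ∈ unitary (EE (FreeGroup ι) K →L[ℂ] EE (FreeGroup ι) K) :=
  S₁.π_mem (w := am u) (C1_dg _) g

theorem π2_mem (g : FreeGroup ι) :
    S₂.π (am v) g ∈ unitary (EE (FreeGroup ι) K →L[ℂ] EE (FreeGroup ι) K) :=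
  S₂.π_mem (w := am v) (C2_dg _) g

theorem bd1 : Bd fun α : FreeGroup ι × FreeGroup ι => S₁.π (am u) α.1 :=
  ⟨1, fun _ => norm_le_one_of_unitary (π1_mem S₁ u _)⟩

theorem bd2 : Bd fun α : FreeGroup ι × FreeGroup ι => S₂.π (am v) α.2 :=
  ⟨1, fun _ => norm_le_one_of_unitary (π2_mem S₂ v _)⟩

theorem V1_apply (ξ : HH (FreeGroup ι) K) (α : FreeGroup ι × FreeGroup ι) :
    V1 S₁ u ξ α = S₁.π (am u) α.1 (ξ α) := mop_apply (bd1 S₁ u) ξ α

theorem V2_apply (ξ : HH (FreeGroup ι) K) (α : FreeGroup ι × FreeGroup ι) :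
    V2 S₂ v ξ α = S₂.π (am v) α.2 (ξ α) := mop_apply (bd2 S₂ v) ξ α

theorem V1_mem : V1 S₁ u ∈ unitary (HH (FreeGroup ι) K →L[ℂ] HH (FreeGroup ι) K) := mop_mem_unitary fun α => π1_mem S₁ u α.1

theorem V2_mem : V2 S₂ v ∈ unitary (HH (FreeGroup ι) K →L[ℂ] HH (FreeGroup ι) K) := mop_mem_unitary fun α => π2_mem S₂ v α.2

theorem rho_V1 (γ : FreeGroup ι × FreeGroup ι) : rho (FreeGroup ι) K γ * V1 S₁ u =
    V1 S₁ u * dgE _ (S₁.π (am u) γ.1) * rho (FreeGroup ι) K γ := by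
  ext1 ξ; ext1 α
  simp only [mul_apply_eq_comp, rho_apply, V1_apply, dgE_apply, Prod.fst_mul,
    S₁.π_mul (am u) (C1_dg _)]

theorem rho_V2 (γ : FreeGroup ι × FreeGroup ι) : rho (FreeGroup ι) K γ * V2 S₂ v =
    V2 S₂ v * dgE _ (S₂.π (am v) γ.2) * rho (FreeGroup ι) K γ := by
  ext1 ξ; ext1 α
  simp only [mul_apply_eq_comp, rho_apply, V2_apply, dgE_apply, Prod.snd_mul,
    S₂.π_mul (am v) (C2_dg _)]

set_option maxHeartbeats 400000 in
theorem near : ∀ x ∈ MM S₁ S₂ u v, ∃ y ∈ NN (FreeGroup ι) K,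
    ‖x - y‖ ≤ 1000 * ‖(u : K →L[ℂ] K) * v - v * u‖ * ‖x‖ := by
  intro x hx
  set κ := ‖(u : K →L[ℂ] K) * v - v * u‖ with hκ
  set W1 := V1 S₁ u with hW1
  set W2 := V2 S₂ v with hW2
  have a1 : star W1 * W1 = 1 := (V1_mem S₁ u).1
  have a2 : W1 * star W1 = 1 := (V1_mem S₁ u).2
  have b1 : star W2 * W2 = 1 := (V2_mem S₂ v).1
  have b2 : W2 * star W2 = 1 := (V2_mem S₂ v).2
  have n1 : ‖star W1‖ ≤ 1 := norm_le_one_of_unitary (Unitary.star_mem (V1_mem S₁ u))
  set x₂ := star W1 * x * W1 with hx₂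
  have ex : x = W1 * x₂ * star W1 := by
    rw [hx₂, ← mul_assoc, ← mul_assoc, a2, one_mul, mul_assoc, a2, mul_one]
  have nx : ‖x₂‖ = ‖x‖ := by
    rw [hx₂, CStarRing.norm_mul_mem_unitary _ (V1_mem S₁ u),
      CStarRing.norm_mem_unitary_mul _ (Unitary.star_mem (V1_mem S₁ u))]
  -- commutation of `x₂` with `W2 T W2⋆`
  have c0 : ∀ T ∈ Set.range (rho (FreeGroup ι) K) ∪ Set.range (dgE (FreeGroup ι × FreeGroup ι)),
      W2 * T * star W2 * x₂ = x₂ * (W2 * T * star W2) := fun T hT => by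
    have h := (mem_vnc.1 hx _ ⟨T, hT, rfl⟩).1
    simp only [VV, star_mul, ← hW1, ← hW2] at h
    have h' := congrArg (fun t => star W1 * t * W1) h
    simp only [← mul_assoc, a1, one_mul] at h'
    simp only [mul_assoc, a1, mul_one] at h'
    simp only [hx₂, mul_assoc, h']
  have c1 : ∀ γ, rho (FreeGroup ι) K γ * x₂ = x₂ * rho (FreeGroup ι) K γ := fun γ => by
    have e : rho (FreeGroup ι) K γ = W2 * dgE _ (S₂.π (am v) γ.2) * star W2 *
        (W2 * rho (FreeGroup ι) K γ * star W2) := by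
      have := congrArg (· * star W2) (rho_V2 S₂ v γ)
      simp only [← hW2, mul_assoc, b2, mul_one] at this
      rw [mul_assoc, mul_assoc, ← mul_assoc (star W2), ← mul_assoc (star W2), b1, one_mul]
      exact this
    have d1 := c0 _ (Or.inl ⟨γ, rfl⟩)
    have d2 := c0 _ (Or.inr ⟨S₂.π (am v) γ.2, rfl⟩)
    rw [e, mul_assoc _ _ x₂, d1, ← mul_assoc _ x₂, d2, mul_assoc x₂]
  have c2 : ∀ g e, dgE _ (S₁.c g e) * x₂ = x₂ * dgE _ (S₁.c g e) := fun g e => by
    have e1 : W2 * dgE _ (S₁.c g e) = dgE _ (S₁.c g e) * W2 := by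
      ext1 ξ; ext1 α
      simp only [mul_apply_eq_comp, hW2, V2_apply, dgE_apply]
      exact (congrArg (fun t : EE (FreeGroup ι) K →L[ℂ] EE (FreeGroup ι) K => t (ξ α))
        (S₁.c_comm _ (C1_π2 S₂ v α.2) g e)).symm
    have d2 := c0 _ (Or.inr ⟨S₁.c g e, rfl⟩)
    rwa [e1, mul_assoc _ W2, b2, mul_one] at d2
  let Ce : ℤ → HH (FreeGroup ι) K →L[ℂ] HH (FreeGroup ι) K := fun e => mop fun α => S₁.c α.1 e
  have bC : ∀ e, Bd fun α : FreeGroup ι × FreeGroup ι => S₁.c α.1 e := fun e =>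
    ⟨_, fun α => S₁.c_le α.1 e⟩
  have nC : ∀ e, ‖Ce e‖ ≤ 2 * (1 / 2) ^ e.natAbs := fun e =>
    mop_norm_le (by positivity) fun α => S₁.c_le α.1 e
  let w : ℤ → EE (FreeGroup ι) K →L[ℂ] EE (FreeGroup ι) K := fun e =>
    (am u ^ e : unitary (EE (FreeGroup ι) K →L[ℂ] EE (FreeGroup ι) K))
  let Ue : ℤ → HH (FreeGroup ι) K →L[ℂ] HH (FreeGroup ι) K := fun e => dgE _ (w e)
  have nU : ∀ e, ‖Ue e‖ ≤ 1 := fun e =>
    (norm_dgE_le _).trans (norm_le_one_of_unitary (am u ^ e).2)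
  have hsum : ∀ (F : ℤ → HH (FreeGroup ι) K →L[ℂ] HH (FreeGroup ι) K) (B : ℝ), (∀ e, ‖F e‖ ≤ B) →
      Summable fun e => Ce e * F e := fun F B hB =>
    Summable.of_norm_bounded (hasSum_w0.summable.mul_right B) fun e =>
      (norm_mul_le _ _).trans (mul_le_mul (nC e) (hB e) (norm_nonneg _) (by positivity))
  have hV : HasSum (fun e => Ce e * Ue e) W1 := by
    have h := (hsum Ue 1 nU).hasSum
    convert h using 1
    ext1 ξ; ext1 α
    have h2 := ((ContinuousLinearMap.adjoint (ell.sng α)).comp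
      (ContinuousLinearMap.apply ℂ (HH (FreeGroup ι) K) ξ)).hasSum h
    simp only [ContinuousLinearMap.comp_apply, ContinuousLinearMap.apply_apply,
      ell.adjoint_sng_apply, mul_apply_eq_comp, Ce, Ue, mop_apply (bC _), dgE_apply] at h2
    refine HasSum.unique ?_ h2
    rw [hW1, V1_apply, S₁.π_def, sum_apply]
    refine hasSum_sum_of_ne_finset_zero fun e he => ?_
    rw [Finsupp.notMem_support_iff.1 he]; rfl
  let Z : ℤ → HH (FreeGroup ι) K →L[ℂ] HH (FreeGroup ι) K := fun e => x₂ * Ue e * star W1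
  have nZ : ∀ e, ‖Z e‖ ≤ ‖x‖ := fun e => by
    refine norm_mul₃_le.trans ?_
    rw [nx]
    have : ‖x‖ * ‖Ue e‖ * ‖star W1‖ ≤ ‖x‖ * 1 * 1 := by gcongr; exact nU e
    linarith
  have hy := (hsum Z _ nZ).hasSum
  set y := ∑' e, Ce e * Z e
  have hc : ∀ γ, rho (FreeGroup ι) K γ * y = y * rho (FreeGroup ι) K γ := fun γ => by
    set R := rho (FreeGroup ι) K γ with hR
    have nR : ‖R‖ ≤ 1 := norm_le_one_of_unitary (actE_mem _ γ)
    let D : ℤ → HH (FreeGroup ι) K →L[ℂ] HH (FreeGroup ι) K := fun e => dgE _ (S₁.c γ.1 e)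
    have r1 : ∀ e, R * Ce e = ∑ e₂ ∈ (S₁.c γ.1).support, Ce (e - e₂) * (D e₂ * R) := fun e => by
      ext1 ξ; ext1 α
      simp only [hR, mul_apply_eq_comp, rho_apply, Ce, D, mop_apply (bC _), dgE_apply,
        sum_apply, ell.sum_apply, Prod.fst_mul, S₁.conv]
    have r2 : star W1 * R = dgE _ (S₁.π (am u) γ.1) * R * star W1 := by
      have := congrArg (fun t => star W1 * t * star W1) (rho_V1 S₁ u γ)
      simp only [← hW1, ← hR, ← mul_assoc, a1, one_mul] at this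
      simpa only [mul_assoc, a2, mul_one] using this
    have r3 : ∀ e, Z e * R = ∑ e₂ ∈ (S₁.c γ.1).support, D e₂ * R * Z (e + e₂) := fun e => by
      simp only [Z]
      rw [mul_assoc, r2, S₁.π_def, map_sum, Finset.sum_mul, Finset.sum_mul, Finset.mul_sum]
      refine Finset.sum_congr rfl fun e₂ _ => ?_
      have s1 : Ue e * D e₂ = D e₂ * Ue e := by
        simp only [Ue, D, ← map_mul]
        congr 1
        refine (S₁.c_comm _ ⟨fun g => ?_, fun S => ?_⟩ _ _).symm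
        · exact comm_zpow_of_comm (am u) ((C1_dg _).1 g) e
        · exact comm_zpow_of_comm (am u) ((C1_dg _).2 S) e
      have s2 : Ue e * Ue e₂ = Ue (e + e₂) := by
        simp only [Ue, w, ← map_mul, zpow_add, Submonoid.coe_mul]
      have s3 : Ue (e + e₂) * R = R * Ue (e + e₂) := by
        ext1 ξ; ext1 α
        simp only [hR, mul_apply_eq_comp, rho_apply, Ue, dgE_apply]
      have s4 : x₂ * D e₂ = D e₂ * x₂ := (c2 _ _).symm
      have s5 : x₂ * R = R * x₂ := (c1 _).symm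
      rw [map_mul]
      change x₂ * Ue e * (D e₂ * Ue e₂ * R * star W1) = D e₂ * R * (x₂ * Ue (e + e₂) * star W1)
      calc _ = x₂ * (Ue e * D e₂) * Ue e₂ * R * star W1 := by simp only [mul_assoc]
        _ = (x₂ * D e₂) * ((Ue e * Ue e₂) * R) * star W1 := by rw [s1]; simp only [mul_assoc]
        _ = D e₂ * (x₂ * R) * Ue (e + e₂) * star W1 := by rw [s4, s2, s3]; simp only [mul_assoc]
        _ = _ := by rw [s5]; simp only [mul_assoc]
    have sm : ∀ e₂, Summable fun e => Ce e * (D e₂ * R * Z (e + e₂)) := fun e₂ =>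
      hsum _ (‖D e₂ * R‖ * ‖x‖) fun e => (norm_mul_le _ _).trans (by gcongr; exact nZ _)
    have t1 := hasSum_sum (s := (S₁.c γ.1).support) fun e₂ _ => (sm e₂).hasSum
    have t2 := hasSum_sum (s := (S₁.c γ.1).support) fun e₂ _ =>
      (Equiv.subRight e₂).hasSum_iff.2 (sm e₂).hasSum
    refine ((hy.mul_left R).unique ?_).trans (t1.unique ?_)
    · refine hasSum_congr' t2 fun e => ?_
      rw [← mul_assoc, r1, Finset.sum_mul]
      refine Finset.sum_congr rfl fun e₂ _ => ?_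
      simp only [Function.comp_apply, Equiv.subRight_apply, sub_add_cancel, mul_assoc]
    · refine hasSum_congr' (hy.mul_right R) fun e => ?_
      rw [mul_assoc (Ce e), r3, Finset.mul_sum]
  refine ⟨y, mem_vnc.2 ?_, ?_⟩
  · rintro _ ⟨γ, rfl⟩
    exact ⟨hc γ, by rw [star_rho]; exact hc _⟩
  · have h1 : HasSum (fun e => Ce e * ((Ue e * x₂ - x₂ * Ue e) * star W1)) (x - y) := by
      have := ((hV.mul_right x₂).mul_right (star W1)).sub hy
      rw [← ex] at this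
      refine hasSum_congr' this fun e => ?_
      simp only [Z, mul_sub, sub_mul, mul_assoc]
    have h2 : ∀ e, ‖Ue e * W2 - W2 * Ue e‖ ≤ e.natAbs * (20 * κ) := fun e => by
      have e1 : Ue e * W2 - W2 * Ue e =
          mop fun α : FreeGroup ι × FreeGroup ι =>
            w e * S₂.π (am v) α.2 - S₂.π (am v) α.2 * w e := by
        ext1 ξ; ext1 α
        rw [mop_apply (((Bd.const _).mul (bd2 S₂ v)).sub ((bd2 S₂ v).mul (Bd.const _)))]
        simp only [sub_apply, ell.sub_apply, mul_apply_eq_comp, Ue, hW2, V2_apply, dgE_apply]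
      rw [e1]
      refine mop_norm_le (by positivity) fun α => (comm_zpow' _ _ e).trans ?_
      gcongr
      rw [norm_sub_rev]
      exact π2_am S₂ u v α.2
    have h3 : ∀ e, ‖Ue e * x₂ - x₂ * Ue e‖ ≤ e.natAbs * (40 * κ * ‖x‖) := fun e => by
      have d := c0 _ (Or.inr ⟨w e, rfl⟩)
      have e1 : Ue e * x₂ - x₂ * Ue e = (Ue e * W2 - W2 * Ue e) * star W2 * x₂ -
          x₂ * ((Ue e * W2 - W2 * Ue e) * star W2) := by
        change W2 * Ue e * star W2 * x₂ = x₂ * (W2 * Ue e * star W2) at d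
        rw [sub_mul, mul_assoc (Ue e) W2, b2, mul_one, sub_mul, mul_sub, d]
        abel
      have e2 : ‖(Ue e * W2 - W2 * Ue e) * star W2‖ ≤ e.natAbs * (20 * κ) := by
        rw [CStarRing.norm_mul_mem_unitary _ (Unitary.star_mem (V2_mem S₂ v))]
        exact h2 e
      rw [e1]
      refine (norm_sub_le _ _).trans ?_
      have f1 := norm_mul_le ((Ue e * W2 - W2 * Ue e) * star W2) x₂
      have f2 := norm_mul_le x₂ ((Ue e * W2 - W2 * Ue e) * star W2)
      rw [nx] at f1 f2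
      have f3 := mul_le_mul_of_nonneg_right e2 (norm_nonneg x)
      linarith
    have h4 := HasSum.norm_le_of_bounded h1 (hasSum_w1.mul_right (40 * κ * ‖x‖)) fun e => by
      refine (norm_mul_le _ _).trans ?_
      rw [mul_assoc _ (e.natAbs : ℝ), CStarRing.norm_mul_mem_unitary _ (Unitary.star_mem (V1_mem S₁ u))]
      exact mul_le_mul (nC e) (h3 e) (norm_nonneg _) (by positivity)
    have h5 : 0 ≤ κ * ‖x‖ := by positivity
    refine h4.trans ?_
    clear_value κ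
    generalize ‖x‖ = t at h5 ⊢
    linarith

end NI

end Crest.Agent.R78
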