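import Crest.Agent.R78.NIA

/-!
# Row 78, task R78-NIB: the obstruction.

PLAN.  `obstr`: `θ γ = U * (V * lam γ * V⋆) * U⋆ ∈ NN` (as `V lam γ V⋆ ∈ MM`: `lam` commutes with `rho` and `dgE`),
`θ` is multiplicative and `star (θ γ) = θ γ⁻¹`.  `A = n⁻¹ • ∑ i, θ (a i, 1) * rho (a i, 1)`,
`B = n⁻¹ • ∑ i, θ (1, a i) * rho (1, a i)`.  `‖θ γ - V lam γ V⋆‖ ≤ 2 ‖U - 1‖`.  On coordinates:
`V lam (a,1) V⋆ = dgE (π u a) * lam (a,1)`, and
`V lam (1,b) V⋆ = mop (fun α => π u α.1 * π v b * π u α.1⁻¹) * lam (1,b)` is within `400 κ` of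
`dgE (π v b) * lam (1,b)` (`comm_ππ`).  `avg_one`: with `C = (C1).map dgE`, `Y i = lam (a i,1) * rho (a i,1)`,
`dgE (π u (a i)) = C.gen ..` (`π_of`, `map_gen`), `b = s • dd u`:
`∑ gen * Y i = ∑ (gen - b P₁) Y i + b P₁ ∑ Y i * P^α {1} + b P₁ ∑ Y i * P^α {1}ᶜ`, `Y i * P^α {1} = P^α {1}`;
`avg_gen`, `conj_bound` (for `pvmE _ Prod.fst`).  The same for the second coordinate.
`block`: `A₀ = mop fun α => mop fun x => T α x - lam • 1` with `T α x = S` if `α = 1 ∧ x = 1`, `X` if only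
`α.1 = 1 ∧ x.1 = 1`, `I • Y` if only `α.2 = 1 ∧ x.2 = 1`, `0` otherwise; each block is bounded below by `1/4`
(`|im ⟪ξ, (X - lam) ξ⟫| = ‖ξ‖²/4`, `‖lam‖ ≤ 3/4`, `‖lam‖ ≥ 1/4`); `F₀ = sng 1 ∘L sng 1 ∘L F ∘L adjoint .. ∘L adjoint ..`;
`single 1 (single 1 κ)` is orthogonal to the range of `A₀`.
-/

set_option autoImplicit false

open scoped ComplexConjugate InnerProductSpace

namespace Crest.Agent.R78

theorem avg_one {E E' : Type*} [NormedAddCommGroup E] [InnerProductSpace ℂ E] [CompleteSpace E]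
    [NormedAddCommGroup E'] [InnerProductSpace ℂ E'] [CompleteSpace E'] {ι : Type*} [Fintype ι]
    [Nonempty ι] {C : Cov (FreeGroup ι) E} {s : ℝ} (hs0 : 0 ≤ s) (hs : s ≤ 1 / 12) (S : PSys C s)
    {w : unitary (E →L[ℂ] E)} (hw : C.Cm w) (φ : (E →L[ℂ] E) →⋆ₐ[ℂ] (E' →L[ℂ] E'))
    (hφ : ∀ T, ‖φ T‖ ≤ ‖T‖) (P' : PVM (FreeGroup ι) E') {Y : ι → E' →L[ℂ] E'} (hY : ∀ i, ‖Y i‖ ≤ 1)
    (hYφ : ∀ i T, φ T * Y i = Y i * φ T)
    (hconj : ∀ i S, Y i * P'.P S =
      P'.P ((fun x => FreeGroup.of i * x * (FreeGroup.of i)⁻¹) '' S) * Y i)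
    (hfix : ∀ i, Y i * P'.P {1} = P'.P {1}) :
    ‖(Fintype.card ι : ℂ)⁻¹ • ∑ i, φ (S.π w (FreeGroup.of i)) * Y i -
      (s : ℂ) • (φ w * φ (C.P {1}) * P'.P {1})‖ ≤ 10 / √(Fintype.card ι) := by
  have hn : (0 : ℝ) < Fintype.card ι := by exact_mod_cast Fintype.card_pos
  have hn' : (Fintype.card ι : ℂ) ≠ 0 := by exact_mod_cast Fintype.card_ne_zero
  have mapCm : ∀ T, C.Cm T → (C.map φ).Cm (φ T) := fun T hT =>
    ⟨fun g => by rw [Cov.map_Λ, ← map_mul, ← map_mul, hT.1], fun S => by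
      rw [Cov.map_P, ← map_mul, ← map_mul, hT.2]⟩
  have smulCm : ∀ (c : ℂ) T, C.Cm T → C.Cm (c • T) := fun c T hT =>
    ⟨fun g => by rw [mul_smul_comm, smul_mul_assoc, hT.1], fun S => by
      rw [mul_smul_comm, smul_mul_assoc, hT.2]⟩
  have starCm : C.Cm (star (w : E →L[ℂ] E)) :=
    ⟨fun g => by
      have := congrArg star (hw.1 g⁻¹)
      rwa [star_mul, star_mul, C.Λ_star, inv_inv, eq_comm] at this, fun S => by
      have := congrArg star (hw.2 S)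
      rwa [star_mul, star_mul, (C.P_sa S).star_eq, eq_comm] at this⟩
  have nw : ‖(w : E →L[ℂ] E)‖ ≤ 1 := norm_le_one_of_unitary w.2
  have ns : ‖(s : ℂ)‖ = s := by rw [Complex.norm_real, Real.norm_of_nonneg hs0]
  set a := φ ((s : ℂ) • star (w : E →L[ℂ] E)) with ha
  set b := φ ((s : ℂ) • (w : E →L[ℂ] E)) with hb
  set c := φ (((√(1 - s ^ 2) : ℝ) : ℂ) • 1) with hc
  have na : ‖a‖ ≤ 1 / 3 := by
    refine (hφ _).trans ?_
    rw [norm_smul, norm_star, ns]; nlinarith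
  have nb : ‖b‖ ≤ 1 := by
    refine (hφ _).trans ?_
    rw [norm_smul, ns]; nlinarith
  have nc : ‖c - 1‖ ≤ 1 / 3 := by
    have e : c - 1 = φ (((√(1 - s ^ 2) - 1 : ℝ) : ℂ) • 1) := by
      rw [hc, Complex.ofReal_sub, sub_smul, map_sub, Complex.ofReal_one, one_smul, map_one]
    rw [e]
    refine (hφ _).trans ?_
    rw [norm_smul, Complex.norm_real, Real.norm_eq_abs]
    have h1 : √(1 - s ^ 2) ≤ 1 := Real.sqrt_le_one.2 (by nlinarith)
    have h2 : 2 / 3 ≤ √(1 - s ^ 2) := Real.le_sqrt_of_sq_le (by nlinarith)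
    have h3 : |√(1 - s ^ 2) - 1| ≤ 1 / 3 := abs_le.2 ⟨by linarith, by linarith⟩
    have h4 : ‖(1 : E →L[ℂ] E)‖ ≤ 1 := ContinuousLinearMap.norm_id_le
    exact (mul_le_mul h3 h4 (norm_nonneg _) (by norm_num)).trans (by norm_num)
  have h1 := avg_gen (C.map φ) (a := a) (b := b) (c := c) (mapCm _ (smulCm _ _ starCm))
    (mapCm _ (smulCm _ _ ⟨fun _ => by simp, fun _ => by simp⟩)) na nc hY fun i S => hYφ i _
  have h2 := conj_bound P' hY hconj
  have e1 : ∀ i, Y i = P'.P {1} + Y i * P'.P {1}ᶜ := fun i => by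
    rw [← hfix i, ← mul_add, ← P'.P_union _ _ disjoint_compl_right, Set.union_compl_self, P'.P_univ,
      mul_one]
  have e2 : (Fintype.card ι : ℂ)⁻¹ • ∑ i, φ (S.π w (FreeGroup.of i)) * Y i -
      (s : ℂ) • (φ w * φ (C.P {1}) * P'.P {1}) = (Fintype.card ι : ℂ)⁻¹ •
        (∑ i, ((C.map φ).gen a b c (FreeGroup.of i) - b * (C.map φ).P {1}) * Y i +
          b * φ (C.P {1}) * ∑ i, Y i * P'.P {1}ᶜ) := by
    have e3 : (s : ℂ) • (φ w * φ (C.P {1}) * P'.P {1}) =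
        (Fintype.card ι : ℂ)⁻¹ • ∑ _i : ι, b * φ (C.P {1}) * P'.P {1} := by
      rw [Finset.sum_const, Finset.card_univ, ← Nat.cast_smul_eq_nsmul ℂ, smul_smul,
        inv_mul_cancel₀ hn', one_smul, hb, map_smul, smul_mul_assoc, smul_mul_assoc]
    rw [e3, ← smul_sub, ← Finset.sum_sub_distrib, Finset.mul_sum, ← Finset.sum_add_distrib]
    congr 1
    refine Finset.sum_congr rfl fun i _ => ?_
    rw [S.π_of w hw, ← Cov.map_gen, ← ha, ← hb, ← hc, Cov.map_P, sub_mul]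
    have e4 : b * φ (C.P {1}) * Y i =
        b * φ (C.P {1}) * P'.P {1} + b * φ (C.P {1}) * (Y i * P'.P {1}ᶜ) := by
      rw [← mul_add, ← e1]
    rw [e4]; abel
  rw [e2, norm_smul, norm_inv, Complex.norm_natCast]
  have h3 : ‖b * φ (C.P {1}) * ∑ i, Y i * P'.P {1}ᶜ‖ ≤ 1 * 1 * (3 * √(Fintype.card ι)) := by
    refine norm_mul₃_le.trans ?_
    gcongr
    exact (hφ _).trans (C.toPVM.norm_le _)
  have h4 := norm_add_le (∑ i, ((C.map φ).gen a b c (FreeGroup.of i) - b * (C.map φ).P {1}) * Y i)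
    (b * φ (C.P {1}) * ∑ i, Y i * P'.P {1}ᶜ)
  have hq : 0 < √(Fintype.card ι : ℝ) := Real.sqrt_pos.2 hn
  rw [inv_mul_le_iff₀ hn, mul_div_assoc', le_div_iff₀ hq]
  have h5 := Real.mul_self_sqrt hn.le
  nlinarith

theorem conj_sub_le {E : Type*} [NormedAddCommGroup E] [InnerProductSpace ℂ E] [CompleteSpace E]
    {U L R : E →L[ℂ] E} (hU : U ∈ unitary (E →L[ℂ] E)) (hL : L ∈ unitary (E →L[ℂ] E))
    (hR : R ∈ unitary (E →L[ℂ] E)) : ‖U * L * star U * R - L * R‖ ≤ 2 * ‖U - 1‖ := by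
  have e : U * L * star U * R - L * R = ((U - 1) * L * star U + L * star (U - 1)) * R := by
    simp only [star_sub, star_one]; noncomm_ring
  rw [e, CStarRing.norm_mul_mem_unitary _ hR]
  refine (norm_add_le _ _).trans ?_
  rw [CStarRing.norm_mul_mem_unitary _ (Unitary.star_mem hU), CStarRing.norm_mul_mem_unitary _ hL,
    CStarRing.norm_mem_unitary_mul _ hL, norm_star, two_mul]

theorem conj_of_mul {A : Type*} [Monoid A] {V V' a b : A} (hV : V * V' = 1) (h : V * a = b * V) :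
    V * a * V' = b := by
  rw [h, mul_assoc, hV, mul_one]

theorem norm_sub_unitary {E : Type*} [NormedAddCommGroup E] [InnerProductSpace ℂ E] [CompleteSpace E]
    {a b L R : E →L[ℂ] E} (hL : L ∈ unitary (E →L[ℂ] E)) (hR : R ∈ unitary (E →L[ℂ] E)) :
    ‖a * L * R - b * (L * R)‖ = ‖a - b‖ := by
  rw [mul_assoc, ← sub_mul, CStarRing.norm_mul_mem_unitary _ (mul_mem hL hR)]

theorem norm_avg_le {A ι : Type*} [NormedAddCommGroup A] [NormedSpace ℂ A] [Fintype ι] [Nonempty ι]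
    {f : ι → A} {B : ℝ} (h : ∀ i, ‖f i‖ ≤ B) : ‖(Fintype.card ι : ℂ)⁻¹ • ∑ i, f i‖ ≤ B := by
  have hn : (0 : ℝ) < Fintype.card ι := by exact_mod_cast Fintype.card_pos
  rw [norm_smul, norm_inv, Complex.norm_natCast, inv_mul_le_iff₀ hn]
  refine (norm_sum_le _ _).trans ((Finset.sum_le_sum fun i _ => h i).trans ?_)
  simp

theorem avg_tri {A ι : Type*} [NormedAddCommGroup A] [NormedSpace ℂ A] [Fintype ι] [Nonempty ι]
    {f g : ι → A} {z : A} {B B' : ℝ} (h : ∀ i, ‖f i - g i‖ ≤ B)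
    (h' : ‖(Fintype.card ι : ℂ)⁻¹ • ∑ i, g i - z‖ ≤ B') :
    ‖(Fintype.card ι : ℂ)⁻¹ • ∑ i, f i - z‖ ≤ B + B' := by
  refine le_trans (le_of_eq ?_) ((norm_add_le _ _).trans (add_le_add (norm_avg_le h) h'))
  simp only [Finset.sum_sub_distrib, smul_sub, sub_add_sub_cancel]

theorem ell.le_norm {Ξ H H' : Type*} [NormedAddCommGroup H] [InnerProductSpace ℂ H]
    [NormedAddCommGroup H'] [InnerProductSpace ℂ H'] {η : ell Ξ H} {ζ : ell Ξ H'} {c : ℝ}
    (hc : 0 ≤ c) (h : ∀ ξ, c * ‖η ξ‖ ≤ ‖ζ ξ‖) : c * ‖η‖ ≤ ‖ζ‖ := by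
  refine le_of_sq_le_sq ?_ (norm_nonneg _)
  rw [mul_pow]
  refine hasSum_le (fun ξ => ?_) ((ell.hasSum η).mul_left _) (ell.hasSum ζ)
  rw [← mul_pow]
  exact pow_le_pow_left₀ (by positivity) (h ξ) 2

namespace NI

variable {K : Type} [NormedAddCommGroup K] [InnerProductSpace ℂ K] [CompleteSpace K]
  {ι : Type} {s : ℝ} (S₁ : PSys (C1 (FreeGroup ι) K) s) (S₂ : PSys (C2 (FreeGroup ι) K) s)
  (u v : unitary (K →L[ℂ] K))

theorem lam_rho {G : Type} [Group G] (γ γ' : G × G) :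
    lam G K γ * rho G K γ' = rho G K γ' * lam G K γ := by
  ext1 ξ; ext1 α
  simp only [mul_apply_eq_comp, lam_apply, rho_apply, mul_assoc]

theorem lam_mem {G : Type} [Group G] (γ : G × G) : lam G K γ ∈ unitary (HH G K →L[ℂ] HH G K) :=
  actE_mem _ γ

theorem rho_mem {G : Type} [Group G] (γ : G × G) : rho G K γ ∈ unitary (HH G K →L[ℂ] HH G K) :=
  actE_mem _ γ

theorem dgE_lam {G : Type} [Group G] (T : EE G K →L[ℂ] EE G K) (γ : G × G) :
    dgE _ T * lam G K γ = lam G K γ * dgE _ T := by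
  ext1 ξ; ext1 α
  simp only [mul_apply_eq_comp, lam_apply, dgE_apply]

theorem pvm_dgE {Ξ X E : Type*} [NormedAddCommGroup E] [InnerProductSpace ℂ E] [CompleteSpace E]
    (pr : Ξ → X) (S : Set X) (T : E →L[ℂ] E) :
    (pvmE E pr).P S * dgE Ξ T = dgE Ξ T * (pvmE E pr).P S := by
  classical
  ext1 ξ; ext1 α
  simp only [mul_apply_eq_comp, pvmE_apply, dgE_apply]
  split_ifs <;> simp

theorem mem_conj_image {G : Type*} [Group G] (a x : G) (S : Set G) :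
    x ∈ (fun x => a * x * a⁻¹) '' S ↔ a⁻¹ * x * a ∈ S := by
  refine ⟨?_, fun h => ⟨_, h, by group⟩⟩
  rintro ⟨y, hy, rfl⟩
  simpa [mul_assoc] using hy

theorem conj_eq_one' {G : Type*} [Group G] (a x : G) : a⁻¹ * x * a = 1 ↔ x = 1 := by
  rw [mul_assoc, inv_mul_eq_one, eq_comm, mul_eq_right]

theorem Q1_sa (G : Type) [Group G] : IsSelfAdjoint (Q1 G K) := by
  have h := ((C1 G K).P_sa {1}).map (dgE (G × G))
  rw [IsSelfAdjoint, Q1, star_mul, h.star_eq, (PVM.P_sa _ _).star_eq, pvm_dgE]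

theorem Q2_sa (G : Type) [Group G] : IsSelfAdjoint (Q2 G K) := by
  have h := ((C2 G K).P_sa {1}).map (dgE (G × G))
  rw [IsSelfAdjoint, Q2, star_mul, h.star_eq, (PVM.P_sa _ _).star_eq, pvm_dgE]

theorem Q1_dd (G : Type) [Group G] (T : K →L[ℂ] K) : Q1 G K * dd G T = dd G T * Q1 G K := by
  rw [Q1, dd, mul_assoc, ← map_mul, (C1_dg T).2, map_mul, ← mul_assoc, pvm_dgE, mul_assoc]

theorem Q2_dd (G : Type) [Group G] (T : K →L[ℂ] K) : Q2 G K * dd G T = dd G T * Q2 G K := by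
  rw [Q2, dd, mul_assoc, ← map_mul, (C2_dg T).2, map_mul, ← mul_assoc, pvm_dgE, mul_assoc]

theorem bd12 (b : FreeGroup ι) : Bd fun α : FreeGroup ι × FreeGroup ι =>
    S₁.π (am u) α.1 * S₂.π (am v) b * S₁.π (am u) α.1⁻¹ :=
  ⟨1, fun _ => norm_le_one_of_unitary
    (mul_mem (mul_mem (π1_mem S₁ u _) (π2_mem S₂ v _)) (π1_mem S₁ u _))⟩

theorem VV_apply (ξ : HH (FreeGroup ι) K) (α : FreeGroup ι × FreeGroup ι) :
    VV S₁ S₂ u v ξ α = S₁.π (am u) α.1 (S₂.π (am v) α.2 (ξ α)) := by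
  simp only [VV, mul_apply_eq_comp, V1_apply, V2_apply]

theorem VV_lam2 (b : FreeGroup ι) : VV S₁ S₂ u v * lam _ K (1, b) =
    (mop fun α : FreeGroup ι × FreeGroup ι =>
      S₁.π (am u) α.1 * S₂.π (am v) b * S₁.π (am u) α.1⁻¹) * lam _ K (1, b) * VV S₁ S₂ u v := by
  ext1 ξ; ext1 α
  simp only [mul_apply_eq_comp, VV_apply, lam_apply, mop_apply (bd12 S₁ S₂ u v b), Prod.fst_mul,
    Prod.snd_mul, Prod.inv_mk, inv_one, one_mul]
  rw [← mul_apply_eq_comp (S₁.π (am u) α.1⁻¹), ← S₁.π_mul (am u) (C1_dg _), inv_mul_cancel,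
    S₁.π_one, one_apply_eq_self, ← mul_apply_eq_comp (S₂.π (am v) b),
    ← S₂.π_mul (am v) (C2_dg _), mul_inv_cancel_left]

theorem conj_π2_le (b : FreeGroup ι) : ‖(mop fun α : FreeGroup ι × FreeGroup ι =>
      S₁.π (am u) α.1 * S₂.π (am v) b * S₁.π (am u) α.1⁻¹) - dgE _ (S₂.π (am v) b)‖ ≤
    400 * ‖(u : K →L[ℂ] K) * v - v * u‖ := by
  rw [show dgE (FreeGroup ι × FreeGroup ι) (S₂.π (am v) b) = mop fun _ => S₂.π (am v) b from rfl,
    ← mop_sub (bd12 S₁ S₂ u v b) (Bd.const _)]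
  refine mop_norm_le (by positivity) fun α => ?_
  have e2 : S₁.π (am u) α.1 * S₂.π (am v) b * S₁.π (am u) α.1⁻¹ - S₂.π (am v) b =
      (S₁.π (am u) α.1 * S₂.π (am v) b - S₂.π (am v) b * S₁.π (am u) α.1) *
        S₁.π (am u) α.1⁻¹ := by
    rw [sub_mul, mul_assoc (S₂.π (am v) b), ← S₁.π_mul (am u) (C1_dg _), mul_inv_cancel,
      S₁.π_one, mul_one]
  rw [e2, CStarRing.norm_mul_mem_unitary _ (π1_mem S₁ u _)]
  exact comm_ππ S₁ S₂ u v _ _

theorem obstr [Fintype ι] [Nonempty ι] (hs0 : 0 ≤ s) (hs : s ≤ 1 / 12)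
    {U : HH (FreeGroup ι) K →L[ℂ] HH (FreeGroup ι) K}
    (hU : U ∈ unitary (HH (FreeGroup ι) K →L[ℂ] HH (FreeGroup ι) K))
    (h : ∀ x ∈ MM S₁ S₂ u v, U * x * star U ∈ NN (FreeGroup ι) K) :
    ∃ A B : HH (FreeGroup ι) K →L[ℂ] HH (FreeGroup ι) K, A * B = B * A ∧ A * star B = star B * A ∧
      ‖A - (s : ℂ) • (Q1 _ K * dd _ (u : K →L[ℂ] K))‖ ≤ 2 * ‖U - 1‖ + 10 / √(Fintype.card ι) ∧
      ‖B - (s : ℂ) • (Q2 _ K * dd _ (v : K →L[ℂ] K))‖ ≤
        2 * ‖U - 1‖ + 10 / √(Fintype.card ι) + 400 * ‖(u : K →L[ℂ] K) * v - v * u‖ := by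
  classical
  set κ := ‖(u : K →L[ℂ] K) * v - v * u‖ with hκ
  set V := VV S₁ S₂ u v with hV
  have hVm : V ∈ unitary (HH (FreeGroup ι) K →L[ℂ] HH (FreeGroup ι) K) :=
    mul_mem (V1_mem S₁ u) (V2_mem S₂ v)
  have Vap : ∀ ξ α, V ξ α = S₁.π (am u) α.1 (S₂.π (am v) α.2 (ξ α)) := VV_apply S₁ S₂ u v
  let L : FreeGroup ι × FreeGroup ι → HH (FreeGroup ι) K →L[ℂ] HH (FreeGroup ι) K :=
    fun γ => V * lam _ K γ * star V
  have conj_mul : ∀ {W a b : HH (FreeGroup ι) K →L[ℂ] HH (FreeGroup ι) K}, star W * W = 1 →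
      W * a * star W * (W * b * star W) = W * (a * b) * star W := fun {W a b} hW => by
    rw [mul_assoc, ← mul_assoc (star W), ← mul_assoc (star W), hW, one_mul]
    simp only [mul_assoc]
  have hL : ∀ γ, L γ ∈ MM S₁ S₂ u v := fun γ => mem_vnc.2 <| by
    rintro _ ⟨T, hT, rfl⟩
    have key : T * lam _ K γ = lam _ K γ * T ∧ star T * lam _ K γ = lam _ K γ * star T := by
      rcases hT with ⟨γ', rfl⟩ | ⟨T, rfl⟩
      · rw [star_rho]; exact ⟨(lam_rho _ _).symm, (lam_rho _ _).symm⟩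
      · rw [← map_star]; exact ⟨dgE_lam _ _, dgE_lam _ _⟩
    simp only [L, ← hV, star_mul, star_star, ← mul_assoc V, conj_mul hVm.1, key.1, key.2, and_self]
  let θ : FreeGroup ι × FreeGroup ι → HH (FreeGroup ι) K →L[ℂ] HH (FreeGroup ι) K :=
    fun γ => U * L γ * star U
  have θρ : ∀ γ γ', rho _ K γ' * θ γ = θ γ * rho _ K γ' := fun γ γ' =>
    (mem_vnc.1 (h _ (hL γ)) _ ⟨γ', rfl⟩).1
  let τ : FreeGroup ι × FreeGroup ι → HH (FreeGroup ι) K →L[ℂ] HH (FreeGroup ι) K :=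
    fun γ => θ γ * rho _ K γ
  have τmul : ∀ γ γ', τ γ * τ γ' = τ (γ * γ') := fun γ γ' => by
    have e : θ γ * θ γ' = θ (γ * γ') := by
      simp only [θ, L, conj_mul hU.1, conj_mul hVm.1, map_mul]
    simp only [τ]
    rw [mul_assoc, ← mul_assoc (rho _ K γ), θρ, mul_assoc (θ γ'), ← mul_assoc, e, map_mul]
  have τstar : ∀ γ, star (τ γ) = τ γ⁻¹ := fun γ => by
    have e : star (θ γ) = θ γ⁻¹ := by
      simp only [θ, L, star_mul, star_star, star_lam, mul_assoc]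
    simp only [τ]
    rw [star_mul, e, star_rho, θρ]
  have τc : ∀ a b, τ (a, 1) * τ (1, b) = τ (1, b) * τ (a, 1) := fun a b => by
    rw [τmul, τmul]; simp
  have nY : ∀ γ, ‖lam (FreeGroup ι) K γ * rho (FreeGroup ι) K γ‖ ≤ 1 := fun γ =>
    norm_le_one_of_unitary (mul_mem (lam_mem γ) (rho_mem γ))
  have nθ : ∀ γ, ‖τ γ - L γ * rho _ K γ‖ ≤ 2 * ‖U - 1‖ := fun γ =>
    conj_sub_le hU (mul_mem (mul_mem hVm (lam_mem γ)) (Unitary.star_mem hVm)) (rho_mem γ)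
  have dY : ∀ γ (T : EE (FreeGroup ι) K →L[ℂ] EE (FreeGroup ι) K),
      dgE _ T * (lam _ K γ * rho _ K γ) = lam _ K γ * rho _ K γ * dgE _ T := fun γ T => by
    ext1 ξ; ext1 α
    simp only [mul_apply_eq_comp, dgE_apply, lam_apply, rho_apply]
  refine ⟨(Fintype.card ι : ℂ)⁻¹ • ∑ i, τ (FreeGroup.of i, 1),
    (Fintype.card ι : ℂ)⁻¹ • ∑ i, τ (1, FreeGroup.of i), ?_, ?_, ?_, ?_⟩
  · exact ((Commute.sum_left _ _ _ fun i _ => Commute.sum_right _ _ _ fun j _ =>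
      τc _ _).smul_left _).smul_right _
  · simp only [star_smul, star_sum, τstar, Prod.inv_mk, inv_one]
    exact ((Commute.sum_left _ _ _ fun i _ => Commute.sum_right _ _ _ fun j _ =>
      τc _ _).smul_left _).smul_right _
  · have L1 : ∀ a, L (a, 1) = dgE _ (S₁.π (am u) a) * lam _ K (a, 1) := fun a => by
      have e : V * lam _ K (a, 1) = dgE _ (S₁.π (am u) a) * lam _ K (a, 1) * V := by
        ext1 ξ; ext1 α
        simp only [mul_apply_eq_comp, Vap, lam_apply, dgE_apply, Prod.fst_mul, Prod.snd_mul,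
          Prod.inv_mk, inv_one, one_mul]
        rw [← mul_apply_eq_comp (S₁.π (am u) a), ← S₁.π_mul (am u) (C1_dg _), mul_inv_cancel_left]
      exact conj_of_mul hVm.2 e
    have h1 := avg_one hs0 hs S₁ (w := am u) (C1_dg _) (dgE (FreeGroup ι × FreeGroup ι)) norm_dgE_le
      (pvmE _ Prod.fst) (Y := fun i => lam _ K (FreeGroup.of i, 1) * rho _ K (FreeGroup.of i, 1))
      (fun i => nY _) (fun i T => dY _ T)
      (fun i S => by
        ext1 ξ; ext1 α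
        simp only [mul_apply_eq_comp, lam_apply, rho_apply, pvmE_apply, Prod.fst_mul, Prod.inv_mk,
          mem_conj_image])
      (fun i => by
        ext1 ξ; ext1 α
        simp only [mul_apply_eq_comp, lam_apply, rho_apply, pvmE_apply, Prod.fst_mul, Prod.inv_mk,
          Set.mem_singleton_iff, conj_eq_one']
        split_ifs with h0
        · congr 1; ext <;> simp [h0]
        · rfl)
    have e : (s : ℂ) • (Q1 _ K * dd _ (u : K →L[ℂ] K)) = (s : ℂ) • (dgE _ (am u : unitary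
        (EE (FreeGroup ι) K →L[ℂ] EE (FreeGroup ι) K)) * dgE _ ((C1 (FreeGroup ι) K).P {1}) *
        (pvmE _ Prod.fst).P {1}) := by
      rw [Q1_dd, Q1, pvm_dgE, mul_assoc]; rfl
    rw [e]
    refine avg_tri (fun i => ?_) h1
    rw [← mul_assoc, ← L1]
    exact nθ _
  · have L2 : ∀ b, ‖L (1, b) * rho _ K (1, b) -
        dgE _ (S₂.π (am v) b) * (lam _ K (1, b) * rho _ K (1, b))‖ ≤ 400 * κ := fun b => by
      rw [show L (1, b) = _ from conj_of_mul hVm.2 (VV_lam2 S₁ S₂ u v b)]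
      exact (norm_sub_unitary (lam_mem _) (rho_mem _)).trans_le (conj_π2_le S₁ S₂ u v b)
    have h1 := avg_one hs0 hs S₂ (w := am v) (C2_dg _) (dgE (FreeGroup ι × FreeGroup ι)) norm_dgE_le
      (pvmE _ Prod.snd) (Y := fun i => lam _ K (1, FreeGroup.of i) * rho _ K (1, FreeGroup.of i))
      (fun i => nY _) (fun i T => dY _ T)
      (fun i S => by
        ext1 ξ; ext1 α
        simp only [mul_apply_eq_comp, lam_apply, rho_apply, pvmE_apply, Prod.snd_mul, Prod.inv_mk,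
          mem_conj_image])
      (fun i => by
        ext1 ξ; ext1 α
        simp only [mul_apply_eq_comp, lam_apply, rho_apply, pvmE_apply, Prod.snd_mul, Prod.inv_mk,
          Set.mem_singleton_iff, conj_eq_one']
        split_ifs with h0
        · congr 1; ext <;> simp [h0]
        · rfl)
    have e : (s : ℂ) • (Q2 _ K * dd _ (v : K →L[ℂ] K)) = (s : ℂ) • (dgE _ (am v : unitary
        (EE (FreeGroup ι) K →L[ℂ] EE (FreeGroup ι) K)) * dgE _ ((C2 (FreeGroup ι) K).P {1}) *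
        (pvmE _ Prod.snd).P {1}) := by
      rw [Q2_dd, Q2, pvm_dgE, mul_assoc]; rfl
    rw [e, add_right_comm, add_assoc]
    exact avg_tri (fun i => nθ _) (avg_tri (fun i => L2 _) h1)

theorem block (G : Type) [Group G] {X Y S F : K →L[ℂ] K} {κ : K} (hX : IsSelfAdjoint X)
    (hY : IsSelfAdjoint Y) (h : X + Complex.I • Y = S + F) (hS : ∀ ξ, ‖S ξ‖ = ‖ξ‖)
    (hF : FiniteDimensional ℂ (LinearMap.range (F : K →ₗ[ℂ] K))) (hκ : κ ≠ 0)
    (hκ' : star S κ = conj ((1 + Complex.I) / 4) • κ) :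
    ∃ A₀ F₀ : HH G K →L[ℂ] HH G K,
      Q1 G K * dd G X + Complex.I • (Q2 G K * dd G Y) - ((1 + Complex.I) / 4) • 1 = A₀ + F₀ ∧
      (∀ ξ, 1 / 4 * ‖ξ‖ ≤ ‖A₀ ξ‖) ∧ ¬ Function.Surjective A₀ ∧
      FiniteDimensional ℂ (LinearMap.range (F₀ : HH G K →ₗ[ℂ] HH G K)) := by
  classical
  set l : ℂ := (1 + Complex.I) / 4 with hl
  let J : K →L[ℂ] HH G K := (ell.sng 1).comp (ell.sng 1)
  let F₀ : HH G K →L[ℂ] HH G K := J.comp (F.comp (ContinuousLinearMap.adjoint J))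
  let B : G × G → G × G → K →L[ℂ] K := fun α x =>
    (if α.1 = 1 ∧ x.1 = 1 then (if α.2 = 1 ∧ x.2 = 1 then S else X)
      else (if α.2 = 1 ∧ x.2 = 1 then Complex.I • Y else 0)) - l • 1
  have hS' : S = X + Complex.I • Y - F := by rw [h]; abel
  have hA : ∀ ξ α x, (Q1 G K * dd G X + Complex.I • (Q2 G K * dd G Y) - l • 1 - F₀) ξ α x =
      B α x (ξ α x) := fun ξ α x => by
    obtain ⟨α₁, α₂⟩ := α
    obtain ⟨x₁, x₂⟩ := x
    simp only [B, F₀, J, Q1, Q2, dd, C1, C2, covE, sub_apply, add_apply, smul_apply,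
      mul_apply_eq_comp, ell.sub_apply, ell.add_apply, ell.smul_apply, pvmE_apply, dgE_apply,
      one_apply_eq_self, ContinuousLinearMap.comp_apply, ContinuousLinearMap.adjoint_comp,
      ell.adjoint_sng_apply, ell.sng_apply, ell.single_apply, Set.mem_singleton_iff, Prod.mk_eq_one]
    by_cases h1 : α₁ = 1 <;> by_cases h2 : α₂ = 1 <;> by_cases h3 : x₁ = 1 <;>
      by_cases h4 : x₂ = 1 <;>
      simp [h1, h2, h3, h4, hS', pvmE_apply, ell.single_apply, Prod.one_eq_mk, sub_right_comm]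
  have nl1 : ‖l‖ ≤ 3 / 4 := by
    rw [hl, norm_div]
    have := norm_add_le (1 : ℂ) Complex.I
    simp only [norm_one, Complex.norm_I] at this
    rw [Complex.norm_ofNat]; linarith
  have lre : l.re = 1 / 4 := by simp [hl]
  have lim : l.im = 1 / 4 := by simp [hl]
  have low : ∀ v w : K, 1 / 4 * ‖v‖ ^ 2 ≤ ‖⟪v, w⟫_ℂ‖ → 1 / 4 * ‖v‖ ≤ ‖w‖ := fun v w hv => by
    rcases (norm_nonneg v).eq_or_lt with h0 | h0
    · rw [← h0]; simp
    · have := norm_inner_le_norm (𝕜 := ℂ) v w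
      nlinarith
  have rl : ∀ T : K →L[ℂ] K, IsSelfAdjoint T → ∀ v, (⟪v, T v⟫_ℂ).im = 0 := fun T hT v => by
    rw [← Complex.conj_eq_iff_im, inner_conj_symm]; exact hT.isSymmetric v v
  have vv : ∀ v : K, ⟪v, v⟫_ℂ = ((‖v‖ ^ 2 : ℝ) : ℂ) := fun v => by
    rw [inner_self_eq_norm_sq_to_K]; simp
  have hB : ∀ α x v, 1 / 4 * ‖v‖ ≤ ‖B α x v‖ := fun α x v => by
    simp only [B]
    split_ifs
    · have := norm_sub_norm_le (S v) (l • v)
      rw [hS, norm_smul] at this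
      simp only [sub_apply, smul_apply, one_apply_eq_self]
      nlinarith [norm_nonneg v]
    · refine low _ _ (le_trans (le_of_eq ?_) ((neg_le_abs _).trans (Complex.abs_im_le_norm _)))
      simp only [sub_apply, smul_apply, one_apply_eq_self, inner_sub_right, inner_smul_right, vv,
        Complex.sub_im, rl X hX, Complex.mul_im, Complex.ofReal_re, Complex.ofReal_im, lim]
      ring
    · refine low _ _ (le_trans (le_of_eq ?_) ((neg_le_abs _).trans (Complex.abs_re_le_norm _)))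
      simp only [sub_apply, smul_apply, one_apply_eq_self, inner_sub_right, inner_smul_right, vv,
        Complex.sub_re, rl Y hY, Complex.mul_re, Complex.ofReal_re, Complex.ofReal_im, lre,
        Complex.I_re, Complex.I_im]
      ring
    · refine low _ _ (le_trans (le_of_eq ?_) ((neg_le_abs _).trans (Complex.abs_re_le_norm _)))
      simp only [sub_apply, smul_apply, one_apply_eq_self, inner_sub_right, inner_smul_right, vv,
        Complex.sub_re, Complex.mul_re, Complex.ofReal_re, Complex.ofReal_im, lre, zero_apply,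
        inner_zero_right, Complex.zero_re]
      ring
  refine ⟨Q1 G K * dd G X + Complex.I • (Q2 G K * dd G Y) - l • 1 - F₀, F₀, by abel,
    fun ξ => ell.le_norm (by norm_num) fun α => ell.le_norm (by norm_num) fun x => ?_,
    fun hsurj => hκ ?_, ?_⟩
  · rw [hA]; exact hB _ _ _
  · obtain ⟨ξ, hξ⟩ := hsurj (ell.single 1 (ell.single 1 κ))
    have e := hA ξ 1 1
    rw [hξ] at e
    simp only [ell.single_apply_self, B, Prod.fst_one, Prod.snd_one, and_self, if_true, sub_apply,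
      smul_apply, one_apply_eq_self] at e
    have e2 : ⟪κ, κ⟫_ℂ = ⟪κ, S (ξ 1 1) - l • ξ 1 1⟫_ℂ := by rw [← e]
    rw [inner_sub_right, ← ContinuousLinearMap.adjoint_inner_left, ← ContinuousLinearMap.star_eq_adjoint,
      hκ', inner_smul_left, inner_smul_right, Complex.conj_conj, sub_self] at e2
    exact inner_self_eq_zero.1 e2
  · refine Submodule.finiteDimensional_of_le
      (S₂ := (LinearMap.range (F : K →ₗ[ℂ] K)).map (J : K →ₗ[ℂ] HH G K)) ?_
    rintro _ ⟨ξ, rfl⟩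
    exact ⟨_, ⟨_, rfl⟩, rfl⟩

end NI

end Crest.Agent.R78
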