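import Crest.Agent.R78.PSLaur
import Crest.Agent.R78.Free
import Crest.Agent.R78.Idx

/-! # Row 78, S0104: the model (definitions). -/

set_option autoImplicit false
set_option linter.unusedSectionVars false

namespace Crest.Agent.R78

noncomputable section

namespace NI

variable (G : Type) [Group G] (K : Type) [NormedAddCommGroup K] [InnerProductSpace ℂ K]
  [CompleteSpace K]

/-- left translation in the first coordinate -/
def a1 : G →* Equiv.Perm (G × G) := (MulAction.toPermHom (G × G) (G × G)).comp (MonoidHom.inl G G)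

/-- left translation in the second coordinate -/
def a2 : G →* Equiv.Perm (G × G) := (MulAction.toPermHom (G × G) (G × G)).comp (MonoidHom.inr G G)

@[simp] theorem a1_apply (g : G) (x : G × G) : a1 G g x = (g * x.1, x.2) := by
  ext <;> simp [a1]

@[simp] theorem a2_apply (g : G) (x : G × G) : a2 G g x = (x.1, g * x.2) := by
  ext <;> simp [a2]

/-- the fibre -/
abbrev EE : Type := ell (G × G) K

/-- the Hilbert space -/
abbrev HH : Type := ell (G × G) (EE G K)

/-- first covariant system -/
def C1 : Cov G (EE G K) := covE K (a1 G) Prod.fst fun _ _ => by simp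

/-- second covariant system -/
def C2 : Cov G (EE G K) := covE K (a2 G) Prod.snd fun _ _ => by simp

/-- left regular representation -/
def lam : G × G →* (HH G K →L[ℂ] HH G K) := actE (EE G K) (MulAction.toPermHom (G × G) (G × G))

/-- right regular representation -/
def rho : G × G →* (HH G K →L[ℂ] HH G K) :=
  actE (EE G K) (MonoidHom.mk' (fun γ => Equiv.mulRight γ⁻¹) fun _ _ => by
    ext1; simp [mul_assoc])

variable {G K}

@[simp] theorem lam_apply (γ : G × G) (ξ : HH G K) (α : G × G) : lam G K γ ξ α = ξ (γ⁻¹ * α) :=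
  actE_apply _ γ ξ α

@[simp] theorem rho_apply (γ : G × G) (ξ : HH G K) (α : G × G) : rho G K γ ξ α = ξ (α * γ) := by
  rw [rho, actE_apply]; simp

theorem star_lam (γ : G × G) : star (lam G K γ) = lam G K γ⁻¹ := star_actE _ γ

theorem star_rho (γ : G × G) : star (rho G K γ) = rho G K γ⁻¹ := star_actE _ γ

/-- amplified unitary -/
def am (u : unitary (K →L[ℂ] K)) : unitary (EE G K →L[ℂ] EE G K) :=
  ⟨dgE (G × G) u, by rw [← map_star, ← map_mul, u.2.1, map_one],
    by rw [← map_star, ← map_mul, u.2.2, map_one]⟩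

@[simp] theorem coe_am (u : unitary (K →L[ℂ] K)) :
    (am (G := G) u : EE G K →L[ℂ] EE G K) = dgE (G × G) u := rfl

theorem C1_dg (T : K →L[ℂ] K) : (C1 G K).Cm (dgE (G × G) T) :=
  ⟨fun g => (dgE_cmp (a1 G g⁻¹).injective T).symm, fun S => by
    classical
    ext η ξ; simp only [mul_apply_eq_comp, C1, covE, pvmE_apply, dgE_apply]; split_ifs <;> simp⟩

theorem C2_dg (T : K →L[ℂ] K) : (C2 G K).Cm (dgE (G × G) T) :=
  ⟨fun g => (dgE_cmp (a2 G g⁻¹).injective T).symm, fun S => by
    classical
    ext η ξ; simp only [mul_apply_eq_comp, C2, covE, pvmE_apply, dgE_apply]; split_ifs <;> simp⟩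

theorem C2_Λ1 (g : G) : (C2 G K).Cm ((C1 G K).Λ g) :=
  ⟨fun h => by ext η ξ; simp [C1, C2, covE, -map_inv], fun S => by
    classical
    ext η ξ; simp [C1, C2, covE, pvmE_apply, -map_inv]⟩

theorem C2_P1 (S : Set G) : (C2 G K).Cm ((C1 G K).P S) :=
  ⟨fun h => by
    classical
    ext η ξ; simp [C1, C2, covE, pvmE_apply, -map_inv], fun T => by
    classical
    ext η ξ; simp only [mul_apply_eq_comp, C1, C2, covE, pvmE_apply]; split_ifs <;> rfl⟩

variable {ι : Type} {s : ℝ} (S₁ : PSys (C1 (FreeGroup ι) K) s) (S₂ : PSys (C2 (FreeGroup ι) K) s)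
  (u v : unitary (K →L[ℂ] K))

/-- first controlled unitary -/
def V1 : HH (FreeGroup ι) K →L[ℂ] HH (FreeGroup ι) K := mop fun α => S₁.π (am u) α.1

/-- second controlled unitary -/
def V2 : HH (FreeGroup ι) K →L[ℂ] HH (FreeGroup ι) K := mop fun α => S₂.π (am v) α.2

/-- the controlled unitary -/
def VV : HH (FreeGroup ι) K →L[ℂ] HH (FreeGroup ι) K := V1 S₁ u * V2 S₂ v

variable (G K) in
/-- the big algebra -/
def NN : VonNeumannAlgebra (HH G K) := vnc (Set.range (rho G K))

/-- the small algebra -/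
def MM : VonNeumannAlgebra (HH (FreeGroup ι) K) :=
  vnc ((fun T => VV S₁ S₂ u v * T * star (VV S₁ S₂ u v)) ''
    (Set.range (rho (FreeGroup ι) K) ∪ Set.range (dgE (FreeGroup ι × FreeGroup ι))))

variable (G K) in
/-- the projection onto `α₁ = 1`, `x = 1` -/
def Q1 : HH G K →L[ℂ] HH G K := (pvmE (EE G K) Prod.fst).P {1} * dgE (G × G) ((C1 G K).P {1})

variable (G K) in
/-- the projection onto `α₂ = 1`, `y = 1` -/
def Q2 : HH G K →L[ℂ] HH G K := (pvmE (EE G K) Prod.snd).P {1} * dgE (G × G) ((C2 G K).P {1})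

variable (G) in
/-- double amplification -/
def dd (T : K →L[ℂ] K) : HH G K →L[ℂ] HH G K := dgE (G × G) (dgE (G × G) T)

end NI

end

end Crest.Agent.R78
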