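import Crest.Agent.R78.Coh

/-!
# Row 78, task R78-Newton: stability of the multiplication (Johnson, Raeburn–Taylor).

PLAN.  `newton_step`: `f x y = T⁻¹ (T x * T y) - x y` (`‖f‖ ≤ 2 d`), the product `x y + f x y` is associative, so
`δf x y z = f (f x y) z - f x (f y z) =: F x y z`, `‖F‖ ≤ 2 ‖f‖²`.  `H3` gives `h`,
`δ h = δ f`, `‖h‖ ≤ 8 ‖f‖²`; `H2` gives `g₀`, `δ g₀ = f - h`.  Symmetrise: `g x = (g₀ x + (g₀ x⋆)⋆)/2`; since
`(f y⋆ x⋆)⋆ = f x y`, `δ g = f - h'` with `‖h'‖ ≤ 8 ‖f‖²`.  For `T' = T (1 - g)`: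
`T' x T' y - T' (x y) = T (h' x y + g x * g y - f (g x) y - f x (g y) + f (g x) (g y))`.
`newton`: iterate with `T n : A ≃L B` (`1 - g` is invertible: `Units.oneSub`,
`ContinuousLinearEquiv.ofUnit`/`unitsEquiv`), keeping `‖T n‖ ≤ 2 - 2⁻ⁿ/2`, `‖(T n)⁻¹‖ ≤ 2 - 2⁻ⁿ/2`,
`d n ≤ 2⁻ⁿ d`, `‖T (n+1) - T n‖ ≤ 14 · 2⁻ⁿ d`; the limit is multiplicative, star preserving, bounded below and
has dense (closed) range, so it is bijective; a surjective multiplicative map is unital.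
-/

set_option autoImplicit false

namespace Crest.Agent.R78

universe u

variable {A B : Type u} [CStarAlgebra A] [CStarAlgebra B]

/-- the defect of multiplicativity, pulled back to `A` -/
noncomputable def nwF (T : A ≃L[ℂ] B) : A →L[ℂ] A →L[ℂ] A :=
  (ContinuousLinearMap.compL ℂ A B A (T.symm : B →L[ℂ] A)).comp
    (((ContinuousLinearMap.mul ℂ B).bilinearComp (T : A →L[ℂ] B) (T : A →L[ℂ] B))) -
    ContinuousLinearMap.mul ℂ A

theorem nwF_apply (T : A ≃L[ℂ] B) (x y : A) : nwF T x y = T.symm (T x * T y) - x * y := by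
  simp [nwF]

/-- the star-conjugate of a linear map -/
noncomputable def nwStar (g : A →L[ℂ] A) : A →L[ℂ] A :=
  LinearMap.mkContinuous
    { toFun := fun x => star (g (star x))
      map_add' := fun x y => by simp
      map_smul' := fun c x => by simp } ‖g‖ (fun x => by
        simpa using (g.le_opNorm (star x)))

theorem nwStar_apply (g : A →L[ℂ] A) (x : A) : nwStar g x = star (g (star x)) := rfl

theorem nwStar_norm (g : A →L[ℂ] A) : ‖nwStar g‖ ≤ ‖g‖ :=
  LinearMap.mkContinuous_norm_le _ (norm_nonneg _) _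

theorem newton_step (h2 : H2 A) (h3 : H3 A) (T : A ≃L[ℂ] B) (hT : ‖(T : A →L[ℂ] B)‖ ≤ 2)
    (hT' : ‖(T.symm : B →L[ℂ] A)‖ ≤ 2) (hs : ∀ x, T (star x) = star (T x)) {d : ℝ} (hd0 : 0 ≤ d)
    (hd : d ≤ 1 / 10 ^ 4) (hm : ∀ x y, ‖T (x * y) - T x * T y‖ ≤ d * ‖x‖ * ‖y‖) :
    ∃ g : A →L[ℂ] A, ‖g‖ ≤ 7 * d ∧ (∀ x, g (star x) = star (g x)) ∧
      ∀ x y, ‖T (x * y - g (x * y)) - T (x - g x) * T (y - g y)‖ ≤ 1000 * d ^ 2 * ‖x‖ * ‖y‖ := by
  set f := nwF T with hf
  have hfa : ∀ x y, f x y = T.symm (T x * T y) - x * y := nwF_apply T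
  have hTf : ∀ x y, T x * T y = T (x * y + f x y) := by
    intro x y; rw [hfa]; simp
  have hTs : ∀ b, ‖T.symm b‖ ≤ 2 * ‖b‖ := fun b =>
    ((T.symm : B →L[ℂ] A).le_opNorm b).trans (mul_le_mul_of_nonneg_right hT' (norm_nonneg _))
  have hTn : ∀ a, ‖T a‖ ≤ 2 * ‖a‖ := fun a =>
    ((T : A →L[ℂ] B).le_opNorm a).trans (mul_le_mul_of_nonneg_right hT (norm_nonneg _))
  have hfb : ∀ x y, ‖f x y‖ ≤ 2 * d * ‖x‖ * ‖y‖ := by
    intro x y
    have e : f x y = T.symm (-(T (x * y) - T x * T y)) := by rw [hfa]; simp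
    rw [e]
    refine (hTs _).trans ?_
    rw [norm_neg]
    have := hm x y
    nlinarith
  have hfn : ‖f‖ ≤ 2 * d :=
    ContinuousLinearMap.opNorm_le_bound₂ _ (by positivity) hfb
  have hassoc : ∀ x y z, x * f y z - f (x * y) z + f x (y * z) - f x y * z =
      f (f x y) z - f x (f y z) := by
    intro x y z
    have e : T ((x * y + f x y) * z + f (x * y + f x y) z) =
        T (x * (y * z + f y z) + f x (y * z + f y z)) := by
      rw [← hTf, ← hTf, ← hTf, ← hTf, mul_assoc]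
    have e2 := T.injective e
    simp only [map_add, ContinuousLinearMap.add_apply, add_mul, mul_add, mul_assoc] at e2
    have : x * f y z - f (x * y) z + f x (y * z) - f x y * z - (f (f x y) z - f x (f y z)) =
        (x * (y * z) + x * f y z + (f x (y * z) + f x (f y z))) -
          (x * (y * z) + f x y * z + (f (x * y) z + f (f x y) z)) := by abel
    rw [← sub_eq_zero, this, e2, sub_self]
  obtain ⟨h, hhn, hh⟩ := h3 f (8 * d ^ 2) (by positivity) (by
    intro x y z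
    rw [hassoc]
    refine (norm_sub_le _ _).trans ?_
    have a1 := hfb (f x y) z
    have a2 := hfb x (f y z)
    have a3 := hfb x y
    have a4 := hfb y z
    have b1 : 2 * d * ‖f x y‖ * ‖z‖ ≤ 2 * d * (2 * d * ‖x‖ * ‖y‖) * ‖z‖ := by gcongr
    have b2 : 2 * d * ‖x‖ * ‖f y z‖ ≤ 2 * d * ‖x‖ * (2 * d * ‖y‖ * ‖z‖) := by gcongr
    nlinarith)
  obtain ⟨g₀, hg0n, hg0⟩ := h2 (f - h) (by
    intro x y z
    have := hh x y z
    simp only [ContinuousLinearMap.sub_apply, mul_sub, sub_mul]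
    rw [← sub_eq_zero] at this
    rw [← neg_eq_zero, ← this]; abel)
  have hg0b : ‖g₀‖ ≤ 7 * d := by
    have := norm_sub_le f h
    nlinarith
  have hhb : ∀ x y, ‖h x y‖ ≤ 32 * d ^ 2 * ‖x‖ * ‖y‖ := by
    intro x y
    refine (h.le_opNorm₂ x y).trans ?_
    gcongr
    linarith
  have hss : ∀ b, T.symm (star b) = star (T.symm b) := by
    intro b
    apply T.injective
    rw [hs]; simp
  have hfs : ∀ x y, star (f (star y) (star x)) = f x y := by
    intro x y
    rw [hfa, hfa, hs, hs, ← star_mul, ← star_mul, hss, star_sub, star_star, star_star]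
  set g : A →L[ℂ] A := (1 / 2 : ℂ) • (g₀ + nwStar g₀) with hg
  have hga : ∀ x, g x = (1 / 2 : ℂ) • (g₀ x + star (g₀ (star x))) := fun x => rfl
  have hgn : ‖g‖ ≤ 7 * d := by
    rw [hg, norm_smul]
    have := norm_add_le g₀ (nwStar g₀)
    have := nwStar_norm g₀
    simp only [one_div, norm_inv, Complex.norm_ofNat]
    linarith
  have hgb : ∀ x, ‖g x‖ ≤ 7 * d * ‖x‖ := fun x =>
    (g.le_opNorm x).trans (mul_le_mul_of_nonneg_right hgn (norm_nonneg _))
  have hdg : ∀ x y, x * g y - g (x * y) + g x * y =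
      f x y - (1 / 2 : ℂ) • (h x y + star (h (star y) (star x))) := by
    intro x y
    have e1 := hg0 x y
    have e2 := congrArg star (hg0 (star y) (star x))
    simp only [ContinuousLinearMap.sub_apply, star_sub, star_add, star_mul, star_star, hfs] at e1 e2
    have e3 : f x y = (1 / 2 : ℂ) • (f x y + f x y) := by
      rw [← two_smul ℂ, smul_smul]; norm_num
    rw [hga, hga, hga, e3, mul_smul_comm, smul_mul_assoc, ← smul_sub, ← smul_add, ← smul_sub]
    congr 1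
    rw [star_mul, mul_add, add_mul]
    have : f x y + f x y - (h x y + star (h (star y) (star x))) =
        (f x y - h x y) + (f x y - star (h (star y) (star x))) := by abel
    rw [this, ← e1, ← e2]; abel
  refine ⟨g, hgn, ?_, ?_⟩
  · intro x
    rw [hga, hga, star_smul, star_add, star_star, star_star, add_comm]
    simp
  · intro x y
    have e : T (x * y - g (x * y)) - T (x - g x) * T (y - g y) =
        -T ((1 / 2 : ℂ) • (h x y + star (h (star y) (star x))) + g x * g y - f (g x) y -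
          f x (g y) + f (g x) (g y)) := by
      rw [hTf, ← map_sub, ← map_neg]
      congr 1
      have e1 : (1 / 2 : ℂ) • (h x y + star (h (star y) (star x))) =
          f x y - (x * g y - g (x * y) + g x * y) := by rw [hdg]; abel
      rw [e1]
      simp only [map_sub, ContinuousLinearMap.sub_apply, mul_sub, sub_mul]
      abel
    rw [e, norm_neg]
    refine (hTn _).trans ?_
    have hx := norm_nonneg x
    have hy := norm_nonneg y
    have a0 : ‖(1 / 2 : ℂ) • (h x y + star (h (star y) (star x)))‖ ≤ 32 * d ^ 2 * ‖x‖ * ‖y‖ := by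
      rw [norm_smul]
      have b1 := norm_add_le (h x y) (star (h (star y) (star x)))
      have b2 := hhb x y
      have b3 := hhb (star y) (star x)
      simp only [norm_star] at b1 b3
      simp only [one_div, norm_inv, Complex.norm_ofNat]
      nlinarith
    have a1 : ‖g x * g y‖ ≤ (7 * d * ‖x‖) * (7 * d * ‖y‖) :=
      (norm_mul_le _ _).trans (mul_le_mul (hgb x) (hgb y) (norm_nonneg _) (by positivity))
    have a2 : ‖f (g x) y‖ ≤ 2 * d * (7 * d * ‖x‖) * ‖y‖ :=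
      (hfb _ _).trans (by gcongr; exact hgb x)
    have a3 : ‖f x (g y)‖ ≤ 2 * d * ‖x‖ * (7 * d * ‖y‖) :=
      (hfb _ _).trans (by gcongr; exact hgb y)
    have a4 : ‖f (g x) (g y)‖ ≤ 2 * d * (7 * d * ‖x‖) * (7 * d * ‖y‖) :=
      (hfb _ _).trans (by gcongr; exacts [hgb x, hgb y])
    have a5 := norm_add_le ((1 / 2 : ℂ) • (h x y + star (h (star y) (star x))) + g x * g y -
      f (g x) y - f x (g y)) (f (g x) (g y))
    have a6 := norm_sub_le ((1 / 2 : ℂ) • (h x y + star (h (star y) (star x))) + g x * g y -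
      f (g x) y) (f x (g y))
    have a7 := norm_sub_le ((1 / 2 : ℂ) • (h x y + star (h (star y) (star x))) + g x * g y)
      (f (g x) y)
    have a8 := norm_add_le ((1 / 2 : ℂ) • (h x y + star (h (star y) (star x)))) (g x * g y)
    have hp : 0 ≤ d ^ 2 * (‖x‖ * ‖y‖) := by positivity
    have hq : d * (d ^ 2 * (‖x‖ * ‖y‖)) ≤ 1 * (d ^ 2 * (‖x‖ * ‖y‖)) := by
      gcongr; linarith
    nlinarith

/-- the invariant of the iteration at scale `q` -/
def NwInv (d q : ℝ) (T : A ≃L[ℂ] B) : Prop :=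
  ‖(T : A →L[ℂ] B)‖ ≤ 2 - q / 2 ∧ ‖(T.symm : B →L[ℂ] A)‖ ≤ 2 - q / 2 ∧
    (∀ x, T (star x) = star (T x)) ∧ ∀ x y, ‖T (x * y) - T x * T y‖ ≤ q * d * ‖x‖ * ‖y‖

theorem nw_oneSub (g : A →L[ℂ] A) (hg : ‖g‖ < 1) : ∃ u : A ≃L[ℂ] A, ∀ x, u x = x - g x :=
  ⟨ContinuousLinearEquiv.unitsEquiv ℂ A (Units.oneSub g hg), fun x => by
    rw [ContinuousLinearEquiv.unitsEquiv_apply]; simp⟩

theorem newton_next (h2 : H2 A) (h3 : H3 A) {d q : ℝ} (hd0 : 0 ≤ d) (hd : d ≤ 1 / 10 ^ 4)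
    (hq0 : 0 < q) (hq : q ≤ 1) (T : A ≃L[ℂ] B) (hI : NwInv d q T) :
    ∃ T' : A ≃L[ℂ] B, NwInv d (q / 2) T' ∧
      ‖(T' : A →L[ℂ] B) - (T : A →L[ℂ] B)‖ ≤ 14 * d * q := by
  obtain ⟨h1, h1', hs, hm⟩ := hI
  have hqd : q * d ≤ d := by nlinarith
  have hqd0 : 0 ≤ q * d := by positivity
  obtain ⟨g, hg, hgs, hgm⟩ := newton_step h2 h3 T (by linarith) (by linarith) hs hqd0
    (by linarith) hm
  obtain ⟨u, hu⟩ := nw_oneSub g (by linarith)
  have hgb : ∀ x, ‖g x‖ ≤ 7 * (q * d) * ‖x‖ := fun x =>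
    (g.le_opNorm x).trans (mul_le_mul_of_nonneg_right hg (norm_nonneg _))
  have hdiff : ‖((u.trans T : A ≃L[ℂ] B) : A →L[ℂ] B) - (T : A →L[ℂ] B)‖ ≤ 14 * d * q := by
    refine ContinuousLinearMap.opNorm_le_bound _ (by positivity) fun x => ?_
    have e : (((u.trans T : A ≃L[ℂ] B) : A →L[ℂ] B) - (T : A →L[ℂ] B)) x = -T (g x) := by
      simp [hu]
    rw [e, norm_neg]
    have a1 := (T : A →L[ℂ] B).le_opNorm (g x)
    have a2 := hgb x
    have a3 : ‖(T : A →L[ℂ] B)‖ * ‖g x‖ ≤ 2 * (7 * (q * d) * ‖x‖) :=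
      mul_le_mul (by linarith) a2 (norm_nonneg _) (by norm_num)
    simp only [ContinuousLinearEquiv.coe_coe] at a1
    nlinarith
  refine ⟨u.trans T, ⟨?_, ?_, ?_, ?_⟩, hdiff⟩
  · have := norm_le_norm_add_norm_sub' ((u.trans T : A ≃L[ℂ] B) : A →L[ℂ] B) (T : A →L[ℂ] B)
    nlinarith
  · refine ContinuousLinearMap.opNorm_le_bound _ (by linarith) fun b => ?_
    simp only [ContinuousLinearEquiv.coe_coe]
    set a := (u.trans T).symm b with ha
    have e : a = T.symm b + g a := by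
      have : T (u a) = b := (u.trans T).apply_symm_apply b
      rw [← this, hu]; simp
    have a1 := (T.symm : B →L[ℂ] A).le_opNorm b
    simp only [ContinuousLinearEquiv.coe_coe] at a1
    have a2 : ‖T.symm b‖ ≤ (2 - q / 2) * ‖b‖ :=
      a1.trans (mul_le_mul_of_nonneg_right h1' (norm_nonneg _))
    have a3 : ‖a‖ ≤ ‖T.symm b‖ + ‖g a‖ := by
      conv_lhs => rw [e]
      exact norm_add_le _ _
    have a4 := hgb a
    have hb := norm_nonneg b
    have ha0 := norm_nonneg a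
    have a5 : ‖a‖ ≤ 3 * ‖b‖ := by nlinarith
    have a6 : 7 * (q * d) * ‖a‖ ≤ 7 * (q * (1 / 10 ^ 4)) * (3 * ‖b‖) := by gcongr
    nlinarith
  · intro x
    simp only [ContinuousLinearEquiv.trans_apply, hu]
    rw [← hs, star_sub, hgs]
  · intro x y
    simp only [ContinuousLinearEquiv.trans_apply, hu]
    refine (hgm x y).trans ?_
    have : 1000 * (q * d) ^ 2 ≤ q / 2 * d := by nlinarith
    gcongr

theorem newton (h2 : H2 A) (h3 : H3 A) (T : A ≃L[ℂ] B) (hT : ‖(T : A →L[ℂ] B)‖ ≤ 3 / 2)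
    (hT' : ‖(T.symm : B →L[ℂ] A)‖ ≤ 3 / 2) (hs : ∀ x, T (star x) = star (T x)) {d : ℝ}
    (hd0 : 0 ≤ d) (hd : d ≤ 1 / 10 ^ 4) (hm : ∀ x y, ‖T (x * y) - T x * T y‖ ≤ d * ‖x‖ * ‖y‖) :
    ∃ θ : A →⋆ₐ[ℂ] B, Function.Surjective θ ∧ ∀ x, ‖θ x - T x‖ ≤ 100 * d * ‖x‖ := by
  have hq0 : ∀ n : ℕ, (0 : ℝ) < 1 / 2 ^ n := fun n => by positivity
  have hq1 : ∀ n : ℕ, (1 : ℝ) / 2 ^ n ≤ 1 := fun n => by
    rw [div_le_one (by positivity)]; exact one_le_pow₀ (by norm_num)
  have hstep : ∀ (n : ℕ) (S : {S : A ≃L[ℂ] B // NwInv d (1 / 2 ^ n) S}),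
      ∃ S' : {S : A ≃L[ℂ] B // NwInv d (1 / 2 ^ (n + 1)) S},
        ‖(S'.1 : A →L[ℂ] B) - (S.1 : A →L[ℂ] B)‖ ≤ 14 * d * (1 / 2 ^ n) := by
    intro n S
    obtain ⟨S', h1, h2⟩ := newton_next h2 h3 hd0 hd (hq0 n) (hq1 n) S.1 S.2
    refine ⟨⟨S', ?_⟩, h2⟩
    have : (1 : ℝ) / 2 ^ (n + 1) = 1 / 2 ^ n / 2 := by rw [pow_succ]; field_simp
    rw [this]; exact h1
  choose nxt hnxt using hstep
  have h0 : NwInv d (1 / 2 ^ 0) T := by
    refine ⟨by norm_num; linarith, by norm_num; linarith, hs, fun x y => ?_⟩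
    simpa using hm x y
  let seq : ∀ n : ℕ, {S : A ≃L[ℂ] B // NwInv d (1 / 2 ^ n) S} :=
    fun n => Nat.rec ⟨T, h0⟩ (fun n S => nxt n S) n
  let U : ℕ → A →L[ℂ] B := fun n => ((seq n).1 : A →L[ℂ] B)
  have hU0 : U 0 = (T : A →L[ℂ] B) := rfl
  have hUd : ∀ n, dist (U n) (U (n + 1)) ≤ 28 * d / 2 / 2 ^ n := by
    intro n
    rw [dist_comm, dist_eq_norm]
    refine (hnxt n (seq n)).trans (le_of_eq ?_)
    ring
  obtain ⟨L, hL⟩ := cauchySeq_tendsto_of_complete (cauchySeq_of_le_geometric_two hUd)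
  have hL0 : ‖L - (T : A →L[ℂ] B)‖ ≤ 28 * d := by
    have := dist_le_of_le_geometric_two_of_tendsto₀ hUd hL
    rwa [dist_comm, dist_eq_norm, hU0] at this
  have hLx : ∀ x, Filter.Tendsto (fun n => U n x) Filter.atTop (nhds (L x)) := fun x =>
    ((ContinuousLinearMap.apply ℂ B x).continuous.tendsto L).comp hL
  have hLs : ∀ x, L (star x) = star (L x) := by
    intro x
    refine tendsto_nhds_unique (hLx (star x)) ?_
    have := (hLx x).star
    refine this.congr fun n => ?_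
    exact ((seq n).2.2.2.1 x).symm
  have hLm : ∀ x y, L (x * y) = L x * L y := by
    intro x y
    have a1 := ((hLx (x * y)).sub ((hLx x).mul (hLx y))).norm
    have a2 : Filter.Tendsto (fun n : ℕ => (1 : ℝ) / 2 ^ n * d * ‖x‖ * ‖y‖) Filter.atTop
        (nhds (0 * d * ‖x‖ * ‖y‖)) := by
      refine ((Filter.Tendsto.mul_const _ ?_).mul_const _).mul_const _
      have := tendsto_pow_atTop_nhds_zero_of_lt_one (r := (1 / 2 : ℝ)) (by norm_num) (by norm_num)
      simpa using this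
    have a3 := le_of_tendsto_of_tendsto' a1 a2 fun n => (seq n).2.2.2.2 x y
    simp only [zero_mul] at a3
    exact sub_eq_zero.mp (norm_le_zero_iff.mp a3)
  have hsurj : Function.Surjective L := by
    obtain ⟨u, hu⟩ := nw_oneSub (-((T.symm : B →L[ℂ] A).comp (L - (T : A →L[ℂ] B)))) (by
      rw [norm_neg]
      refine (ContinuousLinearMap.opNorm_comp_le _ _).trans_lt ?_
      have : ‖(T.symm : B →L[ℂ] A)‖ * ‖L - (T : A →L[ℂ] B)‖ ≤ 3 / 2 * (28 * d) :=
        mul_le_mul hT' hL0 (norm_nonneg _) (by norm_num)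
      linarith)
    intro b
    refine ⟨u.symm (T.symm b), ?_⟩
    have e : ∀ x, L x = T (u x) := by intro x; rw [hu]; simp
    rw [e]; simp
  have hL1 : L 1 = 1 := by
    obtain ⟨x, hx⟩ := hsurj 1
    have := hLm 1 x
    rw [one_mul, hx, mul_one] at this
    exact this.symm
  refine ⟨{ toFun := L, map_one' := hL1, map_mul' := hLm, map_zero' := map_zero L
            map_add' := map_add L
            commutes' := fun c => by
              rw [Algebra.algebraMap_eq_smul_one, map_smul, hL1, Algebra.algebraMap_eq_smul_one]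
            map_star' := hLs }, hsurj, fun x => ?_⟩
  have a1 := (L - (T : A →L[ℂ] B)).le_opNorm x
  have a2 : ‖L - (T : A →L[ℂ] B)‖ * ‖x‖ ≤ 100 * d * ‖x‖ := by gcongr; linarith
  exact a1.trans a2

end Crest.Agent.R78
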