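import Crest.Agent.R78.PSDef

/-!
# Row 78, task R78-PSAlg: Pytlik–Szwarc representations are uniformly close to the regular one.

PLAN.  Write `p x = C.P {x}`; `p 1 * p l = 0` for `l ≠ 1`, `Λ l * p x = p (l x) * Λ l` (`cov`, `Set.image_singleton`).
`gen a b c l = R * Λ l`, where `R` acts as the matrix `[[c, b], [-a, c]]` on the "plane" of `p 1`, `p l`.
`gen_mul_gen`: expand (move all `a, b, c` to the left; useful: put `X = Λ l * p 1 = p l * Λ l`, `Y = p 1 * Λ l⁻¹`,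
`X Y = p l`, `Y X = p 1`, `X X = 0`, `Y Y = 0`; the inverse of `R` is `1 + (c-1)(p 1 + p l) + a X - b Y`).
`ps_bound`: for a letter `x = (i, true/false)`, `π (mk [x]) = gen a' b' c (mk [x])` with `(a', b') = (a, b)` or
`(b, a)` (`gen_mul_gen`, uniqueness of inverses).  Induct on reduced words `L` (`FreeGroup.IsReduced`,
`toWord`, `mk_toWord`), `g = mk L`, `W g = π g * Λ g⁻¹`, `W (l g') = R_l Λ l (W g') Λ l⁻¹`, `cone L` = the set of
elements whose reduced word starts with the first letter of `L` (`∅` for `L = []`).  INVARIANT: for all `ξ`,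
`δ = W g ξ - ξ` satisfies `P ({1} ∪ cone) δ = δ` and
`‖δ - p 1 δ‖² + 4 ‖p 1 δ‖² ≤ 36 s² (‖P cone ξ‖² + ‖p 1 ξ‖²/2)`.
Step: `δ'' = Λ l δ'` is supported in `{l} ∪ l · cone' ⊆ cone` (disjoint union, `1 ∉ cone`;
`FreeGroup.startsWith_mk_mul`), `δ = δ'' + (R - 1)(ξ + δ'')`; with `x₀ = ‖p 1 ξ‖`, `x₁ = ‖p l ξ‖`, `D = ‖p l δ''‖`:
`‖p 1 δ‖ ≤ s (x₀ + x₁ + D)`, `‖p l δ‖ ≤ D + s (x₀ + x₁ + D)`, the rest of `δ` is that of `δ''`; use
`(x+y+z)² ≤ 3 (x²+y²+z²)`, `18 s² ≤ 2`, `‖P (S ∪ T) ξ‖² = ‖P S ξ‖² + ‖P T ξ‖²` for disjoint sets.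
-/

set_option autoImplicit false

namespace Crest.Agent.R78

variable {E : Type*} [NormedAddCommGroup E] [InnerProductSpace ℂ E] [CompleteSpace E]

theorem PVM.P_empty {X : Type*} (C : PVM X E) : C.P ∅ = 0 := by
  have := C.P_union ∅ ∅ (by simp)
  rw [Set.union_self] at this
  exact left_eq_add.1 this

theorem PVM.P_P {X : Type*} (C : PVM X E) (S T : Set X) (ξ : E) :
    C.P S (C.P T ξ) = C.P (S ∩ T) ξ := by
  rw [← C.P_mul]; rfl

theorem PVM.P_of_sub {X : Type*} (C : PVM X E) {S T : Set X} {u : E} (hu : C.P T u = u)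
    (h : T ⊆ S) : C.P S u = u := by
  rw [← hu, C.P_P, Set.inter_eq_right.2 h]

theorem PVM.P_of_disj {X : Type*} (C : PVM X E) {S T : Set X} {u : E} (hu : C.P T u = u)
    (h : Disjoint S T) : C.P S u = 0 := by
  rw [← hu, C.P_P, h.inter_eq, C.P_empty]; rfl

theorem PVM.mul_of_disj {X : Type*} (C : PVM X E) {S T : Set X} (h : Disjoint S T) :
    C.P S * C.P T = 0 := by
  rw [C.P_mul, h.inter_eq, C.P_empty]

theorem PVM.P_compl {X : Type*} (C : PVM X E) (S : Set X) : C.P Sᶜ = 1 - C.P S := by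
  rw [← C.P_univ, ← Set.union_compl_self S, C.P_union _ _ disjoint_compl_right]; abel

theorem PVM.norm_le {X : Type*} (C : PVM X E) (S : Set X) : ‖C.P S‖ ≤ 1 := by
  exact IsStarProjection.norm_le _
    ⟨by rw [IsIdempotentElem, C.P_mul, Set.inter_self], C.P_sa S⟩

theorem PVM.sq_union {X : Type*} (C : PVM X E) {S T : Set X} (h : Disjoint S T) (ξ : E) :
    ‖C.P (S ∪ T) ξ‖ ^ 2 = ‖C.P S ξ‖ ^ 2 + ‖C.P T ξ‖ ^ 2 := by
  rw [C.P_union S T h, ContinuousLinearMap.add_apply, sq, sq, sq]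
  refine norm_add_sq_eq_norm_sq_add_norm_sq_of_inner_eq_zero (𝕜 := ℂ) _ _ ?_
  rw [← ContinuousLinearMap.adjoint_inner_right, (C.P_sa S).adjoint_eq, C.P_P, h.inter_eq, C.P_empty]
  simp

theorem PVM.sq_mono {X : Type*} (C : PVM X E) {S T : Set X} (h : S ⊆ T) (ξ : E) :
    ‖C.P S ξ‖ ^ 2 ≤ ‖C.P T ξ‖ ^ 2 := by
  rw [← Set.union_diff_cancel h, C.sq_union Set.disjoint_sdiff_right]
  exact le_add_of_nonneg_right (sq_nonneg _)

theorem PVM.sq_le {X : Type*} (C : PVM X E) (S : Set X) (ξ : E) : ‖C.P S ξ‖ ^ 2 ≤ ‖ξ‖ ^ 2 := by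
  simpa [C.P_univ] using C.sq_mono (Set.subset_univ S) ξ

theorem PVM.sum_sq_le {X I : Type*} (C : PVM X E) [Fintype I] {S : I → Set X}
    (h : Pairwise fun i j => Disjoint (S i) (S j)) (ξ : E) : ∑ i, ‖C.P (S i) ξ‖ ^ 2 ≤ ‖ξ‖ ^ 2 := by
  classical
  have key : ∀ s : Finset I, ∑ i ∈ s, ‖C.P (S i) ξ‖ ^ 2 = ‖C.P (⋃ i ∈ s, S i) ξ‖ ^ 2 := by
    intro s
    induction s using Finset.induction_on with
    | empty => simp [C.P_empty]
    | insert a s ha ih =>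
      rw [Finset.sum_insert ha, Finset.set_biUnion_insert, C.sq_union, ih]
      simp only [Set.disjoint_iUnion_right]
      exact fun i hi => h fun e => ha (e ▸ hi)
  rw [key]
  exact C.sq_le _ ξ

theorem PSAlg_ring {A : Type*} [Ring A] {a b d e X Y : A} (ae : a * e = e * a) (aX : a * X = X * a)
    (aY : a * Y = Y * a) (be : b * e = e * b) (bX : b * X = X * b) (bY : b * Y = Y * b)
    (de : d * e = e * d) (dX : d * X = X * d) (dY : d * Y = Y * d) (ab : a * b = b * a)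
    (ad : a * d = d * a) (bd : b * d = d * b) (ee : e * e = e) (eX : e * X = X) (Xe : X * e = X)
    (eY : e * Y = Y) (Ye : Y * e = Y) (XX : X * X = 0) (YY : Y * Y = 0) (XY : X * Y + Y * X = e)
    (h : (d + 1) * (d + 1) + a * b = 1) :
    (1 + d * e - a * X + b * Y) * (1 + d * e + a * X - b * Y) = 1 := by
  have k : ∀ {u v Z W : A}, v * Z = Z * v → u * Z * (v * W) = u * v * (Z * W) := by
    intro u v Z W h
    rw [mul_assoc, ← mul_assoc Z, ← h, mul_assoc, mul_assoc]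
  have h1 : d * d + a * b + d + d = 0 := by
    have : d * d + a * b + d + d = (d + 1) * (d + 1) + a * b - 1 := by noncomm_ring
    rw [this, h, sub_self]
  have h2 : (d * d + a * b + d + d) * e = 0 := by rw [h1, zero_mul]
  have h3 : a * b * (X * Y) + a * b * (Y * X) = a * b * e := by rw [← mul_add, XY]
  simp only [mul_add, add_mul, mul_sub, sub_mul, mul_one, one_mul, k de, k ae, k be, k dX, k aX, k bX,
    k dY, k aY, k bY, ee, eX, Xe, eY, Ye, XX, YY, mul_zero, ad, bd, ← ab] at h2 ⊢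
  rw [← h3] at h2
  refine sub_eq_zero.1 (Eq.trans ?_ h2)
  abel

namespace Cov

theorem Λ_P {G : Type*} [Group G] (C : Cov G E) (g x : G) :
    C.Λ g * C.P {x} = C.P {g * x} * C.Λ g := by
  rw [C.cov, Set.image_singleton]

theorem Λ_inv {G : Type*} [Group G] (C : Cov G E) (g : G) : C.Λ g * C.Λ g⁻¹ = 1 := by
  rw [← map_mul, mul_inv_cancel, map_one]

theorem inv_Λ {G : Type*} [Group G] (C : Cov G E) (g : G) : C.Λ g⁻¹ * C.Λ g = 1 := by
  rw [← map_mul, inv_mul_cancel, map_one]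

theorem Cm.star {G : Type*} [Group G] {C : Cov G E} {a : E →L[ℂ] E} (ha : C.Cm a) :
    C.Cm (star a) := by
  refine ⟨fun g => ?_, fun S => ?_⟩
  · have := congrArg Star.star (ha.1 g⁻¹)
    rw [star_mul, star_mul, C.Λ_star, inv_inv] at this
    exact this.symm
  · have := congrArg Star.star (ha.2 S)
    rw [star_mul, star_mul, (C.P_sa S).star_eq] at this
    exact this.symm

theorem Cm.sub_one {G : Type*} [Group G] {C : Cov G E} {a : E →L[ℂ] E} (ha : C.Cm a) :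
    C.Cm (a - 1) :=
  ⟨fun g => by rw [mul_sub, sub_mul, ha.1, mul_one, one_mul],
    fun S => by rw [mul_sub, sub_mul, ha.2, mul_one, one_mul]⟩

theorem norm_Λ {G : Type*} [Group G] (C : Cov G E) (g : G) (ξ : E) : ‖C.Λ g ξ‖ = ‖ξ‖ :=
  ContinuousLinearMap.norm_map_of_mem_unitary (C.Λ_mem g) ξ

theorem gen_mul_gen {G : Type*} [Group G] (C : Cov G E) {a b c : E →L[ℂ] E} (ha : C.Cm a)
    (hb : C.Cm b) (hc : C.Cm c) (hab : a * b = b * a) (hac : a * c = c * a) (hbc : b * c = c * b)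
    (h : c * c + a * b = 1) {l : G} (hl : l ≠ 1) : C.gen a b c l * C.gen b a c l⁻¹ = 1 := by
  have e1 : C.Λ l * C.P {1} = C.P {l} * C.Λ l := by rw [C.Λ_P, mul_one]
  have e2 : C.Λ l⁻¹ * C.P {l} = C.P {1} * C.Λ l⁻¹ := by rw [C.Λ_P, inv_mul_cancel]
  have e3 : C.Λ l * C.P {l⁻¹} = C.P {1} * C.Λ l := by rw [C.Λ_P, mul_inv_cancel]
  have pp : C.P {1} * C.P {1} = C.P {1} := by rw [C.P_mul, Set.inter_self]
  have qq : C.P {l} * C.P {l} = C.P {l} := by rw [C.P_mul, Set.inter_self]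
  have pq : C.P {1} * C.P {l} = 0 := C.mul_of_disj (by simpa using hl.symm)
  have qp : C.P {l} * C.P {1} = 0 := C.mul_of_disj (by simpa using hl)
  have hd := hc.sub_one
  have cm : ∀ {t : E →L[ℂ] E}, C.Cm t → t * (C.P {1} + C.P {l}) = (C.P {1} + C.P {l}) * t ∧
      t * (C.Λ l * C.P {1}) = (C.Λ l * C.P {1}) * t ∧
      t * (C.P {1} * C.Λ l⁻¹) = (C.P {1} * C.Λ l⁻¹) * t := fun ht =>
    ⟨by rw [mul_add, add_mul, ht.2, ht.2], by rw [mul_assoc, ht.2, ← mul_assoc, ← ht.1, mul_assoc],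
      by rw [mul_assoc, ht.1, ← mul_assoc, ← ht.2, mul_assoc]⟩
  have key := PSAlg_ring (a := a) (b := b) (d := c - 1) (e := C.P {1} + C.P {l})
    (X := C.Λ l * C.P {1}) (Y := C.P {1} * C.Λ l⁻¹) (cm ha).1 (cm ha).2.1 (cm ha).2.2
    (cm hb).1 (cm hb).2.1 (cm hb).2.2 (cm hd).1 (cm hd).2.1 (cm hd).2.2 hab
    (by rw [mul_sub, sub_mul, hac, mul_one, one_mul])
    (by rw [mul_sub, sub_mul, hbc, mul_one, one_mul])
    (by rw [mul_add, add_mul, add_mul, pp, qq, pq, qp, add_zero, zero_add])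
    (by rw [e1, add_mul, ← mul_assoc, ← mul_assoc, pq, qq, zero_mul, zero_add])
    (by rw [mul_add, mul_assoc, mul_assoc, pp, pq, mul_zero, add_zero])
    (by rw [add_mul, ← mul_assoc, ← mul_assoc, pp, qp, zero_mul, add_zero])
    (by rw [← e2, mul_add, mul_assoc, mul_assoc, qp, qq, mul_zero, zero_add])
    (by nth_rw 2 [e1]; rw [mul_assoc, ← mul_assoc (C.P {1}), pq, zero_mul, mul_zero])
    (by nth_rw 1 [← e2]; rw [mul_assoc, ← mul_assoc (C.P {l}), qp, zero_mul, mul_zero])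
    (by
      have v1 : C.Λ l * C.P {1} * (C.P {1} * C.Λ l⁻¹) = C.P {l} := by
        rw [mul_assoc, ← mul_assoc (C.P {1}), pp, ← mul_assoc, e1, mul_assoc, C.Λ_inv, mul_one]
      have v2 : C.P {1} * C.Λ l⁻¹ * (C.Λ l * C.P {1}) = C.P {1} := by
        rw [mul_assoc, ← mul_assoc (C.Λ l⁻¹), C.inv_Λ, one_mul, pp]
      rw [v1, v2, add_comm])
    (by rw [sub_add_cancel, h])
  have k2 : C.Λ l * C.gen b a c l⁻¹ = 1 + (c - 1) * (C.P {1} + C.P {l}) + a * (C.Λ l * C.P {1})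
      - b * (C.P {1} * C.Λ l⁻¹) := by
    have u1 : C.Λ l * ((c - 1) * (C.P {1} + C.P {l⁻¹}) * C.Λ l⁻¹) =
        (c - 1) * (C.P {1} + C.P {l}) := by
      rw [← mul_assoc, ← mul_assoc, hd.1, mul_assoc (c - 1), mul_add, e1, e3, ← add_mul, mul_assoc,
        mul_assoc, C.Λ_inv, mul_one, add_comm]
    have u2 : C.Λ l * (b * C.Λ l⁻¹ * C.P {1} * C.Λ l⁻¹) = b * (C.P {1} * C.Λ l⁻¹) := by
      rw [← hb.1, ← mul_assoc, ← mul_assoc, ← mul_assoc, C.Λ_inv, one_mul, mul_assoc]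
    have u3 : C.Λ l * (a * C.P {1} * C.Λ l * C.Λ l⁻¹) = a * (C.Λ l * C.P {1}) := by
      rw [mul_assoc _ (C.Λ l), C.Λ_inv, mul_one, ← mul_assoc, ha.1, mul_assoc]
    rw [gen, inv_inv, add_mul, sub_mul, add_mul, mul_add, mul_sub, mul_add, u1, u2, u3, one_mul,
      C.Λ_inv]
    abel
  rw [gen, mul_assoc, k2, mul_assoc a, mul_assoc b]
  exact key

theorem star_gen {G : Type*} [Group G] (C : Cov G E) {a b c : E →L[ℂ] E} (ha : C.Cm a)
    (hb : C.Cm b) (hc : C.Cm c) (l : G) :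
    star (C.gen a b c l) = C.gen (star a) (star b) (star c) l⁻¹ := by
  have e2 : C.Λ l⁻¹ * C.P {l} = C.P {1} * C.Λ l⁻¹ := by rw [C.Λ_P, inv_mul_cancel]
  have e4 : C.Λ l⁻¹ * C.P {1} = C.P {l⁻¹} * C.Λ l⁻¹ := by rw [C.Λ_P, mul_one]
  have ha' := ha.star
  have hb' := hb.star
  have hd := hc.star.sub_one
  have u1 : C.Λ l⁻¹ * ((C.P {1} + C.P {l}) * (star c - 1)) =
      (star c - 1) * (C.P {1} + C.P {l⁻¹}) * C.Λ l⁻¹ := by
    rw [← mul_assoc, mul_add, e2, e4, ← add_mul, mul_assoc, hd.1, ← mul_assoc, add_mul, hd.2, hd.2,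
      ← mul_add, add_comm]
  have u2 : C.Λ l⁻¹ * (C.P {1} * (C.Λ l⁻¹ * star a)) = star a * C.Λ l⁻¹ * C.P {1} * C.Λ l⁻¹ := by
    rw [ha'.1, ← mul_assoc (C.P {1}), ha'.2, ← mul_assoc, ← mul_assoc, ha'.1]
  have u3 : C.Λ l⁻¹ * (C.Λ l * (C.P {1} * star b)) = star b * C.P {1} * C.Λ l * C.Λ l⁻¹ := by
    rw [← mul_assoc, C.inv_Λ, one_mul, mul_assoc _ (C.Λ l), C.Λ_inv, mul_one, hb'.2]
  simp only [gen, star_mul, star_add, star_sub, star_one, C.Λ_star, (C.P_sa _).star_eq, inv_inv]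
  rw [mul_add, mul_sub, mul_add, u1, u2, u3, add_mul (_ - _), sub_mul (_ + _), add_mul 1, mul_one,
    one_mul]

theorem gen_apply {G : Type*} [Group G] (C : Cov G E) {a b c : E →L[ℂ] E} (ha : C.Cm a)
    (hb : C.Cm b) (hc : C.Cm c) {s : ℝ} (ha' : ‖a‖ ≤ s) (hb' : ‖b‖ ≤ s) (hc' : ‖c - 1‖ ≤ s) (l : G)
    (ζ : E) : ∃ u v : E, C.gen a b c l ζ = C.Λ l ζ + u + v ∧ C.P {1} u = u ∧ C.P {l} v = v ∧
      ‖u‖ ≤ s * (‖C.P {1} (C.Λ l ζ)‖ + ‖C.P {l} (C.Λ l ζ)‖) ∧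
      ‖v‖ ≤ s * (‖C.P {1} (C.Λ l ζ)‖ + ‖C.P {l} (C.Λ l ζ)‖) := by
  have hd := hc.sub_one
  have e1 : ∀ η, C.Λ l (C.P {1} η) = C.P {l} (C.Λ l η) := fun η => by
    have := congrArg (fun T : E →L[ℂ] E => T η) (C.Λ_P l 1)
    simpa using this
  have e2 : ∀ η, C.Λ l⁻¹ (C.P {l} η) = C.P {1} (C.Λ l⁻¹ η) := fun η => by
    have := congrArg (fun T : E →L[ℂ] E => T η) (C.Λ_P l⁻¹ l)
    simpa using this
  have cm : ∀ {t : E →L[ℂ] E}, C.Cm t → ∀ S η, C.P S (t η) = t (C.P S η) := fun ht S η =>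
    congrArg (fun T : E →L[ℂ] E => T η) (ht.2 S)
  have nb : ∀ {t : E →L[ℂ] E}, ‖t‖ ≤ s → ∀ η, ‖t η‖ ≤ s * ‖η‖ := fun {t} ht η =>
    t.le_of_opNorm_le ht η
  refine ⟨(c - 1) (C.P {1} (C.Λ l ζ)) + b (C.P {1} (C.Λ l⁻¹ (C.Λ l ζ))),
    (c - 1) (C.P {l} (C.Λ l ζ)) - a (C.Λ l (C.P {1} (C.Λ l ζ))), ?_, ?_, ?_, ?_, ?_⟩
  · simp only [gen, ContinuousLinearMap.mul_apply, ContinuousLinearMap.add_apply,
      ContinuousLinearMap.sub_apply, ContinuousLinearMap.one_apply, map_add]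
    abel
  · rw [map_add, cm hd, cm hb, C.P_P, C.P_P, Set.inter_self]
  · rw [e1, map_sub, cm hd, cm ha, C.P_P, C.P_P, Set.inter_self]
  · refine (norm_add_le _ _).trans ?_
    rw [mul_add, ← e2]
    exact add_le_add (nb hc' _) ((nb hb' _).trans_eq (by rw [C.norm_Λ]))
  · refine (norm_sub_le _ _).trans ?_
    rw [mul_add, add_comm]
    exact add_le_add ((nb ha' _).trans_eq (by rw [C.norm_Λ])) (nb hc' _)

/-- the invariant of the induction -/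
def PSInv {G : Type*} [Group G] (C : Cov G E) (s : ℝ) (W : E →L[ℂ] E) (T : Set G) : Prop :=
  ∀ ξ, C.P (insert 1 T) (W ξ - ξ) = W ξ - ξ ∧
    ‖C.P {1}ᶜ (W ξ - ξ)‖ ^ 2 + 4 * ‖C.P {1} (W ξ - ξ)‖ ^ 2 ≤
      36 * s ^ 2 * (‖C.P T ξ‖ ^ 2 + ‖C.P {1} ξ‖ ^ 2 / 2)

theorem PSInv_num {s x0 x1 D r y z n1 n2 n3 : ℝ} (hs0 : 0 ≤ s) (hs : s ≤ 1 / 3) (h0 : 0 ≤ x0)
    (h1 : 0 ≤ x1) (hD : 0 ≤ D) (ih : r + 4 * D ^ 2 ≤ 36 * s ^ 2 * (y + x1 ^ 2 / 2))
    (hz : y + x1 ^ 2 ≤ z) (a1 : 0 ≤ n1) (b1 : n1 ≤ s * (x0 + (x1 + D))) (a2 : 0 ≤ n2)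
    (b2 : n2 ≤ D + s * (x0 + (x1 + D))) (b3 : n3 ≤ r) :
    n2 ^ 2 + n3 + 4 * n1 ^ 2 ≤ 36 * s ^ 2 * (z + x0 ^ 2 / 2) := by
  have c1 := pow_le_pow_left₀ a1 b1 2
  have c2 := pow_le_pow_left₀ a2 b2 2
  have c3 : (x0 + (x1 + D)) ^ 2 ≤ 3 * (x0 ^ 2 + x1 ^ 2 + D ^ 2) := by
    nlinarith [sq_nonneg (x0 - x1), sq_nonneg (x0 - D), sq_nonneg (x1 - D)]
  have c4 := mul_le_mul_of_nonneg_left c3 (sq_nonneg s)
  have c5 : s ^ 2 ≤ 1 / 9 := by nlinarith
  have c6 := mul_le_mul_of_nonneg_right c5 (sq_nonneg D)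
  have c7 := mul_le_mul_of_nonneg_left hz (sq_nonneg s)
  have c8 := sq_nonneg (D - s * (x0 + (x1 + D)))
  nlinarith

theorem PSInv.step {G : Type*} [Group G] {C : Cov G E} {a b c : E →L[ℂ] E} (ha : C.Cm a)
    (hb : C.Cm b) (hc : C.Cm c) {s : ℝ} (hs : s ≤ 1 / 3) (ha' : ‖a‖ ≤ s) (hb' : ‖b‖ ≤ s)
    (hc' : ‖c - 1‖ ≤ s) {l : G} {T T' : Set G} (h1 : 1 ∉ T) (h1' : 1 ∉ T') (hl : l ∈ T)
    (hT : ∀ x ∈ T', l * x ∈ T) {W : E →L[ℂ] E} (h : C.PSInv s W T') :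
    C.PSInv s (C.gen a b c l * W * C.Λ l⁻¹) T := by
  intro ξ
  have hs0 : 0 ≤ s := (norm_nonneg _).trans ha'
  have hl1 : l ≠ 1 := fun e => h1 (e ▸ hl)
  obtain ⟨i1, i2⟩ := h (C.Λ l⁻¹ ξ)
  obtain ⟨u, v, e, hu, hv, nu, nv⟩ := C.gen_apply ha hb hc ha' hb' hc' l (W (C.Λ l⁻¹ ξ))
  have cv : ∀ S η, C.P ((fun x => l * x) '' S) (C.Λ l η) = C.Λ l (C.P S η) := fun S η =>
    (congrArg (fun T : E →L[ℂ] E => T η) (C.cov l S)).symm
  have hξ : C.Λ l (C.Λ l⁻¹ ξ) = ξ := congrArg (fun T : E →L[ℂ] E => T ξ) (C.Λ_inv l)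
  simp only [ContinuousLinearMap.mul_apply]
  generalize C.Λ l⁻¹ ξ = ξ' at *
  obtain ⟨δ', hδ'⟩ : ∃ δ', δ' = W ξ' - ξ' := ⟨_, rfl⟩
  rw [← hδ'] at i1 i2
  have hη : C.Λ l (W ξ') = ξ + C.Λ l δ' := by rw [hδ', map_sub, hξ]; abel
  have hδ : C.gen a b c l (W ξ') - ξ = C.Λ l δ' + u + v := by rw [e, hη]; abel
  rw [hη] at nu nv
  rw [hδ]
  have s1 : C.P T (C.Λ l δ') = C.Λ l δ' := by
    refine C.P_of_sub (T := (fun x => l * x) '' insert 1 T') (by rw [cv, i1]) ?_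
    rintro _ ⟨x, rfl | hx, rfl⟩
    · simpa using hl
    · exact hT x hx
  have s2 : C.P {1} (C.Λ l δ') = 0 := C.P_of_disj s1 (by simpa using h1)
  have j1 : ‖C.P {l} (C.Λ l δ')‖ = ‖C.P {1} δ'‖ := by
    rw [← C.norm_Λ l (C.P {1} δ'), ← cv, Set.image_singleton, mul_one]
  have j2 : ‖C.P {l}ᶜ (C.Λ l δ')‖ = ‖C.P {1}ᶜ δ'‖ := by
    rw [← C.norm_Λ l (C.P {1}ᶜ δ'), ← cv, Set.image_compl_eq (Group.mulLeft_bijective l),
      Set.image_singleton, mul_one]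
  have j3 : ‖C.P {l} ξ‖ = ‖C.P {1} ξ'‖ := by
    rw [← C.norm_Λ l (C.P {1} ξ'), ← cv, Set.image_singleton, mul_one, hξ]
  have j4 : ‖C.P ((fun x => l * x) '' T') ξ‖ = ‖C.P T' ξ'‖ := by
    rw [← C.norm_Λ l (C.P T' ξ'), ← cv, hξ]
  refine ⟨?_, ?_⟩
  · rw [map_add, map_add, C.P_of_sub s1 (Set.subset_insert _ _), C.P_of_sub hu (by simp),
      C.P_of_sub hv (by simp [hl])]
  have d1 : ({1}ᶜ : Set G) = {l} ∪ {1, l}ᶜ := by
    ext x; by_cases hx : x = l <;> simp [hx, hl1]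
  rw [d1, C.sq_union (by simp)]
  rw [map_add, map_add, s2, add_zero] at nu nv
  have nb : ‖C.P {l} ξ + C.P {l} (C.Λ l δ')‖ ≤ ‖C.P {l} ξ‖ + ‖C.P {1} δ'‖ := by
    rw [← j1]; exact norm_add_le _ _
  have nu' := nu.trans (mul_le_mul_of_nonneg_left (add_le_add_right nb _) hs0)
  have nv' := nv.trans (mul_le_mul_of_nonneg_left (add_le_add_right nb _) hs0)
  rw [← j3, ← j4] at i2
  refine PSInv_num hs0 hs (norm_nonneg _) (norm_nonneg _) (norm_nonneg _) i2 ?_ (norm_nonneg _) ?_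
    (norm_nonneg _) ?_ ?_
  · rw [← C.sq_union]
    · refine C.sq_mono ?_ ξ
      rintro x (⟨y, hy, rfl⟩ | rfl)
      · exact hT y hy
      · exact hl
    · simpa using h1'
  · rw [map_add, map_add, s2, hu, C.P_of_disj hv (by simpa using hl1.symm), zero_add, add_zero]
    exact nu'
  · rw [map_add, map_add, hv, C.P_of_disj hu (by simpa using hl1), add_zero, ← j1]
    exact (norm_add_le _ _).trans (add_le_add_right (j1 ▸ nv') _)
  · rw [map_add, map_add, C.P_of_disj hu (by simp), C.P_of_disj hv (by simp), add_zero, add_zero, ← j2]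
    exact C.sq_mono (Set.compl_subset_compl.2 (by simp)) _

theorem ps_bound {ι : Type*} (C : Cov (FreeGroup ι) E) {a b c : E →L[ℂ] E} (ha : C.Cm a)
    (hb : C.Cm b) (hc : C.Cm c) (hab : a * b = b * a) (hac : a * c = c * a) (hbc : b * c = c * b)
    (h : c * c + a * b = 1) {s : ℝ} (hs : s ≤ 1 / 3) (ha' : ‖a‖ ≤ s) (hb' : ‖b‖ ≤ s)
    (hc' : ‖c - 1‖ ≤ s) (π : FreeGroup ι →* (E →L[ℂ] E))
    (hπ : ∀ i, π (FreeGroup.of i) = C.gen a b c (FreeGroup.of i)) (g : FreeGroup ι) :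
    ‖π g - C.Λ g‖ ≤ 6 * s := by
  classical
  have hs0 : 0 ≤ s := (norm_nonneg _).trans ha'
  have hinv : ∀ i, π (FreeGroup.of i)⁻¹ = C.gen b a c (FreeGroup.of i)⁻¹ := fun i => by
    have h1 := C.gen_mul_gen ha hb hc hab hac hbc h (FreeGroup.of_ne_one i)
    rw [← hπ] at h1
    calc π (FreeGroup.of i)⁻¹
        = π (FreeGroup.of i)⁻¹ * (π (FreeGroup.of i) * C.gen b a c (FreeGroup.of i)⁻¹) := by
          rw [h1, mul_one]
      _ = _ := by rw [← mul_assoc, ← map_mul, inv_mul_cancel, map_one, one_mul]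
  have key : ∀ L : List (ι × Bool), FreeGroup.IsReduced L →
      C.PSInv s (π (FreeGroup.mk L) * C.Λ (FreeGroup.mk L)⁻¹)
        {g | ∃ x ∈ L.head?, g ∈ FreeGroup.startsWith x} := by
    intro L
    induction L with
    | nil =>
      intro _ ξ
      rw [← FreeGroup.one_eq_mk, inv_one, map_one, map_one, mul_one]
      simp only [ContinuousLinearMap.one_apply, sub_self, map_zero, norm_zero, true_and]
      norm_num
      positivity
    | cons x L ih =>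
      intro hL
      have hL' : FreeGroup.IsReduced L := hL.infix (List.infix_cons List.infix_rfl)
      have e : π (FreeGroup.mk (x :: L)) * C.Λ (FreeGroup.mk (x :: L))⁻¹ =
          π (FreeGroup.mk [x]) * (π (FreeGroup.mk L) * C.Λ (FreeGroup.mk L)⁻¹) *
            C.Λ (FreeGroup.mk [x])⁻¹ := by
        rw [← List.singleton_append, ← FreeGroup.mul_mk, mul_inv_rev, map_mul, map_mul]
        simp only [mul_assoc]
      rw [e]
      have n1 : ∀ L : List (ι × Bool),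
          (1 : FreeGroup ι) ∉ {g | ∃ x ∈ L.head?, g ∈ FreeGroup.startsWith x} := by
        rintro L ⟨y, -, hy⟩
        exact FreeGroup.startsWith.ne_one _ hy rfl
      have m1 : FreeGroup.mk [x] ∈ {g | ∃ y ∈ (x :: L).head?, g ∈ FreeGroup.startsWith y} :=
        ⟨x, rfl, rfl⟩
      have m2 : ∀ g ∈ {g | ∃ y ∈ L.head?, g ∈ FreeGroup.startsWith y},
          FreeGroup.mk [x] * g ∈ {g | ∃ y ∈ (x :: L).head?, g ∈ FreeGroup.startsWith y} := by
        rintro g ⟨y, hy, hg⟩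
        refine ⟨x, rfl, FreeGroup.startsWith_mk_mul g fun hg' => ?_⟩
        have hne : y ≠ (x.1, !x.2) := by
          rintro rfl
          cases L with
          | nil => simp at hy
          | cons z L =>
            obtain rfl : z = (x.1, !x.2) := by simpa using hy
            simpa using (FreeGroup.isReduced_cons_cons.1 hL).1
        exact Set.disjoint_left.1 (FreeGroup.startsWith.disjoint_iff_ne.2 hne) hg hg'
      obtain ⟨i, _ | _⟩ := x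
      · have : FreeGroup.mk [(i, false)] = (FreeGroup.of i)⁻¹ := rfl
        rw [this] at m1 m2 ⊢
        rw [hinv]
        exact PSInv.step hb ha hc hs hb' ha' hc' (n1 _) (n1 _) m1 m2 (ih hL')
      · have : FreeGroup.mk [(i, true)] = FreeGroup.of i := rfl
        rw [this] at m1 m2 ⊢
        rw [hπ]
        exact PSInv.step ha hb hc hs ha' hb' hc' (n1 _) (n1 _) m1 m2 (ih hL')
  have hk := key g.toWord FreeGroup.isReduced_toWord
  rw [FreeGroup.mk_toWord] at hk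
  refine ContinuousLinearMap.opNorm_le_bound _ (by positivity) fun ξ => ?_
  obtain ⟨-, i2⟩ := hk (C.Λ g ξ)
  have e : (π g * C.Λ g⁻¹) (C.Λ g ξ) - C.Λ g ξ = (π g - C.Λ g) ξ := by
    rw [← ContinuousLinearMap.mul_apply, mul_assoc, C.inv_Λ, mul_one]; rfl
  rw [e] at i2
  have j1 := C.sq_union (disjoint_compl_left (a := ({1} : Set (FreeGroup ι)))) ((π g - C.Λ g) ξ)
  rw [Set.compl_union_self, C.P_univ, ContinuousLinearMap.one_apply] at j1
  have j2 := C.sq_union (S := {h | ∃ x ∈ g.toWord.head?, h ∈ FreeGroup.startsWith x}) (T := {1})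
    (by
      rw [Set.disjoint_singleton_right]
      rintro ⟨y, -, hy⟩
      exact FreeGroup.startsWith.ne_one _ hy rfl) (C.Λ g ξ)
  have j3 := C.sq_le ({h | ∃ x ∈ g.toWord.head?, h ∈ FreeGroup.startsWith x} ∪ {1}) (C.Λ g ξ)
  rw [C.norm_Λ, j2] at j3
  refine abs_le_of_sq_le_sq' ?_ (by positivity) |>.2
  have j4 : 36 * s ^ 2 * (‖C.P {h | ∃ x ∈ g.toWord.head?, h ∈ FreeGroup.startsWith x} (C.Λ g ξ)‖ ^ 2
      + ‖C.P {1} (C.Λ g ξ)‖ ^ 2 / 2) ≤ 36 * s ^ 2 * ‖ξ‖ ^ 2 :=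
    mul_le_mul_of_nonneg_left (by linarith [sq_nonneg ‖C.P {1} (C.Λ g ξ)‖]) (by positivity)
  linarith [sq_nonneg ‖C.P {1} ((π g - C.Λ g) ξ)‖]

end Cov

end Crest.Agent.R78
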