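import Crest.Agent.R78.L2K

/-! # Row 78: covariant systems and Pytlik–Szwarc type representations (definitions). -/

set_option autoImplicit false
set_option linter.unusedSectionVars false

open ContinuousLinearMap

namespace Crest.Agent.R78

noncomputable section

variable {E E' : Type*} [NormedAddCommGroup E] [InnerProductSpace ℂ E] [CompleteSpace E]
  [NormedAddCommGroup E'] [InnerProductSpace ℂ E'] [CompleteSpace E']

/-- finitely additive projection valued measures -/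
structure PVM (X : Type*) (E : Type*) [NormedAddCommGroup E] [InnerProductSpace ℂ E]
    [CompleteSpace E] where
  P : Set X → E →L[ℂ] E
  P_sa : ∀ S, IsSelfAdjoint (P S)
  P_mul : ∀ S T, P S * P T = P (S ∩ T)
  P_union : ∀ S T, Disjoint S T → P (S ∪ T) = P S + P T
  P_univ : P Set.univ = 1

/-- covariant systems -/
structure Cov (G : Type*) [Group G] (E : Type*) [NormedAddCommGroup E] [InnerProductSpace ℂ E]
    [CompleteSpace E] extends PVM G E where
  Λ : G →* (E →L[ℂ] E)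
  Λ_star : ∀ g, star (Λ g) = Λ g⁻¹
  cov : ∀ g S, Λ g * P S = P ((fun x => g * x) '' S) * Λ g

/-- transport along a ⋆-homomorphism -/
def PVM.map {X : Type*} (C : PVM X E) (φ : (E →L[ℂ] E) →⋆ₐ[ℂ] (E' →L[ℂ] E')) : PVM X E' where
  P S := φ (C.P S)
  P_sa S := (C.P_sa S).map φ
  P_mul S T := by rw [← map_mul, C.P_mul]
  P_union S T h := by rw [C.P_union S T h, map_add]
  P_univ := by rw [C.P_univ, map_one]

namespace Cov

variable {G : Type*} [Group G] (C : Cov G E)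

/-- operators commuting with the system -/
def Cm (T : E →L[ℂ] E) : Prop := (∀ g, C.Λ g * T = T * C.Λ g) ∧ ∀ S, C.P S * T = T * C.P S

/-- the image of a letter -/
def gen (a b c : E →L[ℂ] E) (l : G) : E →L[ℂ] E :=
  (1 + (c - 1) * (C.P {1} + C.P {l}) - a * C.Λ l * C.P {1} + b * C.P {1} * C.Λ l⁻¹) * C.Λ l

/-- transport along a ⋆-homomorphism -/
def map (φ : (E →L[ℂ] E) →⋆ₐ[ℂ] (E' →L[ℂ] E')) : Cov G E' where
  toPVM := C.toPVM.map φ
  Λ := (φ : (E →L[ℂ] E) →* (E' →L[ℂ] E')).comp C.Λ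
  Λ_star g := by change star (φ _) = φ _; rw [← map_star, C.Λ_star]
  cov g S := by change φ _ * φ _ = φ _ * φ _; rw [← map_mul, ← map_mul, C.cov]

@[simp] theorem map_P (φ : (E →L[ℂ] E) →⋆ₐ[ℂ] (E' →L[ℂ] E')) (S : Set G) :
    (C.map φ).P S = φ (C.P S) := rfl

@[simp] theorem map_Λ (φ : (E →L[ℂ] E) →⋆ₐ[ℂ] (E' →L[ℂ] E')) (g : G) :
    (C.map φ).Λ g = φ (C.Λ g) := rfl

theorem map_gen (φ : (E →L[ℂ] E) →⋆ₐ[ℂ] (E' →L[ℂ] E')) (a b c : E →L[ℂ] E) (l : G) :
    (C.map φ).gen (φ a) (φ b) (φ c) l = φ (C.gen a b c l) := by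
  simp only [gen, map_P, map_Λ, map_mul, map_add, map_sub, map_one]

theorem gen_zero (l : G) : C.gen 0 0 1 l = C.Λ l := by simp [gen]

theorem Λ_mem (g : G) : C.Λ g ∈ unitary (E →L[ℂ] E) := by
  rw [Unitary.mem_iff, C.Λ_star, ← map_mul, ← map_mul]; simp

end Cov

/-- Laurent expansion of the Pytlik–Szwarc representations in a unitary parameter -/
structure PSys {ι : Type*} (C : Cov (FreeGroup ι) E) (s : ℝ) where
  c : FreeGroup ι → ℤ →₀ (E →L[ℂ] E)
  π : unitary (E →L[ℂ] E) → FreeGroup ι → E →L[ℂ] E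
  π_def : ∀ w g, π w g = ∑ e ∈ (c g).support, c g e * (w ^ e : unitary (E →L[ℂ] E))
  c_le : ∀ g e, ‖c g e‖ ≤ 2 * (1 / 2) ^ e.natAbs
  c_comm : ∀ T, C.Cm T → ∀ g e, c g e * T = T * c g e
  conv : ∀ g h e, c (g * h) e = ∑ e₂ ∈ (c h).support, c g (e - e₂) * c h e₂
  π_one : ∀ w, π w 1 = 1
  π_mul : ∀ w : unitary (E →L[ℂ] E), C.Cm w → ∀ g h, π w (g * h) = π w g * π w h
  π_star : ∀ w : unitary (E →L[ℂ] E), C.Cm w → ∀ g, star (π w g) = π w g⁻¹
  π_of : ∀ w : unitary (E →L[ℂ] E), C.Cm w → ∀ i, π w (FreeGroup.of i) =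
    C.gen ((s : ℂ) • star (w : E →L[ℂ] E)) ((s : ℂ) • (w : E →L[ℂ] E))
      (((√(1 - s ^ 2) : ℝ) : ℂ) • 1) (FreeGroup.of i)
  π_near : ∀ w : unitary (E →L[ℂ] E), C.Cm w → ∀ g, ‖π w g - C.Λ g‖ ≤ 6 * s

theorem PSys.π_mem {ι : Type*} {C : Cov (FreeGroup ι) E} {s : ℝ} (S : PSys C s)
    {w : unitary (E →L[ℂ] E)} (hw : C.Cm w) (g : FreeGroup ι) : S.π w g ∈ unitary (E →L[ℂ] E) := by
  rw [Unitary.mem_iff, S.π_star w hw, ← S.π_mul w hw, ← S.π_mul w hw]; simp [S.π_one]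

section ell

variable {Ξ K : Type*} [NormedAddCommGroup K] [InnerProductSpace ℂ K] [CompleteSpace K]

variable (Ξ) in
/-- `T ↦ 1 ⊗ T` on `ℓ²(Ξ; K)` -/
def dgE : (K →L[ℂ] K) →⋆ₐ[ℂ] (ell Ξ K →L[ℂ] ell Ξ K) where
  toFun T := mop fun _ => T
  map_one' := mop_one
  map_mul' _ _ := mop_mul (Bd.const _) (Bd.const _)
  map_zero' := by ext η ξ; rw [mop_apply (Bd.const _)]; rfl
  map_add' _ _ := mop_add (Bd.const _) (Bd.const _)
  commutes' c := by
    rw [Algebra.algebraMap_eq_smul_one, Algebra.algebraMap_eq_smul_one, mop_smul (Bd.const _),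
      mop_one]
  map_star' _ := mop_star (Bd.const _)

@[simp] theorem dgE_apply (T : K →L[ℂ] K) (η : ell Ξ K) (ξ : Ξ) : dgE Ξ T η ξ = T (η ξ) :=
  mop_apply (Bd.const _) η ξ

theorem norm_dgE_le (T : K →L[ℂ] K) : ‖dgE Ξ T‖ ≤ ‖T‖ :=
  mop_norm_le (norm_nonneg _) fun _ => le_rfl

theorem norm_dgE [Nonempty Ξ] (T : K →L[ℂ] K) : ‖dgE Ξ T‖ = ‖T‖ :=
  le_antisymm (norm_dgE_le T) (norm_le_mop (Bd.const T) (Classical.arbitrary Ξ))

theorem dgE_cmp {φ : Ξ → Ξ} (hφ : Function.Injective φ) (T : K →L[ℂ] K) :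
    dgE Ξ T * cmp K φ = cmp K φ * dgE Ξ T := (cmp_mop hφ (Bd.const T)).symm

theorem bd_indicator {X : Type*} (pr : Ξ → X) (S : Set X) :
    Bd fun ξ => S.indicator (fun _ => (1 : K →L[ℂ] K)) (pr ξ) :=
  ⟨1, fun _ => (norm_indicator_le_norm_self _ _).trans norm_id_le⟩

variable (K) in
/-- the projection valued measure of a map -/
def pvmE {X : Type*} (pr : Ξ → X) : PVM X (ell Ξ K) where
  P S := mop fun ξ => S.indicator (fun _ => (1 : K →L[ℂ] K)) (pr ξ)
  P_sa S := by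
    rw [IsSelfAdjoint, ← mop_star (bd_indicator pr S)]
    congr 1; funext ξ; by_cases h : pr ξ ∈ S <;> simp [h]
  P_mul S T := by
    rw [← mop_mul (bd_indicator pr S) (bd_indicator pr T)]
    congr 1; funext ξ; by_cases h : pr ξ ∈ S <;> by_cases h' : pr ξ ∈ T <;> simp [h, h']
  P_union S T h := by
    rw [← mop_add (bd_indicator pr S) (bd_indicator pr T)]
    congr 1; funext ξ; rw [Set.indicator_union_of_disjoint h]
  P_univ := by simp [mop_one]

theorem pvmE_apply {X : Type*} (pr : Ξ → X) (S : Set X) [DecidablePred (· ∈ S)] (η : ell Ξ K)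
    (ξ : Ξ) : (pvmE K pr).P S η ξ = if pr ξ ∈ S then η ξ else 0 := by
  refine (mop_apply (bd_indicator pr S) η ξ).trans ?_
  split_ifs with h <;> simp [h]

variable (K) in
/-- the permutation representation of an action -/
def actE {G : Type*} [Group G] (act : G →* Equiv.Perm Ξ) : G →* (ell Ξ K →L[ℂ] ell Ξ K) where
  toFun g := cmp K (act g⁻¹)
  map_one' := by simpa using cmp_id
  map_mul' g h := by
    rw [mul_def, cmp_comp (act h⁻¹).injective (act g⁻¹).injective, mul_inv_rev, map_mul]; rfl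

@[simp] theorem actE_apply {G : Type*} [Group G] (act : G →* Equiv.Perm Ξ) (g : G) (η : ell Ξ K)
    (ξ : Ξ) : actE K act g η ξ = η (act g⁻¹ ξ) := cmp_apply (act g⁻¹).injective η ξ

theorem star_actE {G : Type*} [Group G] (act : G →* Equiv.Perm Ξ) (g : G) :
    star (actE K act g) = actE K act g⁻¹ := by
  refine (star_cmp_equiv (act g⁻¹)).trans ?_
  change _ = cmp K (act g⁻¹⁻¹)
  rw [map_inv act g⁻¹]; rfl

theorem actE_mem {G : Type*} [Group G] (act : G →* Equiv.Perm Ξ) (g : G) :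
    actE K act g ∈ unitary (ell Ξ K →L[ℂ] ell Ξ K) := by
  rw [Unitary.mem_iff, star_actE, ← map_mul, ← map_mul]; simp

variable (K) in
/-- the covariant system of an equivariant map -/
def covE {G : Type*} [Group G] (act : G →* Equiv.Perm Ξ) (pr : Ξ → G)
    (h : ∀ g ξ, pr (act g ξ) = g * pr ξ) : Cov G (ell Ξ K) where
  toPVM := pvmE K pr
  Λ := actE K act
  Λ_star := star_actE act
  cov g S := by
    classical
    ext η ξ
    simp only [mul_apply_eq_comp, actE_apply, pvmE_apply, h]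
    congr 1
    refine propext ⟨fun h => ⟨_, h, by simp⟩, ?_⟩
    rintro ⟨x, hx, e⟩
    rw [← e]; simpa using hx

end ell

/-- the von Neumann algebra of the operators commuting with a set and its adjoints -/
def vnc (S : Set (E →L[ℂ] E)) : VonNeumannAlgebra E where
  toStarSubalgebra := StarSubalgebra.centralizer ℂ S
  centralizer_centralizer' := by simp

theorem mem_vnc {S : Set (E →L[ℂ] E)} {T : E →L[ℂ] E} :
    T ∈ vnc S ↔ ∀ x ∈ S, x * T = T * x ∧ star x * T = T * star x :=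
  StarSubalgebra.mem_centralizer_iff ℂ

end

end Crest.Agent.R78
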