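import Crest.Agent.R78.Pre

/-!
# Row 78, task R78-PreL: the limit map `Lop` and the seminorms `nu`, `nu3`.

PLAN.  Everything about `Lop` follows from `Lop_lim` and uniqueness of limits along the ultrafilter
(`ext`, `ext_inner_left`); `avg N 1 = 1` for `N > 0` (eventually along `hyperfilter ℕ`,
`Nat.hyperfilter_le_atTop`).  `Lop_left/right`: `J i l` and its adjoint commute with `bic ρ S.A0`
(`mem_bic`, `J_comm`, star).  `Lop_mem`: `bic_conj_mem`, `J_conj`, `bic_wot`.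
`norm_Lop_apply_le`: `‖Lop X ζ‖² = lim ⟪Lop X ζ, avg N X ζ⟫`.
Seminorms: the families are bounded by `‖x‖` (`le_ciSup`, `ciSup_le`); `sup_seminorm` packages them.
`nu3_hk`: use `bic_le` with `Λ y = ‖(k.P * y * star k.P) ζ‖ - ‖y Ω‖`.
-/

set_option autoImplicit false
set_option linter.unusedSectionVars false

open Filter Topology Finset
open scoped InnerProductSpace

namespace Crest.Agent.R78

noncomputable section

variable {𝔸 : Type*} [CStarAlgebra 𝔸] {K : Type*} [NormedAddCommGroup K] [InnerProductSpace ℂ K]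
  [CompleteSpace K]

theorem sup_seminorm {ι : Type*} [Nonempty ι] (ζ : ι → K) (hζ : ∀ i, ‖ζ i‖ ≤ 1) :
    ∃ ν : Seminorm ℂ (K →L[ℂ] K), (∀ x, ν x = ⨆ i, ‖x (ζ i)‖) ∧ (∀ x i, ‖x (ζ i)‖ ≤ ν x) ∧
      (∀ x y, ν (x * y) ≤ ‖x‖ * ν y) ∧ ν 1 ≤ 1 := by
  have hb : ∀ x : K →L[ℂ] K, BddAbove (Set.range fun i => ‖x (ζ i)‖) := fun x =>
    ⟨‖x‖, by
      rintro _ ⟨i, rfl⟩
      exact (x.le_opNorm _).trans (mul_le_of_le_one_right (norm_nonneg _) (hζ i))⟩
  have hle : ∀ (x : K →L[ℂ] K) i, ‖x (ζ i)‖ ≤ ⨆ i, ‖x (ζ i)‖ := fun x i => le_ciSup (hb x) i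
  refine ⟨Seminorm.ofSMulLE (fun x => ⨆ i, ‖x (ζ i)‖) (by simp) (fun x y => ciSup_le fun i => ?_)
    (fun c x => ciSup_le fun i => ?_), fun x => rfl, hle, fun x y => ciSup_le fun i => ?_,
    ciSup_le fun i => ?_⟩
  · rw [add_apply]
    exact (norm_add_le _ _).trans (add_le_add (hle x i) (hle y i))
  · rw [smul_apply, norm_smul]
    exact mul_le_mul_of_nonneg_left (hle x i) (norm_nonneg c)
  · rw [mul_apply_eq_comp]
    exact (x.le_opNorm _).trans (mul_le_mul_of_nonneg_left (hle y i) (norm_nonneg x))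
  · simpa using hζ i

namespace Pre

variable {ρ : 𝔸 →⋆ₐ[ℂ] (K →L[ℂ] K)} (S : Pre ρ)

theorem Lop_eq {X Z : K →L[ℂ] K}
    (h : ∀ a b, Tendsto (fun N => ⟪a, S.avg N X b⟫_ℂ) (hyperfilter ℕ) (𝓝 ⟪a, Z b⟫_ℂ)) :
    S.Lop X = Z := by
  ext b
  exact ext_inner_left ℂ fun a => tendsto_nhds_unique (S.Lop_lim X a b) (h a b)

theorem avg_add (N : ℕ) (X Y : K →L[ℂ] K) : S.avg N (X + Y) = S.avg N X + S.avg N Y := by
  simp only [avg, sqav, mul_add, add_mul, sum_add_distrib, smul_add]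

theorem avg_smul (N : ℕ) (c : ℂ) (X : K →L[ℂ] K) : S.avg N (c • X) = c • S.avg N X := by
  simp only [avg, sqav, mul_smul_comm, smul_mul_assoc, ← smul_sum]
  rw [smul_comm]

theorem avg_one {N : ℕ} (hN : 0 < N) : S.avg N 1 = 1 := by
  have hN' : ((N : ℝ) ^ 2) ≠ 0 := by positivity
  simp only [avg, sqav, mul_one, S.JJ, sum_const, card_range, ← mul_smul]
  rw [← Nat.cast_smul_eq_nsmul ℝ, smul_smul, Nat.cast_mul, ← sq, inv_mul_cancel₀ hN', one_smul]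

theorem J_comm' {x : K →L[ℂ] K} (hx : x ∈ bic ρ S.A0) (i l : ℕ) : S.J i l * x = x * S.J i l :=
  mem_bic.1 hx _ (S.J_comm i l)

theorem J_comm_star {x : K →L[ℂ] K} (hx : x ∈ bic ρ S.A0) (i l : ℕ) :
    star (S.J i l) * x = x * star (S.J i l) := by
  have := congrArg star (S.J_comm' (star_mem hx) i l)
  simpa only [star_mul, star_star] using this.symm

theorem avg_left {x : K →L[ℂ] K} (hx : x ∈ bic ρ S.A0) (N : ℕ) (X : K →L[ℂ] K) :
    S.avg N (x * X) = x * S.avg N X := by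
  simp only [avg, sqav, mul_smul_comm, mul_sum, ← mul_assoc, S.J_comm' hx]

theorem avg_right {x : K →L[ℂ] K} (hx : x ∈ bic ρ S.A0) (N : ℕ) (X : K →L[ℂ] K) :
    S.avg N (X * x) = S.avg N X * x := by
  simp only [avg, sqav, smul_mul_assoc, sum_mul, mul_assoc, S.J_comm_star hx]

theorem Lop_add (X Y : K →L[ℂ] K) : S.Lop (X + Y) = S.Lop X + S.Lop Y := by
  refine S.Lop_eq fun a b => ?_
  simp only [S.avg_add, add_apply, inner_add_right]
  exact (S.Lop_lim X a b).add (S.Lop_lim Y a b)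

theorem Lop_smul (c : ℂ) (X : K →L[ℂ] K) : S.Lop (c • X) = c • S.Lop X := by
  refine S.Lop_eq fun a b => ?_
  simp only [S.avg_smul, smul_apply, inner_smul_right]
  exact (S.Lop_lim X a b).const_mul c

theorem Lop_one : S.Lop 1 = 1 := by
  refine S.Lop_eq fun a b => tendsto_const_nhds.congr' ?_
  filter_upwards [Nat.hyperfilter_le_atTop (eventually_gt_atTop 0)] with N hN
  rw [S.avg_one hN]

theorem Lop_left {x : K →L[ℂ] K} (hx : x ∈ bic ρ S.A0) (X : K →L[ℂ] K) :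
    S.Lop (x * X) = x * S.Lop X := by
  refine S.Lop_eq fun a b => ?_
  simp only [S.avg_left hx, mul_apply_eq_comp, ← ContinuousLinearMap.adjoint_inner_left x]
  exact S.Lop_lim X _ b

theorem Lop_right {x : K →L[ℂ] K} (hx : x ∈ bic ρ S.A0) (X : K →L[ℂ] K) :
    S.Lop (X * x) = S.Lop X * x := by
  refine S.Lop_eq fun a b => ?_
  simp only [S.avg_right hx, mul_apply_eq_comp]
  exact S.Lop_lim X a _

theorem Lop_mem {T T' : StarSubalgebra ℂ 𝔸} (hT : IsClosed (T : Set 𝔸))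
    (h : ∀ i l, ∀ a ∈ T, S.tJ i l a ∈ T') {X : K →L[ℂ] K} (hX : X ∈ bic ρ T) :
    S.Lop X ∈ bic ρ T' := by
  refine bic_wot (fun N => ?_) (S.Lop_lim X)
  have hm : ∀ i l, S.J i l * X * star (S.J i l) ∈ bic ρ T' := fun i l =>
    bic_conj_mem hT hX fun a ha => by rw [S.J_conj]; exact mem_bic_of_mem (h i l a ha)
  have h1 : ∑ i ∈ range N, ∑ l ∈ range N, S.J i l * X * star (S.J i l) ∈ bic ρ T' :=
    sum_mem fun i _ => sum_mem fun l _ => hm i l
  have h2 := SMulMemClass.smul_mem ((((N : ℝ) ^ 2)⁻¹ : ℝ) : ℂ) h1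
  rwa [Complex.coe_smul] at h2

theorem norm_Lop_apply_le (X : K →L[ℂ] K) (ζ : K) {C : ℝ}
    (h : ∀ i l, ‖X (star (S.J i l) ζ)‖ ≤ C) : ‖S.Lop X ζ‖ ≤ C := by
  have hC : 0 ≤ C := (norm_nonneg _).trans (h 0 0)
  have h1 : ∀ N, ‖S.avg N X ζ‖ ≤ C := fun N => by
    have e : S.avg N X ζ = sqav N fun i l => S.J i l (X (star (S.J i l) ζ)) := by
      simp only [avg, sqav, smul_apply, _root_.sum_apply, mul_apply_eq_comp]
    rw [e]
    refine norm_sqav_le N hC fun i l => ((S.J i l).le_opNorm _).trans ?_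
    exact (mul_le_of_le_one_left (norm_nonneg _) (S.J_norm_le i l)).trans (h i l)
  have h2 : ‖⟪S.Lop X ζ, S.Lop X ζ⟫_ℂ‖ ≤ ‖S.Lop X ζ‖ * C :=
    le_of_tendsto' (S.Lop_lim X (S.Lop X ζ) ζ).norm fun N =>
      (norm_inner_le_norm _ _).trans (mul_le_mul_of_nonneg_left (h1 N) (norm_nonneg _))
  rw [inner_self_eq_norm_sq_to_K, norm_pow, RCLike.norm_ofReal, abs_norm, sq] at h2
  rcases (norm_nonneg (S.Lop X ζ)).eq_or_lt with h3 | h3
  · rw [← h3]; exact hC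
  · exact le_of_mul_le_mul_left h2 h3

theorem hk_apply_le (k : Hk ρ) {ζ ζ' : K} (h : ∀ a ∈ S.A0, ‖ρ (k.t a) ζ‖ = ‖ρ a ζ'‖)
    {x : K →L[ℂ] K} (hx : x ∈ bic ρ S.A0) : ‖(k.P * x * star k.P) ζ‖ ≤ ‖x ζ'‖ := by
  classical
  rw [← sub_nonpos]
  refine bic_le S.A0c hx (fun y => ‖(k.P * y * star k.P) ζ‖ - ‖y ζ'‖) {star k.P ζ, ζ'} (C := 2)
    (fun y => ?_) fun a ha _ => by rw [k.conj, h a ha, sub_self]
  have h1 : ‖y (star k.P ζ) - x (star k.P ζ)‖ ≤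
      ∑ η ∈ ({star k.P ζ, ζ'} : Finset K), ‖y η - x η‖ :=
    Finset.single_le_sum (f := fun η => ‖y η - x η‖) (fun _ _ => norm_nonneg _) (by simp)
  have h2 : ‖y ζ' - x ζ'‖ ≤ ∑ η ∈ ({star k.P ζ, ζ'} : Finset K), ‖y η - x η‖ :=
    Finset.single_le_sum (f := fun η => ‖y η - x η‖) (fun _ _ => norm_nonneg _) (by simp)
  have h3 : ‖(k.P * x * star k.P) ζ‖ ≤
      ‖(k.P * y * star k.P) ζ‖ + ‖y (star k.P ζ) - x (star k.P ζ)‖ := by
    have e : (k.P * x * star k.P) ζ =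
        (k.P * y * star k.P) ζ - k.P (y (star k.P ζ) - x (star k.P ζ)) := by
      simp only [mul_apply_eq_comp, map_sub]; abel
    rw [e]
    refine (norm_sub_le _ _).trans (add_le_add le_rfl ((k.P.le_opNorm _).trans ?_))
    exact mul_le_of_le_one_left (norm_nonneg _) k.norm_le
  have h4 := norm_sub_norm_le (y ζ') (x ζ')
  linarith

theorem apply_le {ζ ζ' : K} (h : ∀ a ∈ S.A0, ‖ρ a ζ‖ = ‖ρ a ζ'‖)
    {x : K →L[ℂ] K} (hx : x ∈ bic ρ S.A0) : ‖x ζ‖ ≤ ‖x ζ'‖ := by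
  have := S.hk_apply_le ⟨1, id, by simp, fun a => by simp⟩ h hx
  simpa using this

end Pre

end

end Crest.Agent.R78
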