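import Crest.Agent.R78.PreL

/-!
# Row 78, task R78-PreM: the martingale property and idempotence in the limit.

PLAN.  `mart_lim`: for fixed `N > 0`, `t` put
`Λ x y = ‖(avg N Z - Pκ (avg N Z) Pκ⋆) (Ω t)‖`, `Z = (P y P⋆)(Pβ x Pβ⋆)`.  For `x = ρ a`, `y = ρ b`:
`avg N Z = ρ (sqav ..)` (`Hk.conj`, `J_conj`, `map_sum`, real scalars), so `Λ ≤ √(12 t/N) ‖a‖ ‖b‖`.
`Λ` is Lipschitz for a strong seminorm in each variable (it is the norm of a finite sum of terms
`R (y ζ)`; a convenient way: prove for a finite family `R j`, `ζ j` and `x ∈ bic ρ S` that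
`(∀ a ∈ S, ‖∑ j, R j (ρ a (ζ j))‖ ≤ c ‖a‖) → ‖∑ j, R j (x (ζ j))‖ ≤ 2 c ‖x‖` from `bic_approx`), hence
`Λ x y ≤ 4 √(12 t/N) ‖x‖ ‖y‖` on the bicommutant.  Let `N → ∞` along the ultrafilter in
`⟪η, (avg N Z - Pκ (avg N Z) Pκ⋆) Ω⟫` (`Lop_lim`).
`idem_lim`: with `a = Pα ρ(g) Pα⋆ = ρ (kα.t g)` etc., put `R = star a * star c`, `R' = a * c` (norm `≤ 1`),
`E i l V = J i l * (R * V * R') * star (J i l)`.  By `bic_eq` and the field `idem`,
`E i l (E i' l' V) = E (i+i') (l+l') V` for `V ∈ bic ρ C0`.  `E i l` is weakly continuous, so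
`E i l (Lop (R V R')) = w-lim_N sqav N (fun i' l' => E (i+i') (l+l') V)` and
`‖sqav N (fun i' l' => E (i+i') (l+l') V) - sqav N (fun i' l' => E i' l' V)‖ ≤ 2 (i + l) ‖V‖ / N → 0`
(shift one index at a time and telescope).  So `E i l (Lop ..) = Lop ..` for all `i l`; average again.
-/

set_option autoImplicit false
set_option linter.unusedSectionVars false

open Filter Topology Finset
open scoped InnerProductSpace

namespace Crest.Agent.R78

noncomputable section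

variable {𝔸 : Type*} [CStarAlgebra 𝔸] {K : Type*} [NormedAddCommGroup K] [InnerProductSpace ℂ K]
  [CompleteSpace K]

/-- Lipschitz for strong-operator seminorms -/
def SCO (Ψ : (K →L[ℂ] K) → (K →L[ℂ] K)) : Prop :=
  ∀ ζ, ∃ (Z : Finset K) (C : ℝ), 0 ≤ C ∧ ∀ x y, ‖Ψ x ζ - Ψ y ζ‖ ≤ C * ∑ η ∈ Z, ‖y η - x η‖

namespace SCO

variable {Ψ Ψ' : (K →L[ℂ] K) → (K →L[ℂ] K)}

theorem id' : SCO fun x : K →L[ℂ] K => x := fun ζ =>
  ⟨{ζ}, 1, zero_le_one, fun x y => by simp [norm_sub_rev]⟩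

theorem zero : SCO fun _ : K →L[ℂ] K => 0 := fun _ => ⟨∅, 0, le_rfl, fun x y => by simp⟩

theorem left (h : SCO Ψ) (P : K →L[ℂ] K) : SCO fun x => P * Ψ x := fun ζ => by
  obtain ⟨Z, C, hC, h⟩ := h ζ
  refine ⟨Z, ‖P‖ * C, by positivity, fun x y => ?_⟩
  simp only [mul_apply_eq_comp, ← map_sub, mul_assoc]
  exact (P.le_opNorm _).trans (mul_le_mul_of_nonneg_left (h x y) (norm_nonneg _))

theorem right (h : SCO Ψ) (Q : K →L[ℂ] K) : SCO fun x => Ψ x * Q := fun ζ => by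
  simpa only [mul_apply_eq_comp] using h (Q ζ)

theorem add (h : SCO Ψ) (h' : SCO Ψ') : SCO fun x => Ψ x + Ψ' x := fun ζ => by
  classical
  obtain ⟨Z, C, hC, h⟩ := h ζ
  obtain ⟨Z', C', hC', h'⟩ := h' ζ
  refine ⟨Z ∪ Z', C + C', by positivity, fun x y => ?_⟩
  have h1 : ∑ η ∈ Z, ‖y η - x η‖ ≤ ∑ η ∈ Z ∪ Z', ‖y η - x η‖ :=
    sum_le_sum_of_subset_of_nonneg subset_union_left fun _ _ _ => norm_nonneg _
  have h2 : ∑ η ∈ Z', ‖y η - x η‖ ≤ ∑ η ∈ Z ∪ Z', ‖y η - x η‖ :=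
    sum_le_sum_of_subset_of_nonneg subset_union_right fun _ _ _ => norm_nonneg _
  simp only [add_apply]
  rw [add_sub_add_comm, add_mul]
  exact (norm_add_le _ _).trans (add_le_add ((h x y).trans (mul_le_mul_of_nonneg_left h1 hC))
    ((h' x y).trans (mul_le_mul_of_nonneg_left h2 hC')))

theorem smul (h : SCO Ψ) (c : ℝ) : SCO fun x => c • Ψ x := by
  simpa only [smul_mul_assoc, one_mul] using h.left (c • 1)

theorem sub (h : SCO Ψ) (h' : SCO Ψ') : SCO fun x => Ψ x - Ψ' x := by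
  simpa only [neg_one_smul, ← sub_eq_add_neg] using h.add (h'.smul (-1))

theorem sum {ι : Type*} (s : Finset ι) {F : ι → (K →L[ℂ] K) → (K →L[ℂ] K)} (h : ∀ i, SCO (F i)) :
    SCO fun x => ∑ i ∈ s, F i x := by
  classical
  induction s using Finset.induction_on with
  | empty => simpa using zero
  | insert i s hi ih => simpa only [sum_insert hi] using (h i).add ih

theorem le (h : SCO Ψ) {ρ : 𝔸 →⋆ₐ[ℂ] (K →L[ℂ] K)} {T : StarSubalgebra ℂ 𝔸}
    (hT : IsClosed (T : Set 𝔸)) {x : K →L[ℂ] K} (hx : x ∈ bic ρ T) (ζ : K) {c : ℝ} (hc : 0 ≤ c)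
    (H : ∀ a ∈ T, ‖Ψ (ρ a) ζ‖ ≤ c * ‖a‖) : ‖Ψ x ζ‖ ≤ c * (2 * ‖x‖) := by
  obtain ⟨Z, C, -, h⟩ := h ζ
  refine bic_le hT hx (fun y => ‖Ψ y ζ‖) Z (C := C) (fun y => ?_) fun a ha h1 =>
    (H a ha).trans (mul_le_mul_of_nonneg_left h1 hc)
  linarith [norm_sub_norm_le (Ψ x ζ) (Ψ y ζ), h x y]

end SCO

theorem norm_shift_le {V : Type*} [SeminormedAddCommGroup V] {f : ℕ → V} {C : ℝ}
    (h : ∀ j, ‖f j‖ ≤ C) (i N : ℕ) :
    ‖∑ j ∈ range N, f (i + j) - ∑ j ∈ range N, f j‖ ≤ 2 * i * C := by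
  have e : ∑ j ∈ range N, f (i + j) - ∑ j ∈ range N, f j =
      ∑ j ∈ range i, f (N + j) - ∑ j ∈ range i, f j := by
    have h1 := sum_range_add f i N
    have h2 := sum_range_add f N i
    rw [add_comm N i, h1] at h2
    rw [sub_eq_sub_iff_add_eq_add, add_comm, h2, add_comm]
  have h3 : ∀ g : ℕ → ℕ, ‖∑ j ∈ range i, f (g j)‖ ≤ i * C := fun g =>
    (norm_sum_le _ _).trans ((sum_le_card_nsmul _ _ _ fun j _ => h (g j)).trans_eq (by simp))
  rw [e]
  linarith [norm_sub_le (∑ j ∈ range i, f (N + j)) (∑ j ∈ range i, f j), h3 (N + ·), h3 id,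
    (show ∑ j ∈ range i, f (id j) = ∑ j ∈ range i, f j from rfl) ▸ h3 id]

theorem norm_sqav_shift_le {V : Type*} [SeminormedAddCommGroup V] [NormedSpace ℝ V]
    {F : ℕ → ℕ → V} {C : ℝ} (h : ∀ i l, ‖F i l‖ ≤ C) (i l : ℕ) {N : ℕ} (hN : 0 < N) :
    ‖sqav N (fun i' l' => F (i + i') (l + l')) - sqav N F‖ ≤ 2 * (i + l) * C / N := by
  have h1 := norm_shift_le (f := fun i' => ∑ l' ∈ range N, F i' (l + l')) (C := N * C)
    (fun j => (norm_sum_le _ _).trans
      ((sum_le_card_nsmul _ _ _ fun l' _ => h j (l + l')).trans_eq (by simp))) i N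
  have h2 : ‖∑ i' ∈ range N, ∑ l' ∈ range N, F i' (l + l') - ∑ i' ∈ range N, ∑ l' ∈ range N, F i' l'‖
      ≤ N * (2 * l * C) := by
    rw [← sum_sub_distrib]
    exact (norm_sum_le _ _).trans ((sum_le_card_nsmul _ _ _ fun i' _ =>
      norm_shift_le (h i') l N).trans_eq (by simp))
  have hN' : (0 : ℝ) < N := by exact_mod_cast hN
  have h3 := (norm_sub_le_norm_sub_add_norm_sub _ _ _).trans (add_le_add h1 h2)
  rw [sqav, sqav, ← smul_sub, norm_smul, norm_inv, Real.norm_of_nonneg (by positivity),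
    inv_mul_le_iff₀ (by positivity)]
  refine h3.trans_eq ?_
  field_simp

theorem sqav_const {V : Type*} [AddCommMonoid V] [Module ℝ V] {N : ℕ} (hN : 0 < N) (v : V) :
    sqav N (fun _ _ => v) = v := by
  have hN' : ((N : ℝ) ^ 2) ≠ 0 := by positivity
  simp only [sqav, sum_const, card_range, ← mul_smul]
  rw [← Nat.cast_smul_eq_nsmul ℝ, smul_smul, Nat.cast_mul, ← sq, inv_mul_cancel₀ hN', one_smul]

theorem tendsto_conj {ι : Type*} {l : Filter ι} {X : ι → K →L[ℂ] K} {Z : K →L[ℂ] K}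
    (h : ∀ a b, Tendsto (fun i => ⟪a, X i b⟫_ℂ) l (𝓝 ⟪a, Z b⟫_ℂ)) (P Q : K →L[ℂ] K) (a b : K) :
    Tendsto (fun i => ⟪a, (P * X i * Q) b⟫_ℂ) l (𝓝 ⟪a, (P * Z * Q) b⟫_ℂ) := by
  simp only [mul_apply_eq_comp, ← ContinuousLinearMap.adjoint_inner_left P]
  exact h _ _

namespace Pre

variable {ρ : 𝔸 →⋆ₐ[ℂ] (K →L[ℂ] K)} (S : Pre ρ)

theorem sco_avg {Ψ : (K →L[ℂ] K) → (K →L[ℂ] K)} (h : SCO Ψ) (N : ℕ) :
    SCO fun x => S.avg N (Ψ x) :=
  (SCO.sum _ fun _ => SCO.sum _ fun _ => (h.left _).right _).smul _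

theorem avg_rho (N : ℕ) (a : 𝔸) : S.avg N (ρ a) = ρ (sqav N fun i l => S.tJ i l a) := by
  simp only [avg, sqav, S.J_conj]
  rw [← Complex.coe_smul, ← Complex.coe_smul, map_smul, map_sum]
  simp only [map_sum]

theorem mart_lim (k : Hk ρ)
    (hk : ∀ x ∈ S.A0, ∀ y ∈ S.A0, ∀ N, 0 < N → ∀ t : ℕ,
      ‖ρ (sqav N (fun i l => S.tJ i l (k.t y * S.kβ.t x)) -
        S.kκ.t (sqav N fun i l => S.tJ i l (k.t y * S.kβ.t x))) (S.Ω t)‖ ^ 2 ≤
          12 * t / N * (‖x‖ * ‖y‖) ^ 2)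
    {x y : K →L[ℂ] K} (hx : x ∈ bic ρ S.A0) (hy : y ∈ bic ρ S.A0) (t : ℕ) :
    (S.Lop (k.P * y * star k.P * (S.kβ.P * x * star S.kβ.P)) -
      S.kκ.P * S.Lop (k.P * y * star k.P * (S.kβ.P * x * star S.kβ.P)) * star S.kκ.P) (S.Ω t) =
      0 := by
  set Z : (K →L[ℂ] K) → (K →L[ℂ] K) → (K →L[ℂ] K) :=
    fun x y => k.P * y * star k.P * (S.kβ.P * x * star S.kβ.P) with hZ
  set F : ℕ → (K →L[ℂ] K) → (K →L[ℂ] K) → (K →L[ℂ] K) :=
    fun N x y => S.avg N (Z x y) - S.kκ.P * S.avg N (Z x y) * star S.kκ.P with hF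
  have s1 : ∀ N y, SCO fun x => F N x y := fun N y =>
    have := S.sco_avg (((SCO.id'.left S.kβ.P).right (star S.kβ.P)).left (k.P * y * star k.P)) N
    this.sub ((this.left _).right _)
  have s2 : ∀ N x, SCO fun y => F N x y := fun N x =>
    have := S.sco_avg (((SCO.id'.left k.P).right (star k.P)).right
      (S.kβ.P * x * star S.kβ.P)) N
    this.sub ((this.left _).right _)
  have h0 : ∀ N, 0 < N → ∀ a ∈ S.A0, ∀ b ∈ S.A0,
      ‖F N (ρ a) (ρ b) (S.Ω t)‖ ≤ √(12 * t / N) * ‖b‖ * ‖a‖ := fun N hN a ha b hb => by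
    have h1 := hk a ha b hb N hN t
    have e : F N (ρ a) (ρ b) = ρ (sqav N (fun i l => S.tJ i l (k.t b * S.kβ.t a)) -
        S.kκ.t (sqav N fun i l => S.tJ i l (k.t b * S.kβ.t a))) := by
      simp only [hF, hZ, Hk.conj, ← map_mul, S.avg_rho, map_sub]
    rw [e]
    refine le_of_sq_le_sq (h1.trans_eq ?_) (by positivity)
    rw [mul_pow, mul_pow, mul_pow, Real.sq_sqrt (by positivity)]
    ring
  have h1 : ∀ N, 0 < N → ‖F N x y (S.Ω t)‖ ≤ √(12 * t / N) * (2 * ‖x‖) * (2 * ‖y‖) := fun N hN =>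
    (s2 N x).le S.A0c hy _ (by positivity) fun b hb =>
      ((s1 N (ρ b)).le S.A0c hx _ (by positivity) fun a ha => h0 N hN a ha b hb).trans_eq (by ring)
  refine ext_inner_left ℂ fun η => ?_
  have h2 : Tendsto (fun N => ⟪η, F N x y (S.Ω t)⟫_ℂ) (hyperfilter ℕ)
      (𝓝 ⟪η, (S.Lop (Z x y) - S.kκ.P * S.Lop (Z x y) * star S.kκ.P) (S.Ω t)⟫_ℂ) := by
    simp only [hF, sub_apply, inner_sub_right]
    exact (S.Lop_lim _ _ _).sub (tendsto_conj (S.Lop_lim _) _ _ _ _)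
  refine tendsto_nhds_unique h2 ?_
  rw [inner_zero_right]
  refine Tendsto.mono_left ?_ Nat.hyperfilter_le_atTop
  have h3 : Tendsto (fun N : ℕ => ‖η‖ * (√(12 * t / N) * (2 * ‖x‖) * (2 * ‖y‖))) atTop
      (𝓝 (‖η‖ * (√0 * (2 * ‖x‖) * (2 * ‖y‖)))) :=
    (((tendsto_const_div_atTop_nhds_zero_nat _).sqrt.mul_const _).mul_const _).const_mul _
  simp only [Real.sqrt_zero, zero_mul, mul_zero] at h3
  refine squeeze_zero_norm' ?_ h3
  filter_upwards [eventually_gt_atTop 0] with N hN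
  exact (norm_inner_le_norm _ _).trans (mul_le_mul_of_nonneg_left (h1 N hN) (norm_nonneg _))

theorem idem_lim {V : K →L[ℂ] K} (hV : V ∈ bic ρ S.C0) :
    S.Lop (star (ρ (S.kα.t S.g)) * star (ρ (S.kγ.t S.g')) *
      S.Lop (star (ρ (S.kα.t S.g)) * star (ρ (S.kγ.t S.g')) * V * ρ (S.kα.t S.g) *
        ρ (S.kγ.t S.g')) * ρ (S.kα.t S.g) * ρ (S.kγ.t S.g')) =
    S.Lop (star (ρ (S.kα.t S.g)) * star (ρ (S.kγ.t S.g')) * V * ρ (S.kα.t S.g) *
      ρ (S.kγ.t S.g')) := by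
  set a := ρ (S.kα.t S.g) with ha
  set c := ρ (S.kγ.t S.g') with hc
  set E : ℕ → ℕ → (K →L[ℂ] K) → (K →L[ℂ] K) :=
    fun i l X => S.J i l * (star a * star c * X * a * c) * star (S.J i l) with hE
  have hEE : ∀ i l i' l', E i l (E i' l' V) = E (i + i') (l + l') V := fun i l i' l' => by
    have := bic_eq S.C0c hV (P := S.J i l * star a * star c * S.J i' l' * star a * star c)
      (Q := a * c * star (S.J i' l') * a * c * star (S.J i l))
      (P' := S.J (i + i') (l + l') * star a * star c) (Q' := a * c * star (S.J (i + i') (l + l')))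
      fun v hv => by
        have h1 := congrArg ρ (S.idem v hv i l i' l')
        simp only [← S.J_conj, map_mul, map_star, ← ha, ← hc] at h1
        simpa only [mul_assoc] using h1
    simpa only [hE, mul_assoc] using this
  set W := star a * star c * V * a * c with hW
  have hb : ∀ i l, ‖E i l V‖ ≤ ‖W‖ := fun i l =>
    calc _ ≤ ‖S.J i l‖ * ‖W‖ * ‖star (S.J i l)‖ := norm_mul₃_le
      _ ≤ 1 * ‖W‖ * 1 := by rw [norm_star]; gcongr <;> exact S.J_norm_le i l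
      _ = ‖W‖ := by ring
  have hfix : ∀ i l, E i l (S.Lop W) = S.Lop W := fun i l => by
    ext ζ
    refine ext_inner_left ℂ fun η => ?_
    have h1 := tendsto_conj (S.Lop_lim W) (S.J i l * star a * star c) (a * c * star (S.J i l)) η ζ
    have e1 : S.J i l * star a * star c * S.Lop W * (a * c * star (S.J i l)) = E i l (S.Lop W) := by
      simp only [hE, mul_assoc]
    have e2 : ∀ N, S.J i l * star a * star c * S.avg N W * (a * c * star (S.J i l)) =
        sqav N fun i' l' => E (i + i') (l + l') V := fun N => by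
      simp only [← hEE]
      simp only [hE, hW, avg, sqav, mul_smul_comm, smul_mul_assoc, mul_sum, sum_mul, mul_assoc]
    simp only [e1, e2] at h1
    refine tendsto_nhds_unique h1 ?_
    have h2 : Tendsto (fun N => ⟪η, (sqav N (fun i' l' => E (i + i') (l + l') V) - S.avg N W) ζ⟫_ℂ)
        (hyperfilter ℕ) (𝓝 0) := by
      refine Tendsto.mono_left ?_ Nat.hyperfilter_le_atTop
      have h3 : Tendsto (fun N : ℕ => ‖η‖ * (2 * (i + l) * ‖W‖ / N * ‖ζ‖)) atTop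
          (𝓝 (‖η‖ * (0 * ‖ζ‖))) :=
        ((tendsto_const_div_atTop_nhds_zero_nat _).mul_const _).const_mul _
      simp only [zero_mul, mul_zero] at h3
      refine squeeze_zero_norm' ?_ h3
      filter_upwards [eventually_gt_atTop 0] with N hN
      refine (norm_inner_le_norm _ _).trans (mul_le_mul_of_nonneg_left ?_ (norm_nonneg _))
      refine (ContinuousLinearMap.le_opNorm _ _).trans (mul_le_mul_of_nonneg_right ?_ (norm_nonneg _))
      exact norm_sqav_shift_le (F := fun i l => E i l V) hb i l hN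
    have h4 := h2.add (S.Lop_lim W η ζ)
    simpa only [sub_apply, inner_sub_right, sub_add_cancel, zero_add] using h4
  refine S.Lop_eq fun η ζ => tendsto_const_nhds.congr' ?_
  filter_upwards [Nat.hyperfilter_le_atTop (eventually_gt_atTop 0)] with N hN
  have e : S.avg N (star a * star c * S.Lop W * a * c) = S.Lop W := by
    rw [← sqav_const hN (S.Lop W), avg]
    congr 1
    funext i l
    rw [sqav_const hN]
    exact hfix i l
  rw [e]

end Pre

end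

end Crest.Agent.R78
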