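import Crest.Agent.R78.PreM
import Crest.Agent.R78.AbsMain

/-! # Row 78: a pre-model gives a system; solution of the fixed point problem in a pre-model. -/

set_option autoImplicit false
set_option linter.unusedSectionVars false

open Filter Topology Finset
open scoped InnerProductSpace

namespace Crest.Agent.R78

noncomputable section

variable {𝔸 : Type*} [CStarAlgebra 𝔸] {K : Type*} [NormedAddCommGroup K] [InnerProductSpace ℂ K]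
  [CompleteSpace K] {ρ : 𝔸 →⋆ₐ[ℂ] (K →L[ℂ] K)}

/-- the trace of a bicommutant on another one -/
def bsub (ρ : 𝔸 →⋆ₐ[ℂ] (K →L[ℂ] K)) (T T' : StarSubalgebra ℂ 𝔸) : Subalgebra ℂ (bic ρ T) :=
  (bic ρ T').toSubalgebra.comap (bic ρ T).toSubalgebra.val

theorem mem_bsub {T T' : StarSubalgebra ℂ 𝔸} {x : bic ρ T} :
    x ∈ bsub ρ T T' ↔ (x : K →L[ℂ] K) ∈ bic ρ T' := Iff.rfl

theorem bsub_closed (T T' : StarSubalgebra ℂ 𝔸) : IsClosed (bsub ρ T T' : Set (bic ρ T)) :=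
  bic_closed.preimage continuous_subtype_val

theorem bsub_inv {T T' : StarSubalgebra ℂ 𝔸} (x : bic ρ T) (hx : x ∈ bsub ρ T T') (h : IsUnit x) :
    Ring.inverse x ∈ bsub ρ T T' :=
  bic_inv hx (congrArg Subtype.val (Ring.mul_inverse_cancel x h))
    (congrArg Subtype.val (Ring.inverse_mul_cancel x h))

/-- the unit given by a unitary -/
def bunit {T : StarSubalgebra ℂ 𝔸} {g : 𝔸} (hg : g ∈ T) (hu : g ∈ unitary 𝔸) : (bic ρ T)ˣ where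
  val := ⟨ρ g, mem_bic_of_mem hg⟩
  inv := ⟨ρ (star g), mem_bic_of_mem (star_mem hg)⟩
  val_inv := Subtype.ext (by
    change ρ g * ρ (star g) = 1
    rw [← map_mul, Unitary.mul_star_self_of_mem hu, map_one])
  inv_val := Subtype.ext (by
    change ρ (star g) * ρ g = 1
    rw [← map_mul, Unitary.star_mul_self_of_mem hu, map_one])

theorem norm_rho_le {g : 𝔸} (hu : g ∈ unitary 𝔸) : ‖ρ g‖ ≤ 1 := by
  refine le_of_sq_le_sq ?_ zero_le_one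
  rw [sq, ← CStarRing.norm_self_mul_star, ← map_star, ← map_mul, Unitary.mul_star_self_of_mem hu,
    map_one, one_pow]
  exact ContinuousLinearMap.norm_id_le

theorem Hk.conj_star (k : Hk ρ) (a : 𝔸) : k.P * ρ (star a) * star k.P = star (ρ (k.t a)) := by
  rw [← k.conj, map_star]; simp only [star_mul, star_star, mul_assoc]

namespace Pre

variable (S : Pre ρ)

/-- the limit map -/
def L : bic ρ S.A3 →L[ℂ] bic ρ S.A0 :=
  LinearMap.mkContinuous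
    { toFun := fun X => ⟨S.Lop X, S.Lop_mem S.A3c S.J_A X.2⟩
      map_add' := fun X Y => Subtype.ext (S.Lop_add X Y)
      map_smul' := fun c X => Subtype.ext (S.Lop_smul c X) } 1
    fun X => by rw [one_mul]; exact S.Lop_norm_le X

theorem vec_le (p : ℕ × ℕ × ℕ) : ‖star (S.J p.2.1 p.2.2) (S.Ω p.1)‖ ≤ 1 := by
  refine ((star (S.J p.2.1 p.2.2)).le_opNorm _).trans ?_
  rw [norm_star]
  exact mul_le_one₀ (S.J_norm_le _ _) (norm_nonneg _) (S.Ω_le _)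

/-- the seminorm `ν` -/
def ν : Seminorm ℂ (K →L[ℂ] K) := (sup_seminorm S.Ω S.Ω_le).choose

/-- the seminorm `ν₃` -/
def ν₃ : Seminorm ℂ (K →L[ℂ] K) := (sup_seminorm _ S.vec_le).choose

theorem le_ν (x : K →L[ℂ] K) (t : ℕ) : ‖x (S.Ω t)‖ ≤ S.ν x :=
  (sup_seminorm S.Ω S.Ω_le).choose_spec.2.1 x t

theorem le_ν₃ (x : K →L[ℂ] K) (t i l : ℕ) : ‖x (star (S.J i l) (S.Ω t))‖ ≤ S.ν₃ x :=
  (sup_seminorm _ S.vec_le).choose_spec.2.1 x (t, i, l)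

theorem ν_le {x : K →L[ℂ] K} {C : ℝ} (h : ∀ t, ‖x (S.Ω t)‖ ≤ C) : S.ν x ≤ C := by
  rw [ν, (sup_seminorm S.Ω S.Ω_le).choose_spec.1]; exact ciSup_le h

theorem ν₃_le {x : K →L[ℂ] K} {C : ℝ} (h : ∀ t i l, ‖x (star (S.J i l) (S.Ω t))‖ ≤ C) :
    S.ν₃ x ≤ C := by
  rw [ν₃, (sup_seminorm _ S.vec_le).choose_spec.1]; exact ciSup_le fun p => h _ _ _

theorem ν_zero {x : K →L[ℂ] K} (h : ∀ t, x (S.Ω t) = 0) : S.ν x = 0 :=
  le_antisymm (S.ν_le fun t => by simp [h]) (apply_nonneg _ _)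

/-- the system -/
def toSys : Sys (bic ρ S.A0) (bic ρ S.A3) where
  α := S.kα.hom S.A0c S.α_A
  β := S.kβ.hom S.A0c S.β_A
  γ := S.kγ.hom S.A0c S.γ_A
  π := Subalgebra.inclusion (bic_mono (ρ := ρ) S.A0_le)
  κ := S.kκ.hom S.A0c fun a ha => S.C0_le (S.κ_C a ha)
  L := S.L
  α_le x := S.kα.conj_norm_le x
  β_le x := S.kβ.conj_norm_le x
  γ_le x := S.kγ.conj_norm_le x
  π_le _ := le_rfl
  κ_le x := S.kκ.conj_norm_le x
  L_le X := S.Lop_norm_le X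
  one_le := ContinuousLinearMap.norm_id_le
  L_one := Subtype.ext S.Lop_one
  L_left x X := Subtype.ext (S.Lop_left x.2 X)
  L_right x X := Subtype.ext (S.Lop_right x.2 X)
  C := bsub ρ _ S.C0
  M := bsub ρ _ S.M0
  M' := bsub ρ _ S.M0'
  D := bsub ρ _ S.D0
  M₃ := bsub ρ _ S.M3
  M₃' := bsub ρ _ S.M3'
  κ_mem x := (S.kκ.hom S.A0c S.κ_C x).2
  κ_C x hx := Subtype.ext (S.kκ.conj_fix hx fun a ha => (S.fix a ha).2.2.2)
  α_C x hx := Subtype.ext (S.kα.conj_fix hx fun a ha => (S.fix a ha).1)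
  β_C x hx := Subtype.ext (S.kβ.conj_fix hx fun a ha => (S.fix a ha).2.1)
  γ_C x hx := Subtype.ext (S.kγ.conj_fix hx fun a ha => (S.fix a ha).2.2.1)
  α_D x := (S.kα.hom S.A0c S.α_D x).2
  γ_D x := (S.kγ.hom S.A0c S.γ_D x).2
  L_D _ hX := S.Lop_mem S.D0c S.J_D hX
  M_closed := bsub_closed _ _
  M'_closed := bsub_closed _ _
  M_inv := bsub_inv
  M'_inv := bsub_inv
  κ_M x hx := (S.kκ.hom S.M0c (fun a ha => (S.M_mem a ha).2.2.2) ⟨x, hx⟩).2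
  κ_M' x hx := (S.kκ.hom S.M0c' (fun a ha => (S.M'_mem a ha).2.2.2) ⟨x, hx⟩).2
  to_M₃ x hx := ⟨(S.kα.hom S.M0c (fun a ha => (S.M_mem a ha).1) ⟨x, hx⟩).2,
    (S.kβ.hom S.M0c (fun a ha => (S.M_mem a ha).2.1) ⟨x, hx⟩).2,
    (S.kγ.hom S.M0c (fun a ha => (S.M_mem a ha).2.2.1) ⟨x, hx⟩).2, bic_mono S.M0_le3 hx⟩
  to_M₃' x hx := ⟨(S.kα.hom S.M0c' (fun a ha => (S.M'_mem a ha).1) ⟨x, hx⟩).2,
    (S.kβ.hom S.M0c' (fun a ha => (S.M'_mem a ha).2.1) ⟨x, hx⟩).2,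
    (S.kγ.hom S.M0c' (fun a ha => (S.M'_mem a ha).2.2.1) ⟨x, hx⟩).2, bic_mono S.M0'_le3 hx⟩
  L_M _ hX := S.Lop_mem S.M3c S.J_M hX
  L_M' _ hX := S.Lop_mem S.M3c' S.J_M' hX
  comm _ hx _ hy := Subtype.ext (bic_comm S.comm3 (bic_mono S.M0_le3 hx) (bic_mono S.M0'_le3 hy))
  comm₃ _ hx _ hy := Subtype.ext (bic_comm S.comm3 hx hy)
  g := bunit S.g_mem S.g_un
  g' := bunit S.g'_mem S.g'_un
  g_le := norm_rho_le S.g_un
  gi_le := norm_rho_le (Unitary.star_mem S.g_un)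
  g'_le := norm_rho_le S.g'_un
  g'i_le := norm_rho_le (Unitary.star_mem S.g'_un)
  β_g := Subtype.ext (by
    change S.kβ.P * ρ S.g * _ = S.kα.P * ρ S.g * _ * ρ S.g * (S.kγ.P * ρ S.g * _)
    simp only [Hk.conj, S.β_g, map_mul])
  β_g' := Subtype.ext (by
    change S.kβ.P * ρ S.g' * _ = S.kγ.P * ρ S.g' * _ * ρ S.g' * (S.kα.P * ρ S.g' * _)
    simp only [Hk.conj, S.β_g', map_mul])
  κ_g := Subtype.ext (by
    change S.kκ.P * ρ S.g * _ = 1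
    rw [Hk.conj, S.κ_g, map_one])
  κ_g' := Subtype.ext (by
    change S.kκ.P * ρ S.g' * _ = 1
    rw [Hk.conj, S.κ_g', map_one])
  αγ := Subtype.ext (by
    change S.kα.P * ρ S.g * _ * (S.kγ.P * ρ S.g' * _) = S.kγ.P * ρ S.g' * _ * (S.kα.P * ρ S.g * _)
    simp only [Hk.conj, ← map_mul, S.αγ])
  πγ := Subtype.ext (by
    change ρ S.g * (S.kγ.P * ρ S.g' * _) = S.kγ.P * ρ S.g' * _ * ρ S.g
    simp only [Hk.conj, ← map_mul, S.πγ])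
  απ := Subtype.ext (by
    change S.kα.P * ρ S.g * _ * ρ S.g' = ρ S.g' * (S.kα.P * ρ S.g * _)
    simp only [Hk.conj, ← map_mul, S.απ])
  ν := S.ν.comp (bic ρ S.A0).toSubalgebra.val.toLinearMap
  ν₃ := S.ν₃.comp (bic ρ S.A3).toSubalgebra.val.toLinearMap
  ν_mul x y := (sup_seminorm S.Ω S.Ω_le).choose_spec.2.2.1 x y
  ν₃_mul x y := (sup_seminorm _ S.vec_le).choose_spec.2.2.1 x y
  ν_one := (sup_seminorm S.Ω S.Ω_le).choose_spec.2.2.2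
  ν_L X := S.ν_le fun t => S.norm_Lop_apply_le X _ fun i l => S.le_ν₃ X t i l
  ν_α x := S.ν₃_le fun t i l =>
    (S.hk_apply_le S.kα (fun a ha => S.Ω_α a ha t i l) x.2).trans (S.le_ν x _)
  ν_β x := S.ν₃_le fun t i l =>
    (S.hk_apply_le S.kβ (fun a ha => S.Ω_β a ha t i l) x.2).trans (S.le_ν x _)
  ν_γ x := S.ν₃_le fun t i l =>
    (S.hk_apply_le S.kγ (fun a ha => S.Ω_γ a ha t i l) x.2).trans (S.le_ν x _)
  ν_π x := S.ν₃_le fun t i l =>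
    (S.apply_le (fun a ha => S.Ω_π a ha t i l) x.2).trans (S.le_ν x _)
  ν_κ x := S.ν_le fun t =>
    (S.hk_apply_le S.kκ (fun a ha => S.Ω_κ a ha t) x.2).trans (S.le_ν x _)
  ν_g := S.ν_zero fun t => sub_eq_zero.2 (S.Ω_g t)
  mart_α x y := S.ν_zero fun t => S.mart_lim S.kα S.mart_α x.2 y.2 t
  mart_γ x y := S.ν_zero fun t => S.mart_lim S.kγ S.mart_γ x.2 y.2 t
  idem V hV := Subtype.ext (by
    have h := S.idem_lim hV
    rw [← Hk.conj_star, ← Hk.conj_star, ← Hk.conj, ← Hk.conj] at h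
    exact h)

theorem sol {δ : ℝ} (hδ : δ ≤ 1 / 10 ^ 11) {p q : 𝔸} (hpM : p ∈ S.M0) (hqM : q ∈ S.M0')
    (hp : ‖p - S.g‖ ≤ δ) (hq : ‖q - S.g'‖ ≤ δ) {ε : ℝ} (hε : 0 < ε) :
    ∃ V ∈ S.C0, ∃ m ∈ S.M0, ∃ y ∈ S.M0', ‖V - 1‖ ≤ 10 ^ 9 * δ ∧ ‖m - S.g‖ ≤ 10 ^ 9 * δ ∧
      ‖y - S.g'‖ ≤ 10 ^ 9 * δ ∧ ‖ρ (V * S.g - m * V) (S.Ω 1)‖ ≤ ε ∧
      ‖ρ (V * S.g - y * V) (S.Ω 1)‖ ≤ ε := by
  have hδ0 : 0 ≤ δ := (norm_nonneg _).trans hp
  have hρ : ∀ a, ‖ρ a‖ ≤ ‖a‖ := NonUnitalStarAlgHom.norm_apply_le ρ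
  obtain ⟨V, hV, m, hm, y, hy, h1, h2, h3, h4, h5⟩ := S.toSys.abs_main hδ
    (p := ⟨ρ p, mem_bic_of_mem (S.M0_le hpM)⟩) (q := ⟨ρ q, mem_bic_of_mem (S.M0'_le hqM)⟩)
    (by change ‖ρ p - ρ S.g‖ ≤ δ; rw [← map_sub]; exact (hρ _).trans hp)
    (by change ‖ρ q - ρ S.g'‖ ≤ δ; rw [← map_sub]; exact (hρ _).trans hq)
    (mem_bic_of_mem hpM) (mem_bic_of_mem hqM) (ε := ε / 5) (by positivity)
  obtain ⟨V, hV0⟩ := V; obtain ⟨m, hm0⟩ := m; obtain ⟨y, hy0⟩ := y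
  change V ∈ bic ρ S.C0 at hV
  change m ∈ bic ρ S.M0 at hm
  change y ∈ bic ρ S.M0' at hy
  change ‖V - 1‖ ≤ _ at h1
  change ‖m - ρ S.g‖ ≤ _ at h2
  change ‖y - ρ S.g'‖ ≤ _ at h3
  replace h4 : ‖(V * ρ S.g - m * V) (S.Ω 1)‖ ≤ ε / 5 := (S.le_ν _ 1).trans h4
  replace h5 : ‖(V * ρ S.g - y * V) (S.Ω 1)‖ ≤ ε / 5 := (S.le_ν _ 1).trans h5
  classical
  obtain ⟨a, ha, ha1, ha2⟩ := bic_approx S.C0c (sub_mem hV (one_mem _))
    {S.Ω 1, ρ S.g (S.Ω 1)} (ε := ε / 5) (by positivity)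
  have key : ∀ {T : StarSubalgebra ℂ 𝔸} (_ : IsClosed (T : Set 𝔸)) {p g : 𝔸} {m : K →L[ℂ] K},
      p ∈ T → g ∈ unitary 𝔸 → ‖p - g‖ ≤ δ → m ∈ bic ρ T → ‖m - ρ g‖ ≤ 10 ^ 8 * δ →
      ‖(V * ρ S.g - m * V) (S.Ω 1)‖ ≤ ε / 5 →
      ∃ b ∈ T, ‖b - g‖ ≤ 10 ^ 9 * δ ∧ ‖ρ ((1 + a) * S.g - b * (1 + a)) (S.Ω 1)‖ ≤ ε := by
    intro T hT p g m hp hg hpg hm hmg h
    obtain ⟨b, hb, hb1, hb2⟩ := bic_approx hT (sub_mem hm (mem_bic_of_mem hp))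
      {V (S.Ω 1)} (ε := ε / 5) (by positivity)
    have e1 : ‖m - ρ p‖ ≤ 10 ^ 8 * δ + δ := by
      have : m - ρ p = (m - ρ g) - ρ (p - g) := by rw [map_sub]; abel
      rw [this]; exact (norm_sub_le _ _).trans (add_le_add hmg ((hρ _).trans hpg))
    have e2 : ‖p + b - g‖ ≤ 10 ^ 9 * δ := by
      have : p + b - g = (p - g) + b := by abel
      rw [this]; refine (norm_add_le _ _).trans ?_; linarith
    refine ⟨p + b, add_mem hp hb, e2, ?_⟩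
    have e3 : ‖ρ (p + b)‖ ≤ 2 := by
      have : ρ (p + b) = ρ (p + b - g) + ρ g := by rw [map_sub]; abel
      rw [this]
      have := norm_rho_le (ρ := ρ) hg
      have := hρ (p + b - g)
      refine (norm_add_le _ _).trans ?_; linarith
    have e4 : ρ ((1 + a) * S.g - (p + b) * (1 + a)) (S.Ω 1) = (V * ρ S.g - m * V) (S.Ω 1) +
        (ρ a (ρ S.g (S.Ω 1)) - (V - 1) (ρ S.g (S.Ω 1))) -
        ρ (p + b) (ρ a (S.Ω 1) - (V - 1) (S.Ω 1)) - (ρ b (V (S.Ω 1)) - (m - ρ p) (V (S.Ω 1))) := by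
      simp only [map_sub, map_mul, map_add, map_one, ContinuousLinearMap.mul_def,
        ContinuousLinearMap.sub_apply, ContinuousLinearMap.add_apply, ContinuousLinearMap.comp_apply,
        ContinuousLinearMap.one_apply]
      abel
    have e5 := (ha2 (S.Ω 1) (by simp)).1
    have e6 := (ha2 (ρ S.g (S.Ω 1)) (by simp)).1
    have e7 := (hb2 (V (S.Ω 1)) (by simp)).1
    have e8 := ((ρ (p + b)).le_opNorm (ρ a (S.Ω 1) - (V - 1) (S.Ω 1))).trans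
      (mul_le_mul e3 e5 (norm_nonneg _) zero_le_two)
    rw [e4]
    refine (norm_sub_le _ _).trans ((add_le_add ((norm_sub_le _ _).trans
      (add_le_add (norm_add_le _ _) le_rfl)) le_rfl).trans ?_)
    linarith
  obtain ⟨m', hm1, hm2, hm3⟩ := key S.M0c hpM S.g_un hp hm h2 h4
  obtain ⟨y', hy1, hy2, hy3⟩ := key S.M0c' hqM S.g'_un hq hy h3 h5
  exact ⟨1 + a, add_mem (one_mem _) ha, m', hm1, y', hy1, by rw [add_sub_cancel_left]; linarith,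
    hm2, hy2, hm3, hy3⟩

end Pre

end

end Crest.Agent.R78
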