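import Crest.Agent.R124.Mat

/-! # Row 78: matrix amplifications and the two registers. -/

set_option autoImplicit false
set_option linter.unusedSectionVars false

namespace Crest.Agent.R78

open Matrix Finset Crest.Agent.R124 ContinuousLinearMap
open scoped InnerProductSpace ComplexConjugate

attribute [-instance] CStarMatrix.instHMulOfFintypeOfMulOfAddCommMonoid

noncomputable section

universe u

variable {H : Type u} [NormedAddCommGroup H] [InnerProductSpace ℂ H] [CompleteSpace H]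
  {ι : Type} [Fintype ι] [DecidableEq ι]

variable (ι) in
/-- `x ↦ 1 ⊗ x` -/
def dgH : (H →L[ℂ] H) →⋆ₐ[ℂ] (L2 ι H →L[ℂ] L2 ι H) where
  toFun := dg ι
  map_one' := by ext v i; simp [dg_apply]
  map_mul' x y := by ext v i; simp [dg_apply]
  map_zero' := by ext v i; simp [dg_apply]
  map_add' x y := by ext v i; simp [dg_apply]
  commutes' c := by ext v i; simp [dg_apply, Algebra.algebraMap_eq_smul_one]
  map_star' x := by rw [dg, dg, ← mat_star, diagonal_conjTranspose]; rfl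

@[simp] theorem dgH_apply (x : H →L[ℂ] H) (v : L2 ι H) (i : ι) : dgH ι x v i = x (v i) :=
  dg_apply x v i

theorem norm_dgH_le (x : H →L[ℂ] H) : ‖dgH ι x‖ ≤ ‖x‖ := norm_dg_le x

theorem norm_dgH [Nonempty ι] (x : H →L[ℂ] H) : ‖dgH ι x‖ = ‖x‖ := by
  refine le_antisymm (norm_dg_le x) ?_
  obtain ⟨i⟩ := ‹Nonempty ι›
  have := entry_le_mn (diagonal fun _ : ι => x) i i
  rwa [diagonal_apply_eq] at this

theorem ent_apply (X : L2 ι H →L[ℂ] L2 ι H) (i j : ι) (v : H) :
    ent X i j v = X (adjoint (L2.proj j) v) i := rfl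

theorem dgH_proj (x : H →L[ℂ] H) (j : ι) (v : H) :
    dgH ι x (adjoint (L2.proj j) v) = adjoint (L2.proj j) (x v) := by
  ext k; simp only [dgH_apply, L2.adjoint_proj_apply, Pi.single_apply]; split_ifs <;> simp

theorem comm_dgH_iff {X : L2 ι H →L[ℂ] L2 ι H} {y : H →L[ℂ] H} :
    dgH ι y * X = X * dgH ι y ↔ ∀ i j, y * ent X i j = ent X i j * y := by
  constructor
  · intro h i j
    ext v
    have := congrArg (fun T : L2 ι H →L[ℂ] L2 ι H => T (adjoint (L2.proj j) v) i) h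
    simpa only [mul_apply_eq_comp, dgH_apply, dgH_proj, ent_apply] using this
  · intro h
    ext v i
    rw [← mat_ent X]
    simp only [mul_apply_eq_comp, dgH_apply, mat_apply, map_sum]
    exact sum_congr rfl fun j _ => congrArg (fun T : H →L[ℂ] H => T (v j)) (h i j)

theorem mem_amp_iff {N : VonNeumannAlgebra H} {X : L2 ι H →L[ℂ] L2 ι H} :
    X ∈ amp ι N.toStarSubalgebra ↔ ∀ y ∈ N.commutant, dgH ι y * X = X * dgH ι y := by
  change X ∈ ampSet ι _ ↔ _
  simp only [mem_ampSet, comm_dgH_iff]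
  constructor
  · exact fun h y hy i j => (VonNeumannAlgebra.mem_commutant_iff.1 hy _ (h i j)).symm
  · intro h i j
    change ent X i j ∈ N
    rw [← N.commutant_commutant, VonNeumannAlgebra.mem_commutant_iff]
    exact fun y hy => h y hy i j

variable (ι) in
/-- matrices over a von Neumann algebra -/
def ampVN (N : VonNeumannAlgebra H) : VonNeumannAlgebra (L2 ι H) where
  toStarSubalgebra := amp ι N.toStarSubalgebra
  centralizer_centralizer' := by
    have : (amp ι N.toStarSubalgebra).carrier = Set.centralizer (dgH ι '' N.commutant) := by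
      ext X
      refine mem_amp_iff.trans ⟨?_, fun h y hy => h _ ⟨y, hy, rfl⟩⟩
      rintro h _ ⟨y, hy, rfl⟩; exact h y hy
    rw [this, Set.centralizer_centralizer_centralizer]

theorem mem_ampVN {N : VonNeumannAlgebra H} {X : L2 ι H →L[ℂ] L2 ι H} :
    X ∈ ampVN ι N ↔ ∀ i j, ent X i j ∈ N := mem_ampSet

theorem mem_ampVN_iff {N : VonNeumannAlgebra H} {X : L2 ι H →L[ℂ] L2 ι H} :
    X ∈ ampVN ι N ↔ ∀ y ∈ N.commutant, dgH ι y * X = X * dgH ι y := mem_amp_iff

theorem mat_mem_ampVN {N : VonNeumannAlgebra H} {x : Matrix ι ι (H →L[ℂ] H)} (h : ∀ i j, x i j ∈ N) :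
    mat x ∈ ampVN ι N := ⟨x, h, rfl⟩

theorem mem_commutant_ampVN [Nonempty ι] {N : VonNeumannAlgebra H} {X : L2 ι H →L[ℂ] L2 ι H} :
    X ∈ (ampVN ι N).commutant ↔ ∃ y ∈ N.commutant, X = dgH ι y := by
  rw [VonNeumannAlgebra.mem_commutant_iff]
  constructor
  · intro h
    obtain ⟨i₀⟩ := ‹Nonempty ι›
    have key : ∀ a ∈ N, ∀ i j (v : L2 ι H), a (X v j) = X (adjoint (L2.proj i) (a (v j))) i := by
      intro a ha i j v
      have h1 := h (mat (Matrix.single i j a)) (mat_mem_ampVN fun k l => by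
        rw [Matrix.single_apply]; split_ifs; exacts [ha, zero_mem N.toStarSubalgebra])
      have e : ∀ w : L2 ι H, mat (Matrix.single i j a) w = adjoint (L2.proj i) (a (w j)) := by
        intro w; ext k
        simp only [mat_apply, Matrix.single_apply, L2.adjoint_proj_apply, Pi.single_apply,
          DFunLike.ite_apply, ite_and]
        by_cases hk : i = k
        · subst hk; simp
        · simp [hk, Ne.symm hk]
      have h2 := congrArg (fun T : L2 ι H →L[ℂ] L2 ι H => T v i) h1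
      simpa only [mul_apply_eq_comp, e, L2.adjoint_proj_apply, Pi.single_eq_same] using h2
    refine ⟨ent X i₀ i₀, VonNeumannAlgebra.mem_commutant_iff.2 fun a ha => ?_, ?_⟩
    · ext v
      simpa [ent_apply] using key a ha i₀ i₀ (adjoint (L2.proj i₀) v)
    · ext v j
      simpa [ent_apply] using key 1 (one_mem N.toStarSubalgebra) i₀ j v
  · rintro ⟨y, hy, rfl⟩ g hg
    exact (mem_ampVN_iff.1 hg y hy).symm

/-- the column `ζ ↦ a ⊗ ζ` -/
def colv (a : ι → ℂ) : H →L[ℂ] L2 ι H := ∑ i, a i • adjoint (L2.proj i)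

@[simp] theorem colv_apply (a : ι → ℂ) (v : H) (i : ι) : colv a v i = a i • v := by
  simp [colv, ContinuousLinearMap.sum_apply, Pi.single_apply]

theorem adjoint_colv_apply (a : ι → ℂ) (η : L2 ι H) :
    adjoint (colv a) η = ∑ i, conj (a i) • η i :=
  ext_inner_left ℂ fun v => by
    simp [adjoint_inner_right, L2.inner_apply, inner_sum, inner_smul_left, inner_smul_right, mul_comm]

theorem adjoint_colv_colv (a b : ι → ℂ) (v : H) :
    adjoint (colv a) (colv b v) = (∑ i, conj (a i) * b i) • v := by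
  simp [adjoint_colv_apply, smul_smul, sum_smul]

theorem dgH_colv (x : H →L[ℂ] H) (a : ι → ℂ) (v : H) : dgH ι x (colv a v) = colv a (x v) := by
  ext i; simp

theorem adjoint_colv_dgH (x : H →L[ℂ] H) (a : ι → ℂ) (η : L2 ι H) :
    adjoint (colv a) (dgH ι x η) = x (adjoint (colv a) η) := by
  simp [adjoint_colv_apply, map_sum]

/-- the rank one scalar matrix `|a⟩⟨a| ⊗ 1` -/
def rk (H : Type u) [NormedAddCommGroup H] [InnerProductSpace ℂ H] [CompleteSpace H] (a : ι → ℂ) :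
    L2 ι H →L[ℂ] L2 ι H := colv a ∘L adjoint (colv a)

theorem rk_apply (a : ι → ℂ) (η : L2 ι H) : rk H a η = colv a (adjoint (colv a) η) := rfl

theorem rk_sa (a : ι → ℂ) : IsSelfAdjoint (rk H a) := by
  rw [IsSelfAdjoint, star_eq_adjoint, rk, adjoint_comp, adjoint_adjoint]

theorem dgH_rk (x : H →L[ℂ] H) (a : ι → ℂ) : dgH ι x * rk H a = rk H a * dgH ι x := by
  ext1 η; simp only [mul_apply_eq_comp, rk_apply, dgH_colv, adjoint_colv_dgH]

theorem rk_mem (N : VonNeumannAlgebra H) (a : ι → ℂ) : rk H a ∈ ampVN ι N :=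
  mem_ampVN_iff.2 fun y _ => dgH_rk y a

/-- scalar diagonal matrices -/
def sd (H : Type u) [NormedAddCommGroup H] [InnerProductSpace ℂ H] (a : ι → ℂ) :
    L2 ι H →L[ℂ] L2 ι H := mat (diagonal fun i => a i • (1 : H →L[ℂ] H))

@[simp] theorem sd_apply (a : ι → ℂ) (η : L2 ι H) (i : ι) : sd H a η i = a i • η i := by
  simp [sd, mat_apply, diagonal_apply, DFunLike.ite_apply]

theorem sd_mul (a b : ι → ℂ) : sd H a * sd H b = sd H fun i => a i * b i := by
  ext v i; simp [smul_smul]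

theorem sd_one : sd H (fun _ : ι => 1) = 1 := by ext v i; simp

theorem star_sd (a : ι → ℂ) : star (sd H a) = sd H fun i => conj (a i) := by
  rw [sd, ← mat_star, diagonal_conjTranspose, sd]; congr 2; ext1 i; simp

theorem sd_mem (N : VonNeumannAlgebra H) (a : ι → ℂ) : sd H a ∈ ampVN ι N :=
  mem_ampVN_iff.2 fun y _ => by ext v i; simp

theorem sd_unitary {a : ι → ℂ} (h : ∀ i, ‖a i‖ = 1) : sd H a ∈ unitary (L2 ι H →L[ℂ] L2 ι H) := by
  have e : ∀ i, conj (a i) * a i = 1 := fun i => by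
    rw [Complex.conj_mul', h i]; simp
  rw [Unitary.mem_iff, star_sd, sd_mul, sd_mul]
  simp only [e, mul_comm (a _), sd_one, and_self]

theorem sd_colv (a b : ι → ℂ) (v : H) : sd H a (colv b v) = colv (fun i => a i * b i) v := by
  ext i; simp [smul_smul]

theorem exists_Sw : ∃ T : L2 ι (L2 ι H) →L[ℂ] L2 ι (L2 ι H), ∀ ξ k l, T ξ k l = ξ l k := by
  let T₀ : L2 ι (L2 ι H) →ₗ[ℂ] L2 ι (L2 ι H) :=
    { toFun := fun ξ => L2.mk fun k => L2.mk fun l => ξ l k
      map_add' := fun _ _ => rfl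
      map_smul' := fun _ _ => rfl }
  refine ⟨T₀.mkContinuous 1 fun ξ => ?_, fun _ _ _ => rfl⟩
  rw [one_mul]
  refine le_of_sq_le_sq (le_of_eq ?_) (norm_nonneg _)
  simp only [L2.norm_sq]
  exact sum_comm

variable (ι H) in
/-- the flip of the two registers -/
def Sw : L2 ι (L2 ι H) →L[ℂ] L2 ι (L2 ι H) := exists_Sw.choose

@[simp] theorem Sw_apply (ξ : L2 ι (L2 ι H)) (k l : ι) : Sw H ι ξ k l = ξ l k :=
  exists_Sw.choose_spec ξ k l

theorem Sw_Sw : Sw H ι * Sw H ι = 1 := by ext v k l; simp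

theorem star_Sw : star (Sw H ι) = Sw H ι := by
  rw [star_eq_adjoint, eq_comm, eq_adjoint_iff]
  intro v w
  simp only [L2.inner_apply, Sw_apply]
  exact sum_comm

variable (ι) in
/-- action on the outer register -/
def Rh : (L2 ι H →L[ℂ] L2 ι H) →⋆ₐ[ℂ] (L2 ι (L2 ι H) →L[ℂ] L2 ι (L2 ι H)) where
  toFun X := Sw H ι * dgH ι X * Sw H ι
  map_one' := by rw [map_one, mul_one, Sw_Sw]
  map_mul' x y := by
    simp only [map_mul, mul_assoc]; rw [← mul_assoc (Sw H ι) (Sw H ι), Sw_Sw, one_mul]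
  map_zero' := by simp
  map_add' x y := by simp [mul_add, add_mul]
  commutes' c := by simp [Algebra.algebraMap_eq_smul_one, Sw_Sw]
  map_star' x := by simp only [star_mul, star_Sw, map_star, mul_assoc]

theorem Rh_apply (X : L2 ι H →L[ℂ] L2 ι H) (ξ : L2 ι (L2 ι H)) (k l : ι) :
    Rh ι X ξ k l = X (L2.mk fun k' => ξ k' l) k := by
  change Sw H ι (dgH ι X (Sw H ι ξ)) k l = _
  rw [Sw_apply, dgH_apply]
  congr 2; ext k'; simp

theorem Rh_mat_apply (x : Matrix ι ι (H →L[ℂ] H)) (ξ : L2 ι (L2 ι H)) (k l : ι) :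
    Rh ι (mat x) ξ k l = ∑ k', x k k' (ξ k' l) := by
  rw [Rh_apply, mat_apply]; rfl

theorem LR_comm {N : VonNeumannAlgebra H} {X Y : L2 ι H →L[ℂ] L2 ι H} (hX : X ∈ ampVN ι N)
    (hY : Y ∈ ampVN ι N.commutant) : dgH ι X * Rh ι Y = Rh ι Y * dgH ι X := by
  obtain ⟨x, hx, rfl⟩ := hX
  obtain ⟨y, hy, rfl⟩ := hY
  ext ξ k l
  simp only [mul_apply_eq_comp, dgH_apply, Rh_mat_apply, mat_apply, map_sum]
  rw [sum_comm]
  exact sum_congr rfl fun k' _ => sum_congr rfl fun l' _ => congrArg (fun T : H →L[ℂ] H => T _)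
    (VonNeumannAlgebra.mem_commutant_iff.1 (hy k k') _ (hx l l'))

/-- the diagonal vector `∑ₖ aₖ eₖ ⊗ eₖ ⊗ Ω` -/
def dv (a : ι → ℂ) (Ω : H) : L2 ι (L2 ι H) := L2.mk fun k => L2.mk fun l => if k = l then a k • Ω else 0

theorem dv_apply (a : ι → ℂ) (Ω : H) (k l : ι) : dv a Ω k l = if k = l then a k • Ω else 0 := rfl

theorem norm_dv_sq (a : ι → ℂ) (Ω : H) : ‖dv a Ω‖ ^ 2 = (∑ k, ‖a k‖ ^ 2) * ‖Ω‖ ^ 2 := by
  simp [L2.norm_sq, dv_apply, apply_ite, sum_mul, norm_smul, mul_pow]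

theorem dgH_sd_dv (a b : ι → ℂ) (Ω : H) : dgH ι (sd H a) (dv b Ω) = dv (fun i => a i * b i) Ω := by
  ext k l; simp only [dgH_apply, sd_apply, dv_apply]; split_ifs with h
  · rw [h, smul_smul]
  · simp

theorem Rh_sd_dv (a b : ι → ℂ) (Ω : H) : Rh ι (sd H a) (dv b Ω) = dv (fun i => a i * b i) Ω := by
  ext k l; simp only [Rh_apply, sd_apply, dv_apply, L2.mk_apply]; split_ifs with h
  · rw [smul_smul]
  · simp

theorem adjoint_colv_dv (a b : ι → ℂ) (Ω : H) :
    adjoint (colv a) (dv b Ω) = colv (fun i => conj (a i) * b i) Ω := by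
  ext l; simp [adjoint_colv_apply, dv_apply, smul_smul]

theorem dgH_mat_dv (x : Matrix ι ι (H →L[ℂ] H)) (a : ι → ℂ) (Ω : H) (k l : ι) :
    dgH ι (mat x) (dv a Ω) k l = a k • x l k Ω := by
  simp [mat_apply, dv_apply, apply_ite]

theorem Rh_mat_dv (x : Matrix ι ι (H →L[ℂ] H)) (a : ι → ℂ) (Ω : H) (k l : ι) :
    Rh ι (mat x) (dv a Ω) k l = a l • x k l Ω := by
  simp [Rh_mat_apply, dv_apply, apply_ite]

end

end Crest.Agent.R78
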