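import Mathlib

/-!
# Row 78, task R78-Sech: two Fourier transforms and Fourier uniqueness.

PLAN.  `integral_sech`: with `a = 1/2 + i u/(2π)`, the integrand is `e^{2π a t}/(1 + e^{2π t})`; substitute
`x = e^{2πt}/(1 + e^{2πt})` (`integral_image_eq_integral_abs_deriv_smul`, image `Ioo 0 1`,
`dx = 2π x (1-x) dt`) to get `Complex.betaIntegral a (1 - a) / (2π)`; then
`Complex.Gamma_mul_Gamma_eq_betaIntegral`, `Complex.Gamma_mul_Gamma_one_sub`, and
`sin (π/2 + i u/2) = cosh (u/2)`.
`integral_gauss`: `integral_cexp_quadratic` / `fourierIntegral_gaussian`.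
`fourier_unique`: Fourier inversion (`Continuous.fourierInv_fourier_eq` or
`MeasureTheory.Integrable.fourierInv_fourier_eq`), the Fourier transform vanishes identically.
-/

set_option autoImplicit false

open MeasureTheory Real

namespace Crest.Agent.R78

noncomputable section

/-- `1 / (2 cosh (π t))` -/
def sech (t : ℝ) : ℝ := (exp (π * t) + exp (-(π * t)))⁻¹

/-- Gaussian density with standard deviation `T` -/
def gauss (T t : ℝ) : ℝ := (T * √(2 * π))⁻¹ * exp (-(t ^ 2) / (2 * T ^ 2))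

theorem sech_pos (t : ℝ) : 0 < sech t := by unfold sech; positivity

theorem continuous_sech : Continuous sech := by
  unfold sech
  exact Continuous.inv₀ (by fun_prop) fun t => by positivity

theorem integrable_sech : Integrable sech := by
  refine integrable_inv_one_add_sq.mono' continuous_sech.aestronglyMeasurable
    (Filter.Eventually.of_forall fun t => ?_)
  rw [Real.norm_of_nonneg (sech_pos t).le]
  refine inv_anti₀ (by positivity) ?_
  have key : ∀ t : ℝ, 0 ≤ t → 1 + t ^ 2 ≤ exp (π * t) := fun t ht => by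
    have h1 := quadratic_le_exp_of_nonneg (x := π * t) (by positivity)
    have h2 : 3 * t ≤ π * t := mul_le_mul_of_nonneg_right pi_gt_three.le ht
    nlinarith
  rcases le_total 0 t with h | h
  · linarith [key t h, exp_pos (-(π * t))]
  · have := key (-t) (by linarith)
    rw [mul_neg, neg_sq] at this
    linarith [exp_pos (π * t)]

theorem sech_cpow (p : ℝ) (c : ℂ) : ((exp p : ℝ) : ℂ) ^ c = Complex.exp (p * c) := by
  rw [Complex.cpow_def_of_ne_zero (by exact_mod_cast (exp_pos p).ne'),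
    ← Complex.ofReal_log (exp_pos p).le, log_exp]

theorem integral_sech (u : ℝ) :
    ∫ t : ℝ, (sech t : ℂ) * Complex.exp (Complex.I * u * t) =
      ((exp (u / 2) + exp (-(u / 2)))⁻¹ : ℝ) := by
  obtain ⟨a, ha⟩ : ∃ a : ℂ, a = 1 / 2 + Complex.I * u / (2 * π) := ⟨_, rfl⟩
  have hπ : (π : ℂ) ≠ 0 := by exact_mod_cast pi_ne_zero
  have hre : a.re = 1 / 2 := by
    have : a = (1 / 2 : ℝ) + (u / (2 * π) : ℝ) * Complex.I := by rw [ha]; push_cast; ring
    rw [this]; simp [-Complex.ofReal_div]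
  have h1 : Complex.betaIntegral a (1 - a) = π / Complex.sin (π * a) := by
    rw [← Complex.Gamma_mul_Gamma_one_sub, Complex.Gamma_mul_Gamma_eq_betaIntegral
      (by rw [hre]; norm_num) (by rw [Complex.sub_re, hre]; norm_num), add_sub_cancel,
      Complex.Gamma_one, one_mul]
  have h2 : Complex.sin (π * a) = (Complex.exp (u / 2) + Complex.exp (-(u / 2))) / 2 := by
    have : π * a = u / 2 * Complex.I + π / 2 := by rw [ha]; field_simp; ring
    rw [this, Complex.sin_add_pi_div_two, Complex.cos_mul_I, Complex.cosh]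
  have h3 := integral_image_eq_integral_abs_deriv_smul (s := Set.univ)
    (f := fun t => sigmoid (2 * π * t))
    (f' := fun t => sigmoid (2 * π * t) * (1 - sigmoid (2 * π * t)) * (2 * π))
    MeasurableSet.univ (fun t _ => ((hasDerivAt_sigmoid _).comp t
      (by simpa using (hasDerivAt_id t).const_mul (2 * π))).hasDerivWithinAt)
    (fun s _ t _ h => mul_left_cancel₀ (by positivity) (sigmoid_injective h))
    (fun x : ℝ => (x : ℂ) ^ (a - 1) * (1 - (x : ℂ)) ^ (1 - a - 1))
  have h4 : (fun t => sigmoid (2 * π * t)) '' Set.univ = Set.Ioo 0 1 := by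
    rw [← range_sigmoid, Set.image_univ]
    exact (mul_left_surjective₀ (by positivity : 2 * π ≠ 0)).range_comp sigmoid
  rw [h4, ← integral_Ioc_eq_integral_Ioo, ← intervalIntegral.integral_of_le zero_le_one,
    Measure.restrict_univ] at h3
  have h5 : ∀ t : ℝ, |sigmoid (2 * π * t) * (1 - sigmoid (2 * π * t)) * (2 * π)| •
      (((sigmoid (2 * π * t) : ℝ) : ℂ) ^ (a - 1) *
        (1 - ((sigmoid (2 * π * t) : ℝ) : ℂ)) ^ (1 - a - 1)) =
      (2 * π : ℂ) * ((sech t : ℂ) * Complex.exp (Complex.I * u * t)) := fun t => by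
    obtain ⟨L, hL⟩ : ∃ L, exp L = sech t := ⟨_, exp_log (sech_pos t)⟩
    have e0 : exp (-(2 * π * t)) = exp (-(π * t)) * exp (-(π * t)) := by
      rw [← exp_add]; congr 1; ring
    have p0 := exp_pos (π * t)
    have e1 : sigmoid (2 * π * t) = exp (L + π * t) := by
      rw [exp_add, hL, sigmoid, sech, e0, exp_neg]
      field_simp
    have e2 : 1 - sigmoid (2 * π * t) = exp (L - π * t) := by
      rw [exp_sub, hL, sigmoid, sech, e0, exp_neg]
      field_simp
      ring
    rw [← Complex.ofReal_one, ← Complex.ofReal_sub, e2, e1, sech_cpow, sech_cpow,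
      abs_of_pos (by positivity), ← hL, Complex.real_smul]
    push_cast
    simp only [← Complex.exp_add, mul_comm _ (2 * π : ℂ), mul_assoc]
    congr 3
    rw [ha]
    field_simp
    ring
  simp only [h5, integral_const_mul] at h3
  have h6 : (2 * π : ℂ) ≠ 0 := mul_ne_zero two_ne_zero hπ
  refine mul_left_cancel₀ h6 ?_
  rw [← h3]
  refine h1.trans ?_
  rw [h2]
  push_cast
  field_simp

theorem gauss_nonneg {T : ℝ} (hT : 0 < T) (t : ℝ) : 0 ≤ gauss T t := by unfold gauss; positivity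

theorem continuous_gauss (T : ℝ) : Continuous (gauss T) := by unfold gauss; fun_prop

theorem integrable_gauss {T : ℝ} (hT : 0 < T) : Integrable (gauss T) := by
  have : gauss T = fun t => (T * √(2 * π))⁻¹ * exp (-(2 * T ^ 2)⁻¹ * t ^ 2) := by
    ext t; unfold gauss; congr 2; ring
  rw [this]
  exact (integrable_exp_neg_mul_sq (by positivity)).const_mul _

theorem integral_gauss {T : ℝ} (hT : 0 < T) (v : ℝ) :
    ∫ t : ℝ, (gauss T t : ℂ) * Complex.exp (Complex.I * v * t) =
      (exp (-(T ^ 2 * v ^ 2) / 2) : ℝ) := by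
  have h := fourierIntegral_gaussian (b := ((2 * T ^ 2)⁻¹ : ℝ))
    (by rw [Complex.ofReal_re]; positivity) v
  have e : ∀ t : ℝ, (gauss T t : ℂ) * Complex.exp (Complex.I * v * t) =
      ((T * √(2 * π))⁻¹ : ℝ) * (Complex.exp (Complex.I * v * t) *
        Complex.exp (-((2 * T ^ 2)⁻¹ : ℝ) * t ^ 2)) := fun t => by
    unfold gauss
    push_cast
    rw [show -(t : ℂ) ^ 2 / (2 * T ^ 2) = -(2 * T ^ 2 : ℂ)⁻¹ * t ^ 2 by ring]
    ring
  have e2 : ((π : ℂ) / ((2 * T ^ 2)⁻¹ : ℝ)) ^ (1 / 2 : ℂ) = (T * √(2 * π) : ℝ) := by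
    have h1 : π / (2 * T ^ 2)⁻¹ = (T * √(2 * π)) ^ 2 := by
      rw [mul_pow T, sq_sqrt (by positivity)]; field_simp
    rw [← Complex.ofReal_div, h1, show (1 / 2 : ℂ) = ((1 / 2 : ℝ) : ℂ) by push_cast; rfl,
      ← Complex.ofReal_cpow (by positivity), ← sqrt_eq_rpow, sqrt_sq (by positivity)]
  simp only [e, integral_const_mul, h, e2]
  rw [← mul_assoc, ← Complex.ofReal_mul, inv_mul_cancel₀ (by positivity)]
  push_cast
  rw [one_mul]
  congr 1
  have : (T : ℂ) ≠ 0 := by exact_mod_cast hT.ne'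
  field_simp
  ring

theorem gauss_sq_le {T : ℝ} (hT : 0 < T) (t : ℝ) :
    gauss T t * t ^ 2 ≤ (T * √(2 * π))⁻¹ * T ^ 2 * exp (-(8 * T ^ 2)⁻¹ * t ^ 2) := by
  have h1 : t ^ 2 ≤ T ^ 2 * exp (3 * t ^ 2 / (8 * T ^ 2)) := by
    have h2 := add_one_le_exp (3 * t ^ 2 / (8 * T ^ 2) - 1)
    rw [sub_add_cancel, exp_sub, div_le_div_iff₀ (by positivity) (exp_pos 1)] at h2
    nlinarith [exp_one_gt_d9, sq_nonneg t]
  refine (mul_le_mul_of_nonneg_left h1 (gauss_nonneg hT t)).trans (le_of_eq ?_)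
  unfold gauss
  rw [show -(8 * T ^ 2)⁻¹ * t ^ 2 = -t ^ 2 / (2 * T ^ 2) + 3 * t ^ 2 / (8 * T ^ 2) by
    field_simp; ring, exp_add]
  ring

theorem integrable_gauss_sq {T : ℝ} (hT : 0 < T) : Integrable fun t => gauss T t * t ^ 2 := by
  refine ((integrable_exp_neg_mul_sq (b := (8 * T ^ 2)⁻¹) (by positivity)).const_mul
    ((T * √(2 * π))⁻¹ * T ^ 2)).mono'
    (((continuous_gauss T).mul (by fun_prop)).aestronglyMeasurable)
    (Filter.Eventually.of_forall fun t => ?_)
  rw [Real.norm_of_nonneg (mul_nonneg (gauss_nonneg hT t) (sq_nonneg t))]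
  exact gauss_sq_le hT t

theorem integral_gauss_sq {T : ℝ} (hT : 0 < T) : ∫ t, gauss T t * t ^ 2 ≤ 2 * T ^ 2 := by
  refine (integral_mono (integrable_gauss_sq hT)
    ((integrable_exp_neg_mul_sq (b := (8 * T ^ 2)⁻¹) (by positivity)).const_mul _)
    (gauss_sq_le hT)).trans (le_of_eq ?_)
  have h1 : π / (8 * T ^ 2)⁻¹ = (2 * (T * √(2 * π))) ^ 2 := by
    rw [mul_pow 2, mul_pow T, sq_sqrt (by positivity)]; field_simp; ring
  rw [integral_const_mul, integral_gaussian, h1, sqrt_sq (by positivity)]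
  field_simp

theorem fourier_unique {φ : ℝ → ℂ} (hc : Continuous φ) (hi : Integrable φ)
    (h : ∀ s : ℝ, ∫ t : ℝ, Complex.exp (Complex.I * s * t) * φ t = 0) (t : ℝ) : φ t = 0 := by
  have h0 : FourierTransform.fourier φ = 0 := by
    ext w
    rw [fourier_real_eq_integral_exp_smul, Pi.zero_apply, ← h (-2 * π * w)]
    congr 1
    ext v
    rw [smul_eq_mul]
    congr 2
    push_cast
    ring
  have := hc.fourierInv_fourier_eq hi (by rw [h0]; exact integrable_zero _ _ _)
  rw [← this, h0]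
  simp [fourierInv_eq]

end

end Crest.Agent.R78
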