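import Crest.Agent.R78.Reg

/-!
# Row 78, task R78-Small: small lemmas.

PLAN.  `exists_inv_mem`: `x = u (1 - t)` with `‖t‖ ≤ r`; `x` is a unit (`Units.oneSub`), the inverse is in `S`
by `StarSubalgebra.coe_isUnit` (spectral permanence); `x' - u⋆ = x' (u - x) u⋆` and `‖x'‖ ≤ 2`.
`exists_sqrt_mem`: work in the C⋆-algebra `↥S`, or `cfc (fun t : ℝ => √(1 - t²)) X` with `cfc_mem`.
`sqrt_sub_le`: `η = (a - b) ξ`, `(a + b) η = (A + B)(B - A) ξ` and
`‖(a + b) η‖² = ‖a η‖² + ‖b η‖² + 2 re ⟪η, a b η⟫ ≥ (3/4 + 3/4) ‖η‖²` (`a b ≥ 0`: `Commute.mul_nonneg`).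
`exists_linear_of_rel`: `Finsupp.linearCombination`/`Fintype.linearCombination`, factor through the range
(`LinearMap.quotKerEquivRange`, `Submodule.liftQ`), `LinearMap.exists_extend`.
`exists_forall_le`: separate the convex set `{t | ∃ x ∈ 𝒞, ∀ i, f i x ≤ t i}` from the open convex set
`{t | ∀ i, t i < c'}` in `I → ℝ` (`geometric_hahn_banach_open`); the functional has nonnegative weights.
`exists_hadamard`: `exp (2 π i s l / K)`; geometric sums (`IsPrimitiveRoot`, `Complex.isPrimitiveRoot_exp`,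
or `AddChar.sum_eq_ite` on `ZMod K`).
`bessel`: `‖∑ s, j s (w s)‖² = ∑ ‖w s‖²` and `∑ ‖(j s)⋆ ζ‖² = ⟪ζ, ∑ j s (j s)⋆ ζ⟫`.
-/

set_option autoImplicit false

namespace Crest.Agent.R78

open Finset ContinuousLinearMap
open scoped InnerProductSpace ComplexConjugate

theorem exists_inv_mem {A : Type*} [CStarAlgebra A] {S : StarSubalgebra ℂ A}
    (hS : IsClosed (S : Set A)) {x u : A} (hx : x ∈ S) (hu : u ∈ unitary A) {r : ℝ} (hr : r ≤ 1 / 2)
    (h : ‖x - u‖ ≤ r) : ∃ x' ∈ S, x' * x = 1 ∧ x * x' = 1 ∧ ‖x' - star u‖ ≤ 2 * r ∧ ‖x'‖ ≤ 2 := by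
  rcases subsingleton_or_nontrivial A with hA | hA
  · refine ⟨x, hx, Subsingleton.elim _ _, Subsingleton.elim _ _, ?_, ?_⟩
    · rw [Subsingleton.elim (x - star u) 0, norm_zero]
      linarith [norm_nonneg (x - u)]
    · rw [Subsingleton.elim x 0, norm_zero]; norm_num
  have hu' : star u ∈ unitary A := Unitary.star_mem hu
  have h1 : ‖star u * (u - x)‖ < 1 := by
    rw [CStarRing.norm_mem_unitary_mul _ hu', norm_sub_rev]; linarith
  have h2 : x = u * (1 - star u * (u - x)) := by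
    rw [mul_sub, ← mul_assoc, Unitary.mul_star_self_of_mem hu]; simp
  have h3 : IsUnit x := by
    rw [h2]
    exact (Unitary.isUnit_coe (U := ⟨u, hu⟩)).mul (Units.oneSub _ h1).isUnit
  haveI := hS
  obtain ⟨w, hw⟩ := (S.coe_isUnit (a := ⟨x, hx⟩)).1 h3
  have e1 : ((w⁻¹ : Sˣ) : S) * ⟨x, hx⟩ = 1 := by rw [← hw, Units.inv_mul]
  have e2 : ⟨x, hx⟩ * ((w⁻¹ : Sˣ) : S) = 1 := by rw [← hw, Units.mul_inv]
  obtain ⟨x', hx', f1, f2⟩ : ∃ x' ∈ S, x' * x = 1 ∧ x * x' = 1 :=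
    ⟨_, ((w⁻¹ : Sˣ) : S).2, congrArg Subtype.val e1, congrArg Subtype.val e2⟩
  have e3 : x' - star u = x' * (u - x) * star u := by
    rw [mul_sub, sub_mul, f1, mul_assoc, Unitary.mul_star_self_of_mem hu, mul_one, one_mul]
  have h4 : ‖x' - star u‖ ≤ ‖x'‖ * r := by
    rw [e3, CStarRing.norm_mul_mem_unitary _ hu']
    refine (norm_mul_le _ _).trans (mul_le_mul_of_nonneg_left ?_ (norm_nonneg _))
    rwa [norm_sub_rev]
  have h5 : ‖x'‖ ≤ ‖x' - star u‖ + 1 := by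
    have := norm_add_le (x' - star u) (star u)
    rwa [sub_add_cancel, CStarRing.norm_of_mem_unitary hu'] at this
  have h6 : ‖x'‖ ≤ 2 := by nlinarith [norm_nonneg x']
  have h7 : 0 ≤ r := (norm_nonneg _).trans h
  exact ⟨x', hx', f1, f2, by nlinarith, h6⟩

variable {H H' : Type*} [NormedAddCommGroup H] [InnerProductSpace ℂ H] [CompleteSpace H]
  [NormedAddCommGroup H'] [InnerProductSpace ℂ H'] [CompleteSpace H']

theorem exists_sqrt_mem {S : StarSubalgebra ℂ (H →L[ℂ] H)} (hS : IsClosed (S : Set (H →L[ℂ] H)))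
    {X : H →L[ℂ] H} (hX : X ∈ S) (hsa : IsSelfAdjoint X) (hn : ‖X‖ ≤ 1) :
    ∃ a ∈ S, 0 ≤ a ∧ a * a = 1 - X * X ∧ a * X = X * a := by
  haveI := hS
  refine ⟨cfc (fun t : ℝ => Real.sqrt (1 - t * t)) X, cfc_mem (𝕜' := ℂ) _ hX,
    cfc_nonneg fun t _ => Real.sqrt_nonneg _, ?_, ?_⟩
  · rw [← cfc_mul _ _ X]
    have h : cfc (fun t : ℝ => 1 - t * t) X = 1 - X * X := by
      rw [cfc_sub _ _ X, cfc_mul _ _ X, cfc_const_one ℝ X, cfc_id' ℝ X]
    rw [← h]
    refine cfc_congr fun t ht => ?_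
    have h1 : ‖t‖ ≤ ‖X‖ * ‖(1 : H →L[ℂ] H)‖ := spectrum.norm_le_norm_mul_of_mem ht
    have h2 : ‖(1 : H →L[ℂ] H)‖ ≤ 1 := ContinuousLinearMap.norm_id_le
    have h3 : |t| ≤ 1 := h1.trans (mul_le_one₀ hn (norm_nonneg _) h2)
    exact Real.mul_self_sqrt (by nlinarith [abs_mul_abs_self t, abs_nonneg t])
  · have := (cfc_commute_cfc (fun t : ℝ => √(1 - t * t)) (fun t : ℝ => t) X).eq
    rwa [cfc_id' ℝ X] at this

theorem Small_sq {A a : H →L[ℂ] H} (hA : IsSelfAdjoint A) (hA' : ‖A‖ ≤ 1 / 2) (ha : 0 ≤ a)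
    (ha' : a * a = 1 - A * A) (η : H) : 3 / 4 * ‖η‖ ^ 2 ≤ ‖a η‖ ^ 2 := by
  have h1 : ⟪a η, a η⟫_ℂ = ⟪η, η⟫_ℂ - ⟪A η, A η⟫_ℂ := by
    rw [← adjoint_inner_right a, ← star_eq_adjoint, ha.isSelfAdjoint.star_eq,
      ← adjoint_inner_right A, ← star_eq_adjoint, hA.star_eq, ← inner_sub_right]
    congr 1
    exact congrArg (fun T : H →L[ℂ] H => T η) ha'
  have h2 : ‖a η‖ ^ 2 = ‖η‖ ^ 2 - ‖A η‖ ^ 2 := by
    have := congrArg RCLike.re h1
    rwa [map_sub, inner_self_eq_norm_sq, inner_self_eq_norm_sq, inner_self_eq_norm_sq] at this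
  have h3 : ‖A η‖ ≤ 1 / 2 * ‖η‖ := A.le_of_opNorm_le hA' η
  have h4 := pow_le_pow_left₀ (norm_nonneg _) h3 2
  nlinarith

theorem sqrt_sub_le {A B a b : H →L[ℂ] H} (hA : IsSelfAdjoint A) (hB : IsSelfAdjoint B)
    (hA' : ‖A‖ ≤ 1 / 2) (hB' : ‖B‖ ≤ 1 / 2) (ha : 0 ≤ a) (hb : 0 ≤ b) (ha' : a * a = 1 - A * A)
    (hb' : b * b = 1 - B * B) (hab : a * b = b * a) (hAB : A * B = B * A) (ξ : H) :
    ‖a ξ - b ξ‖ ≤ ‖A ξ - B ξ‖ := by
  have e : (a + b) * (a - b) = (A + B) * (B - A) := by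
    rw [add_mul, mul_sub, mul_sub, hab, ha', hb', add_mul, mul_sub, mul_sub, hAB]
    abel
  have e1 : a (a ξ - b ξ) + b (a ξ - b ξ) = (A + B) (B ξ - A ξ) :=
    congrArg (fun T : H →L[ℂ] H => T ξ) e
  set η := a ξ - b ξ
  have h1 : ‖(A + B) (B ξ - A ξ)‖ ≤ 1 * ‖B ξ - A ξ‖ :=
    (A + B).le_of_opNorm_le ((norm_add_le _ _).trans (by linarith)) _
  have h2 := Small_sq hA hA' ha ha' η
  have h3 := Small_sq hB hB' hb hb' η
  have h4 : 0 ≤ RCLike.re ⟪a η, b η⟫_ℂ := by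
    have hp : (a * b).IsPositive := (nonneg_iff_isPositive _).1 (Commute.mul_nonneg ha hb hab)
    rw [← adjoint_inner_right a, ← star_eq_adjoint, ha.isSelfAdjoint.star_eq]
    exact hp.re_inner_nonneg_right η
  have h5 := norm_add_sq (𝕜 := ℂ) (a η) (b η)
  rw [e1] at h5
  rw [one_mul, norm_sub_rev] at h1
  have h6 := pow_le_pow_left₀ (norm_nonneg _) h1 2
  refine le_of_sq_le_sq ?_ (norm_nonneg _)
  nlinarith [sq_nonneg ‖η‖]

theorem exists_linear_of_rel {I V W : Type*} [Fintype I] [AddCommGroup V] [Module ℂ V]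
    [AddCommGroup W] [Module ℂ W] (x : I → V) (y : I → W)
    (h : ∀ c : I → ℂ, ∑ i, c i • x i = 0 → ∑ i, c i • y i = 0) :
    ∃ Φ : V →ₗ[ℂ] W, ∀ i, Φ (x i) = y i := by
  classical
  have hk : LinearMap.ker (Fintype.linearCombination ℂ x) ≤
      LinearMap.ker (Fintype.linearCombination ℂ y) := fun c hc => h c hc
  obtain ⟨Φ, hΦ⟩ := LinearMap.exists_extend
    ((LinearMap.ker (Fintype.linearCombination ℂ x)).liftQ _ hk ∘ₗ
      (Fintype.linearCombination ℂ x).quotKerEquivRange.symm.toLinearMap)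
  refine ⟨Φ, fun i => ?_⟩
  have h1 := LinearMap.congr_fun hΦ
    ⟨Fintype.linearCombination ℂ x (Pi.single i 1), LinearMap.mem_range_self _ _⟩
  simp only [LinearMap.comp_apply, Submodule.subtype_apply, LinearEquiv.coe_coe,
    LinearMap.quotKerEquivRange_symm_apply_image, Submodule.mkQ_apply,
    Submodule.liftQ_apply] at h1
  simpa using h1

theorem exists_forall_le {X I : Type*} [AddCommGroup X] [Module ℝ X] [Fintype I] [Nonempty I]
    {𝒞 : Set X} (f : I → X → ℝ) (hf : ∀ i, ConvexOn ℝ 𝒞 (f i)) {c c' : ℝ} (hc : c < c')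
    (h : ∀ w : I → ℝ, (∀ i, 0 ≤ w i) → ∑ i, w i = 1 → ∃ x ∈ 𝒞, ∑ i, w i * f i x ≤ c) :
    ∃ x ∈ 𝒞, ∀ i, f i x ≤ c' := by
  classical
  by_contra hcon
  push Not at hcon
  obtain ⟨i₀⟩ := ‹Nonempty I›
  have hs : Convex ℝ {t : I → ℝ | ∀ i, t i < c'} := by
    have : {t : I → ℝ | ∀ i, t i < c'} = Set.univ.pi fun _ => Set.Iio c' := by ext; simp
    rw [this]; exact convex_pi fun _ _ => convex_Iio _
  have ho : IsOpen {t : I → ℝ | ∀ i, t i < c'} := by
    have : {t : I → ℝ | ∀ i, t i < c'} = Set.univ.pi fun _ => Set.Iio c' := by ext; simp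
    rw [this]; exact isOpen_set_pi Set.finite_univ fun _ _ => isOpen_Iio
  have hT : Convex ℝ {t : I → ℝ | ∃ x ∈ 𝒞, ∀ i, f i x ≤ t i} := by
    rintro t ⟨x, hx, ht⟩ t' ⟨x', hx', ht'⟩ a b ha hb hab
    refine ⟨a • x + b • x', (hf i₀).1 hx hx' ha hb hab, fun i => ?_⟩
    refine ((hf i).2 hx hx' ha hb hab).trans ?_
    simp only [smul_eq_mul, Pi.add_apply, Pi.smul_apply]
    exact add_le_add (mul_le_mul_of_nonneg_left (ht i) ha) (mul_le_mul_of_nonneg_left (ht' i) hb)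
  obtain ⟨φ, u, h1, h2⟩ := geometric_hahn_banach_open hs ho hT (by
    rw [Set.disjoint_left]
    rintro t ht ⟨x, hx, ht'⟩
    obtain ⟨i, hi⟩ := hcon x hx
    linarith [ht i, ht' i])
  set w : I → ℝ := fun i => φ (Pi.single i 1) with hw
  have hφ : ∀ t, φ t = ∑ i, t i * w i := fun t => by
    conv_lhs => rw [← Finset.univ_sum_single t]
    rw [map_sum]
    refine sum_congr rfl fun i _ => ?_
    rw [show (Pi.single i (t i) : I → ℝ) = t i • Pi.single i 1 by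
      rw [← Pi.single_smul', smul_eq_mul, mul_one], map_smul, smul_eq_mul]
  have hw0 : ∀ i, 0 ≤ w i := by
    intro i
    by_contra hn
    push Not at hn
    have h3 := h1 (fun _ => c) fun _ => hc
    have h4 := h1 ((fun _ => c) - ((u - φ fun _ => c) / (-w i)) • Pi.single i 1) fun j => by
      have a1 : 0 ≤ (u - φ fun _ => c) / (-w i) := div_nonneg (by linarith) (by linarith)
      have a2 : (0 : ℝ) ≤ (Pi.single i 1 : I → ℝ) j := by
        rw [Pi.single_apply]; split_ifs <;> norm_num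
      have := mul_nonneg a1 a2
      simp only [Pi.sub_apply, Pi.smul_apply, smul_eq_mul]
      linarith
    rw [map_sub, map_smul, smul_eq_mul] at h4
    have h5 : (u - φ fun _ => c) / (-w i) * w i = -(u - φ fun _ => c) := by
      field_simp [hn.ne]
    change _ - _ * w i < u at h4
    linarith
  have h3 := h1 (fun _ => c) fun _ => hc
  rw [hφ, ← Finset.mul_sum] at h3
  rcases (Finset.sum_nonneg fun i (_ : i ∈ univ) => hw0 i).eq_or_lt with hW | hW
  · obtain ⟨x, hx, -⟩ := h (Pi.single i₀ 1) (fun j => by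
      rw [Pi.single_apply]; split_ifs <;> norm_num) (by simp)
    have h4 := h2 (fun i => f i x) ⟨x, hx, fun _ => le_rfl⟩
    have h5 := (Finset.sum_eq_zero_iff_of_nonneg fun i (_ : i ∈ univ) => hw0 i).1 hW.symm
    rw [hφ, Finset.sum_eq_zero fun i hi => by rw [h5 i hi, mul_zero]] at h4
    rw [← hW] at h3
    linarith
  · obtain ⟨x, hx, h4⟩ := h (fun i => w i / ∑ j, w j) (fun i => div_nonneg (hw0 i) hW.le)
      (by rw [← Finset.sum_div, div_self hW.ne'])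
    have h5 := h2 (fun i => f i x) ⟨x, hx, fun _ => le_rfl⟩
    rw [hφ] at h5
    have h6 : ∑ i, w i / (∑ j, w j) * f i x = (∑ i, f i x * w i) / ∑ j, w j := by
      rw [Finset.sum_div]
      exact sum_congr rfl fun i _ => by ring
    rw [h6, div_le_iff₀ hW] at h4
    linarith

theorem exists_hadamard (K : ℕ) : ∃ h : Fin K → Fin K → ℂ, (∀ s l, ‖h s l‖ = 1) ∧
    ∀ s s', ∑ l, conj (h s l) * h s' l = if s = s' then (K : ℂ) else 0 := by
  cases K with
  | zero => exact ⟨fun s => s.elim0, fun s => s.elim0, fun s => s.elim0⟩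
  | succ n =>
    suffices h : ∃ h : ZMod (n + 1) → ZMod (n + 1) → ℂ, (∀ s l, ‖h s l‖ = 1) ∧
      ∀ s s', ∑ l, conj (h s l) * h s' l = if s = s' then ((n + 1 : ℕ) : ℂ) else 0 from h
    refine ⟨fun s l => ZMod.stdAddChar (l * s), fun s l => AddChar.norm_apply _ _, fun s s' => ?_⟩
    have h1 := AddChar.sum_mulShift (s' - s) (ZMod.isPrimitive_stdAddChar (n + 1))
    have h2 : ∀ l : ZMod (n + 1), conj (ZMod.stdAddChar (l * s)) * ZMod.stdAddChar (l * s') =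
        ZMod.stdAddChar (l * (s' - s)) := fun l => by
      rw [← AddChar.map_neg_eq_conj, ← AddChar.map_add_eq_mul]
      congr 1
      ring
    simp only [h2, h1, ZMod.card, sub_eq_zero, eq_comm (a := s')]
    split_ifs <;> simp

theorem bessel {S : Type*} [Fintype S] [DecidableEq S] (j : S → H →L[ℂ] H')
    (h : ∀ s s' v, adjoint (j s) (j s' v) = if s = s' then v else 0) (ζ : H') :
    ∑ s, ‖adjoint (j s) ζ‖ ^ 2 ≤ ‖ζ‖ ^ 2 := by
  set v := ∑ s, j s (adjoint (j s) ζ) with hv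
  have h1 : ⟪ζ, v⟫_ℂ = ∑ s, ⟪adjoint (j s) ζ, adjoint (j s) ζ⟫_ℂ := by
    rw [hv, inner_sum]
    exact sum_congr rfl fun s _ => (adjoint_inner_left _ _ _).symm
  have h2 : ⟪v, v⟫_ℂ = ∑ s, ⟪adjoint (j s) ζ, adjoint (j s) ζ⟫_ℂ := by
    conv_lhs => rw [hv, sum_inner]
    refine sum_congr rfl fun s _ => ?_
    rw [← adjoint_inner_right, map_sum]
    simp only [h, Finset.sum_ite_eq, Finset.mem_univ, if_true]
  have h3 := congrArg RCLike.re h1
  have h4 := congrArg RCLike.re h2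
  simp only [map_sum, inner_self_eq_norm_sq] at h3 h4
  have h5 := norm_sub_sq (𝕜 := ℂ) ζ v
  nlinarith [sq_nonneg ‖ζ - v‖]

theorem exists_two_le {S : Type*} [Fintype S] [Nonempty S] (f g : S → ℝ) (hf : ∀ s, 0 ≤ f s)
    (hg : ∀ s, 0 ≤ g s) {a b : ℝ} (ha : 0 < a) (hb : 0 < b) (h1 : ∑ s, f s ≤ a) (h2 : ∑ s, g s ≤ b) :
    ∃ s, Fintype.card S * f s ≤ 2 * a ∧ Fintype.card S * g s ≤ 2 * b := by
  obtain ⟨s, -, hs⟩ := Finset.exists_min_image univ (fun s => f s / a + g s / b) univ_nonempty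
  have h3 := Finset.card_nsmul_le_sum univ (fun s => f s / a + g s / b) _ hs
  rw [Finset.sum_add_distrib, ← Finset.sum_div, ← Finset.sum_div, card_univ, nsmul_eq_mul,
    mul_add, ← mul_div_assoc, ← mul_div_assoc] at h3
  have h4 := (div_le_one ha).2 h1
  have h5 := (div_le_one hb).2 h2
  have h6 : 0 ≤ Fintype.card S * f s / a := div_nonneg (mul_nonneg (Nat.cast_nonneg _) (hf s)) ha.le
  have h7 : 0 ≤ Fintype.card S * g s / b := div_nonneg (mul_nonneg (Nat.cast_nonneg _) (hg s)) hb.le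
  exact ⟨s, (div_le_iff₀ ha).1 (by linarith), (div_le_iff₀ hb).1 (by linarith)⟩

end Crest.Agent.R78
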