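import Crest.Agent.R78.Fc
import Crest.Agent.R78.Sech

/-! # Row 78: Tomita–Takesaki theory after Rieffel–van Daele (definitions). -/

set_option autoImplicit false

open MeasureTheory Set
open scoped InnerProductSpace ComplexConjugate

namespace Crest.Agent.R78

noncomputable section

variable {H : Type*} [NormedAddCommGroup H] [InnerProductSpace ℂ H] [CompleteSpace H]

/-- `Ω` is cyclic for `N` -/
def Cyc (N : VonNeumannAlgebra H) (Ω : H) : Prop := Dense ((fun x : H →L[ℂ] H => x Ω) '' N)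

/-- `log Δ` as a function of `R` -/
def tau (r : ℝ) : ℝ := Real.log ((2 - r) / r)

/-- `T = R^{1/2} (2 - R)^{1/2}` -/
def tfun (r : ℝ) : ℂ := (√(r * (2 - r)) : ℝ)

/-- `R = P + Q` and `S = P - Q`, where `P, Q` are the real orthogonal projections onto the closure
`K` of `N_sa Ω` and onto `i K` -/
structure TPre (N : VonNeumannAlgebra H) (Ω : H) where
  R : H →L[ℂ] H
  S : H →L⋆[ℂ] H
  in02 : In02 R
  R_inj : Function.Injective R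
  R2_inj : Function.Injective (2 - R : H →L[ℂ] H)
  S_symm : ∀ ξ η, ⟪η, S ξ⟫_ℂ = ⟪ξ, S η⟫_ℂ
  S_S : ∀ ξ, S (S ξ) = R ((2 - R) ξ)
  S_R : ∀ ξ, S (R ξ) = (2 - R) (S ξ)
  S_N : ∀ a ∈ N, S (a Ω) = (2 - R) (star a Ω)
  proj : ∀ b ∈ N.commutant, IsSelfAdjoint b → ∀ a ∈ N, IsSelfAdjoint a →
    (∀ z ∈ N, IsSelfAdjoint z → (⟪b Ω - a Ω, z Ω⟫_ℂ).re = 0) → R (b Ω) = a Ω ∧ S (b Ω) = a Ω

/-- modular conjugation and modular group -/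
structure TMod (N : VonNeumannAlgebra H) (Ω : H) extends TPre N Ω where
  J : H →L⋆[ℂ] H
  U : ℝ → H →L[ℂ] H
  T_dense : DenseRange (fc R tfun)
  J_T : ∀ ξ, J (fc R tfun ξ) = S ξ
  J_J : ∀ ξ, J (J ξ) = ξ
  J_inner : ∀ ξ η, ⟪J ξ, J η⟫_ℂ = ⟪η, ξ⟫_ℂ
  J_R : ∀ ξ, J (R ξ) = (2 - R) (J ξ)
  J_Ω : J Ω = Ω
  U_fc : ∀ (t : ℝ) (f : ℝ → ℂ), ContinuousOn f (Icc 0 2) → f 0 = 0 → f 2 = 0 →
    U t * fc R f = fc R fun r => f r * Complex.exp (Complex.I * t * tau r)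
  U_zero : U 0 = 1
  U_add : ∀ s t, U (s + t) = U s * U t
  U_star : ∀ t, star (U t) = U (-t)
  U_R : ∀ t, U t * R = R * U t
  U_cont : ∀ ξ, Continuous fun t => U t ξ
  U_J : ∀ t ξ, J (U t ξ) = U t (J ξ)
  U_Ω : ∀ t, U t Ω = Ω

/-- `J x J` -/
def TMod.cj {N : VonNeumannAlgebra H} {Ω : H} (m : TMod N Ω) (x : H →L[ℂ] H) : H →L[ℂ] H :=
  m.J ∘SL (x ∘SL m.J)

@[simp] theorem TMod.cj_apply {N : VonNeumannAlgebra H} {Ω : H} (m : TMod N Ω) (x : H →L[ℂ] H)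
    (ξ : H) : m.cj x ξ = m.J (x (m.J ξ)) := rfl

/-- What the rest of the proof uses from modular theory, for an arbitrary vector `Ω`:
`s t x = σ_t (e x e)`, `s' t x = J σ_t (e x e) J`, with `e = [N' Ω]`. -/
structure MP (N : VonNeumannAlgebra H) (Ω : H) where
  e : H →L[ℂ] H
  s : ℝ → (H →L[ℂ] H) → (H →L[ℂ] H)
  s' : ℝ → (H →L[ℂ] H) → (H →L[ℂ] H)
  e_proj : IsStarProjection e
  e_mem : e ∈ N
  e_fix : ∀ y ∈ N.commutant, e (y Ω) = y Ω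
  s_mem : ∀ t, ∀ x ∈ N, s t x ∈ N
  s_norm : ∀ t, ∀ x ∈ N, ‖s t x‖ ≤ ‖x‖
  s_add : ∀ t, ∀ x ∈ N, ∀ y ∈ N, s t (x + y) = s t x + s t y
  s_smul : ∀ t (c : ℂ), ∀ x ∈ N, s t (c • x) = c • s t x
  s_star : ∀ t, ∀ x ∈ N, s t (star x) = star (s t x)
  s_cont : ∀ x ∈ N, ∀ ξ, Continuous fun t => s t x ξ
  s_zero : ∀ x ∈ N, s 0 x = e * x * e
  s'_mem : ∀ t, ∀ x ∈ N, s' t x ∈ N.commutant
  s'_norm : ∀ t, ∀ x ∈ N, ‖s' t x‖ ≤ ‖x‖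
  s'_sa : ∀ t, ∀ x ∈ N, IsSelfAdjoint x → IsSelfAdjoint (s' t x)
  s'_cont : ∀ x ∈ N, ∀ ξ, Continuous fun t => s' t x ξ
  kap : ∀ x ∈ N, IsSelfAdjoint x → ∀ T : ℝ, 0 < T → ∀ (V : Finset ℝ) (B : ℝ),
    (∀ τ : ℝ, ∑ v ∈ V,
      ((1 - Real.exp ((τ + v) / 2)) * Real.exp (-(T ^ 2 * (τ + v) ^ 2) / 2)) ^ 2 ≤ B) →
    ∑ v ∈ V, ‖∫ t : ℝ, ((gauss T t : ℂ) * Complex.exp (Complex.I * v * t)) •
      (s t x Ω - (Real.exp (v / 2) : ℂ) • s' t x Ω)‖ ^ 2 ≤ 2 * B * (‖x‖ * ‖Ω‖) ^ 2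

end

end Crest.Agent.R78
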