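import Crest.Agent.R78.Toep
import Crest.Agent.R78.TomDef

/-!
# Row 78, task R78-ToepB: concentration and almost centrality of the Toeplitz matrices.

PLAN.  `Tp_conc`: let `ι = colv (fun _ => K^{-1/2})`, `φ_t⋆ ι ζ = c(t) ζ`, `c t = K^{-1/2} ∑_l conj (pha t l)`,
`A = Tp (fun _ => 1)` (norm `≤ 1`, self-adjoint).  `Tp σ ι ζ - A ι (σ 0 ζ) = ∫ γ φ_t f t`,
`f t = c t • (σ t ζ - σ 0 ζ)`; by `frame` and Cauchy–Schwarz (or `2xy ≤ s x² + y²/s`)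
`‖∫ γ φ_t f t‖² ≤ ∫ γ ‖f t‖² ≤ η² ∫ γ |c|² + 4 c² ‖ζ‖² ∫_{|t|>a} γ |c|²`, where `∫ γ |c|² ≤ 1` (`frame` for a
vector `ι v`, or directly) and the tail is `≤ β²` by `fejer_tail`.  Finally
`‖A ι v - ι v‖² ≤ 2 ‖v‖² - 2 re ⟪ι v, A ι v⟫ ≤ 2000/(Kθ) ‖v‖²` by `gz_toep` and `integral_gauss`.
`Tp_kap`: by `dgH_mat_dv`, `Rh_mat_dv`, `sint_apply` and the substitution `t ↦ -t` (`integral_neg_eq_self`,
`gauss` is even) the `(k, l)` coordinate is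
`a k • gz⁻¹ • ∫ gauss · e^{i v t} (s t x Ω - e^{v/2} s' t x Ω)`, `v = (l - k) θ²`; apply `P.kap` with
`T = θ⁻¹`, `V = image (fun l => (l - k) θ²) univ` (`sum_image`), `B = 1000 θ` (`gz_B`), `gz⁻¹ ≤ 2θ` (`gz_ge`).
-/

set_option autoImplicit false

namespace Crest.Agent.R78

open Finset MeasureTheory Crest.Agent.R124 ContinuousLinearMap
open scoped InnerProductSpace ComplexConjugate

universe u

variable {H : Type u} [NormedAddCommGroup H] [InnerProductSpace ℂ H] [CompleteSpace H]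
  {θ c : ℝ} {K : ℕ} {σ : ℝ → H →L[ℂ] H}

open Toep

namespace ToepB

theorem int_sq (hθ : 0 < θ) {f : ℝ → H} (hf : Continuous f) {C : ℝ} (hC : ∀ t, ‖f t‖ ≤ C) :
    Integrable fun t => gam θ K t * ‖f t‖ ^ 2 := by
  refine ((integrable_gam hθ K).mul_const (C ^ 2)).mono'
    ((continuous_gam θ K).mul (hf.norm.pow 2)).aestronglyMeasurable
    (Filter.Eventually.of_forall fun t => ?_)
  rw [Real.norm_of_nonneg (mul_nonneg (gam_nonneg hθ K t) (by positivity))]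
  exact mul_le_mul_of_nonneg_left (pow_le_pow_left₀ (norm_nonneg _) (hC t) 2) (gam_nonneg hθ K t)

theorem col_sq (hθ : 0 < θ) {f : ℝ → H} (hf : Continuous f) {C : ℝ} (hC : ∀ t, ‖f t‖ ≤ C) :
    ‖∫ t, (gam θ K t : ℂ) • colv (pha θ K t) (f t)‖ ^ 2 ≤ ∫ t, gam θ K t * ‖f t‖ ^ 2 := by
  obtain ⟨w, hw⟩ : ∃ w, w = ∫ t, (gam θ K t : ℂ) • colv (pha θ K t) (f t) := ⟨_, rfl⟩
  rw [← hw]
  have h1 : ‖w‖ ^ 2 = ‖∫ t, ⟪w, (gam θ K t : ℂ) • colv (pha θ K t) (f t)⟫_ℂ‖ := by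
    rw [integral_inner (int_col hθ hf hC), ← hw, inner_self_eq_norm_sq_to_K]
    simp
  have h2 := norm_integral_le_of_norm_le
    (f := fun t => ⟪w, (gam θ K t : ℂ) • colv (pha θ K t) (f t)⟫_ℂ)
    (((frame_integrable hθ w).add (int_sq (K := K) hθ hf hC)).const_mul (1 / 2))
    (Filter.Eventually.of_forall fun t => by
      rw [inner_smul_right, ← adjoint_inner_left, norm_mul, Complex.norm_real,
        Real.norm_of_nonneg (gam_nonneg hθ K t), Pi.add_apply]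
      have a1 := norm_inner_le_norm (𝕜 := ℂ) (adjoint (colv (pha θ K t)) w) (f t)
      have a2 := two_mul_le_add_sq ‖adjoint (colv (pha θ K t)) w‖ ‖f t‖
      have a3 : ‖⟪adjoint (colv (pha θ K t)) w, f t⟫_ℂ‖ ≤
          1 / 2 * (‖adjoint (colv (pha θ K t)) w‖ ^ 2 + ‖f t‖ ^ 2) := by linarith
      have := mul_le_mul_of_nonneg_left a3 (gam_nonneg hθ K t)
      linarith)
  simp only [Pi.add_apply] at h2
  rw [integral_const_mul, integral_add (frame_integrable hθ w) (int_sq hθ hf hC)] at h2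
  have h3 := frame hθ w
  linarith

theorem norm_iota_sq (hK : 0 < K) (v : H) :
    ‖colv (fun _ : Fin K => (((√K)⁻¹ : ℝ) : ℂ)) v‖ ^ 2 = ‖v‖ ^ 2 := by
  have hK' : (0 : ℝ) < K := by exact_mod_cast hK
  rw [L2.norm_sq]
  simp only [colv_apply, norm_smul, Complex.norm_real, mul_pow, sum_const, card_univ,
    Fintype.card_fin, nsmul_eq_mul, Real.norm_eq_abs, sq_abs, inv_pow, Real.sq_sqrt hK'.le]
  field_simp

/-- the scalar `φ_t⋆ ι` -/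
noncomputable def cc (θ : ℝ) (K : ℕ) (t : ℝ) : ℂ :=
  ∑ l : Fin K, conj (pha θ K t l) * (((√K)⁻¹ : ℝ) : ℂ)

theorem adj_iota (t : ℝ) (v : H) :
    adjoint (colv (pha θ K t)) (colv (fun _ : Fin K => (((√K)⁻¹ : ℝ) : ℂ)) v) = cc θ K t • v :=
  adjoint_colv_colv _ _ v

theorem continuous_cc : Continuous (cc θ K) :=
  continuous_finset_sum _ fun l _ => (Complex.continuous_conj.comp (continuous_pha l)).mul
    continuous_const

theorem norm_cc_le (t : ℝ) : ‖cc θ K t‖ ≤ ∑ _l : Fin K, ‖(((√K)⁻¹ : ℝ) : ℂ)‖ :=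
  (norm_sum_le _ _).trans (sum_le_sum fun l _ => by
    rw [norm_mul, RCLike.norm_conj, norm_pha, one_mul])

theorem int_cc (hθ : 0 < θ) : Integrable fun t => gam θ K t * ‖cc θ K t‖ ^ 2 :=
  int_sq (H := ℂ) hθ continuous_cc norm_cc_le

theorem cc_le (hθ : 0 < θ) (hK : 0 < K) : ∫ t, gam θ K t * ‖cc θ K t‖ ^ 2 ≤ 1 := by
  have := frame hθ (colv (fun _ : Fin K => (((√K)⁻¹ : ℝ) : ℂ)) (1 : ℂ))
  rw [norm_iota_sq hK] at this
  simpa only [adj_iota, smul_eq_mul, mul_one, norm_one, one_pow] using this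

theorem cc_sq (hK : 0 < K) (t : ℝ) : gam θ K t * ‖cc θ K t‖ ^ 2 = (K * gz θ K)⁻¹ * (gauss θ⁻¹ t *
    ‖∑ l : Fin K, Complex.exp (Complex.I * (((l : ℕ) : ℝ) * θ ^ 2 : ℝ) * t)‖ ^ 2) := by
  have hK' : (0 : ℝ) < K := by exact_mod_cast hK
  rw [cc, ← sum_mul, ← map_sum, norm_mul, RCLike.norm_conj, Complex.norm_real, mul_pow,
    Real.norm_eq_abs, sq_abs, inv_pow, Real.sq_sqrt hK'.le, gam]
  simp only [pha]
  ring

theorem cc_tail (hθ : 0 < θ) (hK : 1 ≤ K * θ) (hK0 : 0 < K) {a : ℝ} (ha : 0 < a) :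
    ∫ t in {t : ℝ | a < |t|}, gam θ K t * ‖cc θ K t‖ ^ 2 ≤
      1000 / (K * θ ^ 2 * a) + 1000 * K * θ ^ 3 := by
  have hK' : (0 : ℝ) < K := by exact_mod_cast hK0
  simp only [cc_sq hK0]
  rw [integral_const_mul, inv_mul_le_iff₀ (mul_pos hK' (gz_pos θ K))]
  exact fejer_tail hθ hK ha

theorem one_iota (hθ : 0 < θ) (hθ1 : θ ≤ 1) (hK : 1 ≤ K * θ) (hK0 : 0 < K) (v : H) :
    ‖Tp θ K (fun _ => (1 : H →L[ℂ] H)) (colv (fun _ : Fin K => (((√K)⁻¹ : ℝ) : ℂ)) v) -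
      colv (fun _ : Fin K => (((√K)⁻¹ : ℝ) : ℂ)) v‖ ^ 2 ≤ 2000 / (K * θ) * ‖v‖ ^ 2 := by
  have hK' : (0 : ℝ) < K := by exact_mod_cast hK0
  obtain ⟨w, hw⟩ : ∃ w, w = colv (fun _ : Fin K => (((√K)⁻¹ : ℝ) : ℂ)) v := ⟨_, rfl⟩
  have h0 : ‖w‖ ^ 2 = ‖v‖ ^ 2 := hw ▸ norm_iota_sq hK0 v
  have h1 : ‖Tp θ K (fun _ => (1 : H →L[ℂ] H)) w‖ ≤ ‖w‖ :=
    (le_opNorm _ _).trans (mul_le_of_le_one_left (norm_nonneg _) (Tp_norm hθ SCB_one))
  have h2 := re_inner_one hθ w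
  have h3 : ∀ l l' : Fin K, (⟪w l, w l'⟫_ℂ).re = (K : ℝ)⁻¹ * ‖v‖ ^ 2 := by
    intro l l'
    rw [hw, colv_apply, colv_apply, ← RCLike.re_to_complex, inner_self_eq_norm_sq, norm_smul,
      Complex.norm_real, mul_pow, Real.norm_eq_abs, sq_abs, inv_pow, Real.sq_sqrt hK'.le]
  simp only [h3, ← sum_mul, ← mul_sum] at h2
  have h4 := gz_toep hθ hθ1 hK
  have h5 : (1 - 1000 / (K * θ)) * ‖v‖ ^ 2 ≤
      (⟪w, Tp θ K (fun _ => (1 : H →L[ℂ] H)) w⟫_ℂ).re := by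
    rw [h2, ← mul_assoc]
    refine mul_le_mul_of_nonneg_right ?_ (by positivity)
    have hg := gz_pos θ K
    calc 1 - 1000 / (K * θ) = (gz θ K)⁻¹ * ((1 - 1000 / (K * θ)) * (K * gz θ K)) * (K : ℝ)⁻¹ := by
          field_simp
      _ ≤ _ := by gcongr
  rw [← hw, norm_sub_rev, norm_sub_sq (𝕜 := ℂ), RCLike.re_to_complex]
  have h6 := pow_le_pow_left₀ (norm_nonneg _) h1 2
  have e : 2000 / (K * θ) * ‖v‖ ^ 2 = 2 * ‖v‖ ^ 2 - 2 * ((1 - 1000 / (K * θ)) * ‖v‖ ^ 2) := by ring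
  linarith

end ToepB

open ToepB

theorem Tp_conc (hθ : 0 < θ) (hθ1 : θ ≤ 1) (hK : 1 ≤ K * θ) (hσ : SCB σ c) {a η β : ℝ} (ha : 0 < a)
    (hβ : 0 ≤ β) (h1 : 1000 / (K * θ ^ 2 * a) + 1000 * K * θ ^ 3 ≤ β ^ 2)
    (h2 : 2000 / (K * θ) ≤ β ^ 2) (ζ : H) (h : ∀ t, |t| ≤ a → ‖σ t ζ - σ 0 ζ‖ ≤ η) :
    ‖Tp θ K σ (colv (fun _ => ((√K)⁻¹ : ℝ)) ζ) - colv (fun _ => ((√K)⁻¹ : ℝ)) (σ 0 ζ)‖ ≤
      η + 3 * β * c * ‖ζ‖ := by
  have hc := SCB_nonneg hσ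
  have hK0 : 0 < K := by
    rcases Nat.eq_zero_or_pos K with h0 | h0
    · rw [h0] at hK; norm_num at hK
    · exact h0
  have hη : 0 ≤ η := by simpa using h 0 (by simpa using ha.le)
  have hσb : ∀ t, ‖σ t ζ‖ ≤ c * ‖ζ‖ := fun t =>
    (le_opNorm _ _).trans (mul_le_mul_of_nonneg_right (hσ.le t) (norm_nonneg _))
  have hd : ∀ t, ‖σ t ζ - σ 0 ζ‖ ≤ 2 * (c * ‖ζ‖) := fun t =>
    (norm_sub_le _ _).trans (by linarith [hσb t, hσb 0])
  have hfc : Continuous fun t => cc θ K t • (σ t ζ - σ 0 ζ) :=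
    continuous_cc.smul ((hσ.cont ζ).sub continuous_const)
  have hfb : ∀ t, ‖cc θ K t • (σ t ζ - σ 0 ζ)‖ ≤
      (∑ _l : Fin K, ‖(((√K)⁻¹ : ℝ) : ℂ)‖) * (2 * (c * ‖ζ‖)) := fun t => by
    rw [norm_smul]
    exact mul_le_mul (norm_cc_le t) (hd t) (norm_nonneg _) (by positivity)
  have e1 : Tp θ K σ (colv (fun _ : Fin K => (((√K)⁻¹ : ℝ) : ℂ)) ζ) -
      Tp θ K (fun _ => (1 : H →L[ℂ] H)) (colv (fun _ : Fin K => (((√K)⁻¹ : ℝ) : ℂ)) (σ 0 ζ)) =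
      ∫ t, (gam θ K t : ℂ) • colv (pha θ K t) (cc θ K t • (σ t ζ - σ 0 ζ)) := by
    rw [Tp_apply hθ hσ, Tp_apply hθ SCB_one, ← integral_sub (int_Tp hθ hσ _) (int_Tp hθ SCB_one _)]
    refine integral_congr_ae (Filter.Eventually.of_forall fun t => ?_)
    simp only [adj_iota, map_smul, ContinuousLinearMap.one_apply, smul_sub, map_sub]
  have hs : MeasurableSet {t : ℝ | a < |t|} :=
    (isOpen_lt continuous_const continuous_abs).measurableSet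
  have e2 : ∫ t, gam θ K t * ‖cc θ K t • (σ t ζ - σ 0 ζ)‖ ^ 2 ≤
      η ^ 2 + (2 * (c * ‖ζ‖)) ^ 2 * β ^ 2 := by
    have i1 := (int_cc (K := K) hθ).const_mul (η ^ 2)
    have i2 := ((int_cc (K := K) hθ).indicator hs).const_mul ((2 * (c * ‖ζ‖)) ^ 2)
    refine (integral_mono (int_sq hθ hfc hfb) (i1.add i2) fun t => ?_).trans ?_
    · simp only [Pi.add_apply, norm_smul, mul_pow]
      have g0 : 0 ≤ gam θ K t * ‖cc θ K t‖ ^ 2 := mul_nonneg (gam_nonneg hθ K t) (by positivity)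
      by_cases ht : a < |t|
      · rw [Set.indicator_of_mem (by exact ht)]
        have a1 := mul_le_mul_of_nonneg_left (pow_le_pow_left₀ (norm_nonneg _) (hd t) 2) g0
        have a2 : 0 ≤ η ^ 2 * (gam θ K t * ‖cc θ K t‖ ^ 2) := by positivity
        simp only [mul_pow] at a1
        linarith
      · rw [Set.indicator_of_notMem (by exact ht)]
        have a1 := mul_le_mul_of_nonneg_left
          (pow_le_pow_left₀ (norm_nonneg _) (h t (not_lt.1 ht)) 2) g0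
        linarith
    · simp only [Pi.add_apply]
      rw [integral_add i1 i2, integral_const_mul, integral_const_mul, integral_indicator hs]
      have a1 := mul_le_mul_of_nonneg_left (cc_le hθ hK0) (sq_nonneg η)
      have a2 := mul_le_mul_of_nonneg_left ((cc_tail hθ hK hK0 ha).trans h1)
        (sq_nonneg (2 * (c * ‖ζ‖)))
      linarith
  have e3 : ‖Tp θ K σ (colv (fun _ : Fin K => (((√K)⁻¹ : ℝ) : ℂ)) ζ) -
      Tp θ K (fun _ => (1 : H →L[ℂ] H)) (colv (fun _ : Fin K => (((√K)⁻¹ : ℝ) : ℂ)) (σ 0 ζ))‖ ≤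
      η + 2 * (β * c * ‖ζ‖) := by
    refine le_of_sq_le_sq ?_ (by positivity)
    rw [e1]
    refine ((col_sq hθ hfc hfb).trans e2).trans ?_
    have : 0 ≤ η * (β * c * ‖ζ‖) := by positivity
    nlinarith
  have e4 : ‖Tp θ K (fun _ => (1 : H →L[ℂ] H))
      (colv (fun _ : Fin K => (((√K)⁻¹ : ℝ) : ℂ)) (σ 0 ζ)) -
      colv (fun _ : Fin K => (((√K)⁻¹ : ℝ) : ℂ)) (σ 0 ζ)‖ ≤ β * c * ‖ζ‖ := by
    refine le_of_sq_le_sq ((one_iota hθ hθ1 hK hK0 _).trans ?_) (by positivity)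
    rw [mul_assoc, mul_pow]
    exact mul_le_mul h2 (pow_le_pow_left₀ (norm_nonneg _) (hσb 0) 2) (by positivity) (by positivity)
  have := norm_sub_le_norm_sub_add_norm_sub
    (Tp θ K σ (colv (fun _ : Fin K => (((√K)⁻¹ : ℝ) : ℂ)) ζ))
    (Tp θ K (fun _ => (1 : H →L[ℂ] H)) (colv (fun _ : Fin K => (((√K)⁻¹ : ℝ) : ℂ)) (σ 0 ζ)))
    (colv (fun _ : Fin K => (((√K)⁻¹ : ℝ) : ℂ)) (σ 0 ζ))
  linarith

theorem Tp_kap {N : VonNeumannAlgebra H} {Ω : H} (P : MP N Ω) (hθ : 0 < θ) (hθ1 : θ ≤ 1)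
    (hK : 1 ≤ K * θ) {x : H →L[ℂ] H} (hx : x ∈ N) (hsa : IsSelfAdjoint x) (a : Fin K → ℝ)
    (ha : ∑ l, a l ^ 2 = 1)
    (ha' : ∀ k l, a l = a k * Real.exp ((((l : ℕ) : ℝ) - (k : ℕ)) * θ ^ 2 / 2)) :
    ‖dgH (Fin K) (Tp θ K fun t => P.s t x) (dv (fun l => (a l : ℂ)) Ω) -
      Rh (Fin K) (Tp θ K fun t => P.s' (-t) x) (dv (fun l => (a l : ℂ)) Ω)‖ ^ 2 ≤
      8000 * θ ^ 3 * (‖x‖ * ‖Ω‖) ^ 2 := by
  have h1 : SCB (fun t => P.s t x) ‖x‖ := ⟨P.s_cont x hx, fun t => P.s_norm t x hx⟩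
  have h2 : SCB (fun t => P.s' t x) ‖x‖ := ⟨P.s'_cont x hx, fun t => P.s'_norm t x hx⟩
  have h3 : SCB (fun t => P.s' (-t) x) ‖x‖ :=
    ⟨fun ξ => (P.s'_cont x hx ξ).comp continuous_neg, fun t => P.s'_norm _ x hx⟩
  obtain ⟨J, hJ⟩ : ∃ J : ℝ → H, J = fun v : ℝ => ∫ t : ℝ,
    ((gauss θ⁻¹ t : ℂ) * Complex.exp (Complex.I * v * t)) •
      (P.s t x Ω - (Real.exp (v / 2) : ℂ) • P.s' t x Ω) := ⟨_, rfl⟩
  have key : ∀ k l : Fin K, (dgH (Fin K) (Tp θ K fun t => P.s t x) (dv (fun l => (a l : ℂ)) Ω) -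
      Rh (Fin K) (Tp θ K fun t => P.s' (-t) x) (dv (fun l => (a l : ℂ)) Ω)) k l =
      ((a k * (gz θ K)⁻¹ : ℝ) : ℂ) • J ((((l : ℕ) : ℝ) - (k : ℕ)) * θ ^ 2) := by
    intro k l
    rw [L2.sub_apply, L2.sub_apply, Tp, Tp, dgH_mat_dv, Rh_mat_dv, Matrix.of_apply, Matrix.of_apply,
      sint_apply h1 (continuous_w θ K _) (integrable_w hθ K _),
      sint_apply h3 (continuous_w θ K _) (integrable_w hθ K _),
      ← integral_neg_eq_self (fun t : ℝ => ((gam θ K t : ℂ) * Complex.exp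
        (Complex.I * ((((k : ℕ) : ℝ) - (l : ℕ)) * θ ^ 2 : ℝ) * t)) • P.s' (-t) x Ω), hJ]
    obtain ⟨v, hv⟩ : ∃ v : ℝ, v = (((l : ℕ) : ℝ) - (k : ℕ)) * θ ^ 2 := ⟨_, rfl⟩
    have e1 : ∀ t : ℝ, ((gam θ K (-t) : ℂ) * Complex.exp
        (Complex.I * ((((k : ℕ) : ℝ) - (l : ℕ)) * θ ^ 2 : ℝ) * ((-t : ℝ) : ℂ))) • P.s' (- -t) x Ω =
        ((gam θ K t : ℂ) * Complex.exp (Complex.I * v * t)) • P.s' t x Ω := by
      intro t
      have e2 : gam θ K (-t) = gam θ K t := by simp [gam, gauss]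
      rw [neg_neg, e2, hv]
      congr 3
      push_cast
      ring
    simp only [e1]
    have i1 : Integrable fun t : ℝ => (a k : ℂ) •
        ((gam θ K t : ℂ) * Complex.exp (Complex.I * v * t)) • P.s t x Ω :=
      (int_app h1 (continuous_w θ K v) (integrable_w hθ K v) Ω).smul (a k : ℂ)
    have i2 : Integrable fun t : ℝ => ((a k * Real.exp (v / 2) : ℝ) : ℂ) •
        ((gam θ K t : ℂ) * Complex.exp (Complex.I * v * t)) • P.s' t x Ω :=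
      (int_app h2 (continuous_w θ K v) (integrable_w hθ K v) Ω).smul
        ((a k * Real.exp (v / 2) : ℝ) : ℂ)
    rw [ha' k l, ← hv, ← integral_smul, ← integral_smul, ← integral_smul, ← integral_sub i1 i2]
    refine integral_congr_ae (Filter.Eventually.of_forall fun t => ?_)
    simp only [Pi.smul_apply, smul_sub, smul_smul, gam, Complex.ofReal_mul]
    congr 2 <;> ring
  have hrow : ∀ k : Fin K, ∑ l : Fin K, ‖J ((((l : ℕ) : ℝ) - (k : ℕ)) * θ ^ 2)‖ ^ 2 ≤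
      2 * (1000 * θ) * (‖x‖ * ‖Ω‖) ^ 2 := by
    intro k
    have hinj : Function.Injective fun l : Fin K => (((l : ℕ) : ℝ) - (k : ℕ)) * θ ^ 2 := by
      intro l l' hl
      have := mul_right_cancel₀ (pow_pos hθ 2).ne' hl
      have h4 : ((l : ℕ) : ℝ) = (l' : ℕ) := by linarith
      exact Fin.ext (by exact_mod_cast h4)
    have := P.kap x hx hsa θ⁻¹ (inv_pos.2 hθ)
      (univ.image fun l : Fin K => (((l : ℕ) : ℝ) - (k : ℕ)) * θ ^ 2) (1000 * θ) (fun τ => by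
        rw [sum_image fun l _ l' _ hl => hinj hl]
        exact gz_B hθ hθ1 k τ)
    rw [sum_image fun l _ l' _ hl => hinj hl] at this
    rw [hJ]
    exact this
  have hg : (gz θ K)⁻¹ ≤ 2 * θ := by
    have := inv_anti₀ (by positivity) (gz_ge hθ hK)
    rwa [one_div, inv_inv] at this
  have hg0 : 0 ≤ (gz θ K)⁻¹ := inv_nonneg.2 (gz_pos θ K).le
  rw [L2.norm_sq]
  simp only [L2.norm_sq (K := H), key, norm_smul, Complex.norm_real, mul_pow, Real.norm_eq_abs,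
    sq_abs, ← mul_sum]
  calc ∑ k, a k ^ 2 * (gz θ K)⁻¹ ^ 2 * ∑ l : Fin K, ‖J ((((l : ℕ) : ℝ) - (k : ℕ)) * θ ^ 2)‖ ^ 2
      ≤ ∑ k, a k ^ 2 * (2 * θ) ^ 2 * (2 * (1000 * θ) * (‖x‖ * ‖Ω‖) ^ 2) := by
        refine sum_le_sum fun k _ => ?_
        exact mul_le_mul (mul_le_mul_of_nonneg_left (pow_le_pow_left₀ hg0 hg 2) (sq_nonneg _))
          (hrow k) (by positivity) (by positivity)
    _ = 8000 * θ ^ 3 * (‖x‖ ^ 2 * ‖Ω‖ ^ 2) := by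
        rw [← sum_mul, ← sum_mul, ha]; ring

end Crest.Agent.R78
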