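import Crest.Agent.R78.StageC
import Crest.Agent.R78.ToepB
import Crest.Agent.R78.Limit

/-! # Row 78: construction of the stages (helper13). -/

set_option autoImplicit false
set_option linter.unusedSectionVars false

namespace Crest.Agent.R78

open Finset Crest.Agent.R124 ContinuousLinearMap Filter Topology
open scoped InnerProductSpace ComplexConjugate

universe u

theorem exists_Kθ {L θ₀ : ℝ} (hL : 0 < L) (h : 0 < θ₀) :
    ∃ (K : ℕ) (θ : ℝ), 0 < K ∧ 0 < θ ∧ θ ≤ θ₀ ∧ K * θ ^ 2 = L := by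
  have h1 : 0 < L / θ₀ ^ 2 := by positivity
  have h2 : 0 < ⌈L / θ₀ ^ 2⌉₊ := Nat.ceil_pos.2 h1
  have h3 : (0 : ℝ) < ⌈L / θ₀ ^ 2⌉₊ := by exact_mod_cast h2
  refine ⟨⌈L / θ₀ ^ 2⌉₊, √(L / ⌈L / θ₀ ^ 2⌉₊), h2, by positivity, ?_, ?_⟩
  · rw [Real.sqrt_le_left h.le, div_le_iff₀ h3, mul_comm, ← div_le_iff₀ (by positivity)]
    exact Nat.le_ceil _
  · rw [Real.sq_sqrt (by positivity)]; field_simp

theorem exists_weights {K : ℕ} (hK : 0 < K) {θ L : ℝ} (hL : K * θ ^ 2 = L) :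
    ∃ a : Fin K → ℝ, ∑ l, a l ^ 2 = 1 ∧
      (∀ k l, a l = a k * Real.exp ((((l : ℕ) : ℝ) - (k : ℕ)) * θ ^ 2 / 2)) ∧
      ∀ l, 1 ≤ Real.exp (L / 2) * √K * a l := by
  have : Nonempty (Fin K) := ⟨⟨0, hK⟩⟩
  obtain ⟨S, hS⟩ : ∃ S, S = ∑ l : Fin K, Real.exp ((l : ℕ) * θ ^ 2 / 2) ^ 2 := ⟨_, rfl⟩
  have hS0 : 0 < S := hS ▸ sum_pos (fun _ _ => by positivity) univ_nonempty
  have hS1 : √S ≤ Real.exp (L / 2) * √K := by
    rw [Real.sqrt_le_left (by positivity), mul_pow, Real.sq_sqrt (by positivity), hS]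
    refine (sum_le_card_nsmul _ _ (Real.exp (L / 2) ^ 2) fun l _ => ?_).trans_eq (by simp [mul_comm])
    rw [← hL]
    gcongr
    exact l.2.le
  refine ⟨fun l => Real.exp ((l : ℕ) * θ ^ 2 / 2) / √S, ?_, fun k l => ?_, fun l => ?_⟩
  · simp only [div_pow, ← sum_div, ← hS, Real.sq_sqrt hS0.le, div_self hS0.ne']
  · simp only [div_mul_eq_mul_div _ (√S), ← Real.exp_add]; congr 2; ring
  · rw [← mul_div_assoc, one_le_div (Real.sqrt_pos.2 hS0)]
    exact hS1.trans (le_mul_of_one_le_right (by positivity) (Real.one_le_exp (by positivity)))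

variable {H : Type u} [NormedAddCommGroup H] [InnerProductSpace ℂ H] [CompleteSpace H]

theorem vn_smul {N : VonNeumannAlgebra H} (c : ℂ) {x : H →L[ℂ] H} (hx : x ∈ N) : c • x ∈ N :=
  N.toStarSubalgebra.smul_mem hx c

theorem vn_add {N : VonNeumannAlgebra H} {x y : H →L[ℂ] H} (hx : x ∈ N) (hy : y ∈ N) : x + y ∈ N :=
  add_mem hx hy

/-- `± i` -/
noncomputable def pmI (b : Bool) : ℂ := if b then Complex.I else -Complex.I

theorem star_pm {A a : H →L[ℂ] H} (hA : IsSelfAdjoint A) (ha : 0 ≤ a) (b : Bool) :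
    star (A + pmI b • a) = A + pmI (!b) • a := by
  rw [star_add, star_smul, hA.star_eq, ha.isSelfAdjoint.star_eq]
  cases b <;> simp [pmI]

theorem pm_unitary {A a : H →L[ℂ] H} (hA : IsSelfAdjoint A) (ha : 0 ≤ a) (h1 : a * a = 1 - A * A)
    (h2 : a * A = A * a) (b : Bool) : A + pmI b • a ∈ unitary (H →L[ℂ] H) := by
  have key : ∀ b, (A + pmI (!b) • a) * (A + pmI b • a) = 1 := fun b => by
    have e1 : pmI (!b) * pmI b = 1 := by cases b <;> simp [pmI]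
    have e2 : pmI (!b) = -pmI b := by cases b <;> simp [pmI]
    rw [add_mul, mul_add, mul_add, smul_mul_smul_comm, e1, h1, smul_mul_assoc, mul_smul_comm, h2, e2]
    module
  rw [Unitary.mem_iff, star_pm hA ha]
  exact ⟨key b, by simpa using key (!b)⟩

theorem stage {N M : VonNeumannAlgebra H} {δ : ℝ} (hδ0 : 0 ≤ δ) (hδ : δ ≤ 1 / 10 ^ 11)
    (h1 : ANear N M δ) (h2 : ANear N.commutant M.commutant δ) {Ω : H} (hΩ : ‖Ω‖ = 1) (P : MP N Ω)
    {I : Type} [Fintype I] [Nonempty I] {x : I → H →L[ℂ] H} (hx : ∀ i, x i ∈ N)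
    (hsa : ∀ i, IsSelfAdjoint (x i)) (hn : ∀ i, ‖x i‖ ≤ 1 / 2) (Z : Finset H) {ε : ℝ} (hε : 0 < ε) :
    Nonempty (Stg M Ω x (fun i => P.e * x i * P.e) (10 ^ 10 * δ) Z ε) := by
  have hσ : ∀ i, SCB (fun t => P.s t (x i)) (1 / 2) := fun i =>
    ⟨P.s_cont _ (hx i), fun t => (P.s_norm t _ (hx i)).trans (hn i)⟩
  have hσ' : ∀ i, SCB (fun t => P.s' (-t) (x i)) (1 / 2) := fun i =>
    ⟨fun ξ => (P.s'_cont _ (hx i) ξ).comp continuous_neg, fun t => (P.s'_norm _ _ (hx i)).trans (hn i)⟩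
  obtain ⟨a, ha, ha'⟩ : ∃ a > 0, ∀ t : ℝ, |t| ≤ a → ∀ i, ∀ ζ ∈ Z,
      ‖P.s t (x i) ζ - P.s 0 (x i) ζ‖ ≤ ε / 2 := by
    have : ∀ᶠ t in 𝓝 (0 : ℝ), ∀ i, ∀ ζ ∈ Z, ‖P.s t (x i) ζ - P.s 0 (x i) ζ‖ ≤ ε / 2 := by
      rw [eventually_all]; intro i
      rw [eventually_all_finset]; intro ζ _
      refine (Metric.tendsto_nhds.1 ((P.s_cont _ (hx i) ζ).tendsto 0) (ε / 2) (by positivity)).mono
        fun t ht => ?_
      rw [← dist_eq_norm]; exact ht.le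
    obtain ⟨r, hr, hr'⟩ := Metric.eventually_nhds_iff.1 this
    exact ⟨r / 2, by positivity, fun t ht => hr' (by rw [Real.dist_0_eq_abs]; linarith)⟩
  obtain ⟨β, hβ, hβ'⟩ : ∃ β > 0, ∀ ζ ∈ Z, 3 * β * (1 / 2) * ‖ζ‖ ≤ ε / 2 := by
    have h0 : 0 ≤ ∑ ζ ∈ Z, ‖ζ‖ := sum_nonneg fun _ _ => norm_nonneg _
    refine ⟨ε / (3 * (1 + ∑ ζ ∈ Z, ‖ζ‖)), by positivity, fun ζ hζ => ?_⟩
    have := single_le_sum (f := fun ζ : H => ‖ζ‖) (fun _ _ => norm_nonneg _) hζ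
    calc _ ≤ 3 * (ε / (3 * (1 + ∑ ζ ∈ Z, ‖ζ‖))) * (1 / 2) * (1 + ∑ ζ ∈ Z, ‖ζ‖) := by
          gcongr; linarith
      _ = _ := by field_simp
  obtain ⟨L, hL1, hL⟩ : ∃ L : ℝ, 1 ≤ L ∧ 1000 / (L * a) ≤ β ^ 2 / 2 := by
    have : 0 < 2000 / (a * β ^ 2) := by positivity
    refine ⟨1 + 2000 / (a * β ^ 2), by linarith, ?_⟩
    calc _ ≤ 1000 / (2000 / (a * β ^ 2) * a) := by gcongr; linarith
      _ = _ := by field_simp; norm_num
  obtain ⟨n, hn'⟩ : ∃ n : ℝ, n = Fintype.card I := ⟨_, rfl⟩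
  have hn1 : 1 ≤ n := by rw [hn']; exact_mod_cast Fintype.card_pos
  obtain ⟨C, hC⟩ : ∃ C, C = Real.exp (L / 2) := ⟨_, rfl⟩
  have hC0 : 0 < C := hC ▸ Real.exp_pos _
  obtain ⟨κ, hκ, hA⟩ := thmA.{u} hδ (ε := ε / (400 * n * C)) (by positivity)
  obtain ⟨K, θ, hK, hθ, hθ', hKθ⟩ := exists_Kθ (L := L) (by positivity)
    (θ₀ := min 1 (min (β ^ 2 / (2000 * L)) (κ / (16000 * n * L)))) (by positivity)
  simp only [le_min_iff] at hθ'
  obtain ⟨hθ1, hθ2, hθ3⟩ := hθ'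
  rw [le_div_iff₀ (by positivity)] at hθ2 hθ3
  have : Nonempty (Fin K) := ⟨⟨0, hK⟩⟩
  have hK' : (0 : ℝ) < K := by exact_mod_cast hK
  have hKθ1 : 1 ≤ K * θ := by nlinarith [mul_pos hK' hθ]
  obtain ⟨w, hw1, hw2, hw3⟩ := exists_weights hK hKθ
  obtain ⟨Θ, hΘ⟩ : ∃ Θ : I → _, Θ = fun i => Tp θ K fun t => P.s t (x i) := ⟨_, rfl⟩
  obtain ⟨Θ', hΘ'⟩ : ∃ Θ' : I → _, Θ' = fun i => Tp θ K fun t => P.s' (-t) (x i) := ⟨_, rfl⟩
  have m1 : ∀ i, Θ i ∈ ampVN (Fin K) N := fun i =>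
    hΘ ▸ Tp_mem hθ (hσ i) fun t => P.s_mem t _ (hx i)
  have m2 : ∀ i, Θ' i ∈ ampVN (Fin K) N.commutant := fun i =>
    hΘ' ▸ Tp_mem hθ (hσ' i) fun t => P.s'_mem _ _ (hx i)
  have s1 : ∀ i, IsSelfAdjoint (Θ i) := fun i => hΘ ▸ Tp_sa hθ (hσ i) fun t => by
    rw [IsSelfAdjoint, ← P.s_star t _ (hx i), (hsa i).star_eq]
  have s2 : ∀ i, IsSelfAdjoint (Θ' i) := fun i =>
    hΘ' ▸ Tp_sa hθ (hσ' i) fun t => P.s'_sa _ _ (hx i) (hsa i)
  have n1 : ∀ i, ‖Θ i‖ ≤ 1 / 2 := fun i => hΘ ▸ Tp_norm hθ (hσ i)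
  have n2 : ∀ i, ‖Θ' i‖ ≤ 1 / 2 := fun i => hΘ' ▸ Tp_norm hθ (hσ' i)
  choose q q1 q2 q3 q4 using fun i => exists_sqrt_mem (R95.vn_isClosed _) (m1 i) (s1 i)
    ((n1 i).trans (by norm_num))
  choose q' q1' q2' q3' q4' using fun i => exists_sqrt_mem (R95.vn_isClosed _) (m2 i) (s2 i)
    ((n2 i).trans (by norm_num))
  obtain ⟨r, ξ, Ψ, e1, e2, e3⟩ := cell (κ₁ := 8000 * θ ^ 3) hδ0 hδ (by positivity) h1 h2 hΩ hA hw1 hC0
    (hC ▸ hw3) (Φ := I × Bool) ((Equiv.refl I).prodCongr Bool.involutive_not.toPerm)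
    (U := fun φ => Θ φ.1 + pmI φ.2 • q φ.1) (U' := fun φ => Θ' φ.1 + pmI φ.2 • q' φ.1)
    (fun φ => vn_add (m1 _) (vn_smul _ (q1 _))) (fun φ => vn_add (m2 _) (vn_smul _ (q1' _)))
    (fun φ => pm_unitary (s1 _) (q2 _) (q3 _) (q4 _) _)
    (fun φ => pm_unitary (s2 _) (q2' _) (q3' _) (q4' _) _)
    (fun φ => (star_pm (s1 _) (q2 _) _).symm) (fun φ => (star_pm (s2 _) (q2' _) _).symm)
    (fun φ => by
      obtain ⟨i, b⟩ := φ
      have k1 := Tp_kap P hθ hθ1 hKθ1 (hx i) (hsa i) w hw1 hw2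
      have k2 := sqrt_sub_le ((s1 i).map (dgH (Fin K))) ((s2 i).map (Rh (Fin K)))
        ((norm_dgH_le _).trans (n1 i)) ((NonUnitalStarAlgHom.norm_apply_le _ _).trans (n2 i))
        (map_nonneg (dgH (Fin K)) (q2 i)) (map_nonneg (Rh (Fin K)) (q2' i))
        (by rw [← map_mul, q3, map_sub, map_one, map_mul])
        (by rw [← map_mul, q3', map_sub, map_one, map_mul])
        (LR_comm (q1 i) (q1' i)) (LR_comm (m1 i) (m2 i)) (dv (fun l => (w l : ℂ)) Ω)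
      have k3 : ‖pmI b‖ = 1 := by cases b <;> simp [pmI]
      have k4 : (‖x i‖ * ‖Ω‖) ^ 2 ≤ (1 / 2) ^ 2 := by
        rw [hΩ, mul_one]; gcongr; exact hn i
      simp only [map_add, map_smul, _root_.add_apply, _root_.smul_apply]
      rw [add_sub_add_comm, ← smul_sub]
      refine (pow_le_pow_left₀ (norm_nonneg _) ((norm_add_le _ _).trans (add_le_add le_rfl
        ((norm_smul_le _ _).trans ((mul_le_of_le_one_left (norm_nonneg _) k3.le).trans k2)))) 2).trans ?_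
      simp only [hΘ, hΘ']
      have : 0 < θ ^ 3 := by positivity
      nlinarith)
    (by
      simp only [Fintype.card_prod, Fintype.card_bool, Nat.cast_mul, ← hn']
      calc _ = θ * (16000 * n * (K * θ ^ 2)) := by push_cast; ring
        _ ≤ κ := by rwa [hKθ])
  have hU : ∀ i, Θ i = (2⁻¹ : ℂ) • ((Θ i + pmI true • q i) + (Θ i + pmI false • q i)) := fun i => by
    simp only [pmI, if_true, Bool.false_eq_true, if_false]; module
  have h2' : ‖(2⁻¹ : ℂ)‖ = 2⁻¹ := by simp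
  refine ⟨{
    H₁ := L2 (Fin K) H
    π := dgH (Fin K)
    ι := colv fun _ => ((√K)⁻¹ : ℝ)
    r := fun i => (2⁻¹ : ℂ) • (r (i, true) + r (i, false))
    Θ := Θ
    ξ := ξ
    ι_iso := fun v => ?_
    π_ι := fun y v => dgH_colv y _ v
    r_comm := fun i => mem_ampVN_iff.1 (vn_smul _ (vn_add (e1 _).1 (e1 _).1))
    r_near := fun i => ?_
    Θ_le := fun i => (n1 i).trans (by norm_num)
    Θ_sa := s1
    Θ_ι := fun i ζ hζ => ?_
    ξ_near := e2.trans ?_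
    rel := fun c hc => ?_ }⟩
  · rw [adjoint_colv_colv]
    simp only [Complex.conj_ofReal, sum_const, card_univ, Fintype.card_fin, nsmul_eq_mul]
    rw [← Complex.ofReal_mul, ← mul_inv, Real.mul_self_sqrt hK'.le]
    push_cast
    rw [mul_inv_cancel₀ (by exact_mod_cast hK.ne'), one_smul]
  · rw [hU i, ← smul_sub, add_sub_add_comm, norm_smul, h2']
    have := (norm_add_le _ _).trans (add_le_add (e1 (i, true)).2 (e1 (i, false)).2)
    linarith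
  · have := Tp_conc hθ hθ1 hKθ1 (hσ i) ha hβ.le (by rw [hKθ]; nlinarith)
      (by rw [div_le_iff₀ (by positivity)]; nlinarith) ζ fun t ht => ha' t ht i ζ hζ
    rw [P.s_zero _ (hx i)] at this
    simp only [hΘ]
    linarith [hβ' ζ hζ]
  · gcongr
    rw [← mul_div_assoc, div_le_iff₀ (by positivity)]
    nlinarith [mul_pos hC0 hε]
  · have r1 : ∑ i, c i • Θ i = 0 := by
      simp only [hΘ]
      refine Tp_rel hθ hσ fun t => ?_
      have : ∀ s : Finset I, ∑ i ∈ s, c i • P.s t (x i) = P.s t (∑ i ∈ s, c i • x i) := fun s => by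
        classical
        induction s using Finset.induction_on with
        | empty => simpa using (P.s_smul t 0 0 (zero_mem N.toStarSubalgebra)).symm
        | insert i s hi ih =>
          rw [sum_insert hi, sum_insert hi, ih, P.s_add t _ (vn_smul _ (hx i)) _
            (sum_mem (S := N.toStarSubalgebra) fun j _ => vn_smul _ (hx j)), P.s_smul t _ _ (hx i)]
      rw [this, hc]
      simpa using P.s_smul t 0 0 (zero_mem N.toStarSubalgebra)
    have r2 : ∀ φ : I × Bool, ‖adjoint (colv fun _ : Fin K => ((√K)⁻¹ : ℝ)) (r φ ξ) -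
        Ψ (Θ φ.1 + pmI φ.2 • q φ.1)‖ ≤ ε := fun φ => by
      refine le_of_sq_le_sq ((e3 φ).trans ?_) hε.le
      simp only [Fintype.card_prod, Fintype.card_bool, Nat.cast_mul, ← hn']
      calc _ = ε ^ 2 / n := by push_cast; field_simp; norm_num
        _ ≤ _ := div_le_self (by positivity) hn1
    have r3 : ∑ i, c i • Ψ (Θ i) = 0 := by simp only [← map_smul, ← map_sum, r1, map_zero]
    rw [← sub_zero (∑ i, _), ← r3, ← sum_sub_distrib, mul_sum]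
    refine (norm_sum_le _ _).trans (sum_le_sum fun i _ => ?_)
    rw [← smul_sub, norm_smul, mul_comm]
    gcongr
    rw [hU i]
    simp only [_root_.smul_apply, _root_.add_apply, map_smul, map_add _ (r _ _), map_add Ψ (_ + _)]
    rw [← smul_sub, add_sub_add_comm, norm_smul, h2']
    have := (norm_add_le _ _).trans (add_le_add (r2 (i, true)) (r2 (i, false)))
    linarith

end Crest.Agent.R78
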