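import Crest.Agent.R78.TopOrth
import Crest.Agent.R78.Dat
import Crest.Agent.R78.Small

/-!
# Row 78, task R78-Top: the averaged linear map and the averaged partners.

PLAN.  `μ₁ = (Law.unif S).map lab`, `η = V Ω`; `m' g`, `y' g` are the inverses of `m g`, `y g`
(`exists_inv_mem`; `D.u_mem`, `D.v_mem`).  With `Av F = n⁻¹ • ∑ j < n, E_{a ∼ μ₁^j} E_{c ∼ μ₁^(n-1-j)} F a c`:
`Ψ X = Av fun a c => (m a)⋆ (Y (y' c (V (u a (X (u c Ω))))))` (linear in `X`),
`nn f = Av fun a c => (m a)⋆ * m (a * lab f * c) * m' c ∈ M`; each term is within `7 r` of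
`(u a)⋆ u (a f c) (u c)⋆ = u f`.  `Ψ (u f) - nn f (Y η) = T₃ f + T₂ f` with
`T₃ f = Av ((m a)⋆ (Y y' c) (w (a f c)))`, `w b = V (u b Ω) - m b η` (`orth_words` with `A = m`,
`B c = (Y * y' c)⋆`, `α = 3/2`, `β = 2 ‖Y‖`, `E_{μ₁^n} ‖w‖² ≤ 4 ε²`), and
`T₂ f = Av ((m a)⋆ m (a f c) Y z c)`, `z c = y' c η - m' c η = y' c (m' c (m c η - y c η))`; `Q f` commutes with
`M`, so `∑ f ‖P f Q f T₂ f‖² ≤ (3/2)⁴ Av ∑ f ‖Q f Y z c‖² ≤ (3/2)⁴ k ‖Y‖² Av ‖z c‖²`, and
`Av ‖z c‖² ≤ 16 · 16 ε²` by `hμ2` (reindex `Finset.sum_range_reflect`), `Em`, `Ey`.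
-/

set_option autoImplicit false

namespace Crest.Agent.R78

open Finset

universe u

/-- the law of the pair (prefix, suffix) -/
theorem top_law_snd {G : Type*} [Monoid G] (μ : Law G) {n : ℕ} (hn : 0 < n) :
    ∃ Λ : Law (G × G), (∀ {V : Type u} [AddCommGroup V] [Module ℝ V] (F : G × G → V),
      Λ.E F = (n : ℝ)⁻¹ • ∑ j ∈ range n, (μ.pow j).E fun a => (μ.pow (n - 1 - j)).E fun c =>
        F (a, c)) ∧ ∀ F : G → ℝ, Λ.E (fun p => F p.2) = (n : ℝ)⁻¹ * ∑ j ∈ range n, (μ.pow j).E F := by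
  haveI : Nonempty (Fin n) := ⟨⟨0, hn⟩⟩
  refine ⟨(Law.unif (Fin n)).bind fun j => (μ.pow j).prod (μ.pow (n - 1 - j)), fun F => ?_,
    fun F => ?_⟩
  · rw [Law.E_bind, Law.E_unif, Fintype.card_fin,
      ← Fin.sum_univ_eq_sum_range (fun j => (μ.pow j).E fun a => (μ.pow (n - 1 - j)).E fun c =>
        F (a, c)) n]
    simp only [Law.E_prod]
  · rw [Law.E_bind, Law.E_unif, Fintype.card_fin, ← Finset.sum_range_reflect,
      ← Fin.sum_univ_eq_sum_range (fun j => (μ.pow (n - 1 - j)).E F) n]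
    simp only [Law.E_prod, Law.E_const, smul_eq_mul]

theorem top (D : Dat.{u}) {S : Type*} [Fintype S] [Nonempty S] (lab : S → D.G) {n : ℕ}
    (hn : Fintype.card S ≤ n) {r ε : ℝ} (sol : D.Sol r ε) (hr : r ≤ 1 / 2)
    (hμ1 : ∀ F : D.G → ℝ, (∀ g, 0 ≤ F g) → (((Law.unif S).map lab).pow n).E F ≤ 4 * D.μ.E F)
    (hμ2 : ∀ F : D.G → ℝ, (∀ g, 0 ≤ F g) →
      ∑ i ∈ range n, (((Law.unif S).map lab).pow i).E F ≤ 4 * n * D.μ.E F)
    {k : ℝ} (hk : 1 ≤ k) {P Q : S → D.H →L[ℂ] D.H}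
    (hP : ∀ f, P f ∈ D.M ∧ IsSelfAdjoint (P f) ∧ ‖P f‖ ≤ 1)
    (hQ : ∀ f, Q f ∈ D.M' ∧ IsSelfAdjoint (Q f) ∧ ‖Q f‖ ≤ 1)
    (hPk : ∀ ζ, ∑ f, ‖P f ζ‖ ^ 2 ≤ k * ‖ζ‖ ^ 2) (hQk : ∀ ζ, ∑ f, ‖Q f ζ‖ ^ 2 ≤ k * ‖ζ‖ ^ 2)
    {Y : D.H →L[ℂ] D.H} (hY : Y ∈ D.M') :
    ∃ (Ψ : (D.H →L[ℂ] D.H) →ₗ[ℂ] D.H) (nn : S → D.H →L[ℂ] D.H),
      (∀ f, nn f ∈ D.M ∧ ‖nn f - D.u (lab f)‖ ≤ 10 * r) ∧
      ∑ f, ‖P f (Q f (Ψ (D.u (lab f)) - nn f (Y (sol.V D.Ω))))‖ ^ 2 ≤
        10000 * k * ‖Y‖ ^ 2 * ε ^ 2 := by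
  classical
  have hn0 : 0 < n := lt_of_lt_of_le Fintype.card_pos hn
  have hr0 : 0 ≤ r := (norm_nonneg _).trans sol.V_near
  set μ₁ := (Law.unif S).map lab with hμ₁
  set η := sol.V D.Ω with hη
  choose m' hm'M hm'l hm'r hm'n hm'2 using fun g =>
    exists_inv_mem D.M_closed (sol.m_mem g) (D.u_mem g) hr (sol.m_near g)
  choose y' hy'M hy'l hy'r hy'n hy'2 using fun g =>
    exists_inv_mem D.M'_closed (sol.y_mem g) (D.v_mem g⁻¹) hr (sol.y_near g)
  have hm32 : ∀ g, ‖sol.m g‖ ≤ 3 / 2 := fun g => by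
    have h1 := norm_le_norm_add_norm_sub' (sol.m g) (D.u g)
    have h2 := sol.m_near g
    rw [D.u_norm] at h1
    linarith
  obtain ⟨Λ, hΛ, hΛ2⟩ := top_law_snd.{u} μ₁ hn0
  let Ψ : (D.H →L[ℂ] D.H) →ₗ[ℂ] D.H :=
    { toFun := fun X => Λ.E fun p =>
        star (sol.m p.1) (Y (y' p.2 (sol.V (D.u p.1 (X (D.u p.2 D.Ω))))))
      map_add' := fun X X' => by
        simp only [ContinuousLinearMap.add_apply, map_add, Law.E_add]
      map_smul' := fun c X => by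
        simp only [ContinuousLinearMap.smul_apply, map_smul, Law.E_smul, RingHom.id_apply] }
  let nn : S → D.H →L[ℂ] D.H := fun f =>
    Λ.E fun p => star (sol.m p.1) * sol.m (p.1 * lab f * p.2) * m' p.2
  refine ⟨Ψ, nn, fun f => ⟨?_, ?_⟩, ?_⟩
  · exact Λ.E_mem_starSubalgebra fun p _ =>
      mul_mem (mul_mem (star_mem (sol.m_mem _)) (sol.m_mem _)) (hm'M _)
  · have e : nn f - D.u (lab f) = Λ.E fun p =>
        star (sol.m p.1) * sol.m (p.1 * lab f * p.2) * m' p.2 - D.u (lab f) := by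
      rw [Law.E_sub, Law.E_const]
    rw [e]
    refine Λ.norm_E_le_of_le fun p _ => ?_
    obtain ⟨a, c⟩ := p
    have e2 : D.u (lab f) = star (D.u a) * D.u (a * lab f * c) * star (D.u c) := by
      rw [← D.u_star, ← D.u_star, ← map_mul, ← map_mul]; congr 1; group
    have e3 : star (sol.m a) * sol.m (a * lab f * c) * m' c - D.u (lab f) =
        star (sol.m a - D.u a) * sol.m (a * lab f * c) * m' c +
        star (D.u a) * (sol.m (a * lab f * c) - D.u (a * lab f * c)) * m' c +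
        star (D.u a) * D.u (a * lab f * c) * (m' c - star (D.u c)) := by
      rw [e2, star_sub]; noncomm_ring
    have b1 : ‖star (sol.m a - D.u a) * sol.m (a * lab f * c) * m' c‖ ≤ r * (3 / 2) * 2 := by
      refine (norm_mul₃_le).trans ?_
      rw [norm_star]
      gcongr
      · exact sol.m_near a
      · exact hm32 _
      · exact hm'2 c
    have b2 : ‖star (D.u a) * (sol.m (a * lab f * c) - D.u (a * lab f * c)) * m' c‖ ≤ 1 * r * 2 := by
      refine (norm_mul₃_le).trans ?_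
      rw [norm_star, D.u_norm]
      gcongr
      · exact sol.m_near _
      · exact hm'2 c
    have b3 : ‖star (D.u a) * D.u (a * lab f * c) * (m' c - star (D.u c))‖ ≤ 1 * 1 * (2 * r) := by
      refine (norm_mul₃_le).trans ?_
      rw [norm_star, D.u_norm, D.u_norm]
      gcongr
      exact hm'n c
    show ‖star (sol.m a) * sol.m (a * lab f * c) * m' c - D.u (lab f)‖ ≤ 10 * r
    rw [e3]
    have := norm_add₃_le (a := star (sol.m a - D.u a) * sol.m (a * lab f * c) * m' c)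
      (b := star (D.u a) * (sol.m (a * lab f * c) - D.u (a * lab f * c)) * m' c)
      (c := star (D.u a) * D.u (a * lab f * c) * (m' c - star (D.u c)))
    linarith
  · -- the two error terms
    let w : D.G → D.H := fun b => sol.V (D.u b D.Ω) - sol.m b η
    let w' : D.G → D.H := fun b => sol.V (D.u b D.Ω) - sol.y b η
    let z : D.G → D.H := fun c => y' c η - m' c η
    let T₃ : S → D.H := fun f => Λ.E fun p =>
      star (sol.m p.1) (star (star (Y * y' p.2)) (w (p.1 * lab f * p.2)))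
    let T₂ : S → D.H := fun f => Λ.E fun p =>
      star (sol.m p.1) (sol.m (p.1 * lab f * p.2) (Y (z p.2)))
    have cm : ∀ x ∈ D.M, ∀ y ∈ D.M', ∀ v, x (y v) = y (x v) := fun x hx y hy v => by
      have := congrArg (fun t : D.H →L[ℂ] D.H => t v) (D.MM' x hx y hy)
      simpa using this
    have hsplit : ∀ f, Ψ (D.u (lab f)) - nn f (Y η) = T₃ f + T₂ f := fun f => by
      show (Λ.E fun p => star (sol.m p.1) (Y (y' p.2 (sol.V (D.u p.1 (D.u (lab f)
        (D.u p.2 D.Ω))))))) - (Λ.E fun p =>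
          star (sol.m p.1) * sol.m (p.1 * lab f * p.2) * m' p.2) (Y η) = _
      rw [Law.E_apply, ← Law.E_sub, ← Law.E_add]
      refine Λ.E_congr fun p _ => ?_
      obtain ⟨a, c⟩ := p
      simp only [w, z, star_star, map_mul, ContinuousLinearMap.mul_apply, map_sub]
      rw [cm _ (hm'M c) _ hY, cm _ (sol.m_mem (a * lab f * c)) _ hY (y' c η),
        cm _ (sol.m_mem (a * lab f * c)) _ (hy'M c)]
      abel
    have h3 : ∑ f, ‖P f (Q f (T₃ f))‖ ^ 2 ≤ 72 * k * ‖Y‖ ^ 2 * ε ^ 2 := by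
      have h := orth_words lab hn D.MM' (A := sol.m) (B := fun c => star (Y * y' c)) sol.m_mem
        (fun c => star_mem (mul_mem hY (hy'M c))) (α := 3 / 2) (β := ‖Y‖ * 2) hm32
        (fun c => by
          rw [norm_star]; exact (norm_mul_le _ _).trans (by gcongr; exact hy'2 c)) hk hP hQ hPk hQk w
      have e : ∀ f, T₃ f = (n : ℝ)⁻¹ • ∑ j ∈ range n, (μ₁.pow j).E fun a =>
          (μ₁.pow (n - 1 - j)).E fun c =>
            star (sol.m a) (star (star (Y * y' c)) (w (a * lab f * c))) := fun f => hΛ _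
      simp only [e]
      refine h.trans ?_
      have h4 := hμ1 (fun b => ‖w b‖ ^ 2) fun _ => sq_nonneg _
      have h5 : D.μ.E (fun b => ‖w b‖ ^ 2) ≤ ε ^ 2 := sol.Em
      have h6 : (μ₁.pow n).E (fun b => ‖w b‖ ^ 2) ≤ 4 * ε ^ 2 := by linarith
      have h7 : 0 ≤ 2 * k * (3 / 2) ^ 2 * (‖Y‖ * 2) ^ 2 := by positivity
      calc _ ≤ 2 * k * (3 / 2) ^ 2 * (‖Y‖ * 2) ^ 2 * (4 * ε ^ 2) :=
            mul_le_mul_of_nonneg_left h6 h7
        _ = _ := by ring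
    have hz : ∀ c, ‖z c‖ ^ 2 ≤ 32 * (‖w c‖ ^ 2 + ‖w' c‖ ^ 2) := fun c => by
      have e : z c = y' c (m' c (w' c - w c)) := by
        have e1 : m' c (sol.m c η) = η := by
          simpa using congrArg (fun t : D.H →L[ℂ] D.H => t η) (hm'l c)
        have e2 : y' c (sol.y c η) = η := by
          simpa using congrArg (fun t : D.H →L[ℂ] D.H => t η) (hy'l c)
        have e3 : w' c - w c = sol.m c η - sol.y c η := by simp only [w, w']; abel
        rw [e3, map_sub, map_sub, e1, ← cm _ (hm'M c) _ (hy'M c), e2]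
      have b1 : ‖z c‖ ≤ 2 * (2 * (‖w' c‖ + ‖w c‖)) := by
        rw [e]
        refine ((y' c).le_opNorm _).trans ?_
        gcongr
        · exact hy'2 c
        refine ((m' c).le_opNorm _).trans ?_
        gcongr
        · exact hm'2 c
        exact norm_sub_le _ _
      have b2 := pow_le_pow_left₀ (norm_nonneg _) b1 2
      nlinarith [sq_nonneg (‖w' c‖ - ‖w c‖)]
    have hz2 : Λ.E (fun p => ‖z p.2‖ ^ 2) ≤ 256 * ε ^ 2 := by
      rw [hΛ2 fun c => ‖z c‖ ^ 2]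
      have h1 := hμ2 (fun c => ‖z c‖ ^ 2) fun _ => sq_nonneg _
      have h2 : D.μ.E (fun c => ‖z c‖ ^ 2) ≤ 64 * ε ^ 2 := by
        refine (D.μ.E_mono fun c _ => hz c).trans ?_
        rw [Law.E_const_mul, Law.E_add]
        have h5 : D.μ.E (fun b => ‖w b‖ ^ 2) ≤ ε ^ 2 := sol.Em
        have h6 : D.μ.E (fun b => ‖w' b‖ ^ 2) ≤ ε ^ 2 := sol.Ey
        linarith
      have hn' : (0 : ℝ) < n := by exact_mod_cast hn0
      rw [inv_mul_le_iff₀ hn']
      nlinarith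
    have h2 : ∑ f, ‖P f (Q f (T₂ f))‖ ^ 2 ≤ 1296 * k * ‖Y‖ ^ 2 * ε ^ 2 := by
      have b1 : ∀ f, ‖P f (Q f (T₂ f))‖ ^ 2 ≤
          Λ.E fun p => (81 / 16) * ‖Q f (Y (z p.2))‖ ^ 2 := fun f => by
        have c1 : ‖P f (Q f (T₂ f))‖ ≤ ‖Q f (T₂ f)‖ := by
          refine ((P f).le_opNorm _).trans ?_
          have := (hP f).2.2
          nlinarith [norm_nonneg (Q f (T₂ f))]
        refine (pow_le_pow_left₀ (norm_nonneg _) c1 2).trans ?_
        rw [Law.clm_E]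
        refine (Λ.norm_E_sq_le _).trans (Λ.E_mono fun p _ => ?_)
        rw [← cm _ (star_mem (sol.m_mem _)) _ (hQ f).1, ← cm _ (sol.m_mem _) _ (hQ f).1]
        have c2 : ‖star (sol.m p.1) (sol.m (p.1 * lab f * p.2) (Q f (Y (z p.2))))‖ ≤
            3 / 2 * (3 / 2 * ‖Q f (Y (z p.2))‖) := by
          refine (ContinuousLinearMap.le_opNorm _ _).trans ?_
          rw [norm_star]
          gcongr
          · exact hm32 _
          refine (ContinuousLinearMap.le_opNorm _ _).trans ?_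
          gcongr
          exact hm32 _
        refine (pow_le_pow_left₀ (norm_nonneg _) c2 2).trans (le_of_eq ?_)
        ring
      refine (Finset.sum_le_sum fun f _ => b1 f).trans ?_
      rw [← Law.E_sum]
      have b2 : ∀ p : D.G × D.G, ∑ f, (81 / 16) * ‖Q f (Y (z p.2))‖ ^ 2 ≤
          (81 / 16 * k * ‖Y‖ ^ 2) * ‖z p.2‖ ^ 2 := fun p => by
        rw [← Finset.mul_sum]
        have c1 := hQk (Y (z p.2))
        have c2 := pow_le_pow_left₀ (norm_nonneg _) (Y.le_opNorm (z p.2)) 2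
        have c3 : k * ‖Y (z p.2)‖ ^ 2 ≤ k * (‖Y‖ * ‖z p.2‖) ^ 2 :=
          mul_le_mul_of_nonneg_left c2 (by linarith)
        nlinarith
      refine (Λ.E_mono fun p _ => b2 p).trans ?_
      rw [Law.E_const_mul]
      have h7 : 0 ≤ 81 / 16 * k * ‖Y‖ ^ 2 := by positivity
      calc _ ≤ 81 / 16 * k * ‖Y‖ ^ 2 * (256 * ε ^ 2) := mul_le_mul_of_nonneg_left hz2 h7
        _ = _ := by ring
    have hfin : ∀ f, ‖P f (Q f (Ψ (D.u (lab f)) - nn f (Y η)))‖ ^ 2 ≤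
        2 * ‖P f (Q f (T₃ f))‖ ^ 2 + 2 * ‖P f (Q f (T₂ f))‖ ^ 2 := fun f => by
      rw [hsplit, map_add, map_add]
      have := pow_le_pow_left₀ (norm_nonneg _) (norm_add_le (P f (Q f (T₃ f))) (P f (Q f (T₂ f)))) 2
      nlinarith [sq_nonneg (‖P f (Q f (T₃ f))‖ - ‖P f (Q f (T₂ f))‖)]
    refine (Finset.sum_le_sum fun f _ => hfin f).trans ?_
    rw [Finset.sum_add_distrib, ← Finset.mul_sum, ← Finset.mul_sum]
    have h8 : 0 ≤ k * ‖Y‖ ^ 2 * ε ^ 2 := by positivity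
    nlinarith

end Crest.Agent.R78
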