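import Crest.Agent.R78.ThmA
import Crest.Agent.R78.Top
import Crest.Agent.R78.Close

/-! # Row 78: the two-register data and the cell extraction. -/

set_option autoImplicit false
set_option linter.unusedSectionVars false

namespace Crest.Agent.R78

open Finset Crest.Agent.R124 ContinuousLinearMap
open scoped InnerProductSpace ComplexConjugate

noncomputable section

universe u

theorem exists_mix {G : Type*} [Monoid G] (ν : Law G) {n : ℕ} (hn : 0 < n) (g₁ g₂ : G) :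
    ∃ μ : Law G, ∀ F : G → ℝ, μ.E F =
      4⁻¹ * ((ν.pow n).E F + (n : ℝ)⁻¹ * ∑ i ∈ range n, (ν.pow i).E F + F g₁ + F g₂) := by
  have : Nonempty (Fin n) := ⟨⟨0, hn⟩⟩
  refine ⟨(Law.unif (Fin 4)).bind ![ν.pow n, (Law.unif (Fin n)).bind fun i => ν.pow i, Law.pure g₁,
    Law.pure g₂], fun F => ?_⟩
  rw [Law.E_bind, Law.E_unif, Fin.sum_univ_four]
  simp only [Matrix.cons_val, Law.E_bind, Law.E_unif, Law.E_pure, Fintype.card_fin, smul_eq_mul,
    Fin.sum_univ_eq_sum_range (fun i => (ν.pow i).E F) n]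
  norm_num

theorem Dat.kap_pow (D : Dat.{u}) {S : Type*} [Fintype S] [Nonempty S] (lab : S → D.G) (τ : S ≃ S)
    (hτ : ∀ f, lab (τ f) = (lab f)⁻¹) {κ : ℝ}
    (h : ∀ f, ‖D.u (lab f) D.Ω - D.v (lab f)⁻¹ D.Ω‖ ^ 2 ≤ κ) (n : ℕ) :
    (((Law.unif S).map lab).pow n).E (fun g => ‖D.u g D.Ω - D.v g⁻¹ D.Ω‖ ^ 2) ≤ n * κ := by
  let ρ : D.G →* (D.H →L[ℂ] D.H) :=
    { toFun := fun g => D.v g * D.u g
      map_one' := by simp
      map_mul' := fun g h => by
        simp only [map_mul, mul_assoc]; rw [← mul_assoc (D.u g), D.uv, mul_assoc] }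
  have e : ∀ g, ‖D.u g D.Ω - D.v g⁻¹ D.Ω‖ = ‖ρ g D.Ω - D.Ω‖ := fun g => by
    rw [← norm_map_of_mem_unitary (D.v_mem g), map_sub, ← mul_apply_eq_comp (D.v g) (D.v g⁻¹),
      ← map_mul, mul_inv_cancel, map_one]
    rfl
  simp only [e] at h ⊢
  refine (markov ρ (fun g => ?_) _ ?_ D.Ω n).trans ?_
  · change D.v g⁻¹ * D.u g⁻¹ = star (D.v g * D.u g)
    rw [star_mul, ← D.u_star, ← D.v_star, D.uv]
  · simp only [Law.E_map, Law.E_unif, ← hτ]
    rw [Equiv.sum_comp τ fun f => ρ (lab f)]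
  · rw [Law.E_map]
    exact mul_le_mul_of_nonneg_left (Law.E_le _ fun f _ => h f) (Nat.cast_nonneg n)

variable {H : Type u} [NormedAddCommGroup H] [InnerProductSpace ℂ H] [CompleteSpace H]

/-- a unitary of a subalgebra -/
def mkU {S : VonNeumannAlgebra H} {x : H →L[ℂ] H} (hx : x ∈ S) (hu : x ∈ unitary (H →L[ℂ] H)) :
    unitary S.toStarSubalgebra := ⟨⟨x, hx⟩, Subtype.ext hu.1, Subtype.ext hu.2⟩

/-- the inclusion of the unitary group -/
def unH (S : VonNeumannAlgebra H) : unitary S.toStarSubalgebra →* (H →L[ℂ] H) where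
  toFun g := g.1.1
  map_one' := rfl
  map_mul' _ _ := rfl

theorem unH_mem {S : VonNeumannAlgebra H} (g : unitary S.toStarSubalgebra) :
    unH S g ∈ unitary (H →L[ℂ] H) := ⟨congrArg Subtype.val g.2.1, congrArg Subtype.val g.2.2⟩

theorem norm_le_one_of_mem {x : H →L[ℂ] H} (hx : x ∈ unitary (H →L[ℂ] H)) : ‖x‖ ≤ 1 :=
  opNorm_le_bound _ zero_le_one fun v => by rw [norm_map_of_mem_unitary hx, one_mul]

variable (N M : VonNeumannAlgebra H) {K : ℕ} [Nonempty (Fin K)]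

/-- the group -/
abbrev GG (K : ℕ) : Type u :=
  unitary (ampVN (Fin K) N).toStarSubalgebra × unitary (ampVN (Fin K) N.commutant).toStarSubalgebra

/-- the two-register data -/
@[reducible] def regDat (a : Fin K → ℝ) (ha : ∑ l, a l ^ 2 = 1) (Ω : H) (hΩ : ‖Ω‖ = 1) (μ : Law (GG N K)) :
    Dat.{u} where
  H := L2 (Fin K) (L2 (Fin K) H)
  G := GG N K
  u :=
    { toFun := fun g => dgH (Fin K) g.1.1.1
      map_one' := map_one (dgH (Fin K))
      map_mul' := fun _ _ => map_mul (dgH (Fin K)) _ _ }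
  v :=
    { toFun := fun g => Rh (Fin K) g.2.1.1
      map_one' := map_one (Rh (Fin K))
      map_mul' := fun _ _ => map_mul (Rh (Fin K)) _ _ }
  u_star g := map_star (dgH (Fin K)) g.1.1.1
  v_star g := map_star (Rh (Fin K)) g.2.1.1
  uv g h := LR_comm g.1.1.2 h.2.1.2
  M := (ampVN (Fin K) (ampVN (Fin K) M).commutant).commutant.toStarSubalgebra
  M' := (ampVN (Fin K) (ampVN (Fin K) M).commutant).toStarSubalgebra
  M_closed := R95.vn_isClosed _
  M'_closed := R95.vn_isClosed _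
  MM' _ hx _ hy := (VonNeumannAlgebra.mem_commutant_iff.1 hx _ hy).symm
  Ω := dv (fun l => (a l : ℂ)) Ω
  Ω_norm := by
    refine (sq_eq_sq₀ (norm_nonneg _) zero_le_one).1 ?_
    simp [norm_dv_sq, ha, hΩ]
  μ := μ

variable {N M}

theorem mem_MM {X : L2 (Fin K) (L2 (Fin K) H) →L[ℂ] L2 (Fin K) (L2 (Fin K) H)} :
    X ∈ (ampVN (Fin K) (ampVN (Fin K) M).commutant).commutant ↔
      ∃ y ∈ ampVN (Fin K) M, X = dgH (Fin K) y := by
  rw [mem_commutant_ampVN, VonNeumannAlgebra.commutant_commutant]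

theorem Rh_mem {Y : L2 (Fin K) H →L[ℂ] L2 (Fin K) H} (hY : Y ∈ ampVN (Fin K) M.commutant) :
    Rh (Fin K) Y ∈ ampVN (Fin K) (ampVN (Fin K) M).commutant := by
  rw [mem_ampVN_iff, VonNeumannAlgebra.commutant_commutant]
  exact fun y hy => LR_comm hy hY

theorem regDat_near {δ : ℝ} (hδ0 : 0 ≤ δ) (h1 : ANear N M δ) (h2 : ANear N.commutant M.commutant δ)
    (a : Fin K → ℝ) (ha : ∑ l, a l ^ 2 = 1) (Ω : H) (hΩ : ‖Ω‖ = 1) (μ : Law (GG N K)) :
    (regDat N M a ha Ω hΩ μ).Near δ := fun g => by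
  obtain ⟨Y, hY, e⟩ := h1 K _ g.1.1.2
  obtain ⟨Y', hY', e'⟩ := h2 K _ g.2.1.2
  refine ⟨⟨dgH _ Y, mem_MM.2 ⟨Y, hY, rfl⟩, ?_⟩, Rh _ Y', Rh_mem hY', ?_⟩
  · change ‖dgH _ Y - dgH _ _‖ ≤ δ
    rw [← map_sub]
    exact (norm_dgH_le _).trans (e.trans (mul_le_of_le_one_right hδ0 (norm_le_one_of_mem (unH_mem _))))
  · change ‖Rh _ Y' - Rh _ _‖ ≤ δ
    rw [← map_sub]
    exact (NonUnitalStarAlgHom.norm_apply_le _ _).trans
      (e'.trans (mul_le_of_le_one_right hδ0 (norm_le_one_of_mem (unH_mem _))))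

theorem norm_colv {ι : Type} [Fintype ι] [DecidableEq ι] {b : ι → ℂ} (hb : ∑ i, conj (b i) * b i = 1)
    (v : H) : ‖colv b v‖ = ‖v‖ := by
  refine (sq_eq_sq₀ (norm_nonneg _) (norm_nonneg _)).1 ?_
  rw [← inner_self_eq_norm_sq (𝕜 := ℂ), ← inner_self_eq_norm_sq (𝕜 := ℂ), ← adjoint_inner_right,
    adjoint_colv_colv, hb, one_smul]

theorem norm_rk_le {ι : Type} [Fintype ι] [DecidableEq ι] {b : ι → ℂ}
    (hb : ∑ i, conj (b i) * b i = 1) : ‖rk H b‖ ≤ 1 := by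
  have h : ‖(colv b : H →L[ℂ] L2 ι H)‖ ≤ 1 :=
    opNorm_le_bound _ zero_le_one fun v => by rw [norm_colv hb, one_mul]
  refine (opNorm_comp_le _ _).trans ?_
  rw [LinearIsometryEquiv.norm_map]
  exact mul_le_one₀ h (norm_nonneg _) h

theorem sum_rk_le {ι S : Type} [Fintype ι] [DecidableEq ι] [Fintype S] [DecidableEq S]
    {b : S → ι → ℂ} (hb : ∀ s s', ∑ i, conj (b s i) * b s' i = if s = s' then 1 else 0)
    (ζ : L2 ι H) : ∑ s, ‖rk H (b s) ζ‖ ^ 2 ≤ ‖ζ‖ ^ 2 := by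
  simp only [rk_apply, norm_colv ((hb _ _).trans (if_pos rfl))]
  refine bessel (fun s => colv (b s)) (fun s s' v => ?_) ζ
  rw [adjoint_colv_colv, hb]; split_ifs <;> simp

end

end Crest.Agent.R78
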