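import Crest.Agent.R78.StageA

/-! # Row 78: alignment and averaging combined; the cell extraction. -/

set_option autoImplicit false
set_option linter.unusedSectionVars false

namespace Crest.Agent.R78

open Finset Crest.Agent.R124 ContinuousLinearMap
open scoped InnerProductSpace ComplexConjugate

noncomputable section

universe u

theorem Dat.core (D : Dat.{u}) {δ ε κ κ₁ : ℝ} (hδ : δ ≤ 1 / 10 ^ 11) (hε : 0 < ε) (hN : D.Near δ)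
    (hA : ∀ D : Dat.{u}, D.Near δ → D.kap ≤ κ → Nonempty (D.Sol (10 ^ 9 * δ) ε))
    {S : Type} [Fintype S] [Nonempty S] (lab : S → D.G) (τ : S ≃ S) (hτ : ∀ f, lab (τ f) = (lab f)⁻¹)
    (h : ∀ f, ‖D.u (lab f) D.Ω - D.v (lab f)⁻¹ D.Ω‖ ^ 2 ≤ κ₁) (hκ : Fintype.card S * κ₁ ≤ κ)
    {g₁ g₂ : D.G} (hg₁ : D.u g₁ D.Ω = D.v g₁⁻¹ D.Ω) (hg₂ : D.u g₂ D.Ω = D.v g₂⁻¹ D.Ω) {C : ℝ}
    (hC : 0 ≤ C) {k : ℝ} (hk : 1 ≤ k) {P Q : S → D.H →L[ℂ] D.H}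
    (hP : ∀ f, P f ∈ D.M ∧ IsSelfAdjoint (P f) ∧ ‖P f‖ ≤ 1)
    (hQ : ∀ f, Q f ∈ D.M' ∧ IsSelfAdjoint (Q f) ∧ ‖Q f‖ ≤ 1)
    (hPk : ∀ ζ, ∑ f, ‖P f ζ‖ ^ 2 ≤ k * ‖ζ‖ ^ 2) (hQk : ∀ ζ, ∑ f, ‖Q f ζ‖ ^ 2 ≤ k * ‖ζ‖ ^ 2) :
    ∃ (Ψ : (D.H →L[ℂ] D.H) →ₗ[ℂ] D.H) (nn : S → D.H →L[ℂ] D.H) (η : D.H),
      (∀ f, nn f ∈ D.M ∧ ‖nn f - D.u (lab f)‖ ≤ 10 ^ 10 * δ) ∧
      ∑ f, ‖P f (Q f (Ψ (D.u (lab f)) - nn f η))‖ ^ 2 ≤ 40000 * k * C ^ 2 * ε ^ 2 ∧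
      ‖η - ((C / 2 : ℝ) : ℂ) • (D.u g₁ D.Ω + D.u g₂ D.Ω)‖ ≤
        2 * C * ε + 10 ^ 9 * δ * ‖((C / 2 : ℝ) : ℂ) • (D.u g₁ D.Ω + D.u g₂ D.Ω)‖ := by
  set n := Fintype.card S with hn
  have hn0 : 0 < n := Fintype.card_pos
  have hn0' : (0 : ℝ) < n := by exact_mod_cast hn0
  obtain ⟨μ, hμ⟩ := exists_mix ((Law.unif S).map lab) hn0 g₁ g₂
  have hκ₁ : 0 ≤ κ₁ := (sq_nonneg _).trans (h (Classical.arbitrary S))
  obtain ⟨sol⟩ := hA { D with μ := μ } hN (by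
    change μ.E (fun g => ‖D.u g D.Ω - D.v g⁻¹ D.Ω‖ ^ 2) ≤ κ
    rw [hμ, hg₁, hg₂, sub_self, sub_self, norm_zero]
    have h1 := D.kap_pow lab τ hτ h n
    have h2 : ∑ i ∈ range n, (((Law.unif S).map lab).pow i).E
        (fun g => ‖D.u g D.Ω - D.v g⁻¹ D.Ω‖ ^ 2) ≤ n * (n * κ₁) := by
      refine (sum_le_card_nsmul _ _ (n * κ₁) fun i hi => (D.kap_pow lab τ hτ h i).trans ?_).trans_eq
        (by simp)
      gcongr; exact (mem_range.1 hi).le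
    rw [← inv_mul_le_iff₀ hn0'] at h2
    have := mul_nonneg hn0'.le hκ₁
    linarith)
  have nonneg : ∀ F : D.G → ℝ, (∀ g, 0 ≤ F g) → 0 ≤ (((Law.unif S).map lab).pow n).E F ∧
      0 ≤ (n : ℝ)⁻¹ * ∑ i ∈ range n, (((Law.unif S).map lab).pow i).E F := fun F hF =>
    ⟨Law.E_nonneg _ fun g _ => hF g,
      mul_nonneg (by positivity) (sum_nonneg fun i _ => Law.E_nonneg _ fun g _ => hF g)⟩
  have hy : ∀ g, ‖sol.y g‖ ≤ 2 := fun g => by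
    have h1 := (norm_add_le (sol.y g - D.v g⁻¹) (D.v g⁻¹)).trans
      (add_le_add (sol.y_near g) (D.v_norm _).le)
    rw [sub_add_cancel] at h1
    linarith
  have hY : ‖((C / 2 : ℝ) : ℂ) • (sol.y g₁ + sol.y g₂)‖ ≤ 2 * C := by
    rw [norm_smul, Complex.norm_real, Real.norm_of_nonneg (by positivity)]
    have := (norm_add_le _ _).trans (add_le_add (hy g₁) (hy g₂))
    nlinarith
  obtain ⟨Ψ, nn, h1, h2⟩ := top { D with μ := μ } lab hn.ge sol (by linarith)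
    (fun F hF => by
      change _ ≤ 4 * μ.E F
      rw [hμ]; linarith [nonneg F hF, hF g₁, hF g₂])
    (fun F hF => by
      change _ ≤ 4 * n * μ.E F
      rw [hμ, mul_comm 4, mul_assoc, ← inv_mul_le_iff₀ hn0']; linarith [nonneg F hF, hF g₁, hF g₂])
    hk hP hQ hPk hQk (Y := ((C / 2 : ℝ) : ℂ) • (sol.y g₁ + sol.y g₂))
    (SMulMemClass.smul_mem _ (add_mem (sol.y_mem g₁) (sol.y_mem g₂)))
  refine ⟨Ψ, nn, _, fun f => ⟨(h1 f).1, (h1 f).2.trans_eq (by ring)⟩, h2.trans ?_, ?_⟩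
  · have := pow_le_pow_left₀ (norm_nonneg _) hY 2
    calc _ ≤ 10000 * k * (2 * C) ^ 2 * ε ^ 2 := by gcongr
      _ = _ := by ring
  · have h3 : μ.E (fun g => ‖sol.V (D.u g D.Ω) - sol.y g (sol.V D.Ω)‖ ^ 2) ≤ ε ^ 2 := sol.Ey
    rw [hμ] at h3
    obtain ⟨n1, n2⟩ := nonneg (fun g => ‖sol.V (D.u g D.Ω) - sol.y g (sol.V D.Ω)‖ ^ 2)
      fun _ => sq_nonneg _
    have e1 : ‖sol.V (D.u g₁ D.Ω) - sol.y g₁ (sol.V D.Ω)‖ ≤ 2 * ε :=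
      le_of_sq_le_sq (by nlinarith [sq_nonneg ‖sol.V (D.u g₂ D.Ω) - sol.y g₂ (sol.V D.Ω)‖])
        (by positivity)
    have e2 : ‖sol.V (D.u g₂ D.Ω) - sol.y g₂ (sol.V D.Ω)‖ ≤ 2 * ε :=
      le_of_sq_le_sq (by nlinarith [sq_nonneg ‖sol.V (D.u g₁ D.Ω) - sol.y g₁ (sol.V D.Ω)‖])
        (by positivity)
    have e3 := (sol.V - 1).le_of_opNorm_le sol.V_near
      (((C / 2 : ℝ) : ℂ) • (D.u g₁ D.Ω + D.u g₂ D.Ω))
    have e4 : (((C / 2 : ℝ) : ℂ) • (sol.y g₁ + sol.y g₂)) (sol.V D.Ω) -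
        ((C / 2 : ℝ) : ℂ) • (D.u g₁ D.Ω + D.u g₂ D.Ω) =
        (sol.V - 1) (((C / 2 : ℝ) : ℂ) • (D.u g₁ D.Ω + D.u g₂ D.Ω)) - ((C / 2 : ℝ) : ℂ) •
          ((sol.V (D.u g₁ D.Ω) - sol.y g₁ (sol.V D.Ω)) + (sol.V (D.u g₂ D.Ω) - sol.y g₂ (sol.V D.Ω))) := by
      simp only [_root_.smul_apply, _root_.add_apply, _root_.sub_apply, one_apply_eq_self, map_smul,
        map_add]
      module
    refine (congrArg norm e4).trans_le ((norm_sub_le _ _).trans ?_)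
    rw [norm_smul ((C / 2 : ℝ) : ℂ) (_ + _), Complex.norm_real, Real.norm_of_nonneg (by positivity)]
    have := (norm_add_le _ _).trans (add_le_add e1 e2)
    nlinarith

end

end Crest.Agent.R78
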