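import Crest.Agent.R78.StageB

/-! # Row 78: the cell extraction. -/

set_option autoImplicit false
set_option linter.unusedSectionVars false

namespace Crest.Agent.R78

open Finset Crest.Agent.R124 ContinuousLinearMap
open scoped InnerProductSpace ComplexConjugate

noncomputable section

universe u

variable {H : Type u} [NormedAddCommGroup H] [InnerProductSpace ℂ H] [CompleteSpace H]
  {N M : VonNeumannAlgebra H} {K : ℕ} [Nonempty (Fin K)]

theorem cell_kap {X Y : L2 (Fin K) H →L[ℂ] L2 (Fin K) H} (hX : X ∈ ampVN (Fin K) N)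
    (hY : Y ∈ ampVN (Fin K) N.commutant) {h : Fin K → ℂ} (hh : ∀ l, ‖h l‖ = 1) (a : Fin K → ℂ)
    (Ω : H) : ‖dgH _ (sd H h * X * star (sd H h)) (dv a Ω) -
      Rh _ (star (sd H h) * Y * sd H h) (dv a Ω)‖ = ‖dgH _ X (dv a Ω) - Rh _ Y (dv a Ω)‖ := by
  have hu := sd_unitary (H := H) hh
  have e1 : dgH _ (star (sd H h)) (dv a Ω) = Rh _ (star (sd H h)) (dv a Ω) := by
    rw [star_sd, dgH_sd_dv, Rh_sd_dv]
  have e2 : Rh _ (sd H h) (dv a Ω) = dgH _ (sd H h) (dv a Ω) := by rw [dgH_sd_dv, Rh_sd_dv]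
  have c1 := LR_comm hX (star_mem (sd_mem N.commutant h))
  have c2 := LR_comm (sd_mem N h) hY
  have c3 := LR_comm (sd_mem N h) (star_mem (sd_mem N.commutant h))
  rw [← norm_map_of_mem_unitary (Unitary.map_mem (dgH (Fin K)) hu) (dgH _ X _ - _),
    ← norm_map_of_mem_unitary (Unitary.map_mem (Rh (Fin K)) (Unitary.star_mem hu)) (dgH _ _ (_ - _))]
  simp only [map_mul, mul_apply_eq_comp, map_sub, e1, e2]
  simp only [← mul_apply_eq_comp, ← mul_assoc, ← c3]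
  simp only [mul_assoc, c1, ← c2]
  simp only [← mul_assoc, ← c3]

theorem exists_unimod {d : ℝ} (h0 : 0 ≤ d) (h1 : d ≤ 1) :
    ∃ c c' : ℂ, ‖c‖ = 1 ∧ ‖c'‖ = 1 ∧ c + c' = 2 * d := by
  have : d ^ 2 + √(1 - d ^ 2) ^ 2 = 1 := by
    rw [Real.sq_sqrt (by nlinarith)]; ring
  refine ⟨d + √(1 - d ^ 2) * Complex.I, d + (-√(1 - d ^ 2) : ℝ) * Complex.I, ?_, ?_, ?_⟩
  · rw [Complex.norm_add_mul_I, this, Real.sqrt_one]
  · rw [Complex.norm_add_mul_I, neg_sq, this, Real.sqrt_one]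
  · push_cast; ring

theorem norm_PQ {a b : Fin K → ℂ} (ha : ∑ i, conj (a i) * a i = 1) (hb : ∑ i, conj (b i) * b i = 1)
    (ζ : L2 (Fin K) (L2 (Fin K) H)) : ‖dgH _ (rk H a) (rk (L2 (Fin K) H) b ζ)‖ =
      ‖adjoint (colv a) (adjoint (colv b) ζ)‖ := by
  rw [rk_apply b, dgH_colv, norm_colv hb, rk_apply, norm_colv ha]

theorem cell {δ ε κ κ₁ C : ℝ} (hδ0 : 0 ≤ δ) (hδ : δ ≤ 1 / 10 ^ 11) (hε : 0 < ε)
    (h1 : ANear N M δ) (h2 : ANear N.commutant M.commutant δ) {Ω : H} (hΩ : ‖Ω‖ = 1)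
    (hA : ∀ D : Dat.{u}, D.Near δ → D.kap ≤ κ → Nonempty (D.Sol (10 ^ 9 * δ) ε))
    {a : Fin K → ℝ} (ha : ∑ l, a l ^ 2 = 1) (hC : 0 < C) (hCa : ∀ l, 1 ≤ C * √K * a l)
    {Φ : Type} [Fintype Φ] [Nonempty Φ] (σ : Φ ≃ Φ) {U U' : Φ → L2 (Fin K) H →L[ℂ] L2 (Fin K) H}
    (hU : ∀ φ, U φ ∈ ampVN (Fin K) N) (hU' : ∀ φ, U' φ ∈ ampVN (Fin K) N.commutant)
    (hu : ∀ φ, U φ ∈ unitary _) (hu' : ∀ φ, U' φ ∈ unitary _) (hσ : ∀ φ, U (σ φ) = star (U φ))
    (hσ' : ∀ φ, U' (σ φ) = star (U' φ))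
    (hκ₁ : ∀ φ, ‖dgH _ (U φ) (dv (fun l => (a l : ℂ)) Ω) -
      Rh _ (U' φ) (dv (fun l => (a l : ℂ)) Ω)‖ ^ 2 ≤ κ₁)
    (hκ : Fintype.card Φ * K * κ₁ ≤ κ) :
    ∃ (r : Φ → L2 (Fin K) H →L[ℂ] L2 (Fin K) H) (ξ : L2 (Fin K) H)
      (Ψ : (L2 (Fin K) H →L[ℂ] L2 (Fin K) H) →ₗ[ℂ] H),
      (∀ φ, r φ ∈ ampVN (Fin K) M ∧ ‖r φ - U φ‖ ≤ 10 ^ 10 * δ) ∧
      ‖ξ - colv (fun _ => ((√K)⁻¹ : ℝ)) Ω‖ ≤ 10 ^ 10 * δ + 4 * C * ε ∧
      ∀ φ, ‖adjoint (colv fun _ : Fin K => ((√K)⁻¹ : ℝ)) (r φ ξ) - Ψ (U φ)‖ ^ 2 ≤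
        80000 * Fintype.card Φ * C ^ 2 * ε ^ 2 := by
  have hK : (0 : ℝ) < K := by
    obtain ⟨l⟩ := ‹Nonempty (Fin K)›
    exact_mod_cast l.pos
  have hsK : 0 < √K := Real.sqrt_pos.2 hK
  have hKK : (((√K)⁻¹ : ℝ) : ℂ) * ((√K)⁻¹ : ℝ) * K = 1 := by
    rw [← Complex.ofReal_mul, ← mul_inv, Real.mul_self_sqrt hK.le]
    push_cast
    exact inv_mul_cancel₀ (by exact_mod_cast hK.ne')
  obtain ⟨h, hh, hh'⟩ := exists_hadamard K
  obtain ⟨al, hal⟩ : ∃ al : Fin K → Fin K → ℂ, al = fun s l => h s l * ((√K)⁻¹ : ℝ) := ⟨_, rfl⟩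
  obtain ⟨be, hbe⟩ : ∃ be : Fin K → Fin K → ℂ, be = fun s l => conj (h s l) * ((√K)⁻¹ : ℝ) :=
    ⟨_, rfl⟩
  have oa : ∀ s s', ∑ l, conj (al s l) * al s' l = if s = s' then 1 else 0 := fun s s' => by
    have : ∀ l, conj (al s l) * al s' l =
        (((√K)⁻¹ : ℝ) : ℂ) * ((√K)⁻¹ : ℝ) * (conj (h s l) * h s' l) := fun l => by
      simp only [hal, map_mul, Complex.conj_ofReal]; ring
    simp only [this, ← mul_sum, hh']
    split_ifs; exacts [hKK, mul_zero _]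
  have ob : ∀ s s', ∑ l, conj (be s l) * be s' l = if s = s' then 1 else 0 := fun s s' => by
    have : ∀ l, conj (be s l) * be s' l = conj (al s' l) * al s l := fun l => by
      simp only [hal, hbe, map_mul, Complex.conj_ofReal, Complex.conj_conj]; ring
    simp only [this, oa, eq_comm]
  have oa' : ∀ s, ∑ l, conj (al s l) * al s l = 1 := fun s => (oa s s).trans (if_pos rfl)
  have ob' : ∀ s, ∑ l, conj (be s l) * be s l = 1 := fun s => (ob s s).trans (if_pos rfl)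
  have hD : ∀ s, sd H (h s) ∈ unitary _ := fun s => sd_unitary (hh s)
  choose c c' hc hc' hcc using fun l => exists_unimod (d := (C * √K * a l)⁻¹)
    (inv_nonneg.2 (zero_le_one.trans (hCa l))) (inv_le_one_of_one_le₀ (hCa l))
  let lab : Φ × Fin K → GG N K := fun f =>
    (mkU (mul_mem (mul_mem (sd_mem N (h f.2)) (hU f.1)) (star_mem (sd_mem N (h f.2))))
      (mul_mem (mul_mem (hD f.2) (hu f.1)) (Unitary.star_mem (hD f.2))),
    (mkU (mul_mem (mul_mem (star_mem (sd_mem N.commutant (h f.2))) (hU' f.1)) (sd_mem _ (h f.2)))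
      (mul_mem (mul_mem (Unitary.star_mem (hD f.2)) (hu' f.1)) (hD f.2)))⁻¹)
  let g : (c : Fin K → ℂ) → (∀ l, ‖c l‖ = 1) → GG N K := fun c hc =>
    (mkU (sd_mem N c) (sd_unitary hc), (mkU (sd_mem N.commutant c) (sd_unitary hc))⁻¹)
  have hg : ∀ c hc, dgH _ (g c hc).1.1.1 (dv (fun l => (a l : ℂ)) Ω) =
      Rh _ (g c hc)⁻¹.2.1.1 (dv (fun l => (a l : ℂ)) Ω) := fun c hc => by
    simp only [g, Prod.snd_inv, inv_inv, mkU, dgH_sd_dv, Rh_sd_dv]
  have hk : (1 : ℝ) ≤ Fintype.card Φ := by exact_mod_cast Fintype.card_pos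
  obtain ⟨Ψ, nn, η, e1, e2, e3⟩ := (regDat N M a ha Ω hΩ (Law.pure 1)).core hδ hε
    (regDat_near hδ0 h1 h2 a ha Ω hΩ _) hA lab (σ.prodCongr (Equiv.refl _)) (κ₁ := κ₁)
    (fun f => Prod.ext (Subtype.ext (Subtype.ext (by
      change sd H (h f.2) * U (σ f.1) * star (sd H (h f.2)) =
        star (sd H (h f.2) * U f.1 * star (sd H (h f.2)))
      simp only [hσ, star_mul, star_star, mul_assoc])))
      (Subtype.ext (Subtype.ext (by
      change star (star (sd H (h f.2)) * U' (σ f.1) * sd H (h f.2)) =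
        star (star (star (sd H (h f.2)) * U' f.1 * sd H (h f.2)))
      simp only [hσ', star_mul, star_star, mul_assoc]))))
    (fun f => by
      change ‖dgH _ (sd H (h f.2) * U f.1 * star (sd H (h f.2))) (dv (fun l => (a l : ℂ)) Ω) -
        Rh _ (star (star (star (sd H (h f.2)) * U' f.1 * sd H (h f.2))))
          (dv (fun l => (a l : ℂ)) Ω)‖ ^ 2 ≤ κ₁
      rw [star_star, cell_kap (hU _) (hU' _) (hh _)]
      exact hκ₁ _)
    (by simpa only [Fintype.card_prod, Fintype.card_fin, Nat.cast_mul] using hκ)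
    (hg c hc) (hg c' hc') hC.le hk (P := fun f => dgH _ (rk H (al f.2)))
    (Q := fun f => rk _ (be f.2))
    (fun f => ⟨mem_MM.2 ⟨_, rk_mem M _, rfl⟩, (rk_sa _).map (dgH (Fin K)),
      (norm_dgH_le _).trans (norm_rk_le (oa' _))⟩)
    (fun f => ⟨rk_mem _ _, rk_sa _, norm_rk_le (ob' _)⟩)
    (fun ζ : L2 (Fin K) (L2 (Fin K) H) => by
      rw [Fintype.sum_prod_type]
      simp only [sum_const, card_univ, nsmul_eq_mul]
      gcongr
      simp only [L2.norm_sq (ι := Fin K) (K := L2 (Fin K) H), dgH_apply]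
      rw [sum_comm]
      exact sum_le_sum fun k _ => sum_rk_le oa _)
    (fun ζ : L2 (Fin K) (L2 (Fin K) H) => by
      rw [Fintype.sum_prod_type]
      simp only [sum_const, card_univ, nsmul_eq_mul]
      gcongr
      exact sum_rk_le ob _)
  obtain ⟨Ω', hΩ'⟩ : ∃ Ω', Ω' = dv (fun _ : Fin K => (((√K)⁻¹ : ℝ) : ℂ)) Ω := ⟨_, rfl⟩
  have hΩ'1 : ‖Ω'‖ = 1 := by
    refine (sq_eq_sq₀ (norm_nonneg _) zero_le_one).1 ?_
    simp [hΩ', norm_dv_sq, hΩ, Real.sq_sqrt hK.le, hK.ne']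
  have e4 : ((C / 2 : ℝ) : ℂ) • (dgH _ (sd H c) (dv (fun l => (a l : ℂ)) Ω) +
      dgH _ (sd H c') (dv (fun l => (a l : ℂ)) Ω)) = Ω' := by
    rw [hΩ', dgH_sd_dv, dgH_sd_dv]
    ext k l
    simp only [L2.smul_apply, L2.add_apply, dv_apply]
    split_ifs
    · rw [← add_smul, smul_smul, ← add_mul, hcc]
      congr 1
      have : a k ≠ 0 := fun h0 => by linarith [hCa k, h0 ▸ mul_zero (C * √K)]
      norm_cast
      field_simp
    · simp
  change ∀ f : Φ × Fin K, nn f ∈ (ampVN (Fin K) (ampVN (Fin K) M).commutant).commutant ∧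
    ‖nn f - dgH _ (sd H (h f.2) * U f.1 * star (sd H (h f.2)))‖ ≤ 10 ^ 10 * δ at e1
  change ∑ f : Φ × Fin K, ‖dgH _ (rk H (al f.2)) (rk _ (be f.2)
    (Ψ (dgH _ (sd H (h f.2) * U f.1 * star (sd H (h f.2)))) - nn f η))‖ ^ 2 ≤ _ at e2
  change ‖η - ((C / 2 : ℝ) : ℂ) • (dgH _ (sd H c) (dv (fun l => (a l : ℂ)) Ω) +
      dgH _ (sd H c') (dv (fun l => (a l : ℂ)) Ω))‖ ≤ 2 * C * ε + 10 ^ 9 * δ *
      ‖((C / 2 : ℝ) : ℂ) • (dgH _ (sd H c) (dv (fun l => (a l : ℂ)) Ω) +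
      dgH _ (sd H c') (dv (fun l => (a l : ℂ)) Ω))‖ at e3
  rw [e4, hΩ'1, mul_one] at e3
  rw [Fintype.sum_prod_type_right] at e2
  choose n hn hn' using fun f => mem_MM.1 (e1 f).1
  obtain ⟨s, hs1, hs2⟩ := exists_two_le _ (fun s => ‖rk _ (be s) (η - Ω')‖ ^ 2)
    (fun s => sum_nonneg fun _ _ => sq_nonneg _) (fun s => sq_nonneg _) (by positivity)
    (b := (2 * C * ε + 10 ^ 9 * δ) ^ 2) (by positivity) e2
    ((sum_rk_le ob _).trans (pow_le_pow_left₀ (norm_nonneg _) e3 2))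
  rw [Fintype.card_fin] at hs1 hs2
  have hι : ∀ v : H, sd H (h s) (colv (fun _ => ((√K)⁻¹ : ℝ)) v) = colv (al s) v := fun v => by
    rw [sd_colv, hal]
  have hι' : ∀ v : L2 (Fin K) H, adjoint (colv fun _ : Fin K => ((√K)⁻¹ : ℝ)) (star (sd H (h s)) v) =
      adjoint (colv (al s)) v := fun v => ext_inner_left ℂ fun w => by
    rw [adjoint_inner_right, star_eq_adjoint, adjoint_inner_right, hι, adjoint_inner_right]
  have hDD : ∀ v, sd H (h s) (star (sd H (h s)) v) = v := fun v => by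
    rw [← mul_apply_eq_comp, (hD s).2, one_apply_eq_self]
  refine ⟨fun φ => star (sd H (h s)) * n (φ, s) * sd H (h s),
    star (sd H (h s)) (((√K : ℝ) : ℂ) • adjoint (colv (be s)) η),
    ((√K : ℝ) : ℂ) • (adjoint (colv (al s)) : L2 (Fin K) H →L[ℂ] H).toLinearMap ∘ₗ
      (adjoint (colv (be s)) : _ →L[ℂ] L2 (Fin K) H).toLinearMap ∘ₗ Ψ ∘ₗ
      (dgH (Fin K)).toLinearMap ∘ₗ LinearMap.mulRight ℂ (star (sd H (h s))) ∘ₗ
      LinearMap.mulLeft ℂ (sd H (h s)), fun φ => ⟨mul_mem (mul_mem (star_mem (sd_mem M _)) (hn _))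
      (sd_mem M _), ?_⟩, ?_, fun φ => ?_⟩
  · have := (e1 (φ, s)).2
    rw [hn', ← map_sub, norm_dgH] at this
    refine le_trans (le_of_eq ?_) this
    rw [← CStarRing.norm_mul_mem_unitary _ (Unitary.star_mem (hD s)),
      ← CStarRing.norm_mem_unitary_mul _ (hD s)]
    simp only [sub_mul, mul_sub, mul_assoc, (hD s).2, mul_one]
    rw [← mul_assoc (sd H (h s)) (star _), (hD s).2, one_mul]
  · rw [← norm_map_of_mem_unitary (hD s), map_sub, hDD, hι]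
    have : colv (al s) Ω = ((√K : ℝ) : ℂ) • adjoint (colv (be s)) Ω' := by
      rw [hΩ', adjoint_colv_dv]
      ext l
      simp only [hal, hbe, colv_apply, L2.smul_apply, smul_smul, map_mul, Complex.conj_ofReal,
        Complex.conj_conj]
      congr 1
      have : ((√K : ℝ) : ℂ) ≠ 0 := by exact_mod_cast hsK.ne'
      push_cast
      field_simp
    rw [this, ← smul_sub, ← map_sub]
    rw [rk_apply, norm_colv (ob' s)] at hs2
    refine le_trans (le_of_sq_le_sq ?_ (by positivity) : _ ≤ 2 * (2 * C * ε + 10 ^ 9 * δ))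
      (by nlinarith)
    rw [norm_smul, mul_pow, Complex.norm_real, Real.norm_eq_abs, sq_abs, Real.sq_sqrt hK.le]
    nlinarith [sq_nonneg (2 * C * ε + 10 ^ 9 * δ)]
  · have := (mul_le_mul_of_nonneg_left (single_le_sum (fun φ _ => sq_nonneg _) (mem_univ φ))
      hK.le).trans hs1
    rw [norm_PQ (oa' s) (ob' s), hn', map_sub, map_sub, adjoint_colv_dgH _ _ η, norm_sub_rev] at this
    simp only [mul_apply_eq_comp, hDD, hι', map_smul]
    change ‖_ - ((√K : ℝ) : ℂ) • adjoint (colv (al s)) (adjoint (colv (be s))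
      (Ψ (dgH _ (sd H (h s) * U φ * star (sd H (h s))))))‖ ^ 2 ≤ _
    rw [← smul_sub, norm_smul, mul_pow, Complex.norm_real, Real.norm_eq_abs, sq_abs,
      Real.sq_sqrt hK.le]
    linarith

end

end Crest.Agent.R78
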