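import Crest.Agent.R78.ModMart
import Crest.Agent.R78.PreSys

/-! # Row 78: the model is a pre-model; the alignment theorem. -/

set_option autoImplicit false
set_option linter.unusedSectionVars false

open Filter Topology
open scoped InnerProductSpace

namespace Crest.Agent.R78

noncomputable section

universe u

namespace Mod

variable {D : ℕ → Dat.{u}} {ω : Ultrafilter ℕ} {K : Type u} [NormedAddCommGroup K]
  [InnerProductSpace ℂ K] [CompleteSpace K] (U : UPD ω (EE D) K)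

theorem pb_mem {I I' : Set ℕ} {P : ∀ n, StarSubalgebra ℂ ((D n).H →L[ℂ] (D n).H)}
    {φ : ∀ n, Ξ D n → Ξ D n}
    (h : ∀ n (ξ ξ' : Ξ D n), (∀ i ∈ I', ξ i = ξ' i) → ∀ i ∈ I, φ n ξ i = φ n ξ' i) {a : IA D}
    (ha : a ∈ dep D I P) : pb φ a ∈ dep D I' P :=
  ⟨fun n _ => ha.1 n _, fun n ξ ξ' e => ha.2 n _ _ (h n ξ ξ' e)⟩

theorem tJ_mem {I I' : Set ℕ} {P : ∀ n, StarSubalgebra ℂ ((D n).H →L[ℂ] (D n).H)}
    (h : ∀ n p (ξ ξ' : Ξ D n), (∀ i ∈ I', ξ i = ξ' i) → ∀ i ∈ I, ins p ξ i = ins p ξ' i) (i l : ℕ)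
    {a : IA D} (ha : a ∈ dep D I P) : tJ i l a ∈ dep D I' P :=
  ⟨fun n _ => Law.E_mem_starSubalgebra _ fun _ _ => ha.1 n _, fun n ξ ξ' e =>
    Law.E_congr _ fun p _ => ha.2 n _ _ (h n p ξ ξ' e)⟩

theorem h1 {I' : Set ℕ} (h : 1 ∈ I') (n : ℕ) (ξ ξ' : Ξ D n) (e : ∀ i ∈ I', ξ i = ξ' i) :
    ∀ i ∈ ({0} : Set ℕ), swp 1 ξ i = swp 1 ξ' i := by
  rintro _ rfl; simpa using e 1 h

theorem h2 {I' : Set ℕ} (h : 2 ∈ I') (n : ℕ) (ξ ξ' : Ξ D n) (e : ∀ i ∈ I', ξ i = ξ' i) :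
    ∀ i ∈ ({0} : Set ℕ), swp 2 ξ i = swp 2 ξ' i := by
  rintro _ rfl; simpa using e 2 h

theorem h3 (n : ℕ) (ξ ξ' : Ξ D n) (e : ∀ i ∈ ({0, 1, 2} : Set ℕ), ξ i = ξ' i) :
    ∀ i ∈ ({0} : Set ℕ), bet ξ i = bet ξ' i := by
  rintro _ rfl; simp only [bet_zero, e 0 (by simp), e 1 (by simp), e 2 (by simp)]

theorem h4 {I' : Set ℕ} (n : ℕ) (ξ ξ' : Ξ D n) (_ : ∀ i ∈ I', ξ i = ξ' i) :
    ∀ i ∈ ({0} : Set ℕ), cns 1 ξ i = cns 1 ξ' i := by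
  rintro _ rfl; rfl

theorem h5 (n : ℕ) (p : (D n).G × (D n).G) (ξ ξ' : Ξ D n) (e : ∀ i ∈ ({0} : Set ℕ), ξ i = ξ' i) :
    ∀ i ∈ ({0, 1, 2} : Set ℕ), ins p ξ i = ins p ξ' i := by
  rintro _ (rfl | rfl | rfl)
  · exact e 0 rfl
  · rfl
  · rfl

theorem h6 (n : ℕ) (p : (D n).G × (D n).G) (ξ ξ' : Ξ D n) (_ : ∀ i ∈ (∅ : Set ℕ), ξ i = ξ' i) :
    ∀ i ∈ ({1, 2} : Set ℕ), ins p ξ i = ins p ξ' i := by
  rintro _ (rfl | rfl) <;> rfl

theorem pb_const (φ : ∀ n, Ξ D n → Ξ D n) {a : IA D} (ha : a ∈ dep D ∅ fun _ => ⊤) : pb φ a = a := by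
  ext1 n; ext1 ξ; exact ha.2 n _ _ fun _ h => h.elim

/-- the model -/
def pre (hκ : Tendsto (fun n => (D n).kap) ω (𝓝 0)) : Pre (rho U) where
  A0 := dep D {0} fun _ => ⊤
  A3 := dep D {0, 1, 2} fun _ => ⊤
  C0 := dep D ∅ fun _ => ⊤
  D0 := dep D {1, 2} fun _ => ⊤
  M0 := dep D {0} fun n => (D n).M
  M0' := dep D {0} fun n => (D n).M'
  M3 := dep D {0, 1, 2} fun n => (D n).M
  M3' := dep D {0, 1, 2} fun n => (D n).M'
  A0c := dep_closed _ fun _ => isClosed_univ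
  A3c := dep_closed _ fun _ => isClosed_univ
  C0c := dep_closed _ fun _ => isClosed_univ
  D0c := dep_closed _ fun _ => isClosed_univ
  M0c := dep_closed _ fun n => (D n).M_closed
  M0c' := dep_closed _ fun n => (D n).M'_closed
  M3c := dep_closed _ fun n => (D n).M_closed
  M3c' := dep_closed _ fun n => (D n).M'_closed
  C0_le := dep_mono (Set.empty_subset _) fun _ => le_rfl
  M0_le := dep_mono le_rfl fun _ => le_top
  M0'_le := dep_mono le_rfl fun _ => le_top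
  A0_le := dep_mono (by simp) fun _ => le_rfl
  M0_le3 := dep_mono (by simp) fun _ => le_rfl
  M0'_le3 := dep_mono (by simp) fun _ => le_rfl
  comm3 a ha b hb := by ext1 n; ext1 ξ; exact (D n).MM' _ (ha.1 n ξ) _ (hb.1 n ξ)
  kα := hk U (fun _ => swp 1) fun _ => swp_inj 1
  kβ := hk U (fun _ => bet) fun _ => bet_inj
  kγ := hk U (fun _ => swp 2) fun _ => swp_inj 2
  kκ := hk U (fun _ => cns 1) fun _ _ _ h => (cns_inj h).2
  J := JJ U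
  tJ := tJ
  JJ _ _ := kr_mul_star U _ fun _ => ins_inj
  J_conj _ _ := kr_conj U _ fun _ => ins_inj
  J_comm _ _ _ ha := kr_comm U _ (fun _ => ins_inj) fun n _ _ => ha.2 n _ _ (by rintro _ rfl; rfl)
  α_A _ := pb_mem (h1 (by simp))
  β_A _ := pb_mem h3
  γ_A _ := pb_mem (h2 (by simp))
  α_D _ := pb_mem (h1 (by simp))
  γ_D _ := pb_mem (h2 (by simp))
  κ_C _ := pb_mem h4
  J_A i l _ := tJ_mem h5 i l
  J_D i l _ := tJ_mem h6 i l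
  fix _ ha := ⟨pb_const _ ha, pb_const _ ha, pb_const _ ha, pb_const _ ha⟩
  M_mem _ ha := ⟨pb_mem (h1 (by simp)) ha, pb_mem h3 ha, pb_mem (h2 (by simp)) ha, pb_mem h4 ha⟩
  M'_mem _ ha := ⟨pb_mem (h1 (by simp)) ha, pb_mem h3 ha, pb_mem (h2 (by simp)) ha, pb_mem h4 ha⟩
  J_M i l _ := tJ_mem h5 i l
  J_M' i l _ := tJ_mem h5 i l
  g := gu D
  g' := gv D
  g_mem := ⟨fun _ _ => trivial, fun n ξ ξ' e => by rw [gu_apply, gu_apply, e 0 rfl]⟩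
  g'_mem := ⟨fun _ _ => trivial, fun n ξ ξ' e => by rw [gv_apply, gv_apply, e 0 rfl]⟩
  g_un := ⟨by ext1 n; ext1 ξ; exact ((D n).u_mem _).1, by ext1 n; ext1 ξ; exact ((D n).u_mem _).2⟩
  g'_un := ⟨by ext1 n; ext1 ξ; exact ((D n).v_mem _).1, by ext1 n; ext1 ξ; exact ((D n).v_mem _).2⟩
  β_g := by ext1 n; ext1 ξ; simp [hk]
  β_g' := by ext1 n; ext1 ξ; simp [hk, mul_assoc]
  κ_g := by ext1 n; ext1 ξ; simp [hk]
  κ_g' := by ext1 n; ext1 ξ; simp [hk]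
  αγ := by ext1 n; ext1 ξ; exact (D n).uv _ _
  πγ := by ext1 n; ext1 ξ; exact (D n).uv _ _
  απ := by ext1 n; ext1 ξ; exact (D n).uv _ _
  Ω := Om U
  Ω_le := Om_le U
  Ω_α _ := Om_α U
  Ω_β _ := Om_β U
  Ω_γ _ := Om_γ U
  Ω_π _ := Om_π U
  Ω_κ _ := Om_κ U
  Ω_g := Om_g U hκ
  mart_α _ hx _ hy := mart_α U hx hy
  mart_γ _ hx _ hy := mart_γ U hx hy
  idem _ := idem

end Mod

/-- **Theorem A** -/
theorem thmA {δ : ℝ} (hδ : δ ≤ 1 / 10 ^ 11) {ε : ℝ} (hε : 0 < ε) :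
    ∃ κ > 0, ∀ D : Dat.{u}, D.Near δ → D.kap ≤ κ → Nonempty (D.Sol (10 ^ 9 * δ) ε) := by
  by_contra hc
  push Not at hc
  choose D hD1 hD2 hD3 using fun n : ℕ => hc (1 / ((n : ℝ) + 1)) (by positivity)
  obtain ⟨K, _, _, _, ⟨U⟩⟩ := exists_UPD (hyperfilter ℕ) (Mod.EE D)
  have hκ : Tendsto (fun n => (D n).kap) (hyperfilter ℕ) (𝓝 0) :=
    (squeeze_zero (fun n => Law.E_nonneg _ fun _ _ => by positivity) hD2
      tendsto_one_div_add_atTop_nhds_zero_nat).mono_left Nat.hyperfilter_le_atTop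
  choose p hp1 hp2 using fun n g => (hD1 n g).1
  choose q hq1 hq2 using fun n g => (hD1 n g).2
  have hδ0 : 0 ≤ δ := (norm_nonneg _).trans (hp2 0 1)
  have nb : ∀ {n} {x y : (D n).H →L[ℂ] (D n).H}, ‖x - y‖ ≤ δ → ‖y‖ = 1 → ‖x‖ ≤ δ + 1 :=
    fun {n x y} h h' => by simpa [h'] using (norm_add_le (x - y) y).trans (add_le_add h le_rfl)
  obtain ⟨V, hV, m, hm, y, hy, h1, h2, h3, h4, h5⟩ := (Mod.pre U hκ).sol hδ
    (p := Mod.mk (fun n ξ => p n (ξ 0)) fun n ξ => nb (hp2 n _) (Dat.u_norm _ _))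
    (q := Mod.mk (fun n ξ => q n (ξ 0)⁻¹) fun n ξ => nb (hq2 n _) (Dat.v_norm _ _))
    ⟨fun n ξ => hp1 n _, fun n ξ ξ' e => by rw [Mod.mk_apply, Mod.mk_apply, e 0 rfl]⟩
    ⟨fun n ξ => hq1 n _, fun n ξ ξ' e => by rw [Mod.mk_apply, Mod.mk_apply, e 0 rfl]⟩
    (Mod.norm_le hδ0 fun n ξ => hp2 n _) (Mod.norm_le hδ0 fun n ξ => hq2 n _) (half_pos hε)
  have lt : ∀ {x : ℝ}, 0 ≤ x → x ≤ ε / 2 → x ^ 2 < ε ^ 2 := fun h h' => by nlinarith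
  obtain ⟨n, e1, e2⟩ := (((Mod.Om_sq U _ 1).eventually (gt_mem_nhds (lt (norm_nonneg _) h4))).and
    ((Mod.Om_sq U _ 1).eventually (gt_mem_nhds (lt (norm_nonneg _) h5)))).exists
  have hVc : ∀ ξ, V n ξ = V n 1 := fun ξ => hV.2 n _ _ fun _ h => h.elim
  rw [Law.E_pow_one] at e1 e2
  refine (hD3 n).false ⟨V n 1, fun g => m n (cns g 1), fun g => y n (cns g 1), fun g => hm.1 n _,
    fun g => hy.1 n _, (Mod.norm_apply_le _ n 1).trans h1,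
    fun g => (Mod.norm_apply_le _ n (cns g 1)).trans h2,
    fun g => (Mod.norm_apply_le _ n (cns g 1)).trans h3, le_of_eq_of_le ?_ e1.le,
    le_of_eq_of_le ?_ e2.le⟩
  all_goals
    refine Law.E_congr _ fun g _ => ?_
    simp only [Linf.sub_apply, Linf.mul_apply, hVc (cns g 1)]
    rfl

end

end Crest.Agent.R78
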