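import Crest.Agent.R78.Gau
import Crest.Agent.R78.Reg

/-!
# Row 78, task R78-Toep: strong integrals and Toeplitz matrices.

PLAN.  `sint_apply`: the linear map `ξ ↦ ∫ w t • σ t ξ` is bounded by `c ∫ ‖w‖` (`LinearMap.mkContinuous`).
With `φ_t = colv (fun l => exp (i l θ² t))` one has `Tp σ η = ∫ γ t • φ_t (σ t (φ_t⋆ η))`,
`γ = gauss θ⁻¹ / gz` (`Tp_apply`; coordinates commute with the integral, `L2.proj`,
`ContinuousLinearMap.integral_comp_comm`).  FRAME BOUND (`frame`): `∫ γ ‖φ_t⋆ η‖² = ∑_{l,l'} A l l' re ⟪η l, η l'⟫`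
with `A l l' = e^{-θ²(l-l')²/2}/gz` (`integral_gauss`), `≤ ‖η‖²` by `2 re ⟪x,y⟫ ≤ ‖x‖² + ‖y‖²` and `gz_row`.
`Tp_norm`: `|⟪η, Tp σ ξ⟫| ≤ c ∫ γ ‖φ⋆η‖ ‖φ⋆ξ‖ ≤ c (‖η‖² + ‖ξ‖²)/2` (`mn_le_of_inner`).
`Tp_mem`: commute with `N'` (`mem_ampVN_iff` or entrywise).  `Tp_sa`, `Tp_rel`: from `Tp_apply`/entries.
-/

set_option autoImplicit false

namespace Crest.Agent.R78

open Finset MeasureTheory Crest.Agent.R124 ContinuousLinearMap
open scoped InnerProductSpace ComplexConjugate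

noncomputable section

universe u

variable {H : Type u} [NormedAddCommGroup H] [InnerProductSpace ℂ H] [CompleteSpace H]

open Classical in
/-- strong integral -/
def sint (F : ℝ → H →L[ℂ] H) : H →L[ℂ] H :=
  if h : ∃ T : H →L[ℂ] H, ∀ ξ, T ξ = ∫ t, F t ξ then h.choose else 0

/-- strongly continuous bounded families -/
structure SCB (σ : ℝ → H →L[ℂ] H) (c : ℝ) : Prop where
  cont : ∀ ξ, Continuous fun t => σ t ξ
  le : ∀ t, ‖σ t‖ ≤ c

/-- the density `γ` -/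
def gam (θ : ℝ) (K : ℕ) (t : ℝ) : ℝ := (gz θ K)⁻¹ * gauss θ⁻¹ t

/-- the phases -/
def pha (θ : ℝ) (K : ℕ) (t : ℝ) (l : Fin K) : ℂ :=
  Complex.exp (Complex.I * (((l : ℕ) : ℝ) * θ ^ 2 : ℝ) * t)

/-- the Toeplitz matrix of a family -/
def Tp (θ : ℝ) (K : ℕ) (σ : ℝ → H →L[ℂ] H) : L2 (Fin K) H →L[ℂ] L2 (Fin K) H :=
  mat (Matrix.of fun l l' => sint fun t =>
    ((gam θ K t : ℂ) * Complex.exp (Complex.I * ((((l : ℕ) : ℝ) - (l' : ℕ)) * θ ^ 2 : ℝ) * t)) • σ t)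

variable {θ c : ℝ} {K : ℕ} {σ : ℝ → H →L[ℂ] H}

namespace Toep

theorem int_smul {E : Type*} [NormedAddCommGroup E] [NormedSpace ℂ E] {w : ℝ → ℂ}
    (hw : Continuous w) (hw' : Integrable w) {F : ℝ → E} (hF : Continuous F) {C : ℝ}
    (hC : ∀ t, ‖F t‖ ≤ C) : Integrable fun t => w t • F t :=
  (hw'.norm.mul_const C).mono' (hw.smul hF).aestronglyMeasurable
    (Filter.Eventually.of_forall fun t => by
      rw [norm_smul]; exact mul_le_mul_of_nonneg_left (hC t) (norm_nonneg _))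

theorem gam_nonneg (hθ : 0 < θ) (K : ℕ) (t : ℝ) : 0 ≤ gam θ K t :=
  mul_nonneg (inv_nonneg.2 (gz_pos θ K).le) (gauss_nonneg (inv_pos.2 hθ) t)

theorem continuous_gam (θ : ℝ) (K : ℕ) : Continuous (gam θ K) :=
  continuous_const.mul (continuous_gauss _)

theorem integrable_gam (hθ : 0 < θ) (K : ℕ) : Integrable (gam θ K) :=
  (integrable_gauss (inv_pos.2 hθ)).const_mul _

theorem continuous_gamC (θ : ℝ) (K : ℕ) : Continuous fun t => (gam θ K t : ℂ) :=
  Complex.continuous_ofReal.comp (continuous_gam θ K)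

theorem integrable_gamC (hθ : 0 < θ) (K : ℕ) : Integrable fun t => (gam θ K t : ℂ) :=
  (integrable_gam hθ K).ofReal

theorem norm_cexp (v t : ℝ) : ‖Complex.exp (Complex.I * v * t)‖ = 1 := by
  rw [mul_assoc, ← Complex.ofReal_mul, Complex.norm_exp_I_mul_ofReal]

theorem norm_pha (t : ℝ) (l : Fin K) : ‖pha θ K t l‖ = 1 := norm_cexp _ _

theorem continuous_pha (l : Fin K) : Continuous fun t => pha θ K t l := by
  unfold pha; fun_prop

theorem pha_mul_conj (t : ℝ) (l l' : Fin K) : pha θ K t l * conj (pha θ K t l') =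
    Complex.exp (Complex.I * ((((l : ℕ) : ℝ) - (l' : ℕ)) * θ ^ 2 : ℝ) * t) := by
  rw [pha, pha, ← Complex.exp_conj, ← Complex.exp_add]
  congr 1
  simp only [map_mul, Complex.conj_I, Complex.conj_ofReal]
  push_cast
  ring

theorem continuous_w (θ : ℝ) (K : ℕ) (v : ℝ) :
    Continuous fun t : ℝ => (gam θ K t : ℂ) * Complex.exp (Complex.I * v * t) :=
  (continuous_gamC θ K).mul (by fun_prop)

theorem integrable_w (hθ : 0 < θ) (K : ℕ) (v : ℝ) :
    Integrable fun t : ℝ => (gam θ K t : ℂ) * Complex.exp (Complex.I * v * t) :=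
  int_smul (E := ℂ) (continuous_gamC θ K) (integrable_gamC hθ K) (by fun_prop)
    (fun t => (norm_cexp v t).le)

theorem colv_eq (a : Fin K → ℂ) (v : H) :
    colv a v = ∑ l, a l • adjoint (L2.proj l : L2 (Fin K) H →L[ℂ] H) v := by
  simp [colv, ContinuousLinearMap.sum_apply]

theorem int_col (hθ : 0 < θ) {f : ℝ → H} (hf : Continuous f) {C : ℝ} (hC : ∀ t, ‖f t‖ ≤ C) :
    Integrable fun t => (gam θ K t : ℂ) • colv (pha θ K t) (f t) := by
  refine int_smul (continuous_gamC θ K) (integrable_gamC hθ K) ?_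
    (C := ∑ l, ‖adjoint (L2.proj l : L2 (Fin K) H →L[ℂ] H)‖ * C) fun t => ?_
  · simp only [colv_eq]
    exact continuous_finset_sum _ fun l _ =>
      (continuous_pha l).smul ((adjoint (L2.proj l : L2 (Fin K) H →L[ℂ] H)).continuous.comp hf)
  · rw [colv_eq]
    refine (norm_sum_le _ _).trans (sum_le_sum fun l _ => ?_)
    rw [norm_smul, norm_pha, one_mul]
    exact (le_opNorm _ _).trans (mul_le_mul_of_nonneg_left (hC t) (norm_nonneg _))

theorem norm_adj_le (t : ℝ) (η : L2 (Fin K) H) :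
    ‖adjoint (colv (pha θ K t)) η‖ ≤ ∑ l, ‖η l‖ := by
  rw [adjoint_colv_apply]
  refine (norm_sum_le _ _).trans (sum_le_sum fun l _ => ?_)
  rw [norm_smul, RCLike.norm_conj, norm_pha, one_mul]

theorem continuous_sa (hσ : SCB σ c) (η : L2 (Fin K) H) :
    Continuous fun t => σ t (adjoint (colv (pha θ K t)) η) := by
  simp only [adjoint_colv_apply, map_sum, map_smul]
  exact continuous_finset_sum _ fun l _ =>
    (Complex.continuous_conj.comp (continuous_pha l)).smul (hσ.cont _)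

theorem SCB_nonneg (hσ : SCB σ c) : 0 ≤ c := (norm_nonneg _).trans (hσ.le 0)

theorem norm_sa_le (hσ : SCB σ c) (η : L2 (Fin K) H) (t : ℝ) :
    ‖σ t (adjoint (colv (pha θ K t)) η)‖ ≤ c * ∑ l, ‖η l‖ :=
  (le_opNorm _ _).trans (mul_le_mul (hσ.le t) (norm_adj_le t η) (norm_nonneg _) (SCB_nonneg hσ))

theorem int_Tp (hθ : 0 < θ) (hσ : SCB σ c) (η : L2 (Fin K) H) : Integrable fun t =>
    (gam θ K t : ℂ) • colv (pha θ K t) (σ t (adjoint (colv (pha θ K t)) η)) :=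
  int_col hθ (continuous_sa hσ η) (norm_sa_le hσ η)

theorem SCB_one : SCB (fun _ : ℝ => (1 : H →L[ℂ] H)) 1 :=
  ⟨fun _ => continuous_const, fun _ => norm_id_le⟩

theorem int_app (hσ : SCB σ c) {w : ℝ → ℂ} (hw : Continuous w) (hw' : Integrable w) (ξ : H) :
    Integrable fun t => w t • σ t ξ :=
  int_smul hw hw' (hσ.cont ξ) (C := c * ‖ξ‖) fun t =>
    (le_opNorm _ _).trans (mul_le_mul_of_nonneg_right (hσ.le t) (norm_nonneg _))

end Toep

open Toep

theorem sint_apply (hσ : SCB σ c) {w : ℝ → ℂ} (hw : Continuous w) (hw' : Integrable w) (ξ : H) :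
    sint (fun t => w t • σ t) ξ = ∫ t, w t • σ t ξ := by
  have hex : ∃ T : H →L[ℂ] H, ∀ ξ, T ξ = ∫ t, (w t • σ t) ξ := by
    let T₀ : H →ₗ[ℂ] H :=
      { toFun := fun ξ => ∫ t, w t • σ t ξ
        map_add' := fun ξ η => by
          simp only [map_add, smul_add]
          exact integral_add (int_app hσ hw hw' ξ) (int_app hσ hw hw' η)
        map_smul' := fun a ξ => by
          simp only [map_smul, RingHom.id_apply, smul_comm (w _) a]
          exact integral_smul _ _ }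
    refine ⟨T₀.mkContinuous ((∫ t, ‖w t‖) * c) fun ξ => ?_, fun ξ => rfl⟩
    refine (norm_integral_le_of_norm_le (hw'.norm.mul_const (c * ‖ξ‖))
      (Filter.Eventually.of_forall fun t => ?_)).trans (le_of_eq ?_)
    · rw [norm_smul]
      exact mul_le_mul_of_nonneg_left
        ((le_opNorm _ _).trans (mul_le_mul_of_nonneg_right (hσ.le t) (norm_nonneg _)))
        (norm_nonneg _)
    · rw [integral_mul_const, mul_assoc]
  rw [sint, dif_pos hex]
  exact hex.choose_spec ξ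

theorem Tp_apply (hθ : 0 < θ) (hσ : SCB σ c) (η : L2 (Fin K) H) :
    Tp θ K σ η = ∫ t, (gam θ K t : ℂ) • colv (pha θ K t) (σ t (adjoint (colv (pha θ K t)) η)) := by
  ext l
  have h1 := (L2.proj l : L2 (Fin K) H →L[ℂ] H).integral_comp_comm (int_Tp hθ hσ η)
  simp only [L2.proj_apply] at h1
  rw [← h1, Tp, mat_apply]
  simp only [Matrix.of_apply, sint_apply hσ (continuous_w θ K _) (integrable_w hθ K _)]
  rw [← integral_finset_sum _ fun l' _ => int_app hσ (continuous_w θ K _) (integrable_w hθ K _) _]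
  refine integral_congr_ae (Filter.Eventually.of_forall fun t => ?_)
  beta_reduce
  rw [L2.smul_apply, colv_apply, adjoint_colv_apply]
  simp only [map_sum, map_smul, smul_sum, smul_smul, pha_mul_conj]

namespace Toep

theorem inner_Tp (hθ : 0 < θ) (hσ : SCB σ c) (η ξ : L2 (Fin K) H) :
    ⟪η, Tp θ K σ ξ⟫_ℂ = ∫ t, (gam θ K t : ℂ) *
      ⟪adjoint (colv (pha θ K t)) η, σ t (adjoint (colv (pha θ K t)) ξ)⟫_ℂ := by
  rw [Tp_apply hθ hσ, ← integral_inner (int_Tp hθ hσ ξ)]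
  refine integral_congr_ae (Filter.Eventually.of_forall fun t => ?_)
  simp only [inner_smul_right, adjoint_inner_left]

theorem Tp_one_apply (hθ : 0 < θ) (η : L2 (Fin K) H) (l : Fin K) :
    Tp θ K (fun _ => (1 : H →L[ℂ] H)) η l = ∑ l' : Fin K,
      (((gz θ K)⁻¹ * Real.exp (-(θ ^ 2 * (((l : ℕ) : ℝ) - (l' : ℕ)) ^ 2) / 2) : ℝ) : ℂ) • η l' := by
  rw [Tp, mat_apply]
  refine sum_congr rfl fun l' _ => ?_
  rw [Matrix.of_apply, sint_apply SCB_one (continuous_w θ K _) (integrable_w hθ K _)]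
  simp only [ContinuousLinearMap.one_apply]
  rw [integral_smul_const]
  congr 1
  have := integral_gauss (inv_pos.2 hθ) ((((l : ℕ) : ℝ) - (l' : ℕ)) * θ ^ 2)
  have e : θ⁻¹ ^ 2 * ((((l : ℕ) : ℝ) - (l' : ℕ)) * θ ^ 2) ^ 2 =
      θ ^ 2 * (((l : ℕ) : ℝ) - (l' : ℕ)) ^ 2 := by field_simp
  rw [e] at this
  rw [Complex.ofReal_mul (gz θ K)⁻¹, ← this, ← integral_const_mul]
  refine integral_congr_ae (Filter.Eventually.of_forall fun t => ?_)
  simp only [gam, Complex.ofReal_mul, mul_assoc]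

theorem frame_eq (hθ : 0 < θ) (η : L2 (Fin K) H) :
    ∫ t, gam θ K t * ‖adjoint (colv (pha θ K t)) η‖ ^ 2 =
      (⟪η, Tp θ K (fun _ => (1 : H →L[ℂ] H)) η⟫_ℂ).re := by
  rw [inner_Tp hθ SCB_one]
  rw [← Complex.ofReal_re (∫ t, gam θ K t * ‖adjoint (colv (pha θ K t)) η‖ ^ 2),
    ← integral_complex_ofReal]
  congr 2
  ext t
  rw [ContinuousLinearMap.one_apply, inner_self_eq_norm_sq_to_K]
  push_cast
  rfl

theorem re_inner_one (hθ : 0 < θ) (η : L2 (Fin K) H) :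
    (⟪η, Tp θ K (fun _ => (1 : H →L[ℂ] H)) η⟫_ℂ).re = ∑ l : Fin K, ∑ l' : Fin K,
      ((gz θ K)⁻¹ * Real.exp (-(θ ^ 2 * (((l : ℕ) : ℝ) - (l' : ℕ)) ^ 2) / 2)) *
        (⟪η l, η l'⟫_ℂ).re := by
  rw [L2.inner_apply]
  simp only [Tp_one_apply hθ, inner_sum, inner_smul_right, Complex.re_sum, Complex.re_ofReal_mul]

end Toep

theorem frame_integrable (hθ : 0 < θ) (η : L2 (Fin K) H) :
    Integrable fun t => gam θ K t * ‖adjoint (colv (pha θ K t)) η‖ ^ 2 := by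
  refine ((integrable_gam hθ K).mul_const ((∑ l, ‖η l‖) ^ 2)).mono'
    ((continuous_gam θ K).mul ((continuous_sa SCB_one η).norm.pow 2)).aestronglyMeasurable
    (Filter.Eventually.of_forall fun t => ?_)
  rw [Real.norm_of_nonneg (mul_nonneg (gam_nonneg hθ K t) (by positivity))]
  exact mul_le_mul_of_nonneg_left (pow_le_pow_left₀ (norm_nonneg _) (norm_adj_le t η) 2)
    (gam_nonneg hθ K t)

theorem frame (hθ : 0 < θ) (η : L2 (Fin K) H) :
    ∫ t, gam θ K t * ‖adjoint (colv (pha θ K t)) η‖ ^ 2 ≤ ‖η‖ ^ 2 := by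
  rw [frame_eq hθ, re_inner_one hθ]
  obtain ⟨A, hA⟩ : ∃ A : Fin K → Fin K → ℝ, A = fun l l' : Fin K =>
    (gz θ K)⁻¹ * Real.exp (-(θ ^ 2 * (((l : ℕ) : ℝ) - (l' : ℕ)) ^ 2) / 2) := ⟨_, rfl⟩
  have hA0 : ∀ l l', 0 ≤ A l l' := fun l l' => by
    rw [hA]; exact mul_nonneg (inv_nonneg.2 (gz_pos θ K).le) (Real.exp_pos _).le
  have hAs : ∀ l l', A l l' = A l' l := fun l l' => by
    rw [hA]; dsimp only; congr 4; ring
  have hA1 : ∀ l, ∑ l', A l l' ≤ 1 := fun l => by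
    rw [hA]; dsimp only
    rw [← mul_sum, inv_mul_le_iff₀ (gz_pos θ K), mul_one]
    exact gz_row θ l
  have e : ∀ l l' : Fin K, (gz θ K)⁻¹ * Real.exp (-(θ ^ 2 * (((l : ℕ) : ℝ) - (l' : ℕ)) ^ 2) / 2)
      = A l l' := fun l l' => by rw [hA]
  simp only [e]
  have h1 : ∑ l, ∑ l', A l l' * ‖η l‖ ^ 2 ≤ ‖η‖ ^ 2 := by
    rw [L2.norm_sq]
    refine sum_le_sum fun l _ => ?_
    rw [← sum_mul]
    exact mul_le_of_le_one_left (by positivity) (hA1 l)
  have h2 : ∑ l, ∑ l', A l l' * ‖η l'‖ ^ 2 ≤ ‖η‖ ^ 2 := by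
    rw [sum_comm]
    exact (le_of_eq (sum_congr rfl fun l _ => sum_congr rfl fun l' _ => by rw [hAs])).trans h1
  calc ∑ l, ∑ l', A l l' * (⟪η l, η l'⟫_ℂ).re
      ≤ ∑ l, ∑ l', (A l l' * ‖η l‖ ^ 2 + A l l' * ‖η l'‖ ^ 2) / 2 := by
        refine sum_le_sum fun l _ => sum_le_sum fun l' _ => ?_
        have a1 : (⟪η l, η l'⟫_ℂ).re ≤ ‖η l‖ * ‖η l'‖ := re_inner_le_norm (𝕜 := ℂ) _ _
        have a2 : (⟪η l, η l'⟫_ℂ).re ≤ (‖η l‖ ^ 2 + ‖η l'‖ ^ 2) / 2 := by
          nlinarith [sq_nonneg (‖η l‖ - ‖η l'‖)]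
        have := mul_le_mul_of_nonneg_left a2 (hA0 l l')
        linarith
    _ = ((∑ l, ∑ l', A l l' * ‖η l‖ ^ 2) + ∑ l, ∑ l', A l l' * ‖η l'‖ ^ 2) / 2 := by
        simp only [← sum_div, sum_add_distrib]
    _ ≤ ‖η‖ ^ 2 := by linarith

theorem Tp_norm (hθ : 0 < θ) (hσ : SCB σ c) : ‖Tp θ K σ‖ ≤ c := by
  have hc := SCB_nonneg hσ
  refine mn_le_of_inner hc fun ξ η hξ hη => ?_
  change ‖⟪η, Tp θ K σ ξ⟫_ℂ‖ ≤ c
  rw [inner_Tp hθ hσ]
  refine (norm_integral_le_of_norm_le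
    (((frame_integrable hθ η).add (frame_integrable hθ ξ)).const_mul (c / 2))
    (Filter.Eventually.of_forall fun t => ?_)).trans ?_
  · rw [norm_mul, Complex.norm_real, Real.norm_of_nonneg (gam_nonneg hθ K t), Pi.add_apply]
    have a1 := norm_inner_le_norm (𝕜 := ℂ) (adjoint (colv (pha θ K t)) η)
      (σ t (adjoint (colv (pha θ K t)) ξ))
    have a2 : ‖σ t (adjoint (colv (pha θ K t)) ξ)‖ ≤ c * ‖adjoint (colv (pha θ K t)) ξ‖ :=
      (le_opNorm _ _).trans (mul_le_mul_of_nonneg_right (hσ.le t) (norm_nonneg _))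
    have a3 := mul_le_mul_of_nonneg_left a2 (norm_nonneg (adjoint (colv (pha θ K t)) η))
    have a4 := mul_le_mul_of_nonneg_left
      (two_mul_le_add_sq ‖adjoint (colv (pha θ K t)) η‖ ‖adjoint (colv (pha θ K t)) ξ‖) hc
    have a5 : ‖⟪adjoint (colv (pha θ K t)) η, σ t (adjoint (colv (pha θ K t)) ξ)⟫_ℂ‖ ≤
        c / 2 * (‖adjoint (colv (pha θ K t)) η‖ ^ 2 + ‖adjoint (colv (pha θ K t)) ξ‖ ^ 2) := by
      nlinarith
    have := mul_le_mul_of_nonneg_left a5 (gam_nonneg hθ K t)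
    linarith
  · simp only [Pi.add_apply]
    rw [integral_const_mul, integral_add (frame_integrable hθ η) (frame_integrable hθ ξ)]
    have a1 := frame hθ η
    have a2 := frame hθ ξ
    have a3 : ‖η‖ ^ 2 ≤ 1 := pow_le_one₀ (norm_nonneg _) hη
    have a4 : ‖ξ‖ ^ 2 ≤ 1 := pow_le_one₀ (norm_nonneg _) hξ
    nlinarith

theorem Tp_mem (hθ : 0 < θ) (hσ : SCB σ c) {N : VonNeumannAlgebra H} (h : ∀ t, σ t ∈ N) :
    Tp θ K σ ∈ ampVN (Fin K) N := by
  refine mat_mem_ampVN fun l l' => ?_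
  rw [← N.commutant_commutant, VonNeumannAlgebra.mem_commutant_iff]
  intro y hy
  ext ξ
  simp only [Matrix.of_apply, mul_apply_eq_comp,
    sint_apply hσ (continuous_w θ K _) (integrable_w hθ K _)]
  rw [← y.integral_comp_comm (int_app hσ (continuous_w θ K _) (integrable_w hθ K _) ξ)]
  refine integral_congr_ae (Filter.Eventually.of_forall fun t => ?_)
  have := congrArg (fun T : H →L[ℂ] H => T ξ) (VonNeumannAlgebra.mem_commutant_iff.1 hy _ (h t))
  simp only [mul_apply_eq_comp] at this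
  simp only [map_smul, this]

theorem Tp_sa (hθ : 0 < θ) (hσ : SCB σ c) (h : ∀ t, IsSelfAdjoint (σ t)) :
    IsSelfAdjoint (Tp θ K σ) := by
  rw [isSelfAdjoint_iff_isSymmetric]
  intro ξ η
  change ⟪Tp θ K σ ξ, η⟫_ℂ = ⟪ξ, Tp θ K σ η⟫_ℂ
  rw [← inner_conj_symm, inner_Tp hθ hσ, inner_Tp hθ hσ, ← integral_conj]
  refine integral_congr_ae (Filter.Eventually.of_forall fun t => ?_)
  simp only [map_mul, Complex.conj_ofReal, inner_conj_symm]
  congr 1
  exact (isSelfAdjoint_iff_isSymmetric.1 (h t)) _ _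

theorem Tp_rel (hθ : 0 < θ) {I : Type*} [Fintype I] {σ : I → ℝ → H →L[ℂ] H} (hσ : ∀ i, SCB (σ i) c)
    {a : I → ℂ} (h : ∀ t, ∑ i, a i • σ i t = 0) : ∑ i, a i • Tp θ K (σ i) = 0 := by
  ext1 η
  rw [ContinuousLinearMap.sum_apply, zero_apply]
  simp only [smul_apply, Tp_apply hθ (hσ _), ← integral_smul]
  rw [← integral_finset_sum (f := fun i t => a i • (gam θ K t : ℂ) • colv (pha θ K t)
    (σ i t (adjoint (colv (pha θ K t)) η))) _ fun i _ => (int_Tp hθ (hσ i) η).smul (a i)]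
  have : ∀ t, ∑ i, a i • (gam θ K t : ℂ) • colv (pha θ K t) (σ i t (adjoint (colv (pha θ K t)) η))
      = 0 := fun t => by
    have h1 := congrArg (fun T : H →L[ℂ] H =>
      (gam θ K t : ℂ) • colv (pha θ K t) (T (adjoint (colv (pha θ K t)) η))) (h t)
    simp only [ContinuousLinearMap.sum_apply, smul_apply, map_sum, map_smul, smul_sum, zero_apply,
      map_zero, smul_zero] at h1
    simpa only [smul_comm (a _)] using h1
  simp only [this, integral_zero]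

end

end Crest.Agent.R78
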