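import Crest.Agent.R78.TomSolve

/-!
# Row 78, task R78-TomMain: Tomita's theorem.

PLAN.  `T = fc R tfun`, `J T = S = T J` (`fc_conj`).
* `inner_J_real`: for `k_i = a_i Ω`, `a_i = a_i⋆ ∈ N`: `T J k = S k = (2 - R) k` ⇒ `α J k = β k` with
  `α = fc √r`, `β = fc √(2-r)` (cancel the injective `β`).  `exists_zeta`: `ζ = (α k + β J k)/2` has
  `α ζ = k`, `β ζ = J k`, and `‖ζ‖² = (‖k‖² + ‖J k‖²)/2`.  So `⟪k₁, J k₂⟫ = ⟪J k₁, k₂⟫`.
* `cj_mem`: by (conjugate) linearity `⟪Ω, y J x Ω⟫ = ⟪x J y Ω, Ω⟫` for all `x, y ∈ N` (check the side of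
  the conjugation).  Replace `y` by `y (J y' J)`, `y' ∈ N'` (in `N` by `U_cj_mem` at `t = 0`); density of
  `N' Ω` gives `x⋆ (J y⋆ J) Ω = (J y⋆ J) x⋆ Ω`; apply this to `x z` and `z` and use density of `N Ω`.
* `U_mem`: `x = J (J x J) J`.
-/

set_option autoImplicit false

open MeasureTheory Set
open scoped InnerProductSpace

namespace Crest.Agent.R78

variable {H : Type*} [NormedAddCommGroup H] [InnerProductSpace ℂ H] [CompleteSpace H]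
  {N : VonNeumannAlgebra H} {Ω : H} (m : TMod N Ω)

open TomModAux TomAux

theorem TMod.J_norm (ξ : H) : ‖m.J ξ‖ = ‖ξ‖ := by
  rw [@norm_eq_sqrt_re_inner ℂ, m.J_inner, ← @norm_eq_sqrt_re_inner ℂ]

theorem TMod.inner_J (ξ η : H) : ⟪ξ, m.J η⟫_ℂ = ⟪η, m.J ξ⟫_ℂ := by
  conv_lhs => rw [← m.J_J ξ, m.J_inner]

theorem TMod.J_inner' (ξ η : H) : ⟪m.J ξ, η⟫_ℂ = ⟪m.J η, ξ⟫_ℂ := by
  conv_lhs => rw [← m.J_J η, m.J_inner]

theorem TMod.star_cj (x : H →L[ℂ] H) : star (m.cj x) = m.cj (star x) := by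
  ext v
  refine ext_inner_left ℂ fun u => ?_
  rw [adj, TMod.cj_apply, TMod.cj_apply, m.J_inner', m.inner_J u, adj']

theorem TMod.cj_cj (x : H →L[ℂ] H) : m.cj (m.cj x) = x := by
  ext v
  simp only [TMod.cj_apply, m.J_J]

theorem TMod.norm_cj_le (x : H →L[ℂ] H) : ‖m.cj x‖ ≤ ‖x‖ :=
  ContinuousLinearMap.opNorm_le_bound _ (norm_nonneg _) fun v => by
    rw [TMod.cj_apply, m.J_norm, ← m.J_norm v]; exact x.le_opNorm _

theorem cont_sqrt : ContinuousOn (fun r : ℝ => ((√r : ℝ) : ℂ)) (Icc 0 2) := by fun_prop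

theorem cont_sqrt' : ContinuousOn (fun r : ℝ => ((√(2 - r) : ℝ) : ℂ)) (Icc 0 2) := by fun_prop

theorem fc_real_adj {R : H →L[ℂ] H} (h : In02 R) (f : ℝ → ℝ) (u v : H) :
    ⟪fc R (fun r => f r) u, v⟫_ℂ = ⟪u, fc R (fun r => f r) v⟫_ℂ := by
  rw [← adj, fc_star h]
  simp only [Complex.conj_ofReal]

theorem TMod.exists_zeta {a : H →L[ℂ] H} (ha : a ∈ N) (has : IsSelfAdjoint a) :
    ∃ ζ, ‖ζ‖ ≤ ‖a Ω‖ ∧ fc m.R (fun r => (√r : ℝ)) ζ = a Ω ∧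
      fc m.R (fun r => (√(2 - r) : ℝ)) ζ = m.J (a Ω) := by
  have h := m.in02
  have αs := fc_real_adj h fun r => √r
  have βs := fc_real_adj h fun r => √(2 - r)
  have αβ : ∀ v, fc m.R (fun r => (√r : ℝ)) (fc m.R (fun r => (√(2 - r) : ℝ)) v) =
      fc m.R (fun r => (√(2 - r) : ℝ)) (fc m.R (fun r => (√r : ℝ)) v) := fun v =>
    congrArg (fun A : H →L[ℂ] H => A v) (fc_commute h _ _)
  have βα : ∀ v, fc m.R (fun r => (√(2 - r) : ℝ)) (fc m.R (fun r => (√r : ℝ)) v) =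
      fc m.R tfun v := fun v => by
    rw [← mul_apply_eq_comp, ← fc_mul h cont_sqrt' cont_sqrt]
    congr 1
    refine fc_congr h fun r hr => ?_
    rw [tfun, Real.sqrt_mul hr.1, Complex.ofReal_mul, mul_comm]
  have αα : ∀ v, fc m.R (fun r => (√r : ℝ)) (fc m.R (fun r => (√r : ℝ)) v) = m.R v := fun v => by
    rw [← mul_apply_eq_comp, ← fc_mul h cont_sqrt cont_sqrt,
      fc_congr h (g := fun r => r) fun r hr => by
        rw [← Complex.ofReal_mul, Real.mul_self_sqrt hr.1], fc_id h]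
  have ββ : ∀ v, fc m.R (fun r => (√(2 - r) : ℝ)) (fc m.R (fun r => (√(2 - r) : ℝ)) v) =
      (2 - m.R) v := fun v => by
    rw [← mul_apply_eq_comp, ← fc_mul h cont_sqrt' cont_sqrt',
      fc_congr h (g := fun r => 2 - r) fun r hr => by
        rw [← Complex.ofReal_mul, Real.mul_self_sqrt (by linarith [hr.2])]; push_cast; rfl,
      fc_sub h (by fun_prop) (by fun_prop), fc_id h, fc_const h, two_smul, one_add_one_eq_two]
  generalize fc m.R (fun r => (√r : ℝ)) = α at *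
  generalize fc m.R (fun r => (√(2 - r) : ℝ)) = β at *
  have two : ∀ v, (2 - m.R) v = v + v - m.R v := fun v => by
    rw [sub_apply, ← one_add_one_eq_two, add_apply]; rfl
  have e : α (m.J (a Ω)) = β (a Ω) := by
    have h1 : β (α (m.J (a Ω))) = β (β (a Ω)) := by
      rw [βα, m.T_J, m.S_N a ha, has.star_eq, ββ]
    exact m.R2_inj (by rw [← ββ, h1, ββ])
  have e1 : α ((2⁻¹ : ℂ) • (α (a Ω) + β (m.J (a Ω)))) = a Ω := by
    rw [map_smul, map_add, αα, αβ, e, ββ, two]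
    module
  have e2 : β ((2⁻¹ : ℂ) • (α (a Ω) + β (m.J (a Ω)))) = m.J (a Ω) := by
    rw [map_smul, map_add, ββ, ← αβ, ← e, αα, two]
    module
  refine ⟨_, ?_, e1, e2⟩
  generalize (2⁻¹ : ℂ) • (α (a Ω) + β (m.J (a Ω))) = ζ at *
  have h1 : ⟪α ζ, α ζ⟫_ℂ + ⟪β ζ, β ζ⟫_ℂ = ⟪ζ, ζ⟫_ℂ + ⟪ζ, ζ⟫_ℂ := by
    rw [αs, βs, αα, ββ, two, inner_sub_right, inner_add_right]; ring
  rw [e1, e2, m.J_inner] at h1
  have h2 := congrArg Complex.re h1
  have h3 : ∀ v : H, (⟪v, v⟫_ℂ).re = ‖v‖ ^ 2 := fun v => inner_self_eq_norm_sq (𝕜 := ℂ) v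
  simp only [Complex.add_re, h3] at h2
  exact (pow_le_pow_iff_left₀ (norm_nonneg _) (norm_nonneg _) two_ne_zero).1 (by linarith)

theorem TMod.inner_J_sa {a b : H →L[ℂ] H} (ha : a ∈ N) (has : IsSelfAdjoint a) (hb : b ∈ N)
    (hbs : IsSelfAdjoint b) : ⟪a Ω, m.J (b Ω)⟫_ℂ = ⟪m.J (a Ω), b Ω⟫_ℂ := by
  obtain ⟨ζ, -, h1, h2⟩ := m.exists_zeta ha has
  obtain ⟨ζ', -, h3, h4⟩ := m.exists_zeta hb hbs
  rw [← h4, ← h2, ← h1, ← h3, fc_real_adj m.in02, fc_real_adj m.in02]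
  exact congrArg (fun A : H →L[ℂ] H => ⟪ζ, A ζ'⟫_ℂ) (fc_commute m.in02 _ _)

theorem TMod.inner_J_gen {x y : H →L[ℂ] H} (hx : x ∈ N) (hy : y ∈ N) :
    ⟪y Ω, m.J (x Ω)⟫_ℂ = ⟪m.J (star y Ω), star x Ω⟫_ℂ := by
  obtain ⟨x₁, h₁, x₂, h₂, s₁, s₂, rfl⟩ := exists_sa_decomp _ hx
  obtain ⟨y₁, k₁, y₂, k₂, t₁, t₂, rfl⟩ := exists_sa_decomp _ hy
  simp only [star_add, star_smul, s₁.star_eq, s₂.star_eq, t₁.star_eq, t₂.star_eq, add_apply,
    smul_apply, map_add, map_smulₛₗ, inner_add_left, inner_add_right, inner_smul_left,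
    inner_smul_right, m.inner_J_sa k₁ t₁ h₁ s₁, m.inner_J_sa k₁ t₁ h₂ s₂, m.inner_J_sa k₂ t₂ h₁ s₁,
    m.inner_J_sa k₂ t₂ h₂ s₂]
  simp

theorem TMod.cj_mem (h : Cyc N Ω) (h' : Cyc N.commutant Ω) {x : H →L[ℂ] H} (hx : x ∈ N) :
    m.cj x ∈ N.commutant := by
  have key : ∀ z ∈ N, m.cj x (z Ω) = z (m.cj x Ω) := fun z hz => by
    refine Dense.eq_of_inner_left ℂ h' ?_
    rintro _ ⟨y, hy, rfl⟩
    have hw : m.cj y ∈ N := by simpa [m.U_zero] using m.U_cj_mem h' hy 0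
    have := m.inner_J_gen hz (mul_mem (star_mem hx) hw)
    rw [star_mul, star_star, m.star_cj] at this
    simp only [mul_apply_eq_comp, TMod.cj_apply, m.J_J, m.J_Ω] at this ⊢
    rw [adj', adj', m.J_inner', ← comm_apply (star_mem hz) hy, adj] at this
    exact this
  rw [VonNeumannAlgebra.mem_commutant_iff]
  intro a ha
  ext ξ
  refine Dense.induction h (P := fun ξ => a (m.cj x ξ) = m.cj x (a ξ)) ?_
    (isClosed_eq (by fun_prop) (by fun_prop)) ξ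
  rintro _ ⟨z, hz, rfl⟩
  rw [key z hz]
  exact (key _ (mul_mem ha hz)).symm

theorem TMod.U_mem (h : Cyc N Ω) (h' : Cyc N.commutant Ω) {x : H →L[ℂ] H} (hx : x ∈ N) (t : ℝ) :
    m.U t * x * m.U (-t) ∈ N := by
  have := m.U_cj_mem h' (m.cj_mem h h' hx) t
  rwa [m.cj_cj] at this

end Crest.Agent.R78
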