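import Crest.Agent.R78.TomPre
import Crest.Agent.R78.TomMain

/-!
# Row 78, task R78-TomCyc: the modular package for a cyclic and separating vector.

PLAN.  `exists_MP_cyc`: `e = 1`, `s t x = U t x U (-t)`, `s' t x = J (s t x) J` (`star (cj x) = cj (star x)`
from `J_inner`, `J_J`).  `s t x Ω = U t (x Ω)`, `s' t x Ω = U t (J (x Ω))`; with `ζ` from `exists_zeta` the
integral in `kap` is `fc R (gmul T v * (√r - e^{v/2} √(2-r))) ζ` (`integral_U`), and for `0 < r < 2`,
`√(2 - r) = e^{tau r / 2} √r`, `r ≤ 2`; use `fc_sum_sq_le`.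
-/

set_option autoImplicit false

open ContinuousLinearMap MeasureTheory Set Filter Topology

namespace Crest.Agent.R78

universe u

variable {H : Type u} [NormedAddCommGroup H] [InnerProductSpace ℂ H] [CompleteSpace H]

open TomModAux TomAux

theorem TMod.cont_U {N : VonNeumannAlgebra H} {Ω : H} (m : TMod N Ω) {v : ℝ → H}
    (hv : Continuous v) : Continuous fun t => m.U t (v t) := by
  refine continuous_iff_continuousAt.2 fun t₀ => ?_
  have h1 : Tendsto (fun t => m.U t (v t) - m.U t (v t₀)) (𝓝 t₀) (𝓝 0) := by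
    rw [tendsto_zero_iff_norm_tendsto_zero]
    simp only [← map_sub, m.U_norm]
    exact tendsto_iff_norm_sub_tendsto_zero.1 (hv.tendsto t₀)
  simpa [ContinuousAt] using h1.add ((m.U_cont (v t₀)).tendsto t₀)

theorem sqrt_tau {r : ℝ} (h0 : 0 < r) (h2 : r < 2) : √(2 - r) = Real.exp (tau r / 2) * √r := by
  have h2' : 0 < 2 - r := by linarith
  have e1 : Real.exp (tau r / 2) ^ 2 = (2 - r) / r := by
    rw [sq, ← Real.exp_add, add_halves, tau, Real.exp_log (by positivity)]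
  rw [Real.sqrt_eq_iff_mul_self_eq_of_pos (by positivity), ← sq, mul_pow, e1, Real.sq_sqrt h0.le]
  field_simp

theorem exists_MP_cyc {N : VonNeumannAlgebra H} {Ω : H} (h : Cyc N Ω) (h' : Cyc N.commutant Ω) :
    ∃ m : MP N Ω, m.e = 1 := by
  obtain ⟨p⟩ := exists_TPre h h'
  obtain ⟨m, -⟩ := p.exists_mod
  have hn : ∀ (t : ℝ) (x : H →L[ℂ] H), ‖m.U t * x * m.U (-t)‖ ≤ ‖x‖ := fun t x =>
    opNorm_le_bound _ (norm_nonneg _) fun v => by
      rw [mul_apply_eq_comp, mul_apply_eq_comp, m.U_norm, ← m.U_norm (-t) v]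
      exact x.le_opNorm _
  have hs : ∀ (t : ℝ) (x : H →L[ℂ] H), m.U t * star x * m.U (-t) = star (m.U t * x * m.U (-t)) :=
    fun t x => by rw [star_mul, star_mul, m.U_star, m.U_star, neg_neg, mul_assoc]
  have hc : ∀ (x : H →L[ℂ] H) ξ, Continuous fun t => (m.U t * x * m.U (-t)) ξ := fun x ξ =>
    m.cont_U (x.continuous.comp ((m.U_cont ξ).comp continuous_neg))
  refine ⟨⟨1, fun t x => m.U t * x * m.U (-t), fun t x => m.cj (m.U t * x * m.U (-t)),
    IsStarProjection.one _, one_mem _, fun _ _ => rfl, fun t x hx => m.U_mem h h' hx t,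
    fun t x _ => hn t x, fun t x _ y _ => by rw [mul_add, add_mul],
    fun t c x _ => by rw [mul_smul_comm, smul_mul_assoc], fun t x _ => hs t x,
    fun x _ ξ => hc x ξ, fun x _ => by simp [m.U_zero],
    fun t x hx => m.cj_mem h h' (m.U_mem h h' hx t), fun t x _ => (m.norm_cj_le _).trans (hn t x),
    fun t x _ hx => by rw [IsSelfAdjoint, m.star_cj, ← hs, hx.star_eq],
    fun x _ ξ => m.J.continuous.comp (hc x _), ?_⟩, rfl⟩
  intro x hx hxs T hT V B hB
  obtain ⟨ζ, h1, h2, h3⟩ := m.exists_zeta hx hxs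
  have hB0 : 0 ≤ B := (Finset.sum_nonneg fun _ _ => sq_nonneg _).trans (hB 0)
  have cF : ∀ v : ℝ, ContinuousOn
      (fun r : ℝ => ((√r : ℝ) : ℂ) - (Real.exp (v / 2) : ℝ) * (√(2 - r) : ℝ)) (Icc 0 2) :=
    fun v => by fun_prop
  have e : ∀ v : ℝ, ∫ t : ℝ, ((gauss T t : ℂ) * Complex.exp (Complex.I * v * t)) •
      ((m.U t * x * m.U (-t)) Ω - (Real.exp (v / 2) : ℂ) • m.cj (m.U t * x * m.U (-t)) Ω) =
      fc m.R (fun r => gmul T v r * ((√r : ℝ) - (Real.exp (v / 2) : ℝ) * (√(2 - r) : ℝ))) ζ := by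
    intro v
    rw [fc_mul m.in02 (continuousOn_gmul hT v) (cF v), fc_sub m.in02 cont_sqrt (by fun_prop),
      fc_smul m.in02 cont_sqrt', mul_apply_eq_comp, sub_apply, smul_apply, h2, h3,
      ← m.integral_U hT]
    simp only [mul_apply_eq_comp, TMod.cj_apply, m.J_Ω, m.U_Ω, m.U_J, map_sub, map_smul]
  simp only [e]
  refine (fc_sum_sq_le m.in02 V _ (fun v _ => (continuousOn_gmul hT v).fun_mul (cF v))
    (B := 2 * B) (fun r hr => ?_) ζ).trans (mul_le_mul_of_nonneg_left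
      (pow_le_pow_left₀ (norm_nonneg _) (h1.trans (x.le_opNorm _)) 2) (by positivity))
  by_cases hr' : 0 < r ∧ r < 2
  · refine le_trans ?_ (mul_le_mul_of_nonneg_left (hB (tau r)) zero_le_two)
    rw [Finset.mul_sum]
    refine Finset.sum_le_sum fun v _ => ?_
    rw [gmul, if_pos hr', sqrt_tau hr'.1 hr'.2, ← Complex.ofReal_mul, ← Complex.ofReal_sub,
      ← Complex.ofReal_mul, Complex.norm_real, Real.norm_eq_abs, sq_abs, add_div, Real.exp_add]
    generalize Real.exp (-(T ^ 2 * (tau r + v) ^ 2) / 2) = A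
    have e2 : (A * (√r - Real.exp (v / 2) * (Real.exp (tau r / 2) * √r))) ^ 2 =
        √r ^ 2 * ((1 - Real.exp (tau r / 2) * Real.exp (v / 2)) * A) ^ 2 := by ring
    rw [e2, Real.sq_sqrt hr.1]
    exact mul_le_mul_of_nonneg_right hr.2 (sq_nonneg _)
  · simp [gmul, hr', hB0]

end Crest.Agent.R78
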