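import Mathlib

/-! # Row 78: small auxiliary facts on von Neumann algebras. -/

set_option autoImplicit false

open scoped InnerProductSpace

namespace Crest.Agent.R78.TomAux

variable {H : Type*} [NormedAddCommGroup H] [InnerProductSpace ℂ H] [CompleteSpace H]

theorem vn_smul_mem {M : VonNeumannAlgebra H} (c : ℂ) {b : H →L[ℂ] H} (hb : b ∈ M) : c • b ∈ M :=
  M.toStarSubalgebra.smul_mem hb c

theorem exists_sa_decomp (M : VonNeumannAlgebra H) {b : H →L[ℂ] H} (hb : b ∈ M) :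
    ∃ b₁ ∈ M, ∃ b₂ ∈ M, IsSelfAdjoint b₁ ∧ IsSelfAdjoint b₂ ∧ b = b₁ + Complex.I • b₂ := by
  refine ⟨(2⁻¹ : ℂ) • (b + star b), ?_, (-(Complex.I) * 2⁻¹ : ℂ) • (b - star b), ?_, ?_, ?_, ?_⟩
  · exact vn_smul_mem _ (add_mem hb (star_mem hb))
  · exact vn_smul_mem _ (sub_mem hb (star_mem hb))
  · rw [IsSelfAdjoint, star_smul, star_add, star_star, add_comm]; simp
  · rw [IsSelfAdjoint, star_smul, star_sub, star_star]
    have : star (-(Complex.I) * 2⁻¹ : ℂ) = -(-(Complex.I) * 2⁻¹) := by simp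
    rw [this, neg_smul, ← smul_neg, neg_sub]
  · rw [smul_smul]
    have : Complex.I * (-(Complex.I) * 2⁻¹) = 2⁻¹ := by
      have := Complex.I_mul_I
      linear_combination (-2⁻¹) * this
    rw [this, ← smul_add]
    have : b + star b + (b - star b) = (2 : ℂ) • b := by rw [two_smul]; abel
    rw [this, smul_smul]; simp

theorem adj (T : H →L[ℂ] H) (u v : H) : ⟪u, star T v⟫_ℂ = ⟪T u, v⟫_ℂ := by
  rw [ContinuousLinearMap.star_eq_adjoint, ContinuousLinearMap.adjoint_inner_right]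

theorem adj' (T : H →L[ℂ] H) (u v : H) : ⟪star T u, v⟫_ℂ = ⟪u, T v⟫_ℂ := by
  rw [ContinuousLinearMap.star_eq_adjoint, ContinuousLinearMap.adjoint_inner_left]

theorem comm_apply {N : VonNeumannAlgebra H} {a y : H →L[ℂ] H} (ha : a ∈ N)
    (hy : y ∈ N.commutant) (ξ : H) : a (y ξ) = y (a ξ) :=
  congrArg (fun T : H →L[ℂ] H => T ξ) (VonNeumannAlgebra.mem_commutant_iff.1 hy a ha)

end Crest.Agent.R78.TomAux
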