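import Crest.Agent.R78.TomDef
import Crest.Agent.R78.TomPre_A

/-!
# Row 78, task R78-TomMod: construction of `J` and `U t = Δ^{it}`.

PLAN.  `T = fc R tfun` is self-adjoint, `T² = R (2 - R)` injective, so `T` has dense range.
`‖S ξ‖² = ⟪ξ, S S ξ⟫ = ‖T ξ‖²`; `J := LinearMap.extendOfNorm` (semilinear version) with `J (T ξ) = S ξ`.
`S T = T S` (`fc_conj` for `S`), hence `J T = T J`, `T J J T = S S = T T` ⇒ `J J = 1`.  `R Ω = Ω = S Ω` from
`proj` with `a = b = 1`; `T Ω = Ω` (`fc_eigen`).  `g t r = tfun r * exp (I t tau r)` is continuous on `[0,2]`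
(`cont_mul_exp`), `‖fc R (g t) ξ‖ = ‖T ξ‖`; `U t` extends `T ξ ↦ fc R (g t) ξ`.  All identities are checked
on the dense range of `T` (or `T²`).  Strong continuity: `‖g t r - g s r‖ ≤ |t - s| sup tfun·|tau|`, or joint
continuity + compactness, on the range of `T`; then `‖U t‖ ≤ 1`.  `tau (2 - r) = - tau r` gives `U_J`.
`integral_U`: on the range of `T` use `fc_integral` and `integral_gauss`; both sides are bounded
operators of `ξ`.
-/

set_option autoImplicit false

open MeasureTheory Set Filter Topology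
open scoped InnerProductSpace ComplexConjugate

namespace Crest.Agent.R78

variable {H : Type*} [NormedAddCommGroup H] [InnerProductSpace ℂ H] [CompleteSpace H]

namespace TomModAux

theorem continuousAt_tau {r : ℝ} (h0 : 0 < r) (h2 : r < 2) : ContinuousAt tau r := by
  unfold tau
  refine ContinuousAt.log (by fun_prop (disch := exact h0.ne')) ?_
  exact (div_pos (by linarith) h0).ne'

theorem tau_two_sub (r : ℝ) : tau (2 - r) = -tau r := by
  unfold tau
  rw [← Real.log_inv, inv_div, sub_sub_cancel]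

theorem norm_exp_tau (t r : ℝ) : ‖Complex.exp (Complex.I * t * tau r)‖ = 1 := by
  rw [Complex.norm_exp]; simp

theorem continuous_tfun : Continuous tfun := by unfold tfun; fun_prop

theorem tfun_zero : tfun 0 = 0 := by simp [tfun]
theorem tfun_two : tfun 2 = 0 := by simp [tfun]
theorem tfun_one : tfun 1 = 1 := by simp [tfun]; norm_num
theorem conj_tfun (r : ℝ) : conj (tfun r) = tfun r := by simp [tfun]
theorem tfun_two_sub (r : ℝ) : tfun (2 - r) = tfun r := by
  unfold tfun; rw [sub_sub_cancel, mul_comm]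

theorem tfun_sq {r : ℝ} (hr : r ∈ Icc (0 : ℝ) 2) : tfun r * tfun r = r * (2 - r) := by
  unfold tfun
  rw [← Complex.ofReal_mul, Real.mul_self_sqrt (mul_nonneg hr.1 (by linarith [hr.2]))]
  push_cast; ring

theorem norm_tfun_le (r : ℝ) : ‖tfun r‖ ≤ 1 := by
  unfold tfun
  rw [Complex.norm_real, Real.norm_eq_abs, abs_of_nonneg (Real.sqrt_nonneg _), Real.sqrt_le_one]
  nlinarith [sq_nonneg (r - 1)]

theorem denseRange_of_inj {T : H →L[ℂ] H} (hs : star T = T) (hi : Function.Injective T) :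
    DenseRange T := by
  have : Dense ((LinearMap.range (T : H →ₗ[ℂ] H) : Submodule ℂ H) : Set H) := by
    rw [Submodule.dense_iff_topologicalClosure_eq_top, Submodule.topologicalClosure_eq_top_iff,
      eq_bot_iff]
    intro ξ hξ
    rw [Submodule.mem_orthogonal] at hξ
    have h1 := hξ (T (T ξ)) ⟨T ξ, rfl⟩
    rw [← TomAux.adj, hs, inner_self_eq_zero] at h1
    exact hi (by rw [h1, map_zero])
  exact this

omit [CompleteSpace H] in
theorem cont_of_dense {U : ℝ → H →L[ℂ] H} (hU : ∀ t ξ, ‖U t ξ‖ ≤ ‖ξ‖) {T : H → H}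
    (hT : DenseRange T) (hc : ∀ η, Continuous fun t => U t (T η)) (ξ : H) :
    Continuous fun t => U t ξ := by
  refine continuous_of_uniform_approx_of_continuous fun u hu => ?_
  obtain ⟨ε, hε, hu⟩ := Metric.mem_uniformity_dist.1 hu
  obtain ⟨η, hη⟩ := hT.exists_dist_lt ξ hε
  refine ⟨_, hc η, fun t => hu ?_⟩
  rw [dist_eq_norm, ← map_sub]
  exact (hU _ _).trans_lt (by rwa [← dist_eq_norm])

theorem continuous_fc {R : H →L[ℂ] H} (h : In02 R) {g : ℝ → ℝ → ℂ}
    (hg : ContinuousOn (Function.uncurry g) (univ ×ˢ Icc 0 2)) :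
    Continuous fun t => fc R (g t) := by
  have hgt : ∀ t, ContinuousOn (g t) (Icc 0 2) := fun t =>
    hg.comp (f := fun r => (t, r)) (by fun_prop) fun r hr => ⟨mem_univ _, hr⟩
  refine continuous_iff_continuousAt.2 fun t₀ => Metric.tendsto_nhds.2 fun ε hε => ?_
  have : ∀ᶠ t in 𝓝 t₀, ∀ r ∈ Icc (0 : ℝ) 2, r ∈ Icc (0 : ℝ) 2 → ‖g t r - g t₀ r‖ ≤ ε / 2 := by
    refine isCompact_Icc.eventually_forall_of_forall_eventually fun r hr => ?_
    have h1 : ContinuousWithinAt (fun z : ℝ × ℝ => ‖g z.1 z.2 - g t₀ z.2‖) (univ ×ˢ Icc 0 2)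
        (t₀, r) := by
      refine ContinuousWithinAt.norm (ContinuousWithinAt.sub (hg _ ⟨mem_univ _, hr⟩) ?_)
      exact ContinuousWithinAt.comp (g := g t₀) (f := Prod.snd) (hgt t₀ r hr)
        continuous_snd.continuousWithinAt fun z hz => hz.2
    have h2 := h1.eventually (gt_mem_nhds (a := ε / 2) (by simpa using hε))
    rw [eventually_nhdsWithin_iff] at h2
    exact h2.mono fun z hz hz2 => (hz ⟨mem_univ _, hz2⟩).le
  refine this.mono fun t ht => ?_
  rw [dist_eq_norm, ← fc_sub h (hgt t) (hgt t₀)]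
  exact (fc_norm_le h fun r hr => ht r hr hr).trans_lt (half_lt_self hε)

end TomModAux

open TomModAux TomAux

theorem cont_mul_exp {f : ℝ → ℂ} (hf : ContinuousOn f (Icc 0 2)) (h0 : f 0 = 0) (h2 : f 2 = 0) :
    ContinuousOn (fun p : ℝ × ℝ => f p.2 * Complex.exp (Complex.I * p.1 * tau p.2))
      (univ ×ˢ Icc 0 2) := by
  rintro ⟨t, r⟩ ⟨-, hr⟩
  have hf2 : ContinuousWithinAt (fun p : ℝ × ℝ => f p.2) (univ ×ˢ Icc 0 2) (t, r) :=
    ContinuousWithinAt.comp (g := f) (f := Prod.snd) (hf r hr)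
      continuous_snd.continuousWithinAt fun z hz => hz.2
  by_cases hz : f r = 0
  · unfold ContinuousWithinAt at hf2 ⊢
    simp only [hz, zero_mul] at hf2 ⊢
    rw [tendsto_zero_iff_norm_tendsto_zero] at hf2 ⊢
    simpa only [norm_mul, norm_exp_tau, mul_one] using hf2
  · have a0 : 0 < r := lt_of_le_of_ne hr.1 (by rintro rfl; exact hz h0)
    have a2 : r < 2 := lt_of_le_of_ne hr.2 (by rintro rfl; exact hz h2)
    refine hf2.mul (ContinuousAt.continuousWithinAt ?_)
    have : ContinuousAt (fun p : ℝ × ℝ => tau p.2) (t, r) :=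
      ContinuousAt.comp (g := tau) (continuousAt_tau a0 a2) continuous_snd.continuousAt
    fun_prop

theorem TPre.exists_mod {N : VonNeumannAlgebra H} {Ω : H} (p : TPre N Ω) :
    ∃ m : TMod N Ω, m.toTPre = p := by
  have h := p.in02
  have ct : ContinuousOn tfun (Icc 0 2) := continuous_tfun.continuousOn
  set T := fc p.R tfun with hT
  have Ts : star T = T := by
    rw [hT, fc_star h]; exact fc_congr h fun r _ => conj_tfun r
  have TT : T * T = p.R * (2 - p.R) := by
    have c1 : ContinuousOn (fun r : ℝ => (r : ℂ)) (Icc 0 2) := by fun_prop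
    have c2 : ContinuousOn (fun _ : ℝ => (2 : ℂ)) (Icc 0 2) := by fun_prop
    rw [hT, ← fc_mul h ct ct, fc_congr h fun r hr => tfun_sq hr, fc_mul h (g := fun r : ℝ => 2 - (r : ℂ)) c1 (c2.sub c1),
      fc_sub h c2 c1, fc_id h, fc_const h]
    congr 2
    rw [two_smul, one_add_one_eq_two]
  have TTa : ∀ ξ, T (T ξ) = p.R ((2 - p.R) ξ) := fun ξ =>
    congrArg (fun A : H →L[ℂ] H => A ξ) TT
  have Ti : Function.Injective T := by
    rw [injective_iff_map_eq_zero]
    intro ξ hξ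
    have := TTa ξ
    rw [hξ, map_zero] at this
    have h1 : (2 - p.R) ξ = 0 := p.R_inj (by rw [← this, map_zero])
    exact p.R2_inj (by rw [h1, map_zero])
  have Td : DenseRange T := denseRange_of_inj Ts Ti
  have Tadj : ∀ u v, ⟪u, T v⟫_ℂ = ⟪T u, v⟫_ℂ := fun u v => by rw [← adj T, Ts]
  have SS : ∀ ξ η, ⟪p.S ξ, p.S η⟫_ℂ = ⟪T η, T ξ⟫_ℂ := fun ξ η => by
    rw [p.S_symm, p.S_S, ← TTa, Tadj]
  have nS : ∀ ξ, ‖p.S ξ‖ ≤ 1 * ‖T ξ‖ := fun ξ => by
    rw [one_mul, @norm_eq_sqrt_re_inner ℂ, @norm_eq_sqrt_re_inner ℂ _ _ _ _ (T ξ), SS]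
  let J : H →L⋆[ℂ] H := (p.S : H →ₗ⋆[ℂ] H).extendOfNorm (T : H →ₗ[ℂ] H)
  have JT : ∀ ξ, J (T ξ) = p.S ξ := fun ξ => LinearMap.extendOfNorm_eq Td ⟨1, nS⟩ ξ
  have ST : ∀ ξ, p.S (T ξ) = T (p.S ξ) := fun ξ => by
    rw [hT, fc_conj h p.S p.S_R ct]
    congr 2
    funext r; rw [tfun_two_sub, conj_tfun]
  have JTc : ∀ ξ, J (T ξ) = T (J ξ) := fun ξ => by
    refine Td.induction_on (p := fun ξ => J (T ξ) = T (J ξ)) ξ
      (isClosed_eq (by fun_prop) (by fun_prop)) fun η => ?_
    rw [JT, JT, ST]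
  have RT : p.R * T = T * p.R := fc_intertwine h rfl _
  have RTa : ∀ ξ, p.R (T ξ) = T (p.R ξ) := fun ξ => congrArg (fun A : H →L[ℂ] H => A ξ) RT
  have JR : ∀ ξ, J (p.R ξ) = (2 - p.R) (J ξ) := fun ξ => by
    refine Td.induction_on (p := fun ξ => J (p.R ξ) = (2 - p.R) (J ξ)) ξ
      (isClosed_eq (by fun_prop) (by fun_prop)) fun η => ?_
    rw [RTa, JT, JT, p.S_R]
  obtain ⟨RΩ, SΩ⟩ : p.R Ω = Ω ∧ p.S Ω = Ω := by
    simpa using p.proj 1 (one_mem _) (IsSelfAdjoint.one _) 1 (one_mem _) (IsSelfAdjoint.one _)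
      (by simp)
  have TΩ : T Ω = Ω := by rw [hT, fc_eigen h RΩ ct, tfun_one, one_smul]
  let g : ℝ → ℝ → ℂ := fun t r => tfun r * Complex.exp (Complex.I * t * tau r)
  have cg2 : ContinuousOn (Function.uncurry g) (univ ×ˢ Icc 0 2) :=
    cont_mul_exp ct tfun_zero tfun_two
  have cme : ∀ (f : ℝ → ℂ), ContinuousOn f (Icc 0 2) → f 0 = 0 → f 2 = 0 → ∀ t : ℝ,
      ContinuousOn (fun r => f r * Complex.exp (Complex.I * t * tau r)) (Icc 0 2) :=
    fun f hf h0 h2 t => (cont_mul_exp hf h0 h2).comp (f := fun r => (t, r)) (by fun_prop)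
      fun r hr => ⟨mem_univ _, hr⟩
  have cg : ∀ t, ContinuousOn (g t) (Icc 0 2) := cme _ ct tfun_zero tfun_two
  have conj_g : ∀ t r, conj (g t r) = g (-t) r := fun t r => by
    simp only [g, map_mul, conj_tfun, ← Complex.exp_conj]
    simp
  have Gs : ∀ t, star (fc p.R (g t)) = fc p.R (g (-t)) := fun t => by
    rw [fc_star h]; exact fc_congr h fun r _ => conj_g t r
  have GG : ∀ t, fc p.R (g (-t)) * fc p.R (g t) = T * T := fun t => by
    rw [hT, ← fc_mul h (cg _) (cg _), ← fc_mul h ct ct]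
    refine fc_congr h fun r _ => ?_
    simp only [g]
    rw [mul_mul_mul_comm, ← Complex.exp_add]
    simp
  have nG : ∀ t ξ, ‖fc p.R (g t) ξ‖ ≤ 1 * ‖T ξ‖ := fun t ξ => by
    rw [one_mul, @norm_eq_sqrt_re_inner ℂ, @norm_eq_sqrt_re_inner ℂ _ _ _ _ (T ξ), ← adj, Gs,
      ← Tadj]
    exact le_of_eq (congrArg (fun A : H →L[ℂ] H => √(RCLike.re ⟪ξ, A ξ⟫_ℂ)) (GG t))
  let U : ℝ → H →L[ℂ] H := fun t =>
    (fc p.R (g t) : H →ₗ[ℂ] H).extendOfNorm (T : H →ₗ[ℂ] H)
  have UT : ∀ t ξ, U t (T ξ) = fc p.R (g t) ξ := fun t ξ =>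
    LinearMap.extendOfNorm_eq Td ⟨1, nG t⟩ ξ
  have UT' : ∀ t, U t * T = fc p.R (g t) := fun t => ContinuousLinearMap.ext (UT t)
  have nU : ∀ t ξ, ‖U t ξ‖ ≤ ‖ξ‖ := fun t ξ => by
    simpa using LinearMap.norm_extendOfNorm_apply_le Td 1 (nG t) ξ
  have canR : ∀ {A B : H →L[ℂ] H}, A * T = B * T → A = B := fun {A B} hAB =>
    ContinuousLinearMap.ext fun ξ => Td.induction_on (p := fun ξ => A ξ = B ξ) ξ
      (isClosed_eq (by fun_prop) (by fun_prop))
      fun η => congrArg (fun C : H →L[ℂ] H => C η) hAB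
  have canL : ∀ {A B : H →L[ℂ] H}, T * A = T * B → A = B := fun {A B} hAB =>
    ContinuousLinearMap.ext fun ξ => Ti (congrArg (fun C : H →L[ℂ] H => C ξ) hAB)
  have UTc : ∀ t, T * U t = U t * T := fun t => canR <| by
    rw [mul_assoc, UT', hT, fc_commute h]
  have Ufc : ∀ (t : ℝ) (f : ℝ → ℂ), ContinuousOn f (Icc 0 2) → f 0 = 0 → f 2 = 0 →
      U t * fc p.R f = fc p.R fun r => f r * Complex.exp (Complex.I * t * tau r) := by
    intro t f hf h0 h2
    refine canL ?_
    rw [← mul_assoc, UTc, UT', hT, ← fc_mul h (cg t) hf, ← fc_mul h ct (cme f hf h0 h2 t)]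
    exact fc_congr h fun r _ => by simp only [g]; ring
  refine ⟨⟨p, J, U, Td, JT, ?_, ?_, JR, ?_, Ufc, ?_, ?_, ?_, ?_, ?_, ?_, ?_⟩, rfl⟩
  · intro ξ
    refine Td.induction_on (p := fun ξ => J (J ξ) = ξ) ξ
      (isClosed_eq (by fun_prop) (by fun_prop)) fun η => Ti ?_
    rw [← JTc, JT, JT, p.S_S, TTa]
  · intro ξ η
    refine Td.induction_on₂ (p := fun ξ η => ⟪J ξ, J η⟫_ℂ = ⟪η, ξ⟫_ℂ)
      (isClosed_eq (by fun_prop) (by fun_prop)) (fun a b => ?_) ξ η
    rw [JT, JT, SS]
  · conv_lhs => rw [← TΩ, JT, SΩ]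
  · refine canR ?_
    rw [UT', one_mul, hT]
    exact fc_congr h fun r _ => by simp [g]
  · intro s t
    refine canR ?_
    rw [mul_assoc, UT', UT', Ufc s _ (cg t) (by simp [g, tfun_zero]) (by simp [g, tfun_two])]
    refine fc_congr h fun r _ => ?_
    simp only [g]
    rw [mul_assoc (tfun r), ← Complex.exp_add]
    congr 2
    push_cast; ring
  · intro t
    refine canL ?_
    rw [UTc, UT', ← Gs, ← UT', star_mul, Ts]
  · intro t
    refine canR ?_
    rw [mul_assoc, RT, ← mul_assoc, mul_assoc p.R, UT', fc_intertwine h rfl]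
  · refine cont_of_dense nU Td fun η => ?_
    simp only [UT]
    exact (continuous_fc h cg2).clm_apply continuous_const
  · intro t ξ
    refine Td.induction_on (p := fun ξ => J (U t ξ) = U t (J ξ)) ξ
      (isClosed_eq (by fun_prop) (by fun_prop)) fun η => ?_
    rw [JTc, UT, UT, fc_conj h J JR (cg t)]
    congr 2
    funext r
    rw [conj_g]
    simp only [g, tfun_two_sub, tau_two_sub]
    simp
  · intro t
    conv_lhs => rw [← TΩ, UT, fc_eigen h RΩ (cg t)]
    simp only [g, tfun_one, tau]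
    norm_num

/-- the Gaussian multiplier as a function of `R` -/
noncomputable def gmul (T v r : ℝ) : ℂ :=
  if 0 < r ∧ r < 2 then (Real.exp (-(T ^ 2 * (tau r + v) ^ 2) / 2) : ℝ) else 0

theorem TomModAux.gmul_zero {T : ℝ} (hT : 0 < T) (v : ℝ) :
    ContinuousWithinAt (gmul T v) (Ici 0) 0 := by
  rw [← continuousWithinAt_Ioi_iff_Ici]
  have h1 : Tendsto tau (𝓝[>] 0) atTop := by
    refine Real.tendsto_log_atTop.comp ?_
    simp only [div_eq_mul_inv]
    refine Tendsto.pos_mul_atTop (C := 2) two_pos ?_ tendsto_inv_nhdsGT_zero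
    have : Continuous fun r : ℝ => 2 - r := by fun_prop
    simpa using (this.tendsto 0).mono_left nhdsWithin_le_nhds
  have h2 : Tendsto (fun r => -(T ^ 2 * (tau r + v) ^ 2) / 2) (𝓝[>] 0) atBot := by
    refine Tendsto.atBot_div_const two_pos (tendsto_neg_atTop_atBot.comp ?_)
    refine Tendsto.const_mul_atTop (by positivity) ?_
    exact (tendsto_pow_atTop two_ne_zero).comp (tendsto_atTop_add_const_right _ _ h1)
  have h3 := (Complex.continuous_ofReal.tendsto 0).comp (Real.tendsto_exp_atBot.comp h2)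
  have h4 : gmul T v 0 = ((0 : ℝ) : ℂ) := by simp [gmul]
  rw [ContinuousWithinAt, h4]
  refine h3.congr' ?_
  filter_upwards [Ioo_mem_nhdsGT (two_pos : (0 : ℝ) < 2)] with r hr
  simp only [gmul, hr.1, hr.2, and_self, if_true, Function.comp]

theorem continuousOn_gmul {T : ℝ} (hT : 0 < T) (v : ℝ) : ContinuousOn (gmul T v) (Icc 0 2) := by
  intro r hr
  rcases hr.1.eq_or_lt with rfl | h0
  · exact (gmul_zero hT v).mono Icc_subset_Ici_self
  rcases hr.2.eq_or_lt with rfl | h2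
  · have : gmul T v = gmul T (-v) ∘ fun r => 2 - r := by
      funext r
      simp only [gmul, Function.comp, tau_two_sub]
      rw [show (-tau r + -v) ^ 2 = (tau r + v) ^ 2 by ring]
      congr 1
      exact propext ⟨fun h => ⟨by linarith [h.2], by linarith [h.1]⟩,
        fun h => ⟨by linarith [h.2], by linarith [h.1]⟩⟩
    rw [this]
    refine ContinuousWithinAt.comp_of_eq (gmul_zero hT (-v)) (by fun_prop) (fun x hx => ?_) (by simp)
    exact sub_nonneg.2 hx.2
  · have h1 := continuousAt_tau h0 h2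
    have : ContinuousAt
        (fun r => ((Real.exp (-(T ^ 2 * (tau r + v) ^ 2) / 2) : ℝ) : ℂ)) r := by fun_prop
    refine (this.congr ?_).continuousWithinAt
    filter_upwards [Ioo_mem_nhds h0 h2] with x hx
    simp only [gmul, hx.1, hx.2, and_self, if_true]

theorem TMod.U_norm {N : VonNeumannAlgebra H} {Ω : H} (m : TMod N Ω) (t : ℝ) (ξ : H) :
    ‖m.U t ξ‖ = ‖ξ‖ := by
  have : m.U (-t) * m.U t = 1 := by rw [← m.U_add, neg_add_cancel, m.U_zero]
  rw [@norm_eq_sqrt_re_inner ℂ, @norm_eq_sqrt_re_inner ℂ _ _ _ _ ξ, ← adj, m.U_star]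
  exact congrArg (fun A : H →L[ℂ] H => √(RCLike.re ⟪ξ, A ξ⟫_ℂ)) this

theorem TMod.integral_U {N : VonNeumannAlgebra H} {Ω : H} (m : TMod N Ω) {T : ℝ} (hT : 0 < T)
    (v : ℝ) (ξ : H) :
    ∫ t : ℝ, ((gauss T t : ℂ) * Complex.exp (Complex.I * v * t)) • m.U t ξ =
      fc m.R (gmul T v) ξ := by
  have h := m.in02
  have ct : ContinuousOn tfun (Icc 0 2) := continuous_tfun.continuousOn
  have cgs := continuous_gauss T
  have nc : ∀ t : ℝ, ‖(gauss T t : ℂ) * Complex.exp (Complex.I * v * t)‖ = gauss T t := fun t => by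
    rw [norm_mul, Complex.norm_exp, Complex.norm_real, Real.norm_of_nonneg (gauss_nonneg hT t)]
    simp
  have nn : ∀ (t : ℝ) ξ, ‖((gauss T t : ℂ) * Complex.exp (Complex.I * v * t)) • m.U t ξ‖ =
      gauss T t * ‖ξ‖ := fun t ξ => by rw [norm_smul, nc, m.U_norm]
  have int : ∀ ξ, Integrable
      fun t : ℝ => ((gauss T t : ℂ) * Complex.exp (Complex.I * v * t)) • m.U t ξ := fun ξ => by
    have := m.U_cont ξ
    refine ((integrable_gauss hT).mul_const ‖ξ‖).mono' (Continuous.aestronglyMeasurable ?_)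
      (ae_of_all _ fun t => (nn t ξ).le)
    fun_prop
  refine m.T_dense.induction_on (p := fun ξ =>
    ∫ t : ℝ, ((gauss T t : ℂ) * Complex.exp (Complex.I * v * t)) • m.U t ξ =
      fc m.R (gmul T v) ξ) ξ (isClosed_eq ?_ (by fun_prop)) fun η => ?_
  · refine (LipschitzWith.of_dist_le_mul (K := ⟨∫ t, gauss T t,
      integral_nonneg (gauss_nonneg hT)⟩) fun a b => ?_).continuous
    rw [dist_eq_norm, dist_eq_norm, ← integral_sub (int a) (int b)]
    refine (norm_integral_le_integral_norm _).trans (le_of_eq ?_)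
    simp only [← smul_sub, ← map_sub, nn, integral_mul_const]
    rfl
  · have c2 := cont_mul_exp ct tfun_zero tfun_two
    have cg : ∀ t : ℝ, ContinuousOn (fun r => tfun r * Complex.exp (Complex.I * t * tau r))
        (Icc 0 2) := fun t => c2.comp (f := fun r => (t, r)) (by fun_prop)
      fun r hr => ⟨mem_univ _, hr⟩
    have e1 : ∀ t : ℝ, ((gauss T t : ℂ) * Complex.exp (Complex.I * v * t)) • m.U t (fc m.R tfun η) =
        fc m.R (fun r => ((gauss T t : ℂ) * Complex.exp (Complex.I * v * t)) *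
          (tfun r * Complex.exp (Complex.I * t * tau r))) η := fun t => by
      rw [fc_smul h (cg t), ← m.U_fc t _ ct tfun_zero tfun_two]; rfl
    simp only [e1]
    rw [fc_integral h (f := fun r => gmul T v r * tfun r) _ ?_ (gauss T) (integrable_gauss hT) ?_ ?_,
      fc_mul h (continuousOn_gmul hT v) ct]
    · rfl
    · refine ContinuousOn.mul (Continuous.continuousOn ?_) c2
      fun_prop
    · intro t r _
      rw [norm_mul, nc, norm_mul, norm_exp_tau, mul_one]
      exact mul_le_of_le_one_right (gauss_nonneg hT t) (norm_tfun_le r)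
    · intro r hr
      have e2 : ∀ t : ℝ, ((gauss T t : ℂ) * Complex.exp (Complex.I * v * t)) *
          (tfun r * Complex.exp (Complex.I * t * tau r)) =
          ((gauss T t : ℂ) * Complex.exp (Complex.I * (tau r + v : ℝ) * t)) * tfun r := fun t => by
        rw [show Complex.I * (tau r + v : ℝ) * t = Complex.I * v * t + Complex.I * t * tau r by
          push_cast; ring, Complex.exp_add]
        ring
      simp only [e2]
      rw [integral_mul_const, integral_gauss hT]
      rcases hr.1.eq_or_lt with rfl | h0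
      · simp [tfun_zero]
      rcases hr.2.eq_or_lt with rfl | h2
      · simp [tfun_two]
      simp only [gmul, h0, h2, and_self, if_true]

end Crest.Agent.R78
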