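import Crest.Agent.R78.TomRes
import Crest.Agent.R78.TomPre_A

/-!
# Row 78, task R78-TomOp: the operator identity of Rieffel–van Daele.

PLAN for `op_identity`.  (i) for `b ∈ N'` there is `a ∈ N` with `a Ω = S (b Ω)`, `a⋆ Ω = R (b Ω)`: for
`b = b⋆` use `resolvent` with `s = 0`, `a = x + x⋆` and `proj`; in general `b = b₁ + I b₂`, `a = a₁ - I a₂`.
(ii) for `b₁, b₂ ∈ N'` with `a₁, a₂` as in (i) put `z = a₁⋆ a₂` in `resolvent`: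
`⟪y Ω, z Ω⟫ = ⟪y S b₁Ω, S b₂Ω⟫ = ⟪b₂Ω, S y S b₁Ω⟫`;
`⟪x Ω, z Ω⟫ = ⟪a₁ x Ω, S b₂Ω⟫ = ⟪b₂Ω, S (a₁ x Ω)⟫ = ⟪b₂Ω, (2 - R) x⋆ R b₁Ω⟫` (`S_symm`, `S_N`);
`⟪z⋆Ω, x⋆Ω⟫ = ⟪S b₁Ω, a₂ x⋆ Ω⟫ = ⟪S (a₂ x⋆ Ω), b₁Ω⟫ = ⟪(2 - R) x R b₂Ω, b₁Ω⟫ = ⟪b₂Ω, R x⋆ (2 - R) b₁Ω⟫`.
Conclude by density of `N' Ω` (twice); the element of `N` in the statement is `x⋆`.
-/

set_option autoImplicit false

open scoped InnerProductSpace

namespace Crest.Agent.R78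

variable {H : Type*} [NormedAddCommGroup H] [InnerProductSpace ℂ H] [CompleteSpace H]

open TomAux

theorem TPre.exists_sa {N : VonNeumannAlgebra H} {Ω : H} (p : TPre N Ω) {b : H →L[ℂ] H}
    (hb : b ∈ N.commutant) (hs : IsSelfAdjoint b) :
    ∃ a ∈ N, IsSelfAdjoint a ∧ p.R (b Ω) = a Ω ∧ p.S (b Ω) = a Ω := by
  obtain ⟨x, hx, hxz⟩ := resolvent N Ω hb 0
  have hsa : IsSelfAdjoint (x + star x) := IsSelfAdjoint.add_star_self x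
  have hm : x + star x ∈ N := add_mem hx (star_mem hx)
  refine ⟨x + star x, hm, hsa, p.proj b hb hs _ hm hsa fun z hz hzs => ?_⟩
  have h1 := hxz z hz
  simp only [zero_div, Real.exp_zero, Complex.ofReal_one, one_mul, neg_zero] at h1
  rw [inner_sub_left, h1, hzs.star_eq, add_apply, inner_add_left]
  have : (⟪z Ω, star x Ω⟫_ℂ).re = (⟪star x Ω, z Ω⟫_ℂ).re := by
    rw [← inner_conj_symm, Complex.conj_re]
  simp [this]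

theorem TPre.exists_gen {N : VonNeumannAlgebra H} {Ω : H} (p : TPre N Ω) {b : H →L[ℂ] H}
    (hb : b ∈ N.commutant) :
    ∃ a ∈ N, a Ω = p.S (b Ω) ∧ star a Ω = p.R (b Ω) := by
  obtain ⟨b₁, h₁, b₂, h₂, s₁, s₂, rfl⟩ := exists_sa_decomp _ hb
  obtain ⟨a₁, m₁, t₁, r₁, u₁⟩ := p.exists_sa h₁ s₁
  obtain ⟨a₂, m₂, t₂, r₂, u₂⟩ := p.exists_sa h₂ s₂
  refine ⟨a₁ - Complex.I • a₂, sub_mem m₁ (vn_smul_mem _ m₂), ?_, ?_⟩
  · simp [u₁, u₂, map_smulₛₗ, sub_eq_add_neg]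
  · rw [star_sub, star_smul, t₁.star_eq, t₂.star_eq]
    simp [r₁, r₂]

theorem TPre.op_identity {N : VonNeumannAlgebra H} {Ω : H} (p : TPre N Ω)
    (h' : Cyc N.commutant Ω) {y : H →L[ℂ] H} (hy : y ∈ N.commutant) (s : ℝ) :
    ∃ x ∈ N, ∀ ξ, p.S (y (p.S ξ)) =
      (Real.exp (s / 2) : ℂ) • (2 - p.R) (x (p.R ξ)) +
        (Real.exp (-(s / 2)) : ℂ) • p.R (x ((2 - p.R) ξ)) := by
  obtain ⟨x, hx, hxz⟩ := resolvent N Ω hy s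
  refine ⟨star x, star_mem hx, ?_⟩
  have hR : IsSelfAdjoint p.R := IsSelfAdjoint.of_nonneg p.in02.nonneg
  have hR2 : IsSelfAdjoint (2 - p.R) := IsSelfAdjoint.of_nonneg (sub_nonneg.2 p.in02.le_two)
  have adj : ∀ (T : H →L[ℂ] H) (u v : H), ⟪u, star T v⟫_ℂ = ⟪T u, v⟫_ℂ := fun T u v => by
    rw [ContinuousLinearMap.star_eq_adjoint, ContinuousLinearMap.adjoint_inner_right]
  have adj' : ∀ (T : H →L[ℂ] H) (u v : H), ⟪star T u, v⟫_ℂ = ⟪u, T v⟫_ℂ := fun T u v => by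
    rw [ContinuousLinearMap.star_eq_adjoint, ContinuousLinearMap.adjoint_inner_left]
  have key : ∀ b₁ ∈ N.commutant, ∀ b₂ ∈ N.commutant,
      ⟪b₂ Ω, p.S (y (p.S (b₁ Ω)))⟫_ℂ =
      ⟪b₂ Ω, (Real.exp (s / 2) : ℂ) • (2 - p.R) (star x (p.R (b₁ Ω))) +
        (Real.exp (-(s / 2)) : ℂ) • p.R (star x ((2 - p.R) (b₁ Ω)))⟫_ℂ := by
    intro b₁ h₁ b₂ h₂
    obtain ⟨a₁, m₁, u₁, r₁⟩ := p.exists_gen h₁
    obtain ⟨a₂, m₂, u₂, r₂⟩ := p.exists_gen h₂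
    have h := hxz (star a₁ * a₂) (mul_mem (star_mem m₁) m₂)
    have hc : a₁ (y Ω) = y (a₁ Ω) := by
      have := VonNeumannAlgebra.mem_commutant_iff.1 hy a₁ m₁
      exact congrArg (fun T : H →L[ℂ] H => T Ω) this
    have e1 : ⟪y Ω, (star a₁ * a₂) Ω⟫_ℂ = ⟪b₂ Ω, p.S (y (p.S (b₁ Ω)))⟫_ℂ := by
      rw [mul_apply_eq_comp, adj, hc, u₁, u₂, p.S_symm]
    have e2 : ⟪x Ω, (star a₁ * a₂) Ω⟫_ℂ = ⟪b₂ Ω, (2 - p.R) (star x (p.R (b₁ Ω)))⟫_ℂ := by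
      have := p.S_N (a₁ * x) (mul_mem m₁ hx)
      rw [star_mul, mul_apply_eq_comp, mul_apply_eq_comp, r₁] at this
      rw [mul_apply_eq_comp, adj, u₂, p.S_symm, this]
    have e3 : ⟪star (star a₁ * a₂) Ω, star x Ω⟫_ℂ =
        ⟪b₂ Ω, p.R (star x ((2 - p.R) (b₁ Ω)))⟫_ℂ := by
      have := p.S_N (a₂ * star x) (mul_mem m₂ (star_mem hx))
      rw [star_mul, star_star, mul_apply_eq_comp, mul_apply_eq_comp,
        r₂] at this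
      rw [star_mul, star_star, mul_apply_eq_comp, adj', u₁, ← inner_conj_symm,
        p.S_symm, this, inner_conj_symm, ← hR2.star_eq, adj', hR2.star_eq, ← adj x,
        ← hR.star_eq, adj', hR.star_eq]
    rw [e1, e2, e3] at h
    rw [h, inner_add_right, inner_smul_right, inner_smul_right]
  intro ξ
  refine Dense.induction h' (P := fun ξ => p.S (y (p.S ξ)) =
      (Real.exp (s / 2) : ℂ) • (2 - p.R) (star x (p.R ξ)) +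
        (Real.exp (-(s / 2)) : ℂ) • p.R (star x ((2 - p.R) ξ))) ?_ ?_ ξ
  · rintro _ ⟨b₁, h₁, rfl⟩
    refine Dense.eq_of_inner_right ℂ h' ?_
    rintro _ ⟨b₂, h₂, rfl⟩
    exact key b₁ h₁ b₂ h₂
  · exact isClosed_eq (by fun_prop) (by fun_prop)

end Crest.Agent.R78
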