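import Crest.Agent.R78.TomDef
import Crest.Agent.R78.TomPre_A

/-!
# Row 78, task R78-TomPre: the operators `R = P + Q`, `S = P - Q`.

PLAN.  Use `let : InnerProductSpace ℝ H := InnerProductSpace.complexToReal` (real inner product
`re ⟪·,·⟫`).  `K` = closure of the real submodule `{a Ω | a ∈ N, a⋆ = a}`, `P = K.starProjection` (real
linear), `Q ξ = I • P (-I • ξ)` is the real orthogonal projection onto `I • K`.  `R = P + Q` is complex
linear, `S = P - Q` conjugate linear (check on `I • ξ`; write `c = re c + im c * I`).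
`re ⟪ξ, R ξ⟫ = ‖P ξ‖² + ‖Q ξ‖²`, `re ⟪ξ, (2 - R) ξ⟫ = ‖ξ - P ξ‖² + ‖ξ - Q ξ‖²`.
* `R ξ = 0` ⇒ `ξ ⊥ K + iK ⊇ N Ω` (write `a = ℜ a + I ℑ a`) ⇒ `ξ = 0`.
* for `b = b⋆ ∈ N'`, `k ∈ K`: `⟪b Ω, k⟫` is real (`b z` is self-adjoint; closure).  `(2 - R) ξ = 0` ⇒
  `ξ ∈ K ∩ iK` ⇒ `⟪b Ω, ξ⟫ = 0` ⇒ `ξ = 0` by cyclicity for `N'`.  Also `Q (b Ω) = 0`, which gives `proj`.
* `S² = R (2 - R)`, `S R = (2 - R) S` from `P² = P`, `Q² = Q`; for `k ∈ K`, `S k = k - Q k = (2 - R) k`.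
* `S_symm`: real parts by symmetry of `P, Q`; imaginary parts by replacing `ξ` by `I • ξ`.
-/

set_option autoImplicit false

open scoped InnerProductSpace ComplexConjugate

namespace Crest.Agent.R78

variable {H : Type*} [NormedAddCommGroup H] [InnerProductSpace ℂ H] [CompleteSpace H]

namespace TomPreAux

theorem exists_realProj (K : Submodule ℝ H) (hK : IsClosed (K : Set H)) :
    ∃ P : H →L[ℝ] H, (∀ ξ, P ξ ∈ K) ∧ ∀ ξ, ∀ k ∈ K, (⟪ξ - P ξ, k⟫_ℂ).re = 0 := by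
  let : InnerProductSpace ℝ H := InnerProductSpace.complexToReal
  have : CompleteSpace K := hK.completeSpace_coe
  refine ⟨K.starProjection, fun ξ => K.starProjection_apply_mem ξ, fun ξ k hk => ?_⟩
  exact K.starProjection_inner_eq_zero ξ k hk

omit [CompleteSpace H] in
theorem re_symm (u v : H) : (⟪u, v⟫_ℂ).re = (⟪v, u⟫_ℂ).re := by
  rw [← inner_conj_symm, Complex.conj_re]

omit [CompleteSpace H] in
theorem re_self (u : H) : (⟪u, u⟫_ℂ).re = ‖u‖ ^ 2 := by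
  simpa using inner_self_eq_norm_sq (𝕜 := ℂ) u

omit [CompleteSpace H] in
theorem smul_decomp (c : ℂ) (ξ : H) : c • ξ = c.re • ξ + c.im • (Complex.I • ξ) := by
  conv_lhs => rw [← Complex.re_add_im c]
  rw [add_smul, mul_smul]; rfl

/-- a real-linear map commuting with `I` -/
noncomputable def toLin (T : H →L[ℝ] H) (h : ∀ ξ, T (Complex.I • ξ) = Complex.I • T ξ) :
    H →L[ℂ] H where
  toFun := T
  map_add' := map_add T
  map_smul' c ξ := by
    rw [smul_decomp c ξ, map_add, map_smul, map_smul, h, RingHom.id_apply, smul_decomp c (T ξ)]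
  cont := T.continuous

/-- a real-linear map anticommuting with `I` -/
noncomputable def toConj (T : H →L[ℝ] H) (h : ∀ ξ, T (Complex.I • ξ) = -(Complex.I • T ξ)) :
    H →L⋆[ℂ] H where
  toFun := T
  map_add' := map_add T
  map_smul' c ξ := by
    rw [smul_decomp c ξ, map_add, map_smul, map_smul, h, smul_decomp (starRingEnd ℂ c) (T ξ)]
    simp
  cont := T.continuous

/-- real orthogonal projections -/
structure RP (F : H →L[ℝ] H) : Prop where
  idem : ∀ ξ, F (F ξ) = F ξ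
  symm : ∀ ξ η, (⟪F ξ, η⟫_ℂ).re = (⟪ξ, F η⟫_ℂ).re

omit [CompleteSpace H] in
theorem RP.re_left {F : H →L[ℝ] H} (h : RP F) (ξ : H) : (⟪F ξ, ξ⟫_ℂ).re = ‖F ξ‖ ^ 2 := by
  rw [← re_self, ← h.symm (F ξ) ξ, h.idem]

omit [CompleteSpace H] in
theorem RP.re_sub {F : H →L[ℝ] H} (h : RP F) (ξ : H) :
    (⟪ξ - F ξ, ξ⟫_ℂ).re = ‖ξ - F ξ‖ ^ 2 := by
  have : (⟪ξ - F ξ, F ξ⟫_ℂ).re = 0 := by rw [← h.symm, map_sub, h.idem]; simp
  rw [← re_self, inner_sub_right (ξ - F ξ), Complex.sub_re, this, sub_zero]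

/-- `Q = - I P I` -/
noncomputable def conjI (P : H →L[ℝ] H) : H →L[ℝ] H :=
  -(((Complex.I • ContinuousLinearMap.id ℂ H).restrictScalars ℝ) ∘L P ∘L
    ((Complex.I • ContinuousLinearMap.id ℂ H).restrictScalars ℝ))

omit [CompleteSpace H] in
theorem conjI_apply (P : H →L[ℝ] H) (ξ : H) : conjI P ξ = -(Complex.I • P (Complex.I • ξ)) := rfl

omit [CompleteSpace H] in
theorem I_I (ξ : H) : Complex.I • Complex.I • ξ = -ξ := by
  rw [smul_smul, Complex.I_mul_I, neg_one_smul]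

omit [CompleteSpace H] in
theorem RP.conjI {P : H →L[ℝ] H} (h : RP P) : RP (conjI P) := by
  refine ⟨fun ξ => ?_, fun ξ η => ?_⟩
  · simp only [conjI_apply, smul_neg, I_I, neg_neg, h.idem]
  · have := h.symm (Complex.I • ξ) (Complex.I • η)
    simp only [conjI_apply, inner_neg_left, inner_neg_right, inner_smul_left, inner_smul_right]
      at this ⊢
    simp at this ⊢
    linarith

omit [CompleteSpace H] in
theorem isPositive_of_re {T : H →L[ℂ] H} (hs : ∀ ξ η, (⟪T ξ, η⟫_ℂ).re = (⟪ξ, T η⟫_ℂ).re)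
    (hp : ∀ ξ, 0 ≤ (⟪T ξ, ξ⟫_ℂ).re) : T.IsPositive := by
  refine ⟨fun ξ η => ?_, hp⟩
  apply Complex.ext (hs ξ η)
  have := hs ξ (Complex.I • η)
  simp only [map_smul, inner_smul_right] at this
  simpa using this

end TomPreAux

open TomPreAux TomAux

theorem exists_TPre {N : VonNeumannAlgebra H} {Ω : H} (h : Cyc N Ω) (h' : Cyc N.commutant Ω) :
    Nonempty (TPre N Ω) := by
  let K₀ : Submodule ℝ H :=
    { carrier := {k | ∃ a ∈ N, IsSelfAdjoint a ∧ a Ω = k}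
      add_mem' := by
        rintro _ _ ⟨a, ha, sa, rfl⟩ ⟨b, hb, sb, rfl⟩
        exact ⟨a + b, add_mem ha hb, sa.add sb, rfl⟩
      zero_mem' := ⟨0, zero_mem _, IsSelfAdjoint.zero _, rfl⟩
      smul_mem' := by
        rintro c _ ⟨a, ha, sa, rfl⟩
        refine ⟨(c : ℂ) • a, vn_smul_mem _ ha, ?_, rfl⟩
        rw [IsSelfAdjoint, star_smul, sa.star_eq]; simp }
  let K := K₀.topologicalClosure
  obtain ⟨P, hPK, hP⟩ := exists_realProj K K₀.isClosed_topologicalClosure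
  have memK : ∀ a ∈ N, IsSelfAdjoint a → a Ω ∈ K := fun a ha sa =>
    K₀.le_topologicalClosure ⟨a, ha, sa, rfl⟩
  have uniq : ∀ ξ, ∀ a ∈ K, (∀ k ∈ K, (⟪ξ - a, k⟫_ℂ).re = 0) → P ξ = a := by
    intro ξ a ha hk
    have h1 := hP ξ _ (K.sub_mem ha (hPK ξ))
    have h2 := hk _ (K.sub_mem ha (hPK ξ))
    have h3 : (⟪a - P ξ, a - P ξ⟫_ℂ).re = 0 := by
      have : a - P ξ = (ξ - P ξ) - (ξ - a) := by abel
      conv_lhs => rw [this, inner_sub_left, ← this]
      rw [Complex.sub_re, h1, h2, sub_zero]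
    rw [re_self] at h3
    have : a - P ξ = 0 := by simpa using h3
    exact (sub_eq_zero.1 this).symm
  have fix : ∀ k ∈ K, P k = k := fun k hk => uniq k k hk (by simp)
  have rP : RP P := by
    refine ⟨fun ξ => fix _ (hPK ξ), fun ξ η => ?_⟩
    have h1 := hP ξ _ (hPK η)
    have h2 := hP η _ (hPK ξ)
    rw [inner_sub_left, Complex.sub_re] at h1 h2
    rw [re_symm (P η), re_symm η] at h2
    linarith
  have rQ := rP.conjI
  set Q := conjI P with hQ
  have closK : ∀ (φ : H → ℝ), Continuous φ → (∀ a ∈ N, IsSelfAdjoint a → φ (a Ω) = 0) →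
      ∀ k ∈ K, φ k = 0 := by
    intro φ hφ h0 k hk
    have : closure (K₀ : Set H) ⊆ {k | φ k = 0} := by
      refine closure_minimal ?_ (isClosed_eq hφ continuous_const)
      rintro _ ⟨a, ha, sa, rfl⟩; exact h0 a ha sa
    exact this hk
  -- `⟪b Ω, k⟫` is real
  have real : ∀ b ∈ N.commutant, IsSelfAdjoint b → ∀ k ∈ K, (⟪b Ω, k⟫_ℂ).im = 0 := by
    intro b hb sb
    refine closK (fun k => (⟪b Ω, k⟫_ℂ).im) (by fun_prop) fun a ha sa => ?_
    have : conj ⟪b Ω, a Ω⟫_ℂ = ⟪b Ω, a Ω⟫_ℂ := by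
      rw [inner_conj_symm, ← adj a, ← adj b, sa.star_eq, sb.star_eq, comm_apply ha hb]
    exact Complex.conj_eq_iff_im.1 this
  have hRI : ∀ ξ, (P + Q) (Complex.I • ξ) = Complex.I • (P + Q) ξ := fun ξ => by
    simp only [add_apply, hQ, conjI_apply, I_I, map_neg, smul_neg, smul_add, neg_neg]; abel
  have hSI : ∀ ξ, (P - Q) (Complex.I • ξ) = -(Complex.I • (P - Q) ξ) := fun ξ => by
    simp only [sub_apply, hQ, conjI_apply, I_I, map_neg, smul_neg, smul_sub, neg_neg]; abel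
  let R := toLin (P + Q) hRI
  let S := toConj (P - Q) hSI
  have Ra : ∀ ξ, R ξ = P ξ + Q ξ := fun ξ => rfl
  have Sa : ∀ ξ, S ξ = P ξ - Q ξ := fun ξ => rfl
  have R2a : ∀ ξ, (2 - R : H →L[ℂ] H) ξ = (ξ - P ξ) + (ξ - Q ξ) := fun ξ => by
    rw [sub_apply, Ra, ← one_add_one_eq_two, add_apply]; simp only [one_apply_eq_self]; abel
  have Rs : ∀ ξ η, (⟪R ξ, η⟫_ℂ).re = (⟪ξ, R η⟫_ℂ).re := fun ξ η => by
    simp only [Ra, inner_add_left, inner_add_right, Complex.add_re, rP.symm, rQ.symm]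
  have Rq : ∀ ξ, (⟪R ξ, ξ⟫_ℂ).re = ‖P ξ‖ ^ 2 + ‖Q ξ‖ ^ 2 := fun ξ => by
    rw [Ra, inner_add_left, Complex.add_re, rP.re_left, rQ.re_left]
  have R2q : ∀ ξ, (⟪(2 - R : H →L[ℂ] H) ξ, ξ⟫_ℂ).re = ‖ξ - P ξ‖ ^ 2 + ‖ξ - Q ξ‖ ^ 2 := fun ξ => by
    rw [R2a, inner_add_left, Complex.add_re, rP.re_sub, rQ.re_sub]
  have SK : ∀ k ∈ K, S k = (2 - R : H →L[ℂ] H) k := fun k hk => by
    rw [Sa, R2a, fix k hk]; simp
  refine ⟨⟨R, S, ⟨?_, ?_⟩, ?_, ?_, ?_, ?_, ?_, ?_, ?_⟩⟩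
  · rw [ContinuousLinearMap.nonneg_iff_isPositive]
    exact isPositive_of_re Rs fun ξ => by rw [Rq]; positivity
  · rw [ContinuousLinearMap.le_def]
    refine isPositive_of_re (fun ξ η => ?_) fun ξ => by rw [R2q]; positivity
    simp only [R2a, inner_add_left, inner_add_right, inner_sub_left, inner_sub_right,
      Complex.add_re, Complex.sub_re, rP.symm, rQ.symm]
  · rw [injective_iff_map_eq_zero]
    intro ξ hξ
    have h1 := Rq ξ
    rw [hξ, inner_zero_left, Complex.zero_re] at h1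
    have hP0 : P ξ = 0 := by
      have : ‖P ξ‖ ^ 2 = 0 := by nlinarith [sq_nonneg ‖P ξ‖, sq_nonneg ‖Q ξ‖]
      simpa using this
    have hQ0 : P (Complex.I • ξ) = 0 := by
      have : ‖Q ξ‖ ^ 2 = 0 := by nlinarith [sq_nonneg ‖P ξ‖, sq_nonneg ‖Q ξ‖]
      simpa [hQ, conjI_apply] using this
    have hk : ∀ k ∈ K, ⟪ξ, k⟫_ℂ = 0 := fun k hk => by
      have a1 := hP ξ k hk
      have a2 := hP (Complex.I • ξ) k hk
      rw [hP0, sub_zero] at a1
      rw [hQ0, sub_zero, inner_smul_left] at a2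
      apply Complex.ext a1
      simpa using a2
    refine Dense.eq_of_inner_left ℂ h ?_
    rintro _ ⟨a, ha, rfl⟩
    obtain ⟨a₁, h₁, a₂, h₂, s₁, s₂, rfl⟩ := exists_sa_decomp _ ha
    simp [inner_add_right, inner_smul_right, hk _ (memK a₁ h₁ s₁), hk _ (memK a₂ h₂ s₂)]
  · rw [injective_iff_map_eq_zero]
    intro ξ hξ
    have h1 := R2q ξ
    rw [hξ, inner_zero_left, Complex.zero_re] at h1
    have hP0 : ξ = P ξ := by
      have : ‖ξ - P ξ‖ ^ 2 = 0 := by nlinarith [sq_nonneg ‖ξ - P ξ‖, sq_nonneg ‖ξ - Q ξ‖]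
      simpa [sub_eq_zero] using this
    have hQ0 : Complex.I • ξ = P (Complex.I • ξ) := by
      have : ‖ξ - Q ξ‖ ^ 2 = 0 := by nlinarith [sq_nonneg ‖ξ - P ξ‖, sq_nonneg ‖ξ - Q ξ‖]
      have h2 : ξ = Q ξ := by simpa [sub_eq_zero] using this
      have h3 := congrArg (fun v => Complex.I • v) h2
      simpa only [hQ, conjI_apply, smul_neg, I_I, neg_neg] using h3
    have hk : ∀ b ∈ N.commutant, IsSelfAdjoint b → ⟪b Ω, ξ⟫_ℂ = 0 := fun b hb sb => by
      have a1 := real b hb sb _ (hPK ξ)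
      have a2 := real b hb sb _ (hPK (Complex.I • ξ))
      rw [← hP0] at a1
      rw [← hQ0, inner_smul_right] at a2
      apply Complex.ext _ a1
      simpa using a2
    refine Dense.eq_of_inner_right ℂ h' ?_
    rintro _ ⟨a, ha, rfl⟩
    obtain ⟨a₁, h₁, a₂, h₂, s₁, s₂, rfl⟩ := exists_sa_decomp _ ha
    simp [inner_add_left, inner_smul_left, hk a₁ h₁ s₁, hk a₂ h₂ s₂]
  · have Ss : ∀ ξ η, (⟪η, S ξ⟫_ℂ).re = (⟪ξ, S η⟫_ℂ).re := fun ξ η => by
      simp only [Sa, inner_sub_right, Complex.sub_re]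
      rw [← rP.symm, ← rQ.symm, re_symm (P η), re_symm (Q η)]
    intro ξ η
    apply Complex.ext (Ss ξ η)
    have := Ss (Complex.I • ξ) η
    simp only [map_smulₛₗ, inner_smul_right, inner_smul_left] at this
    simpa using this
  · intro ξ
    simp only [Sa, Ra, R2a, map_sub, map_add, rP.idem, rQ.idem]; abel
  · intro ξ
    simp only [Sa, Ra, R2a, map_sub, map_add, rP.idem, rQ.idem]; abel
  · intro a ha
    obtain ⟨a₁, h₁, a₂, h₂, s₁, s₂, rfl⟩ := exists_sa_decomp _ ha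
    rw [star_add, star_smul, s₁.star_eq, s₂.star_eq]
    simp only [add_apply, smul_apply, map_add, map_smulₛₗ, SK _ (memK a₁ h₁ s₁),
      SK _ (memK a₂ h₂ s₂)]
    rfl
  · intro b hb sb a ha sa hz
    have h1 : P (b Ω) = a Ω :=
      uniq _ _ (memK a ha sa) (closK (fun k => (⟪b Ω - a Ω, k⟫_ℂ).re) (by fun_prop) hz)
    have h2 : P (Complex.I • b Ω) = 0 := uniq _ _ K.zero_mem fun k hk => by
      rw [sub_zero, inner_smul_left]
      simpa using real b hb sb k hk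
    have h3 : Q (b Ω) = 0 := by rw [hQ, conjI_apply, h2]; simp
    simp [Ra, Sa, h1, h3]

end Crest.Agent.R78
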