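import Crest.Agent.R78.TomPre
import Crest.Agent.R124.Sh.UL

/-!
# Row 78, task R78-TomRes: the linear Radon–Nikodym lemma.

PLAN for `resolvent` (no cyclicity needed).  WLOG work with real parts: it suffices to find `x` with
`re ⟪y Ω, z Ω⟫ = re (λ ⟪x Ω, z Ω⟫ + λ⁻¹ ⟪z⋆ Ω, x⋆ Ω⟫)` for all `z ∈ N` (then use `I • z`).
In the real Hilbert space `WithLp 2 (H × H)` (real inner product `re`), let `G` be the closure of the real
subspace `{(z Ω, z⋆ Ω)}`, `P` the projection onto `G`, and `C = {P (λ x Ω, λ⁻¹ x⋆ Ω) | x ∈ N, ‖x‖ ≤ ‖y‖/2}`: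
convex and bounded.  Claim `P (y Ω, 0) ∈ closure C`.  Otherwise `geometric_hahn_banach_closed_point`
(+ Riesz, project to `G`, approximate by `(z Ω, z⋆ Ω)`) gives `z ∈ N`, `η > 0` with
`re (λ ⟪x Ω, z Ω⟫ + λ⁻¹ ⟪z⋆Ω, x⋆Ω⟫) + η ≤ re ⟪y Ω, z Ω⟫` for all such `x`.  Take
`x = (‖y‖/2) z w²`, `w = (z⋆z + ε)^{-1/4} ∈ N` (cfc): the left side is `(‖y‖/2)(λ a + λ⁻¹ b) ≥ ‖y‖ √(a b)` with
`a = ⟪Ω, w² z⋆z Ω⟫ ≥ ‖w⁻¹ Ω‖² - √ε ‖Ω‖²`, `b = ‖(z w)⋆ Ω‖²`, while
`|⟪y Ω, z Ω⟫| = |⟪y (z w)⋆ Ω, w⁻¹ Ω⟫| ≤ ‖y‖ √b ‖w⁻¹ Ω‖`; let `ε → 0`.  Finally take `x_n` with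
`P(…x_n…) → P (y Ω, 0)` and a WOT ultralimit (`R124.Sh.exists_wot_ultralimit`; the limit commutes with
`N'`, so it lies in `N = N''`).
-/

set_option autoImplicit false

open scoped InnerProductSpace Topology
open Filter

namespace Crest.Agent.R78

variable {H : Type*} [NormedAddCommGroup H] [InnerProductSpace ℂ H] [CompleteSpace H]

open TomAux TomPreAux

namespace TomResAux

theorem exists_w (N : VonNeumannAlgebra H) {z : H →L[ℂ] H} (hz : z ∈ N) {δ : ℝ} (hδ : 0 < δ) :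
    ∃ w ∈ N, ∃ v : H →L[ℂ] H, star w = w ∧ star v = v ∧ v * w = 1 ∧ ‖z * w * w‖ ≤ 1 ∧
      ‖v * v - w * w * (star z * z)‖ ≤ δ := by
  have : IsClosed (N.toStarSubalgebra : Set (H →L[ℂ] H)) := by
    rw [VonNeumannAlgebra.coe_toStarSubalgebra, ← N.centralizer_centralizer]
    exact Set.isClosed_centralizer _
  set h := star z * z with hh
  have h0 : 0 ≤ h := star_mul_self_nonneg z
  have hsa : IsSelfAdjoint h := IsSelfAdjoint.of_nonneg h0
  have sp : ∀ t ∈ spectrum ℝ h, 0 ≤ t := fun t ht => spectrum_nonneg_of_nonneg h0 ht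
  let fv : ℝ → ℝ := fun t => √(√(t + δ ^ 2))
  let fw : ℝ → ℝ := fun t => (fv t)⁻¹
  have pos : ∀ t ∈ spectrum ℝ h, 0 < fv t := fun t ht => by
    have := sp t ht
    simp only [fv]; positivity
  have cv : ContinuousOn fv (spectrum ℝ h) := by simp only [fv]; fun_prop
  have cw : ContinuousOn fw (spectrum ℝ h) := cv.inv₀ fun t ht => (pos t ht).ne'
  have sq : ∀ t, fv t * fv t = √(t + δ ^ 2) := fun t => Real.mul_self_sqrt (Real.sqrt_nonneg _)
  have hm : h ∈ N.toStarSubalgebra := mul_mem (star_mem hz) hz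
  have ws : star (cfc fw h) = cfc fw h := (cfc_predicate fw h).star_eq
  refine ⟨cfc fw h, cfc_mem (s := N.toStarSubalgebra) (𝕜' := ℂ) fw hm, cfc fv h, ws,
    (cfc_predicate fv h).star_eq, ?_, ?_, ?_⟩
  · rw [← cfc_mul fv fw h, ← cfc_one ℝ h]
    exact cfc_congr fun t ht => mul_inv_cancel₀ (pos t ht).ne'
  · have e : star (z * cfc fw h * cfc fw h) * (z * cfc fw h * cfc fw h) =
        cfc (fun t => fw t * fw t * t * fw t * fw t) h := by
      rw [cfc_mul _ fw h, cfc_mul _ fw h, cfc_mul _ (fun t => t) h, cfc_mul fw fw h, cfc_id' ℝ h,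
        star_mul, star_mul, ws, hh]
      simp only [mul_assoc]
    have e2 : ‖cfc (fun t => fw t * fw t * t * fw t * fw t) h‖ ≤ 1 := by
      refine norm_cfc_le zero_le_one fun t ht => ?_
      have a1 := sp t ht
      have a2 := pos t ht
      have a3 : fv t * fv t * (fv t * fv t) = t + δ ^ 2 := by
        rw [sq, Real.mul_self_sqrt (by positivity)]
      have a4 : fw t * fw t * t * fw t * fw t = t / (t + δ ^ 2) := by
        rw [← a3]; simp only [fw]; field_simp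
      rw [a4, Real.norm_of_nonneg (by positivity), div_le_one (by positivity)]
      nlinarith [sq_nonneg δ]
    rw [← e, CStarRing.norm_star_mul_self] at e2
    nlinarith [norm_nonneg (z * cfc fw h * cfc fw h)]
  · have e : cfc fv h * cfc fv h - cfc fw h * cfc fw h * h =
        cfc (fun t => fv t * fv t - fw t * fw t * t) h := by
      rw [cfc_sub _ _ h, cfc_mul fv fv h, cfc_mul _ (fun t => t) h, cfc_mul fw fw h, cfc_id' ℝ h]
    rw [e]
    refine norm_cfc_le hδ.le fun t ht => ?_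
    have a1 := sp t ht
    have a2 := pos t ht
    have a3 : √(t + δ ^ 2) * √(t + δ ^ 2) = t + δ ^ 2 := Real.mul_self_sqrt (by positivity)
    have a5 : δ ≤ √(t + δ ^ 2) := Real.le_sqrt_of_sq_le (by linarith)
    have a6 : 0 < √(t + δ ^ 2) := hδ.trans_le a5
    have a4 : fv t * fv t - fw t * fw t * t = δ ^ 2 / √(t + δ ^ 2) := by
      simp only [fw]
      rw [← mul_inv, sq]
      field_simp
      linarith
    rw [a4, Real.norm_of_nonneg (by positivity), div_le_iff₀ a6]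
    nlinarith

theorem key (N : VonNeumannAlgebra H) (Ω : H) {y : H →L[ℂ] H} (hy : y ∈ N.commutant) {l : ℝ}
    (hl : 0 < l) {z : H →L[ℂ] H} (hz : z ∈ N) {η : ℝ} (hη : 0 < η) :
    ∃ x ∈ N, ‖x‖ ≤ ‖y‖ / 2 ∧ (⟪y Ω, z Ω⟫_ℂ).re <
      l * (⟪x Ω, z Ω⟫_ℂ).re + l⁻¹ * (⟪star x Ω, star z Ω⟫_ℂ).re + η := by
  set c := ‖y‖ / 2 with hc
  have c0 : 0 ≤ c := by positivity
  obtain ⟨δ, hδ, hδη⟩ : ∃ δ > 0, c * l * ‖Ω‖ ^ 2 * δ < η := by
    have p : 0 < c * l * ‖Ω‖ ^ 2 + 1 := by positivity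
    refine ⟨η / (c * l * ‖Ω‖ ^ 2 + 1), by positivity, ?_⟩
    rw [← mul_div_assoc, div_lt_iff₀ p]
    nlinarith
  obtain ⟨w, hw, v, ws, vs, vw, n1, n2⟩ := exists_w N hz hδ
  refine ⟨(c : ℂ) • (z * w * w), vn_smul_mem _ (mul_mem (mul_mem hz hw) hw), ?_, ?_⟩
  · rw [norm_smul, Complex.norm_real, Real.norm_of_nonneg c0]
    exact mul_le_of_le_one_right c0 n1
  have wadj : ∀ a b, ⟪a, w b⟫_ℂ = ⟪w a, b⟫_ℂ := fun a b => by rw [← adj w, ws]
  have vadj : ∀ a b, ⟪a, v b⟫_ℂ = ⟪v a, b⟫_ℂ := fun a b => by rw [← adj v, vs]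
  set a := (⟪Ω, (w * w * (star z * z)) Ω⟫_ℂ).re with ha
  have e1 : (⟪((c : ℂ) • (z * w * w)) Ω, z Ω⟫_ℂ).re = c * a := by
    rw [smul_apply, inner_smul_left, ha]
    simp only [mul_apply_eq_comp, wadj, adj]
    simp
  have e2 : (⟪star ((c : ℂ) • (z * w * w)) Ω, star z Ω⟫_ℂ).re = c * ‖w (star z Ω)‖ ^ 2 := by
    rw [star_smul, star_mul, star_mul, ws, smul_apply, inner_smul_left, ← re_self]
    simp only [mul_apply_eq_comp, ← wadj]
    simp
  have e3 : (⟪y Ω, z Ω⟫_ℂ).re ≤ 2 * c * (‖w (star z Ω)‖ * ‖v Ω‖) := by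
    have : ⟪y Ω, z Ω⟫_ℂ = ⟪y (w (star z Ω)), v Ω⟫_ℂ := by
      rw [vadj, ← comm_apply hw hy, ← comm_apply (star_mem hz) hy, ← mul_apply_eq_comp v w, vw,
        one_apply_eq_self, adj']
    rw [this]
    refine (Complex.re_le_norm _).trans ((norm_inner_le_norm _ _).trans ?_)
    have := mul_le_mul_of_nonneg_right (y.le_opNorm (w (star z Ω))) (norm_nonneg (v Ω))
    rw [hc]; linarith
  have e4 : ‖v Ω‖ ^ 2 ≤ a + δ * ‖Ω‖ ^ 2 := by
    have h1 : ‖v Ω‖ ^ 2 - a = (⟪Ω, (v * v - w * w * (star z * z)) Ω⟫_ℂ).re := by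
      rw [← re_self, ← vadj, ha, sub_apply, inner_sub_right, Complex.sub_re]; rfl
    have h2 := (Complex.re_le_norm _).trans
      (norm_inner_le_norm (𝕜 := ℂ) Ω ((v * v - w * w * (star z * z)) Ω))
    have h3 := ((v * v - w * w * (star z * z)).le_opNorm Ω).trans
      (mul_le_mul_of_nonneg_right n2 (norm_nonneg Ω))
    have h4 := mul_le_mul_of_nonneg_left h3 (norm_nonneg Ω)
    nlinarith
  rw [e1, e2]
  have amgm : 2 * (‖w (star z Ω)‖ * ‖v Ω‖) ≤ l * ‖v Ω‖ ^ 2 + l⁻¹ * ‖w (star z Ω)‖ ^ 2 := by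
    have : 0 ≤ l⁻¹ * (l * ‖v Ω‖ - ‖w (star z Ω)‖) ^ 2 := by positivity
    have e : l⁻¹ * (l * ‖v Ω‖ - ‖w (star z Ω)‖) ^ 2 =
        l * ‖v Ω‖ ^ 2 + l⁻¹ * ‖w (star z Ω)‖ ^ 2 - 2 * (‖w (star z Ω)‖ * ‖v Ω‖) := by
      field_simp; ring
    linarith
  have b1 := mul_le_mul_of_nonneg_left amgm c0
  have b2 := mul_le_mul_of_nonneg_left e4 (mul_nonneg c0 hl.le)
  nlinarith

omit [CompleteSpace H] in
theorem norm_toLp_le (p q : H) : ‖WithLp.toLp 2 (p, q)‖ ≤ ‖p‖ + ‖q‖ := by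
  refine abs_le_of_sq_le_sq' ?_ (by positivity) |>.2
  rw [WithLp.prod_norm_sq_eq_of_L2]
  have := mul_nonneg (norm_nonneg p) (norm_nonneg q)
  simp only [WithLp.toLp_fst, WithLp.toLp_snd]
  nlinarith

theorem resolvent_re (N : VonNeumannAlgebra H) (Ω : H) {y : H →L[ℂ] H} (hy : y ∈ N.commutant)
    {l : ℝ} (hl : 0 < l) : ∃ x ∈ N, ∀ z ∈ N, (⟪y Ω, z Ω⟫_ℂ).re =
      l * (⟪x Ω, z Ω⟫_ℂ).re + l⁻¹ * (⟪star x Ω, star z Ω⟫_ℂ).re := by
  let V : Submodule ℝ (WithLp 2 (H × H)) :=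
    { carrier := {k | ∃ z ∈ N, WithLp.toLp 2 (z Ω, star z Ω) = k}
      add_mem' := by
        rintro _ _ ⟨a, ha, rfl⟩ ⟨b, hb, rfl⟩
        exact ⟨a + b, add_mem ha hb, by rw [star_add]; rfl⟩
      zero_mem' := ⟨0, zero_mem _, by rw [star_zero]; rfl⟩
      smul_mem' := by
        rintro c _ ⟨a, ha, rfl⟩
        refine ⟨(c : ℂ) • a, vn_smul_mem _ ha, ?_⟩
        rw [star_smul, Complex.star_def, Complex.conj_ofReal]; rfl }
  let K := V.topologicalClosure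
  obtain ⟨P, hPK, hP⟩ := exists_realProj K V.isClosed_topologicalClosure
  let A : (H →L[ℂ] H) → WithLp 2 (H × H) := fun x =>
    WithLp.toLp 2 ((l : ℂ) • x Ω, ((l⁻¹ : ℝ) : ℂ) • star x Ω)
  let u : WithLp 2 (H × H) := WithLp.toLp 2 (y Ω, 0)
  have iA : ∀ x z : H →L[ℂ] H, (⟪A x, WithLp.toLp 2 (z Ω, star z Ω)⟫_ℂ).re =
      l * (⟪x Ω, z Ω⟫_ℂ).re + l⁻¹ * (⟪star x Ω, star z Ω⟫_ℂ).re := fun x z => by
    simp only [A, WithLp.prod_inner_apply, WithLp.toLp_fst, WithLp.toLp_snd, inner_smul_left,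
      Complex.conj_ofReal, Complex.add_re, Complex.re_ofReal_mul]
  have iu : ∀ z : H →L[ℂ] H, (⟪u, WithLp.toLp 2 (z Ω, star z Ω)⟫_ℂ).re = (⟪y Ω, z Ω⟫_ℂ).re :=
    fun z => by simp [u]
  have PK : ∀ ξ, ∀ k ∈ K, (⟪P ξ, k⟫_ℂ).re = (⟪ξ, k⟫_ℂ).re := fun ξ k hk => by
    have := hP ξ k hk
    rw [inner_sub_left, Complex.sub_re] at this
    linarith
  have Ps : ∀ ξ g, (⟪g, P ξ⟫_ℂ).re = (⟪ξ, P g⟫_ℂ).re := fun ξ g => by
    rw [← PK g _ (hPK ξ), ← PK ξ _ (hPK g), re_symm]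
  let C : Set (WithLp 2 (H × H)) := {k | ∃ x ∈ N, ‖x‖ ≤ ‖y‖ / 2 ∧ P (A x) = k}
  have Cc : Convex ℝ C := by
    rintro _ ⟨x₁, h₁, n₁, rfl⟩ _ ⟨x₂, h₂, n₂, rfl⟩ a b ha hb hab
    refine ⟨(a : ℂ) • x₁ + (b : ℂ) • x₂, add_mem (vn_smul_mem _ h₁) (vn_smul_mem _ h₂), ?_, ?_⟩
    · refine (norm_add_le _ _).trans ?_
      rw [norm_smul, norm_smul, Complex.norm_real, Complex.norm_real, Real.norm_of_nonneg ha,
        Real.norm_of_nonneg hb]
      have := mul_le_mul_of_nonneg_left n₁ ha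
      have := mul_le_mul_of_nonneg_left n₂ hb
      have : a * (‖y‖ / 2) + b * (‖y‖ / 2) = ‖y‖ / 2 := by rw [← add_mul, hab, one_mul]
      linarith
    · rw [← map_smul, ← map_smul, ← map_add]
      congr 1
      simp only [A, star_add, star_smul, Complex.star_def, Complex.conj_ofReal, add_apply,
        smul_apply, smul_add, smul_comm (l : ℂ), smul_comm ((l⁻¹ : ℝ) : ℂ)]
      rfl
  have hu : P u ∈ closure C := by
    by_contra hu
    obtain ⟨f, t, h1, h2⟩ := RCLike.geometric_hahn_banach_closed_point (𝕜 := ℂ) Cc.closure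
      isClosed_closure hu
    obtain ⟨g, rfl⟩ := (InnerProductSpace.toDual ℂ (WithLp 2 (H × H))).surjective f
    simp only [InnerProductSpace.toDual_apply_apply, RCLike.re_to_complex] at h1 h2
    rw [Ps] at h2
    set B := (l + l⁻¹) * (‖y‖ / 2 * ‖Ω‖) + ‖u‖ with hB
    have B0 : 0 ≤ B := by positivity
    set η := ((⟪u, P g⟫_ℂ).re - t) / 2 with hη
    have η0 : 0 < η := by rw [hη]; linarith
    obtain ⟨_, ⟨z, hz, rfl⟩, hd⟩ := Metric.mem_closure_iff.1 (hPK g) (η / (B + 1)) (by positivity)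
    obtain ⟨x, hx, nx, hk⟩ := key N Ω hy hl hz η0
    rw [← iA, ← iu] at hk
    have h3 := h1 _ (subset_closure ⟨x, hx, nx, rfl⟩)
    rw [Ps] at h3
    have nA : ‖A x - u‖ ≤ B := by
      refine (norm_sub_le _ _).trans (add_le_add_left ((norm_toLp_le _ _).trans ?_) _)
      rw [norm_smul, norm_smul, Complex.norm_real, Complex.norm_real, Real.norm_of_nonneg hl.le,
        Real.norm_of_nonneg (inv_pos.2 hl).le, add_mul]
      have a1 := (x.le_opNorm Ω).trans (mul_le_mul_of_nonneg_right nx (norm_nonneg Ω))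
      have a2 := ((star x).le_opNorm Ω).trans
        (mul_le_mul_of_nonneg_right ((norm_star x).le.trans nx) (norm_nonneg Ω))
      exact add_le_add (mul_le_mul_of_nonneg_left a1 hl.le)
        (mul_le_mul_of_nonneg_left a2 (inv_pos.2 hl).le)
    rw [dist_comm, dist_eq_norm] at hd
    have h4 := (Complex.re_le_norm _).trans
      (norm_inner_le_norm (𝕜 := ℂ) (A x - u) (WithLp.toLp 2 (z Ω, star z Ω) - P g))
    have h5 : ‖A x - u‖ * ‖WithLp.toLp 2 (z Ω, star z Ω) - P g‖ ≤ η := by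
      refine (mul_le_mul nA hd.le (norm_nonneg _) B0).trans ?_
      rw [← mul_div_assoc, div_le_iff₀ (by positivity)]
      nlinarith
    simp only [inner_sub_left, inner_sub_right, Complex.sub_re] at h4
    linarith
  obtain ⟨k, hk, hlim⟩ := mem_closure_iff_seq_limit.1 hu
  choose x hx nx hxk using hk
  obtain ⟨Z, -, hZ⟩ := R124.Sh.exists_wot_ultralimit (hyperfilter ℕ) x (C := ‖y‖ / 2)
    (by positivity) (Eventually.of_forall nx)
  have hyp : (hyperfilter ℕ : Filter ℕ) ≤ atTop := Nat.hyperfilter_le_atTop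
  refine ⟨Z, ?_, fun z hz => ?_⟩
  · rw [← N.commutant_commutant, VonNeumannAlgebra.mem_commutant_iff]
    intro b hb
    ext ξ
    refine ext_inner_left ℂ fun η => ?_
    have h1 := hZ (star b η) ξ
    have h2 := hZ η (b ξ)
    simp only [adj', ← comm_apply (hx _) hb] at h1
    rw [mul_apply_eq_comp, mul_apply_eq_comp]
    exact tendsto_nhds_unique h1 h2
  · have zK : WithLp.toLp 2 (z Ω, star z Ω) ∈ K := V.le_topologicalClosure ⟨z, hz, rfl⟩
    have t1 : Tendsto (fun n => (⟪k n, WithLp.toLp 2 (z Ω, star z Ω)⟫_ℂ).re) (hyperfilter ℕ)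
        (𝓝 (⟪P u, WithLp.toLp 2 (z Ω, star z Ω)⟫_ℂ).re) :=
      (Complex.continuous_re.tendsto _).comp ((hlim.mono_left hyp).inner tendsto_const_nhds)
    rw [PK _ _ zK, iu] at t1
    simp only [← hxk, PK _ _ zK, iA] at t1
    refine tendsto_nhds_unique t1 (Tendsto.add (Tendsto.const_mul _ ?_) (Tendsto.const_mul _ ?_))
    · simp only [re_symm _ (z Ω)]
      exact (Complex.continuous_re.tendsto _).comp (hZ _ _)
    · simp only [adj']
      exact (Complex.continuous_re.tendsto _).comp (hZ _ _)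

end TomResAux

theorem resolvent (N : VonNeumannAlgebra H) (Ω : H) {y : H →L[ℂ] H} (hy : y ∈ N.commutant)
    (s : ℝ) : ∃ x ∈ N, ∀ z ∈ N, ⟪y Ω, z Ω⟫_ℂ =
      (Real.exp (s / 2) : ℂ) * ⟪x Ω, z Ω⟫_ℂ +
        (Real.exp (-(s / 2)) : ℂ) * ⟪star z Ω, star x Ω⟫_ℂ := by
  obtain ⟨x, hx, h⟩ := TomResAux.resolvent_re N Ω hy (Real.exp_pos (s / 2))
  refine ⟨x, hx, fun z hz => ?_⟩
  have h1 := h z hz
  have h2 := h _ (vn_smul_mem Complex.I hz)
  rw [re_symm (star x Ω)] at h1 h2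
  rw [star_smul] at h2
  simp only [smul_apply, inner_smul_right, inner_smul_left] at h2
  rw [Real.exp_neg]
  apply Complex.ext
  · rw [Complex.add_re, Complex.re_ofReal_mul, Complex.re_ofReal_mul, h1]
  · rw [Complex.add_im, Complex.im_ofReal_mul, Complex.im_ofReal_mul]
    simp only [Complex.star_def, Complex.conj_conj, Complex.mul_re, Complex.I_re, Complex.I_im,
      zero_mul, one_mul, zero_sub] at h2
    linarith

end Crest.Agent.R78
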