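import Crest.Agent.R78.TomMod
import Crest.Agent.R78.TomOp

/-!
# Row 78, task R78-TomSolve: solving the operator identity.

PLAN.  `T = fc R tfun`, `w = J y J`, so `T w T = S y S` (`J T = S = T J`, use `fc_conj`).
* `solve`: with `x` from `op_identity`,
  `T² (U t w U (-t)) T² = T U t (T w T) U (-t) T = e^{s/2} [T(2-R)U t] x [U(-t) R T] + e^{-s/2} [T R U t] x [U(-t)(2-R)T]`,
  every bracket is `fc R` of a continuous function (`U_fc`, `cont_mul_exp`).  Apply `bimeasure` with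
  `F t r = sech t e^{ist} e^{s/2} tfun r (2-r) e^{it tau r}`, `G t r = r tfun r e^{-it tau r}`, etc. and
  `f = g = tfun²`: for `r, r' ∈ (0,2)`, `(2 - r) = tfun r e^{tau r/2}`, `r = tfun r e^{-tau r/2}`, so the
  integrand is `tfun r² tfun r'² sech t e^{i t u} (e^{u/2} + e^{-u/2})`, `u = s + tau r - tau r'`; use
  `integral_sech`.  So `∫ sech t e^{ist} ⟪η, U t w U(-t) ξ⟫ = ⟪η, x ξ⟫` on the dense range of `T²`, hence
  for all `ξ, η` (both sides are bounded forms; `integrable_sech`).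
* `U_cj_mem`: for `b ∈ N'`, `φ t = sech t ⟪η, [b, U t w U(-t)] ξ⟫` has vanishing Fourier transform
  (`x b = b x`); `fourier_unique`.  `N = N''`.
-/

set_option autoImplicit false

open MeasureTheory Set
open scoped InnerProductSpace

namespace Crest.Agent.R78

variable {H : Type*} [NormedAddCommGroup H] [InnerProductSpace ℂ H] [CompleteSpace H]
  {N : VonNeumannAlgebra H} {Ω : H} (m : TMod N Ω)

open TomModAux TomAux

theorem vn_mem_of_comm {x : H →L[ℂ] H} (h : ∀ b ∈ N.commutant, b * x = x * b) : x ∈ N := by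
  rw [← N.commutant_commutant, VonNeumannAlgebra.mem_commutant_iff]
  exact h

theorem tfun_tau {r : ℝ} (hr : r ∈ Icc (0 : ℝ) 2) :
    tfun r * (2 - r) = tfun r * tfun r * (Real.exp (tau r / 2) : ℝ) ∧
      tfun r * r = tfun r * tfun r * (Real.exp (-(tau r / 2)) : ℝ) := by
  rcases hr.1.eq_or_lt with rfl | h0
  · simp [tfun_zero]
  rcases hr.2.eq_or_lt with rfl | h2
  · simp [tfun_two]
  have h2' : 0 < 2 - r := by linarith
  have hE := Real.exp_pos (tau r / 2)
  have e1 : Real.exp (tau r / 2) ^ 2 = (2 - r) / r := by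
    rw [sq, ← Real.exp_add, add_halves, tau, Real.exp_log (by positivity)]
  have e2 : √(r * (2 - r)) = r * Real.exp (tau r / 2) := by
    rw [Real.sqrt_eq_iff_mul_self_eq_of_pos (by positivity), ← sq, mul_pow, e1]
    field_simp
  have e3 : 2 - r = √(r * (2 - r)) * Real.exp (tau r / 2) := by
    rw [e2, mul_assoc, ← sq, e1]; field_simp
  have e4 : r = √(r * (2 - r)) * Real.exp (-(tau r / 2)) := by
    rw [e2, Real.exp_neg]; field_simp
  constructor
  · rw [mul_assoc]; congr 1; unfold tfun; exact_mod_cast e3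
  · rw [mul_assoc]; congr 1; unfold tfun; exact_mod_cast e4

theorem TMod.T_star : star (fc m.R tfun) = fc m.R tfun := by
  rw [fc_star m.in02]; exact fc_congr m.in02 fun r _ => conj_tfun r

theorem TMod.T_J (ξ : H) : fc m.R tfun (m.J ξ) = m.S ξ := by
  rw [← m.J_T, fc_conj m.in02 m.J m.J_R continuous_tfun.continuousOn]
  congr 2
  funext r; rw [tfun_two_sub, conj_tfun]

theorem TMod.inner_U (t : ℝ) (η ξ : H) : ⟪η, m.U t ξ⟫_ℂ = ⟪m.U (-t) η, ξ⟫_ℂ := by
  rw [← m.U_star, adj']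

theorem TMod.cont_aux (w : H →L[ℂ] H) (ξ η : H) :
    Continuous fun t : ℝ => (sech t : ℂ) * ⟪η, m.U t (w (m.U (-t) ξ))⟫_ℂ := by
  simp only [m.inner_U _ η]
  have h1 := (m.U_cont η).comp continuous_neg
  have h2 := (m.U_cont ξ).comp continuous_neg
  exact (Complex.continuous_ofReal.comp continuous_sech).mul (h1.inner (w.continuous.comp h2))

theorem TMod.norm_aux (w : H →L[ℂ] H) (ξ η : H) (t : ℝ) :
    ‖(sech t : ℂ) * ⟪η, m.U t (w (m.U (-t) ξ))⟫_ℂ‖ ≤ sech t * (‖η‖ * (‖w‖ * ‖ξ‖)) := by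
  rw [norm_mul, Complex.norm_real, Real.norm_of_nonneg (sech_pos t).le]
  refine mul_le_mul_of_nonneg_left ((norm_inner_le_norm _ _).trans
    (mul_le_mul_of_nonneg_left ?_ (norm_nonneg _))) (sech_pos t).le
  rw [m.U_norm, ← m.U_norm (-t) ξ]
  exact w.le_opNorm _

theorem TMod.int_aux (w : H →L[ℂ] H) (ξ η : H) :
    Integrable fun t : ℝ => (sech t : ℂ) * ⟪η, m.U t (w (m.U (-t) ξ))⟫_ℂ :=
  (integrable_sech.mul_const _).mono' (m.cont_aux w ξ η).aestronglyMeasurable
    (ae_of_all _ (m.norm_aux w ξ η))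

theorem norm_exp_I (s t : ℝ) : ‖Complex.exp (Complex.I * s * t)‖ = 1 := by
  rw [Complex.norm_exp]; simp

theorem TMod.int_aux' (w : H →L[ℂ] H) (ξ η : H) (s : ℝ) :
    Integrable fun t : ℝ => Complex.exp (Complex.I * s * t) *
      ((sech t : ℂ) * ⟪η, m.U t (w (m.U (-t) ξ))⟫_ℂ) :=
  (m.int_aux w ξ η).bdd_mul (c := 1) (Continuous.aestronglyMeasurable (by fun_prop))
    (ae_of_all _ fun t => (norm_exp_I s t).le)

theorem TMod.solve (h' : Cyc N.commutant Ω) {y : H →L[ℂ] H} (hy : y ∈ N.commutant) (s : ℝ) :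
    ∃ x ∈ N, ∀ ξ η, ∫ t : ℝ, Complex.exp (Complex.I * s * t) *
      ((sech t : ℂ) * ⟪η, m.U t (m.cj y (m.U (-t) ξ))⟫_ℂ) = ⟪η, x ξ⟫_ℂ := by
  obtain ⟨x, hx, hxy⟩ := m.toTPre.op_identity h' hy s
  refine ⟨x, hx, ?_⟩
  have h := m.in02
  have ct : ContinuousOn tfun (Icc 0 2) := continuous_tfun.continuousOn
  obtain ⟨T, hT⟩ : ∃ T, T = fc m.R tfun := ⟨_, rfl⟩
  obtain ⟨g, hg⟩ : ∃ g : ℝ → ℝ → ℂ,
    g = fun (t r : ℝ) => tfun r * Complex.exp (Complex.I * t * tau r) := ⟨_, rfl⟩
  have cg2 : ContinuousOn (fun z : ℝ × ℝ => g z.1 z.2) (univ ×ˢ Icc 0 2) :=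
    hg ▸ cont_mul_exp ct tfun_zero tfun_two
  have cg3 : ContinuousOn (fun z : ℝ × ℝ => g (-z.1) z.2) (univ ×ˢ Icc 0 2) :=
    cg2.comp (f := fun z : ℝ × ℝ => (-z.1, z.2)) (by fun_prop) fun z hz => ⟨mem_univ _, hz.2⟩
  have cg : ∀ t, ContinuousOn (g t) (Icc 0 2) := fun t =>
    cg2.comp (f := fun r => (t, r)) (by fun_prop) fun r hr => ⟨mem_univ _, hr⟩
  have ng : ∀ t r, ‖g t r‖ ≤ 1 := fun t r => by
    rw [hg]; simpa only [norm_mul, norm_exp_tau, mul_one] using norm_tfun_le r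
  have UT : ∀ t ξ, m.U t (T ξ) = fc m.R (g t) ξ := fun t ξ => by
    rw [hT, hg, ← m.U_fc t _ ct tfun_zero tfun_two]; rfl
  have TU : ∀ t ξ, T (m.U t ξ) = m.U t (T ξ) := fun t ξ => by
    rw [hT]
    exact (congrArg (fun A : H →L[ℂ] H => A ξ) (fc_intertwine h (m.U_R t) tfun)).symm
  have Tadj : ∀ u v, ⟪T u, v⟫_ℂ = ⟪u, T v⟫_ℂ := fun u v => by rw [← adj T, hT, m.T_star]
  have c1 : ContinuousOn (fun r : ℝ => (r : ℂ)) (Icc 0 2) := by fun_prop
  have c2 : ContinuousOn (fun r : ℝ => 2 - (r : ℂ)) (Icc 0 2) := by fun_prop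
  have f2 : fc m.R (fun r : ℝ => 2 - (r : ℂ)) = 2 - m.R := by
    rw [fc_sub h (by fun_prop) c1, fc_id h, fc_const h, two_smul, one_add_one_eq_two]
  have n1 : ∀ r ∈ Icc (0 : ℝ) 2, ‖(r : ℂ)‖ ≤ 2 := fun r hr => by
    rw [Complex.norm_real, Real.norm_of_nonneg hr.1]; exact hr.2
  have n2 : ∀ r ∈ Icc (0 : ℝ) 2, ‖2 - (r : ℂ)‖ ≤ 2 := fun r hr => by
    have := n1 (2 - r) ⟨by linarith [hr.2], by linarith [hr.1]⟩
    rwa [Complex.ofReal_sub, Complex.ofReal_ofNat] at this
  obtain ⟨c, hc⟩ : ∃ c : ℝ → ℂ, c = fun t : ℝ => Complex.exp (Complex.I * s * t) * (sech t : ℂ) :=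
    ⟨_, rfl⟩
  have cc : Continuous c := hc ▸ Continuous.mul (by fun_prop)
    (Complex.continuous_ofReal.comp continuous_sech)
  have nc : ∀ t, ‖c t‖ = sech t := fun t => by
    rw [hc]
    simp only [norm_mul, norm_exp_I, one_mul, Complex.norm_real, Real.norm_of_nonneg (sech_pos t).le]
  have key : ∀ ξ η, ∫ t : ℝ, Complex.exp (Complex.I * s * t) *
      ((sech t : ℂ) * ⟪T (T η), m.U t (m.cj y (m.U (-t) (T (T ξ))))⟫_ℂ) =
        ⟪T (T η), x (T (T ξ))⟫_ℂ := by
    intro ξ η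
    have hb : ∀ (t a : ℝ) (z : ℂ) (r : ℝ), ‖z‖ ≤ 2 → ‖c t * (Real.exp a : ℝ) * (g t r * z)‖ ≤
        sech t * (Real.exp a * 2) := fun t a z r hz => by
      rw [norm_mul, norm_mul, norm_mul, nc, Complex.norm_real, Real.norm_of_nonneg (Real.exp_pos a).le,
        mul_assoc]
      have := sech_pos t
      gcongr
      simpa using mul_le_mul (ng t r) hz (norm_nonneg _) zero_le_one
    have := bimeasure h x ξ η (f := fun r => tfun r * tfun r) (g := fun r => tfun r * tfun r)
      (fun t r => c t * (Real.exp (s / 2) : ℝ) * (g t r * (2 - r))) (fun t r => r * g (-t) r)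
      (fun t r => c t * (Real.exp (-(s / 2)) : ℝ) * (g t r * r)) (fun t r => (2 - r) * g (-t) r)
      (ContinuousOn.mul (Continuous.continuousOn (by fun_prop))
        (cg2.mul (Continuous.continuousOn (by fun_prop))))
      (ContinuousOn.mul (Continuous.continuousOn (by fun_prop)) cg3)
      (ContinuousOn.mul (Continuous.continuousOn (by fun_prop))
        (cg2.mul (Continuous.continuousOn (by fun_prop))))
      (ContinuousOn.mul (Continuous.continuousOn (by fun_prop)) cg3)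
      (fun t => sech t * ((Real.exp (s / 2) + Real.exp (-(s / 2))) * 2))
      (integrable_sech.mul_const _)
      (fun t r hr => by
        have := sech_pos t
        have := Real.exp_pos (s / 2)
        have := Real.exp_pos (-(s / 2))
        exact ⟨(hb _ _ _ _ (n2 r hr)).trans (by gcongr; linarith),
          (hb _ _ _ _ (n1 r hr)).trans (by gcongr; linarith)⟩) 2
      (fun t r hr => ⟨by
        simpa using mul_le_mul (n1 r hr) (ng (-t) r) (norm_nonneg _) zero_le_two, by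
        simpa using mul_le_mul (n2 r hr) (ng (-t) r) (norm_nonneg _) zero_le_two⟩)
      (ct.mul ct) (ct.mul ct) (fun r hr r' hr' => by
        obtain ⟨a1, a2⟩ := tfun_tau hr
        obtain ⟨b1, b2⟩ := tfun_tau hr'
        obtain ⟨u, hu⟩ : ∃ u, u = s + tau r - tau r' := ⟨_, rfl⟩
        have e : ∀ t : ℝ, c t * (Real.exp (s / 2) : ℝ) * (g t r * (2 - r)) * (r' * g (-t) r') +
            c t * (Real.exp (-(s / 2)) : ℝ) * (g t r * r) * ((2 - r') * g (-t) r') =
            (tfun r * tfun r * (tfun r' * tfun r') *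
              (Real.exp (u / 2) + Real.exp (-(u / 2)) : ℝ)) *
              ((sech t : ℂ) * Complex.exp (Complex.I * u * t)) := fun t => by
          have e1 : Complex.exp (Complex.I * u * t) = Complex.exp (Complex.I * s * t) *
              Complex.exp (Complex.I * t * tau r) * Complex.exp (Complex.I * (-t : ℝ) * tau r') := by
            rw [← Complex.exp_add, ← Complex.exp_add, hu]; congr 1; push_cast; ring
          have e2 : Real.exp (u / 2) = Real.exp (s / 2) * Real.exp (tau r / 2) *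
              Real.exp (-(tau r' / 2)) := by
            rw [← Real.exp_add, ← Real.exp_add, hu]; congr 1; ring
          have e3 : Real.exp (-(u / 2)) = Real.exp (-(s / 2)) * Real.exp (-(tau r / 2)) *
              Real.exp (tau r' / 2) := by
            rw [← Real.exp_add, ← Real.exp_add, hu]; congr 1; ring
          rw [e1, e2, e3, hc, hg]
          simp only [Complex.ofReal_add, Complex.ofReal_mul]
          generalize Complex.exp (Complex.I * s * t) = A
          generalize Complex.exp (Complex.I * t * tau r) = B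
          generalize Complex.exp (Complex.I * (-t : ℝ) * tau r') = C
          linear_combination (A * B * C * sech t * (Real.exp (s / 2) : ℝ) * (tfun r' * r')) * a1 +
            (A * B * C * sech t * (Real.exp (s / 2) : ℝ) *
              (tfun r * tfun r * (Real.exp (tau r / 2) : ℝ))) * b2 +
            (A * B * C * sech t * (Real.exp (-(s / 2)) : ℝ) * (tfun r' * (2 - r'))) * a2 +
            (A * B * C * sech t * (Real.exp (-(s / 2)) : ℝ) *
              (tfun r * tfun r * (Real.exp (-(tau r / 2)) : ℝ))) * b1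
        simp only [e]
        rw [integral_const_mul, integral_sech, mul_assoc, ← Complex.ofReal_mul,
          mul_inv_cancel₀ (by positivity), Complex.ofReal_one, mul_one])
    rw [fc_mul h ct ct, ← hT] at this
    rw [Tadj, Tadj]
    refine Eq.trans (integral_congr_ae (ae_of_all _ fun t => ?_)) this
    have e1 : T (m.cj y (T (fc m.R (g (-t)) ξ))) = m.S (y (m.S (fc m.R (g (-t)) ξ))) := by
      rw [TMod.cj_apply, hT, m.J_T, m.T_J]
    simp only
    rw [Tadj, Tadj, TU, TU, UT t, ← TU (-t), UT, e1, hxy, fc_smul h ((cg t).fun_mul c2),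
      fc_smul h ((cg t).fun_mul c1), fc_mul h (cg t) c2, fc_mul h (cg t) c1, fc_mul h c1 (cg _),
      fc_mul h c2 (cg _), f2, fc_id h, hc]
    simp only [map_add, map_smul, inner_add_right, inner_smul_right, smul_apply, mul_apply_eq_comp]
    ring
  have Td : DenseRange (T ∘ T) := hT ▸ m.T_dense.comp m.T_dense (fc m.R tfun).continuous
  obtain ⟨Φ, hΦ⟩ : ∃ Φ : H → H → ℂ, ∀ ξ η, Φ ξ η = ∫ t : ℝ, Complex.exp (Complex.I * s * t) *
      ((sech t : ℂ) * ⟪η, m.U t (m.cj y (m.U (-t) ξ))⟫_ℂ) := ⟨_, fun _ _ => rfl⟩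
  have nΦ : ∀ ξ η, ‖Φ ξ η‖ ≤ (∫ t, sech t) * (‖η‖ * (‖m.cj y‖ * ‖ξ‖)) := fun ξ η => by
    rw [hΦ, ← integral_mul_const]
    refine norm_integral_le_of_norm_le (integrable_sech.mul_const _) (ae_of_all _ fun t => ?_)
    rw [norm_mul, norm_exp_I, one_mul]
    exact m.norm_aux _ _ _ _
  have k1 : ∀ η, Continuous fun ξ => Φ ξ η := fun η => by
    refine (LipschitzWith.of_dist_le' (K := (∫ t, sech t) * (‖η‖ * ‖m.cj y‖))
      fun a b => ?_).continuous
    have : Φ a η - Φ b η = Φ (a - b) η := by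
      rw [hΦ, hΦ, hΦ, ← integral_sub (m.int_aux' _ _ _ _) (m.int_aux' _ _ _ _)]
      simp only [map_sub, inner_sub_right, mul_sub]
    rw [dist_eq_norm, dist_eq_norm, this]
    exact (nΦ _ _).trans (le_of_eq (by ring))
  have k2 : ∀ ξ, Continuous fun η => Φ ξ η := fun ξ => by
    refine (LipschitzWith.of_dist_le' (K := (∫ t, sech t) * (‖m.cj y‖ * ‖ξ‖))
      fun a b => ?_).continuous
    have : Φ ξ a - Φ ξ b = Φ ξ (a - b) := by
      rw [hΦ, hΦ, hΦ, ← integral_sub (m.int_aux' _ _ _ _) (m.int_aux' _ _ _ _)]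
      simp only [inner_sub_left, mul_sub]
    rw [dist_eq_norm, dist_eq_norm, this]
    exact (nΦ _ _).trans (le_of_eq (by ring))
  intro ξ η
  rw [← hΦ]
  refine Td.induction_on (p := fun ξ => Φ ξ η = ⟪η, x ξ⟫_ℂ) ξ
    (isClosed_eq (k1 η) (by fun_prop)) fun ξ => ?_
  refine Td.induction_on (p := fun η => Φ ((T ∘ T) ξ) η = ⟪η, x ((T ∘ T) ξ)⟫_ℂ) η
    (isClosed_eq (k2 _) (by fun_prop)) fun η => ?_
  rw [hΦ]
  exact key ξ η

theorem TMod.U_cj_mem (h' : Cyc N.commutant Ω) {y : H →L[ℂ] H} (hy : y ∈ N.commutant) (t : ℝ) :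
    m.U t * m.cj y * m.U (-t) ∈ N := by
  refine vn_mem_of_comm fun b hb => ?_
  ext ξ
  refine ext_inner_left ℂ fun η => ?_
  have := fourier_unique ((m.cont_aux (m.cj y) ξ (star b η)).sub (m.cont_aux (m.cj y) (b ξ) η))
    ((m.int_aux (m.cj y) ξ (star b η)).sub (m.int_aux (m.cj y) (b ξ) η)) (fun s => by
      obtain ⟨x, hx, h⟩ := m.solve h' hy s
      simp only [Pi.sub_apply, mul_sub]
      rw [integral_sub (m.int_aux' _ _ _ _) (m.int_aux' _ _ _ _), h, h, adj', comm_apply hx hb,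
        sub_self]) t
  simp only [Pi.sub_apply] at this
  rw [← mul_sub, mul_eq_zero, adj', sub_eq_zero] at this
  exact this.resolve_left (by exact_mod_cast (sech_pos t).ne')

end Crest.Agent.R78
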