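import Crest.Agent.R78.Law

/-!
# Row 78, task R78-TopOrth: two-register orthogonality along random words.

PLAN.  Let `T f` be the average inside the norm, `t f = P f (Q f (T f))`, `X = ∑ ‖t f‖²`.
Lift to words: `ν = (Law.unif S).map FreeMonoid.of`, `φ = FreeMonoid.lift lab`, `μ₁ = ν.map φ` at the level of
expectations (`Law.E_map_pow`, `E_map`); words in the support of `ν.pow j` have length `j`
(`mem_support_bind`, `mem_support_pure`).  For a word `b` and `j < n` put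
`Z j b = B (suf) (A (pre) (Q f (P f (t f))))`, `pre = take j b`, `f = b[j]`, `suf = drop (j+1) b`.
By `E_pow_add` (`n = j + 1 + (n - 1 - j)`), `X = re E_b ⟪(|S|/n) ∑ j, Z j b, w b⟫`, so
`X² ≤ E ‖(|S|/n) ∑ Z j‖² · E ‖w‖²` (`E_mul_sq_le`).  Diagonal: `E ‖Z j‖² ≤ α² β² X / |S|`.
Off-diagonal `j < j'`, `b = a f m f' c`: `M` and `M'` commute, so with
`x f = (A (a f m))⋆ A a P f (t f)`, `y f' = (B (m f' c))⋆ B c Q f' (t f')` one gets
`⟪Z j, Z j'⟫ = ⟪Q f (x f), P f' (y f')⟫`; for fixed `a, m, c` average over `f, f'`: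
`|…| = |S|⁻² |⟪∑ Q f (x f), ∑ P f' (y f')⟫| ≤ |S|⁻² k α² β² X`, using the dual form
`‖∑ Q f (x f)‖² ≤ k ∑ ‖x f‖²` of `hQ`.  Total `≤ (|S|/n + k) α² β² X ≤ 2 k α² β² X`.
(A different bookkeeping, e.g. with functions `Fin n → S`, is fine.)
-/

set_option autoImplicit false

namespace Crest.Agent.R78

open Finset

open scoped InnerProductSpace

namespace TopOrth

section words

variable (S : Type*) [Fintype S] [Nonempty S] {V : Type*} [AddCommGroup V] [Module ℝ V]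

/-- uniform law on words of length `n` -/
noncomputable def wl : ℕ → Law (List S)
  | 0 => Law.pure []
  | n + 1 => (Law.unif S).bind fun f => (wl n).map fun c => f :: c

variable {S}

theorem E_wl_succ (n : ℕ) (F : List S → V) :
    (wl S (n + 1)).E F = (Law.unif S).E fun f => (wl S n).E fun c => F (f :: c) := by
  simp [wl, Law.E_bind, Law.E_map]

theorem E_wl_add (i l : ℕ) (F : List S → V) :
    (wl S (i + l)).E F = (wl S i).E fun a => (wl S l).E fun c => F (a ++ c) := by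
  induction i generalizing F with
  | zero => simp [wl]
  | succ i ih =>
    rw [Nat.add_right_comm, E_wl_succ, E_wl_succ]
    simp only [ih, List.cons_append]

theorem len_wl {n : ℕ} {b : List S} (h : b ∈ (wl S n).f.support) : b.length = n := by
  induction n generalizing b with
  | zero => rw [Law.mem_support_pure h]; rfl
  | succ n ih =>
    obtain ⟨f, -, h1⟩ := Law.mem_support_bind h
    obtain ⟨c, hc, h2⟩ := Law.mem_support_bind h1
    rw [Law.mem_support_pure h2, List.length_cons, ih hc]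

theorem E_wl_split {n j : ℕ} (hj : j < n) (F : List S → V) :
    (wl S n).E F = (wl S j).E fun a => (Law.unif S).E fun f =>
      (wl S (n - 1 - j)).E fun c => F (a ++ f :: c) := by
  have : n = j + ((n - 1 - j) + 1) := by omega
  conv_lhs => rw [this]
  rw [E_wl_add]
  simp only [E_wl_succ]

theorem E_pow_wl {G : Type*} [Monoid G] (lab : S → G) (n : ℕ) (F : G → V) :
    (((Law.unif S).map lab).pow n).E F = (wl S n).E fun b => F (b.map lab).prod := by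
  induction n generalizing F with
  | zero => simp [wl]
  | succ n ih =>
    rw [Law.E_pow_succ', E_wl_succ, Law.E_map]
    simp only [ih, List.map_cons, List.prod_cons]

end words

variable {S G H : Type*} [NormedAddCommGroup H] [InnerProductSpace ℂ H] [CompleteSpace H]

theorem dual_frame [Fintype S] {Q : S → H →L[ℂ] H} {k : ℝ} (hk : 0 ≤ k)
    (hQ : ∀ f, IsSelfAdjoint (Q f)) (hQk : ∀ ζ, ∑ f, ‖Q f ζ‖ ^ 2 ≤ k * ‖ζ‖ ^ 2) (x : S → H) :
    ‖∑ f, Q f (x f)‖ ^ 2 ≤ k * ∑ f, ‖x f‖ ^ 2 := by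
  set v := ∑ f, Q f (x f) with hv
  have h1 : ‖v‖ ^ 2 ≤ ∑ f, ‖Q f v‖ * ‖x f‖ := by
    rw [← @inner_self_eq_norm_sq ℂ]
    conv_lhs => enter [2, 3]; rw [hv]
    rw [inner_sum, map_sum]
    refine sum_le_sum fun f _ => ?_
    rw [← ContinuousLinearMap.adjoint_inner_left, ← ContinuousLinearMap.star_eq_adjoint,
      (hQ f).star_eq]
    exact (RCLike.re_le_norm _).trans (norm_inner_le_norm _ _)
  have h2 := sum_mul_sq_le_sq_mul_sq univ (fun f => ‖Q f v‖) (fun f => ‖x f‖)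
  have h3 : 0 ≤ ∑ f, ‖x f‖ ^ 2 := sum_nonneg fun _ _ => sq_nonneg _
  have h4 := (pow_le_pow_left₀ (sq_nonneg _) h1 2).trans
    (h2.trans (mul_le_mul_of_nonneg_right (hQk v) h3))
  rcases (sq_nonneg ‖v‖).eq_or_lt with h | h
  · rw [← h]; positivity
  · refine le_of_mul_le_mul_left ?_ h
    nlinarith

/-- the vector attached to position `j` of a word -/
noncomputable def Zv [Monoid G] (lab : S → G) (A B : G → H →L[ℂ] H) (u : S → H) (j : ℕ)
    (b : List S) : H :=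
  match b.drop j with
  | [] => 0
  | f :: c => B (c.map lab).prod (A ((b.take j).map lab).prod (u f))

omit [CompleteSpace H] in
theorem Zv_eq [Monoid G] (lab : S → G) (A B : G → H →L[ℂ] H) (u : S → H) {j : ℕ} {a : List S}
    (ha : a.length = j) (f : S) (c : List S) :
    Zv lab A B u j (a ++ f :: c) = B (c.map lab).prod (A (a.map lab).prod (u f)) := by
  subst ha
  simp [Zv]

theorem inner_swap {M M' : StarSubalgebra ℂ (H →L[ℂ] H)} (hMM : ∀ x ∈ M, ∀ y ∈ M', x * y = y * x)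
    {A₁ A₂ P' B₁ B₂ Q Q' : H →L[ℂ] H} (a1 : A₁ ∈ M) (a2 : A₂ ∈ M) (p : P' ∈ M) (b1 : B₁ ∈ M')
    (b2 : B₂ ∈ M') (q : Q ∈ M') (q' : Q' ∈ M') (x y : H) :
    ⟪B₁ (A₁ (Q x)), B₂ (A₂ (Q' (P' y)))⟫_ℂ =
      ⟪Q (star A₂ (A₁ x)), P' (star B₁ (B₂ (Q' y)))⟫_ℂ := by
  have e1 : star B₁ * B₂ * A₂ * Q' * P' = A₂ * P' * (star B₁ * B₂ * Q') := by
    rw [hMM _ (mul_mem a2 p) _ (mul_mem (mul_mem (star_mem b1) b2) q'), mul_assoc _ A₂ Q',
      hMM _ a2 _ q']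
    simp only [mul_assoc]
  have e2 : star A₂ * A₁ * Q = Q * (star A₂ * A₁) := hMM _ (mul_mem (star_mem a2) a1) _ q
  have f1 : star B₁ (B₂ (A₂ (Q' (P' y)))) = A₂ (P' (star B₁ (B₂ (Q' y)))) :=
    congrArg (fun T : H →L[ℂ] H => T y) e1
  have f2 : star A₂ (A₁ (Q x)) = Q (star A₂ (A₁ x)) := congrArg (fun T : H →L[ℂ] H => T x) e2
  rw [← ContinuousLinearMap.adjoint_inner_right, ← ContinuousLinearMap.star_eq_adjoint, f1,
    ← ContinuousLinearMap.adjoint_inner_left A₂, ← ContinuousLinearMap.star_eq_adjoint, f2]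

omit [CompleteSpace H] in
theorem norm_app_le {T : H →L[ℂ] H} {c d : ℝ} {x : H} (hT : ‖T‖ ≤ c) (hx : ‖x‖ ≤ d) :
    ‖T x‖ ≤ c * d :=
  (T.le_opNorm x).trans (mul_le_mul hT hx (norm_nonneg _) ((norm_nonneg _).trans hT))

section main

variable [Fintype S] [Nonempty S] [Monoid G] (lab : S → G) {n : ℕ}
  {M M' : StarSubalgebra ℂ (H →L[ℂ] H)} {A B : G → H →L[ℂ] H} {α β k : ℝ} {P Q : S → H →L[ℂ] H}

omit [CompleteSpace H] in
theorem diag_le (hAn : ∀ g, ‖A g‖ ≤ α) (hBn : ∀ g, ‖B g‖ ≤ β) {u t : S → H}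
    (hu : ∀ f, ‖u f‖ ≤ ‖t f‖) {j : ℕ} (hj : j < n) :
    (wl S n).E (fun b => (⟪Zv lab A B u j b, Zv lab A B u j b⟫_ℂ).re) ≤
      (Fintype.card S : ℝ)⁻¹ * (α ^ 2 * β ^ 2 * ∑ f, ‖t f‖ ^ 2) := by
  rw [E_wl_split hj]
  refine Law.E_le _ fun a ha => ?_
  rw [mul_sum, ← smul_eq_mul, ← Law.E_unif]
  refine Law.E_mono _ fun f _ => Law.E_le _ fun c _ => ?_
  rw [Zv_eq lab A B u (len_wl ha)]
  have h := norm_app_le (hBn (c.map lab).prod) (norm_app_le (hAn (a.map lab).prod) (hu f))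
  have h' := pow_le_pow_left₀ (norm_nonneg _) h 2
  rw [← @inner_self_eq_norm_sq ℂ] at h'
  refine le_trans h' (le_of_eq ?_)
  ring

theorem off_le (hMM : ∀ x ∈ M, ∀ y ∈ M', x * y = y * x) (hA : ∀ g, A g ∈ M) (hB : ∀ g, B g ∈ M')
    (hAn : ∀ g, ‖A g‖ ≤ α) (hBn : ∀ g, ‖B g‖ ≤ β) (hk : 0 ≤ k)
    (hP : ∀ f, P f ∈ M ∧ IsSelfAdjoint (P f) ∧ ‖P f‖ ≤ 1)
    (hQ : ∀ f, Q f ∈ M' ∧ IsSelfAdjoint (Q f) ∧ ‖Q f‖ ≤ 1)
    (hPk : ∀ ζ, ∑ f, ‖P f ζ‖ ^ 2 ≤ k * ‖ζ‖ ^ 2) (hQk : ∀ ζ, ∑ f, ‖Q f ζ‖ ^ 2 ≤ k * ‖ζ‖ ^ 2)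
    (t : S → H) {j j' : ℕ} (hj : j < j') (hj' : j' < n) :
    (wl S n).E (fun b => (⟪Zv lab A B (fun f => Q f (P f (t f))) j b,
        Zv lab A B (fun f => Q f (P f (t f))) j' b⟫_ℂ).re) ≤
      (Fintype.card S : ℝ)⁻¹ * ((Fintype.card S : ℝ)⁻¹ * (k * α ^ 2 * β ^ 2 * ∑ f, ‖t f‖ ^ 2)) := by
  rw [E_wl_split (hj.trans hj')]
  refine Law.E_le _ fun a ha => ?_
  simp only [E_wl_split (show j' - j - 1 < n - 1 - j by omega)]
  rw [Law.E_comm]
  refine Law.E_le _ fun m hm => ?_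
  simp only [Law.E_comm (Law.unif S) (wl S _)]
  refine Law.E_le _ fun c _ => ?_
  have hl : ∀ f : S, (a ++ f :: m).length = j' := by
    intro f
    rw [List.length_append, List.length_cons, len_wl ha, len_wl hm]
    omega
  set x : S → H := fun f => star (A ((a ++ f :: m).map lab).prod) (A (a.map lab).prod (P f (t f)))
    with hx
  set y : S → H := fun f => star (B ((m ++ f :: c).map lab).prod) (B (c.map lab).prod (Q f (t f)))
    with hy
  have e : ∀ f f' : S, ⟪Zv lab A B (fun f => Q f (P f (t f))) j (a ++ f :: (m ++ f' :: c)),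
      Zv lab A B (fun f => Q f (P f (t f))) j' (a ++ f :: (m ++ f' :: c))⟫_ℂ =
      ⟪Q f (x f), P f' (y f')⟫_ℂ := by
    intro f f'
    rw [Zv_eq lab A B _ (len_wl ha), show a ++ f :: (m ++ f' :: c) = (a ++ f :: m) ++ f' :: c by simp,
      Zv_eq lab A B _ (hl f)]
    exact inner_swap hMM (hA _) (hA _) (hP f').1 (hB _) (hB _) (hQ f).1 (hQ f').1 _ _
  simp only [e, Law.E_unif, smul_eq_mul]
  have hc : (0 : ℝ) ≤ (Fintype.card S : ℝ)⁻¹ := by positivity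
  rw [← mul_sum]
  refine mul_le_mul_of_nonneg_left (mul_le_mul_of_nonneg_left ?_ hc) hc
  have e2 : ∑ f, ∑ f', (⟪Q f (x f), P f' (y f')⟫_ℂ).re =
      (⟪∑ f, Q f (x f), ∑ f', P f' (y f')⟫_ℂ).re := by
    rw [sum_inner]
    simp only [inner_sum, Complex.re_sum]
  rw [e2]
  have hX : 0 ≤ ∑ f, ‖t f‖ ^ 2 := sum_nonneg fun _ _ => sq_nonneg _
  have h1 : ‖∑ f, Q f (x f)‖ ^ 2 ≤ k * (α ^ 4 * ∑ f, ‖t f‖ ^ 2) := by
    refine (dual_frame hk (fun f => (hQ f).2.1) hQk x).trans (mul_le_mul_of_nonneg_left ?_ hk)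
    rw [mul_sum]
    refine sum_le_sum fun f _ => ?_
    have h := norm_app_le ((norm_star (A ((a ++ f :: m).map lab).prod)).le.trans (hAn _))
      (norm_app_le (hAn (a.map lab).prod) (norm_app_le (hP f).2.2 (le_refl ‖t f‖)))
    refine (pow_le_pow_left₀ (norm_nonneg _) h 2).trans (le_of_eq ?_)
    ring
  have h2 : ‖∑ f, P f (y f)‖ ^ 2 ≤ k * (β ^ 4 * ∑ f, ‖t f‖ ^ 2) := by
    refine (dual_frame hk (fun f => (hP f).2.1) hPk y).trans (mul_le_mul_of_nonneg_left ?_ hk)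
    rw [mul_sum]
    refine sum_le_sum fun f _ => ?_
    have h := norm_app_le ((norm_star (B ((m ++ f :: c).map lab).prod)).le.trans (hBn _))
      (norm_app_le (hBn (c.map lab).prod) (norm_app_le (hQ f).2.2 (le_refl ‖t f‖)))
    refine (pow_le_pow_left₀ (norm_nonneg _) h 2).trans (le_of_eq ?_)
    ring
  refine ((Complex.re_le_norm _).trans (norm_inner_le_norm _ _)).trans ?_
  refine (pow_le_pow_iff_left₀ (by positivity) (by positivity) two_ne_zero).1 ?_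
  rw [mul_pow]
  refine (mul_le_mul h1 h2 (sq_nonneg _) (by positivity)).trans (le_of_eq ?_)
  ring

theorem sum_sq_le (hMM : ∀ x ∈ M, ∀ y ∈ M', x * y = y * x) (hA : ∀ g, A g ∈ M) (hB : ∀ g, B g ∈ M')
    (hAn : ∀ g, ‖A g‖ ≤ α) (hBn : ∀ g, ‖B g‖ ≤ β) (hk : 0 ≤ k)
    (hP : ∀ f, P f ∈ M ∧ IsSelfAdjoint (P f) ∧ ‖P f‖ ≤ 1)
    (hQ : ∀ f, Q f ∈ M' ∧ IsSelfAdjoint (Q f) ∧ ‖Q f‖ ≤ 1)
    (hPk : ∀ ζ, ∑ f, ‖P f ζ‖ ^ 2 ≤ k * ‖ζ‖ ^ 2) (hQk : ∀ ζ, ∑ f, ‖Q f ζ‖ ^ 2 ≤ k * ‖ζ‖ ^ 2)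
    (t : S → H) :
    (wl S n).E (fun b => ‖∑ j ∈ range n, Zv lab A B (fun f => Q f (P f (t f))) j b‖ ^ 2) ≤
      n * ((Fintype.card S : ℝ)⁻¹ * (α ^ 2 * β ^ 2 * ∑ f, ‖t f‖ ^ 2)) + n * (n *
      ((Fintype.card S : ℝ)⁻¹ * ((Fintype.card S : ℝ)⁻¹ * (k * α ^ 2 * β ^ 2 * ∑ f, ‖t f‖ ^ 2)))) := by
  set Z := Zv lab A B (fun f => Q f (P f (t f))) with hZ
  set D := (Fintype.card S : ℝ)⁻¹ * (α ^ 2 * β ^ 2 * ∑ f, ‖t f‖ ^ 2) with hD
  set O := (Fintype.card S : ℝ)⁻¹ * ((Fintype.card S : ℝ)⁻¹ *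
    (k * α ^ 2 * β ^ 2 * ∑ f, ‖t f‖ ^ 2)) with hO
  have hX : 0 ≤ ∑ f, ‖t f‖ ^ 2 := sum_nonneg fun _ _ => sq_nonneg _
  have hO0 : 0 ≤ O := by positivity
  have e : ∀ b, ‖∑ j ∈ range n, Z j b‖ ^ 2 =
      ∑ j ∈ range n, ∑ j' ∈ range n, (⟪Z j b, Z j' b⟫_ℂ).re := by
    intro b
    rw [← @inner_self_eq_norm_sq ℂ, sum_inner]
    simp only [inner_sum, map_sum]
    rfl
  simp only [e, Law.E_sum]
  have h : ∀ j ∈ range n, ∀ j' ∈ range n,
      (wl S n).E (fun b => (⟪Z j b, Z j' b⟫_ℂ).re) ≤ (if j = j' then D else 0) + O := by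
    intro j hj j' hj'
    rcases lt_trichotomy j j' with h | rfl | h
    · rw [if_neg h.ne, zero_add]
      exact off_le lab hMM hA hB hAn hBn hk hP hQ hPk hQk t h (mem_range.1 hj')
    · rw [if_pos rfl]
      refine le_trans ?_ (le_add_of_nonneg_right hO0)
      refine diag_le lab hAn hBn (fun f => ?_) (mem_range.1 hj)
      simpa using norm_app_le (hQ f).2.2 (norm_app_le (hP f).2.2 (le_refl ‖t f‖))
    · rw [if_neg h.ne', zero_add]
      refine le_trans (le_of_eq ?_)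
        (off_le lab hMM hA hB hAn hBn hk hP hQ hPk hQk t h (mem_range.1 hj))
      congr 1
      ext b
      exact inner_re_symm (𝕜 := ℂ) _ _
  refine (sum_le_sum fun j hj => sum_le_sum fun j' hj' => h j hj j' hj').trans (le_of_eq ?_)
  rw [sum_congr rfl fun j hj => show _ = D + n * O by
    rw [sum_add_distrib, sum_ite_eq, if_pos hj, sum_const, card_range, nsmul_eq_mul]]
  rw [sum_const, card_range, nsmul_eq_mul, mul_add]

theorem pair_eq (u : S → H) (w : G → H) {j : ℕ} (hj : j < n) :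
    (wl S n).E (fun b => ⟪Zv lab A B u j b, w (b.map lab).prod⟫_ℂ) =
      (Fintype.card S : ℝ)⁻¹ • ∑ f, ⟪u f, (((Law.unif S).map lab).pow j).E fun a =>
        (((Law.unif S).map lab).pow (n - 1 - j)).E fun c =>
          star (A a) (star (B c) (w (a * lab f * c)))⟫_ℂ := by
  rw [← Law.E_unif]
  simp only [Law.inner_E, E_pow_wl]
  rw [E_wl_split hj, Law.E_comm (Law.unif S)]
  refine Law.E_congr _ fun a ha => ?_
  congr 1
  ext f
  congr 1
  ext c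
  rw [Zv_eq lab A B u (len_wl ha), ContinuousLinearMap.star_eq_adjoint,
    ContinuousLinearMap.star_eq_adjoint, ContinuousLinearMap.adjoint_inner_right,
    ContinuousLinearMap.adjoint_inner_right]
  simp [mul_assoc]

end main

end TopOrth

open TopOrth in
theorem orth_words {S G H : Type*} [Fintype S] [Nonempty S] [Monoid G] [NormedAddCommGroup H]
    [InnerProductSpace ℂ H] [CompleteSpace H] (lab : S → G) {n : ℕ} (hn : Fintype.card S ≤ n)
    {M M' : StarSubalgebra ℂ (H →L[ℂ] H)} (hMM : ∀ x ∈ M, ∀ y ∈ M', x * y = y * x)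
    {A B : G → H →L[ℂ] H} (hA : ∀ g, A g ∈ M) (hB : ∀ g, B g ∈ M') {α β k : ℝ}
    (hAn : ∀ g, ‖A g‖ ≤ α) (hBn : ∀ g, ‖B g‖ ≤ β) (hk : 1 ≤ k) {P Q : S → H →L[ℂ] H}
    (hP : ∀ f, P f ∈ M ∧ IsSelfAdjoint (P f) ∧ ‖P f‖ ≤ 1)
    (hQ : ∀ f, Q f ∈ M' ∧ IsSelfAdjoint (Q f) ∧ ‖Q f‖ ≤ 1)
    (hPk : ∀ ζ, ∑ f, ‖P f ζ‖ ^ 2 ≤ k * ‖ζ‖ ^ 2) (hQk : ∀ ζ, ∑ f, ‖Q f ζ‖ ^ 2 ≤ k * ‖ζ‖ ^ 2)
    (w : G → H) :
    ∑ f, ‖P f (Q f ((n : ℝ)⁻¹ • ∑ j ∈ range n, (((Law.unif S).map lab).pow j).E fun a =>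
      (((Law.unif S).map lab).pow (n - 1 - j)).E fun c =>
        star (A a) (star (B c) (w (a * lab f * c)))))‖ ^ 2 ≤
      2 * k * α ^ 2 * β ^ 2 * (((Law.unif S).map lab).pow n).E fun b => ‖w b‖ ^ 2 := by
  set T : S → H := fun f => (n : ℝ)⁻¹ • ∑ j ∈ range n, (((Law.unif S).map lab).pow j).E fun a =>
      (((Law.unif S).map lab).pow (n - 1 - j)).E fun c =>
        star (A a) (star (B c) (w (a * lab f * c))) with hT
  set t : S → H := fun f => P f (Q f (T f)) with ht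
  change ∑ f, ‖t f‖ ^ 2 ≤ _
  set X := ∑ f, ‖t f‖ ^ 2 with hX
  have hX0 : 0 ≤ X := sum_nonneg fun _ _ => sq_nonneg _
  have hS : (0 : ℝ) < Fintype.card S := by exact_mod_cast Fintype.card_pos
  have hSn : (Fintype.card S : ℝ) ≤ n := by exact_mod_cast hn
  have hn0 : (0 : ℝ) < n := hS.trans_le hSn
  set Z := Zv lab A B (fun f => Q f (P f (t f))) with hZ
  rw [E_pow_wl]
  set W := (wl S n).E fun b => ‖w (b.map lab).prod‖ ^ 2 with hW
  have hW0 : 0 ≤ W := Law.E_nonneg _ fun _ _ => sq_nonneg _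
  have h1 : (wl S n).E (fun b => (⟪∑ j ∈ range n, Z j b, w (b.map lab).prod⟫_ℂ).re) =
      (Fintype.card S : ℝ)⁻¹ * (n * X) := by
    rw [← Law.re_E]
    simp only [sum_inner, Law.E_sum]
    rw [sum_congr rfl fun j hj => pair_eq lab _ w (mem_range.1 hj), ← smul_sum, sum_comm,
      Complex.smul_re, smul_eq_mul, Complex.re_sum, hX, mul_sum _ _ (n : ℝ)]
    refine congrArg _ (sum_congr rfl fun f _ => ?_)
    rw [← inner_sum]
    have e : (∑ j ∈ range n, (((Law.unif S).map lab).pow j).E fun a =>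
      (((Law.unif S).map lab).pow (n - 1 - j)).E fun c =>
        star (A a) (star (B c) (w (a * lab f * c)))) = (n : ℂ) • T f := by
      simp only [hT]
      rw [show (n : ℂ) = ((n : ℝ) : ℂ) by simp, Complex.coe_smul, smul_smul,
        mul_inv_cancel₀ hn0.ne', one_smul]
    have e2 : ⟪Q f (P f (t f)), T f⟫_ℂ = ⟪t f, t f⟫_ℂ := by
      rw [← ContinuousLinearMap.adjoint_inner_right, ← ContinuousLinearMap.star_eq_adjoint,
        (hQ f).2.1.star_eq, ← ContinuousLinearMap.adjoint_inner_right,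
        ← ContinuousLinearMap.star_eq_adjoint, (hP f).2.1.star_eq]
    rw [e, inner_smul_right, e2, ← @inner_self_eq_norm_sq ℂ]
    simp
  have h2 : (Fintype.card S : ℝ)⁻¹ * (n * X) ≤
      (wl S n).E fun b => ‖∑ j ∈ range n, Z j b‖ * ‖w (b.map lab).prod‖ := by
    rw [← h1]
    exact Law.E_mono _ fun b _ => (Complex.re_le_norm _).trans (norm_inner_le_norm _ _)
  have h3 := (pow_le_pow_left₀ (by positivity) h2 2).trans (Law.E_mul_sq_le _ _ _)
  have h4 := sum_sq_le (n := n) lab hMM hA hB hAn hBn (by linarith) hP hQ hPk hQk t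
  have h5 := h3.trans (mul_le_mul_of_nonneg_right h4 hW0)
  rw [← hX] at h5
  set r := (Fintype.card S : ℝ)⁻¹ * n with hr
  have hr1 : 1 ≤ r := by rw [hr, inv_mul_eq_div, one_le_div hS]; exact hSn
  have h6 : r ^ 2 * X * X ≤ r ^ 2 * X * (2 * k * α ^ 2 * β ^ 2 * W) := by
    have c0 : 0 ≤ α ^ 2 * β ^ 2 * X * W := by positivity
    have c1 : r ≤ r ^ 2 * k := by nlinarith
    have c2 := mul_le_mul_of_nonneg_right c1 c0
    calc r ^ 2 * X * X = ((Fintype.card S : ℝ)⁻¹ * (n * X)) ^ 2 := by rw [hr]; ring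
      _ ≤ _ := h5
      _ = r * (α ^ 2 * β ^ 2 * X * W) + r ^ 2 * k * (α ^ 2 * β ^ 2 * X * W) := by rw [hr]; ring
      _ ≤ _ := by linarith
  rcases hX0.eq_or_lt with h | h
  · rw [← h]; positivity
  · exact le_of_mul_le_mul_left h6 (by positivity)

end Crest.Agent.R78
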