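import Crest.Agent.R78.Newton
import Crest.Agent.R78.Close

/-!
# Row 78, task R78-Unit: from a linear lift to a unitary.

PLAN.  `exists_iso_near`: symmetrise `Φ' x = (Φ x + (Φ x⋆)⋆)/2` (same bound), a continuous linear map; it is
bounded below by `1 - γ`, and onto: for `y ∈ M` pick `x` with `‖x - y‖ ≤ γ ‖y‖`, then `‖Φ' x - y‖ ≤ 3 γ ‖y‖`
(closed range + Riesz-type argument, or successive approximation), so it is a `ContinuousLinearEquiv`
(`ContinuousLinearEquiv.ofBijective`); defect `≤ 4 γ`; apply `newton` with `coh2`, `coh3`, `R121.exists_WS`.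
`exists_unitary_of_iso`: on `L2 (Fin 2) H` let `ρ x = mat (diagonal ![x, θ x])` (a `StarAlgHom` from `↥N`),
`Y = mat !![0, 0; 1, 0]`; `‖Y ρ x - ρ x Y‖ ≤ γ ‖x‖ ≤ γ ‖x‖`.  `R124.Kad.comm_bicommutant` and
`R124.Kad.arveson` (with `P = (comm ρ).commutant`) give `T ∈ comm ρ`, `‖Y - T‖ ≤ 16 C γ`; its entry
`t = ent T 1 0` satisfies `t x = θ x t`, `‖t - 1‖ ≤ 16 C γ ≤ 1/2`.  Polar decomposition: `t⋆ t` commutes with
`N`, `u = t (t⋆ t)^{-1/2}` (`R124.Kad.exists_sqrt_inv`), `t` invertible so `u` is unitary;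
`‖u - 1‖ ≤ ‖t‖ ‖c⁻¹‖ ‖1 - c‖ + ‖t - 1‖` with `‖1 - c‖ ≤ ‖1 - c²‖ ≤ 3 ‖t - 1‖` (choose `c ≥ 0`, e.g. by `cfc`).
-/

set_option autoImplicit false

namespace Crest.Agent.R78

universe u

variable {H : Type u} [NormedAddCommGroup H] [InnerProductSpace ℂ H] [CompleteSpace H]
  {N M : VonNeumannAlgebra H}

namespace Unit

open Crest.Agent.R124 Matrix

theorem iso_abs {A B D : Type u} [CStarAlgebra A] [CStarAlgebra B] [CStarAlgebra D]
    (i : A →⋆ₐ[ℂ] D) (j : B →⋆ₐ[ℂ] D) (hi : ∀ a, ‖i a‖ = ‖a‖) (hj : ∀ b, ‖j b‖ = ‖b‖)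
    (h2 : H2 A) (h3 : H3 A) (Φ : A →ₗ[ℂ] B) {γ : ℝ} (hγ0 : 0 ≤ γ) (hγ : γ ≤ 1 / 10 ^ 5)
    (hΦ : ∀ x, ‖j (Φ x) - i x‖ ≤ γ * ‖x‖) (hM : ∀ y, ∃ x, ‖i x - j y‖ ≤ γ * ‖y‖) :
    ∃ θ : A →⋆ₐ[ℂ] B, Function.Surjective θ ∧ ∀ x, ‖j (θ x) - i x‖ ≤ 1000 * γ * ‖x‖ := by
  let Φ' : A →ₗ[ℂ] B :=
    { toFun := fun x => (1 / 2 : ℂ) • (Φ x + star (Φ (star x)))
      map_add' := fun x y => by
        simp only [star_add, map_add, smul_add]; abel
      map_smul' := fun c x => by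
        simp only [star_smul, map_smul, star_star, RingHom.id_apply, smul_add, smul_comm c] }
  have hΦ'd : ∀ x, Φ' x = (1 / 2 : ℂ) • (Φ x + star (Φ (star x))) := fun _ => rfl
  have h1 : ∀ x, ‖j (Φ' x) - i x‖ ≤ γ * ‖x‖ := fun x => by
    have e : j (Φ' x) - i x =
        (1 / 2 : ℂ) • ((j (Φ x) - i x) + star (j (Φ (star x)) - i (star x))) := by
      rw [hΦ'd, map_smul j, map_add j, map_star j, map_star i, star_sub, star_star]
      module
    have a1 := hΦ x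
    have a2 := hΦ (star x)
    rw [norm_star] at a2
    have a3 := norm_add_le (j (Φ x) - i x) (star (j (Φ (star x)) - i (star x)))
    rw [norm_star] at a3
    have a4 : ‖(1 / 2 : ℂ)‖ = 1 / 2 := by norm_num
    rw [e, norm_smul, a4]
    linarith
  have hup : ∀ x, ‖Φ' x‖ ≤ (1 + γ) * ‖x‖ := fun x => by
    have a1 := norm_sub_norm_le (j (Φ' x)) (i x)
    rw [hi, hj] at a1
    linarith [h1 x]
  have hlow : ∀ x, (1 - γ) * ‖x‖ ≤ ‖Φ' x‖ := fun x => by
    have a1 := norm_sub_norm_le (i x) (j (Φ' x))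
    rw [hi, hj, norm_sub_rev] at a1
    linarith [h1 x]
  have hγ' : γ ≤ 1 / 100 := hγ.trans (by norm_num)
  have hlow' : ∀ x, ‖x‖ ≤ 3 / 2 * ‖Φ' x‖ := fun x => by
    nlinarith [hlow x, norm_nonneg x]
  let T₀ : A →L[ℂ] B := Φ'.mkContinuous (1 + γ) hup
  have hT₀ : ∀ x, T₀ x = Φ' x := fun _ => rfl
  have hker : (T₀ : A →ₗ[ℂ] B).ker = ⊥ := by
    rw [LinearMap.ker_eq_bot']
    intro x hx
    have := hlow' x
    rw [show Φ' x = 0 from hx, norm_zero, mul_zero] at this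
    exact norm_le_zero_iff.1 this
  have hran : (T₀ : A →ₗ[ℂ] B).range = ⊤ := by
    by_contra hne
    have hcl : IsClosed ((T₀ : A →ₗ[ℂ] B).range : Set B) :=
      (T₀.antilipschitz_of_bound (K := 3 / 2) (by exact_mod_cast hlow')).isClosed_range
        T₀.uniformContinuous
    obtain ⟨y, hy, hy'⟩ := riesz_lemma hcl (by
      by_contra hh
      push Not at hh
      exact hne (Submodule.eq_top_iff'.2 hh)) (r := 1 / 2) (by norm_num)
    obtain ⟨x, hx⟩ := hM y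
    have a1 := hy' (Φ' x) ⟨x, rfl⟩
    have a2 := norm_sub_norm_le (i x) (j y)
    rw [hi, hj] at a2
    have a3 := norm_sub_le_norm_sub_add_norm_sub (j (Φ' x)) (i x) (j y)
    rw [← map_sub, hj, norm_sub_rev] at a3
    have a4 := h1 x
    have a5 : γ * ‖x‖ ≤ γ * ((1 + γ) * ‖y‖) := mul_le_mul_of_nonneg_left (by linarith) hγ0
    have a6 : γ * ‖y‖ ≤ 1 / 100 * ‖y‖ := mul_le_mul_of_nonneg_right hγ' (norm_nonneg _)
    have a7 : γ * (γ * ‖y‖) ≤ 1 / 100 * (γ * ‖y‖) :=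
      mul_le_mul_of_nonneg_right hγ' (by positivity)
    have a8 : ‖y‖ ≤ 0 := by nlinarith [norm_nonneg y]
    exact hy (norm_le_zero_iff.1 a8 ▸ Submodule.zero_mem _)
  let T : A ≃L[ℂ] B := ContinuousLinearEquiv.ofBijective T₀ hker hran
  have hT : ∀ x, T x = Φ' x := fun _ => rfl
  obtain ⟨θ, hθ, hθ'⟩ := newton h2 h3 T
    (ContinuousLinearMap.opNorm_le_bound _ (by norm_num) fun x => by
      refine (hup x).trans (mul_le_mul_of_nonneg_right (by linarith) (norm_nonneg _)))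
    (ContinuousLinearMap.opNorm_le_bound _ (by norm_num) fun y => by
      have := hlow' (T.symm y)
      rwa [← hT, T.apply_symm_apply] at this)
    (fun x => by
      rw [hT, hT, hΦ'd, hΦ'd, star_smul, star_add, star_star, star_star, add_comm]
      simp)
    (d := 4 * γ) (by positivity) (by linarith)
    (fun x y => by
      rw [hT, hT, hT, ← hj, map_sub j, map_mul j]
      have e : j (Φ' (x * y)) - j (Φ' x) * j (Φ' y) = (j (Φ' (x * y)) - i (x * y)) -
          ((j (Φ' x) - i x) * i y + j (Φ' x) * (j (Φ' y) - i y)) := by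
        rw [map_mul i]; noncomm_ring
      have a1 := (h1 (x * y)).trans (mul_le_mul_of_nonneg_left (norm_mul_le x y) hγ0)
      have a2 : ‖(j (Φ' x) - i x) * i y‖ ≤ γ * ‖x‖ * ‖y‖ := by
        refine (norm_mul_le _ _).trans ?_
        rw [hi]
        exact mul_le_mul_of_nonneg_right (h1 x) (norm_nonneg _)
      have a3 : ‖j (Φ' x) * (j (Φ' y) - i y)‖ ≤ ((1 + γ) * ‖x‖) * (γ * ‖y‖) := by
        refine (norm_mul_le _ _).trans ?_
        rw [hj]
        exact mul_le_mul (hup x) (h1 y) (norm_nonneg _) (by positivity)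
      have a4 : γ * (γ * (‖x‖ * ‖y‖)) ≤ 1 * (γ * (‖x‖ * ‖y‖)) :=
        mul_le_mul_of_nonneg_right (by linarith) (by positivity)
      rw [e]
      refine (norm_sub_le _ _).trans ?_
      have a5 := norm_add_le ((j (Φ' x) - i x) * i y) (j (Φ' x) * (j (Φ' y) - i y))
      nlinarith)
  refine ⟨θ, hθ, fun x => ?_⟩
  have a1 := norm_sub_le_norm_sub_add_norm_sub (j (θ x)) (j (Φ' x)) (i x)
  rw [← map_sub, hj] at a1
  have a2 := hθ' x
  rw [hT] at a2
  have a3 := h1 x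
  have a4 : 0 ≤ γ * ‖x‖ := by positivity
  linarith

theorem polar {B : Type*} [CStarAlgebra B] {t : B} {ε : ℝ} (hε : ε ≤ 1 / 6) (ht : ‖t - 1‖ ≤ ε) :
    ∃ u ∈ unitary B, ‖u - 1‖ ≤ 5 * ε ∧
      ∀ a b, t * a = b * t → star t * b = a * star t → u * a * star u = b := by
  have hε0 : 0 ≤ ε := (norm_nonneg _).trans ht
  have h1 : ‖(1 : B)‖ ≤ 1 := (IsStarProjection.one B).norm_le
  have htn : ‖t‖ ≤ 1 + ε := by
    have := norm_add_le (t - 1) 1
    rw [sub_add_cancel] at this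
    linarith
  obtain ⟨b, hb⟩ : ∃ b, b = star t * t := ⟨_, rfl⟩
  have hbs : IsSelfAdjoint b := hb ▸ IsSelfAdjoint.star_mul_self t
  have hb1 : ‖b - 1‖ ≤ 3 * ε := by
    have e : b - 1 = star (t - 1) * t + (t - 1) := by
      rw [hb, star_sub, star_one]; noncomm_ring
    have a1 : ‖star (t - 1) * t‖ ≤ ε * (1 + ε) := by
      refine (norm_mul_le _ _).trans ?_
      rw [norm_star]
      exact mul_le_mul ht htn (norm_nonneg _) hε0
    rw [e]
    refine (norm_add_le _ _).trans ?_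
    nlinarith
  have hsp : ∀ s ∈ spectrum ℝ b, |s - 1| ≤ 3 * ε := by
    intro s hs
    have := norm_apply_le_norm_cfc (fun s : ℝ => s - 1) b hs
    rw [cfc_sub (fun s : ℝ => s) _ b, cfc_id' ℝ b, cfc_const_one ℝ b] at this
    exact this.trans hb1
  have hsp' : ∀ s ∈ spectrum ℝ b, 1 / 2 ≤ s := fun s hs => by
    have := (abs_le.1 (hsp s hs)).1
    linarith
  have hc2 : ContinuousOn (fun s : ℝ => (√s)⁻¹) (spectrum ℝ b) :=
    (by fun_prop : ContinuousOn (fun s : ℝ => √s) _).inv₀ fun s hs =>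
      (Real.sqrt_pos.2 (by linarith [hsp' s hs])).ne'
  obtain ⟨c, hc⟩ : ∃ c, c = cfc (fun s : ℝ => (√s)⁻¹) b := ⟨_, rfl⟩
  have hcs : IsSelfAdjoint c := hc ▸ cfc_predicate _ _
  have hcb : c * b * c = 1 := by
    rw [hc]
    nth_rewrite 2 [← cfc_id' ℝ b]
    rw [← cfc_mul _ _ b hc2 (by fun_prop), ← cfc_mul (fun s : ℝ => (√s)⁻¹ * s) _ b
      (hc2.mul continuousOn_id) hc2,
      ← cfc_one ℝ b]
    refine cfc_congr fun s hs => ?_
    have h0 : 0 < s := by linarith [hsp' s hs]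
    have h2 := Real.mul_self_sqrt h0.le
    have h3 := (Real.sqrt_pos.2 h0).ne'
    simp only [Pi.one_apply]
    field_simp
    rw [sq, h2]
  have hc1 : ‖c - 1‖ ≤ 3 * ε := by
    rw [hc, ← cfc_const_one ℝ b, ← cfc_sub _ _ b hc2]
    refine norm_cfc_le (by positivity) fun s hs => le_trans ?_ (hsp s hs)
    have h0 : 0 < s := by linarith [hsp' s hs]
    have h2 := Real.mul_self_sqrt h0.le
    have h4 : 7 / 10 ≤ √s := Real.le_sqrt_of_sq_le (by linarith [hsp' s hs])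
    have e : (√s)⁻¹ - 1 = -(s - 1) / (√s * (√s + 1)) := by
      field_simp
      nlinarith
    rw [e, Real.norm_eq_abs, abs_div, abs_neg]
    exact div_le_self (abs_nonneg _) (le_trans (by nlinarith) (le_abs_self _))
  have hu1 : ‖t * c - 1‖ ≤ 5 * ε := by
    have e : t * c - 1 = t * (c - 1) + (t - 1) := by noncomm_ring
    have a1 : ‖t * (c - 1)‖ ≤ (1 + ε) * (3 * ε) :=
      (norm_mul_le _ _).trans (mul_le_mul htn hc1 (norm_nonneg _) (by positivity))
    rw [e]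
    refine (norm_add_le _ _).trans ?_
    nlinarith
  have e1 : star (t * c) * (t * c) = 1 := by
    rw [star_mul, hcs.star_eq, ← hcb, hb]; noncomm_ring
  have e2 : t * c * star (t * c) = 1 := by
    have hU : IsUnit (t * c) := by
      have := isUnit_one_sub_of_norm_lt_one (x := 1 - t * c) (by rw [norm_sub_rev]; linarith)
      rwa [sub_sub_cancel] at this
    obtain ⟨w, hw⟩ := hU
    rw [← hw] at e1 ⊢
    rw [← Units.inv_eq_of_mul_eq_one_left e1, Units.mul_inv]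
  refine ⟨t * c, Unitary.mem_iff.2 ⟨e1, e2⟩, hu1, fun a a' h h' => ?_⟩
  have hba : Commute b a := by
    rw [Commute, SemiconjBy, hb, mul_assoc, h, ← mul_assoc, h', mul_assoc]
  have hca : c * a = a * c := hc ▸ (hba.cfc_real _).eq
  rw [mul_assoc t c a, hca, ← mul_assoc t a, h, mul_assoc a' t c, mul_assoc a', e2, mul_one]

theorem diag_apply (d : Fin 2 → H →L[ℂ] H) (v : L2 (Fin 2) H) (i : Fin 2) :
    mat (diagonal d) v i = d i (v i) := by
  simp [mat_apply, diagonal_apply, DFunLike.ite_apply]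

/-- the direct sum of the inclusion and `θ` -/
noncomputable def rho (θ : N.toStarSubalgebra →⋆ₐ[ℂ] M.toStarSubalgebra) :
    N.toStarSubalgebra →⋆ₐ[ℂ] (L2 (Fin 2) H →L[ℂ] L2 (Fin 2) H) where
  toFun x := mat (diagonal ![(x : H →L[ℂ] H), (θ x : H →L[ℂ] H)])
  map_one' := by ext v i; fin_cases i <;> simp [diag_apply]
  map_mul' x y := by ext v i; fin_cases i <;> simp [diag_apply]
  map_zero' := by ext v i; fin_cases i <;> simp [diag_apply]
  map_add' x y := by ext v i; fin_cases i <;> simp [diag_apply]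
  commutes' c := by
    ext v i; fin_cases i <;> simp [diag_apply, Algebra.algebraMap_eq_smul_one]
  map_star' x := by
    rw [← mat_star, diagonal_conjTranspose]
    congr 2
    ext1 i
    fin_cases i
    · rfl
    · simp [map_star]

theorem rho_apply (θ : N.toStarSubalgebra →⋆ₐ[ℂ] M.toStarSubalgebra) (x : N.toStarSubalgebra)
    (v : L2 (Fin 2) H) (i : Fin 2) :
    rho θ x v i = ![(x : H →L[ℂ] H), (θ x : H →L[ℂ] H)] i (v i) := diag_apply _ v i

end Unit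

open Unit Crest.Agent.R124

theorem exists_iso_near (Φ : N.toStarSubalgebra →ₗ[ℂ] M.toStarSubalgebra) {γ : ℝ} (hγ0 : 0 ≤ γ)
    (hγ : γ ≤ 1 / 10 ^ 5) (hΦ : ∀ x, ‖(Φ x : H →L[ℂ] H) - x‖ ≤ γ * ‖x‖)
    (hM : ∀ y ∈ M, ∃ x ∈ N, ‖x - y‖ ≤ γ * ‖y‖) :
    ∃ θ : N.toStarSubalgebra →⋆ₐ[ℂ] M.toStarSubalgebra, Function.Surjective θ ∧
      ∀ x, ‖(θ x : H →L[ℂ] H) - x‖ ≤ 1000 * γ * ‖x‖ := by
  obtain ⟨W⟩ := R121.exists_WS N
  exact iso_abs N.toStarSubalgebra.subtype M.toStarSubalgebra.subtype (fun _ => rfl) (fun _ => rfl)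
    (coh2 W) (coh3 W) Φ hγ0 hγ hΦ fun y => by
      obtain ⟨x, hx, h⟩ := hM y y.2
      exact ⟨⟨x, hx⟩, h⟩

theorem exists_unitary_of_iso {C : ℝ} (hC : DPC.{u} C)
    (θ : N.toStarSubalgebra →⋆ₐ[ℂ] M.toStarSubalgebra) {γ : ℝ} (hγ0 : 0 ≤ γ)
    (hγ : 100 * C * γ ≤ 1) (hθ : ∀ x, ‖(θ x : H →L[ℂ] H) - x‖ ≤ γ * ‖x‖) :
    ∃ u ∈ unitary (H →L[ℂ] H), ‖u - 1‖ ≤ 200 * C * γ ∧
      ∀ x : N.toStarSubalgebra, u * x * star u = θ x := by
  have hC0 : 0 ≤ C := zero_le_one.trans hC.one_le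
  obtain ⟨Y, hY⟩ : ∃ Y : L2 (Fin 2) H →L[ℂ] L2 (Fin 2) H, Y = mat !![0, 0; 1, 0] := ⟨_, rfl⟩
  have hY0 : ∀ v, Y v 0 = 0 := fun v => by simp [hY, mat_apply]
  have hY1 : ∀ v, Y v 1 = v 0 := fun v => by simp [hY, mat_apply]
  have hcomm : ∀ a, ‖Y * rho θ a - rho θ a * Y‖ ≤ γ * ‖a‖ := fun a => by
    refine ContinuousLinearMap.opNorm_le_bound _ (by positivity) fun v => ?_
    refine le_of_sq_le_sq ?_ (by positivity)
    rw [L2.norm_sq, Fin.sum_univ_two]
    simp only [ContinuousLinearMap.sub_apply, ContinuousLinearMap.mul_apply, L2.sub_apply, hY0, hY1,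
      rho_apply, map_zero, sub_zero, norm_zero, Matrix.cons_val_zero, Matrix.cons_val_one]
    rw [sq (0 : ℝ), mul_zero, zero_add, norm_sub_rev]
    refine pow_le_pow_left₀ (norm_nonneg _) ?_ 2
    exact (((θ a : H →L[ℂ] H) - a).le_opNorm (v 0)).trans
      (mul_le_mul (hθ a) (L2.norm_apply_le v 0) (norm_nonneg _) (by positivity))
  obtain ⟨T, hT, hT'⟩ := Kad.arveson hC0 hC.dp (Kad.comm (rho θ)).commutant Y (g := 8 * γ)
    (by positivity) (Kad.comm_bicommutant (rho θ) Y hγ0 hcomm)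
  rw [VonNeumannAlgebra.commutant_commutant, Kad.mem_comm] at hT
  have ht : ∀ a : N.toStarSubalgebra, ent T 1 0 * a = θ a * ent T 1 0 := fun a => by
    ext v
    have h1 := congrArg (fun X : L2 (Fin 2) H →L[ℂ] L2 (Fin 2) H =>
      X (ContinuousLinearMap.adjoint (L2.proj 0) v) 1) (hT a)
    have h2 : rho θ a (ContinuousLinearMap.adjoint (L2.proj 0) v) =
        ContinuousLinearMap.adjoint (L2.proj 0) ((a : H →L[ℂ] H) v) := by
      ext i; fin_cases i <;> simp [rho_apply]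
    simp only [ContinuousLinearMap.mul_apply, h2, rho_apply, Matrix.cons_val_one,
      Matrix.cons_val_zero] at h1
    simp only [ContinuousLinearMap.mul_apply, ent_apply, h1]
  have ht1 : ‖ent T 1 0 - 1‖ ≤ 16 * C * γ := by
    have e : ent T 1 0 - 1 = ent (T - Y) 1 0 := by
      ext v; simp [ent_apply, hY1]
    have := entry_le_mn (ent (T - Y)) 1 0
    rw [mn, mat_ent, norm_sub_rev] at this
    rw [e]
    linarith
  obtain ⟨u, hu, hu1, hu2⟩ := polar (by linarith) ht1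
  refine ⟨u, hu, ?_, fun x => hu2 _ _ (ht x) ?_⟩
  · have : 0 ≤ C * γ := by positivity
    linarith
  · have := congrArg star (ht (star x))
    rw [star_mul, star_mul, map_star] at this
    simpa using this.symm

end Crest.Agent.R78
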